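import Vale.Agent.Lib.P371.Dens

/-! The spherical angle comparison and the frame bound. -/

open MeasureTheory Set Filter Topology

namespace Vale.Agent.Lib.P371

noncomputable section

variable {ι : Type*} [Fintype ι]

lemma sum_bilin (a b c d : ι → ℝ) (x y z w : ℝ) :
    ∑ i, (x * a i + y * b i) * (z * c i + w * d i) =
      x * z * ∑ i, a i * c i + x * w * ∑ i, a i * d i + y * z * ∑ i, b i * c i +
        y * w * ∑ i, b i * d i := by
  simp only [Finset.mul_sum, ← Finset.sum_add_distrib]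
  exact Finset.sum_congr rfl fun i _ => by ring

/-- The pointwise inequality behind the angle comparison. -/
lemma angle_alg (f d a : ι → ℝ) (ha : ∑ i, a i ^ 2 = 1) {ρ ρ' D g g' u p p' c s : ℝ}
    (hρd : ρ = ∑ i, f i ^ 2) (hρ'd : ρ' = 2 * ∑ i, f i * d i) (hDd : D = ∑ i, d i ^ 2)
    (hgd : g = ∑ i, a i * f i) (hg'd : g' = ∑ i, a i * d i) (hud : u = Real.sqrt ρ)
    (hpd : p = g * u⁻¹) (hp'd : p' = g' * u⁻¹ + g * (-(ρ' / (2 * u)) / u ^ 2))
    (hρ : 0 < ρ) (hcs : s ^ 2 + c ^ 2 = 1) :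
    |p' * s| ≤ Real.sqrt ((D - ρ' ^ 2 / (4 * ρ)) / ρ) * (1 - p * c) := by
  have hρ0 : 0 < ρ := hρ
  have hu : 0 < u := hud ▸ Real.sqrt_pos.2 hρ0
  have huu : u ^ 2 = ρ := hud ▸ Real.sq_sqrt hρ0.le
  set t := ρ' / (2 * ρ) with ht
  set e := c * u⁻¹ with he
  have hff : ∑ i, f i * f i = ρ := by
    simp only [hρd, sq]
  have hdd : ∑ i, d i * d i = D := by
    simp only [hDd, sq]
  have haa : ∑ i, a i * a i = 1 := by
    rw [← ha]
    simp only [sq]
  have hfd : ∑ i, f i * d i = ρ' / 2 := by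
    rw [hρ'd]
    ring
  have hdf : ∑ i, d i * f i = ρ' / 2 := by
    rw [← hfd]
    exact Finset.sum_congr rfl fun i _ => mul_comm _ _
  have haf : ∑ i, a i * f i = g := hgd.symm
  have hfa : ∑ i, f i * a i = g := by
    rw [← haf]
    exact Finset.sum_congr rfl fun i _ => mul_comm _ _
  have had : ∑ i, a i * d i = g' := hg'd.symm
  -- Cauchy-Schwarz
  have hCS := Finset.sum_mul_sq_le_sq_mul_sq Finset.univ
    (fun i => 1 * a i + (-e) * f i) (fun i => 1 * d i + (-t) * f i)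
  have e1 : ∑ i, (1 * a i + (-e) * f i) * (1 * d i + (-t) * f i) = g' - t * g := by
    rw [sum_bilin a f d f 1 (-e) 1 (-t), had, haf, hfd, hff]
    have : t * ρ = ρ' / 2 := by
      rw [ht]
      field_simp
    have h2 : (-e) * (-t) * ρ = e * (t * ρ) := by ring
    rw [h2, this]
    ring
  have e2 : ∑ i, (1 * a i + (-e) * f i) ^ 2 = 1 - 2 * (c * p) + c ^ 2 := by
    have : ∀ i, (1 * a i + (-e) * f i) ^ 2 = (1 * a i + (-e) * f i) * (1 * a i + (-e) * f i) :=
      fun i => sq _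
    simp_rw [this]
    rw [sum_bilin a f a f 1 (-e) 1 (-e), haa, haf, hfa, hff]
    have h1 : e ^ 2 * ρ = c ^ 2 := by
      rw [he, ← huu]
      field_simp
    have h2 : e * g = c * p := by
      rw [he, hpd]
      ring
    linear_combination (-2 : ℝ) * h2 + h1
  have e3 : ∑ i, (1 * d i + (-t) * f i) ^ 2 = D - ρ' ^ 2 / (4 * ρ) := by
    have : ∀ i, (1 * d i + (-t) * f i) ^ 2 = (1 * d i + (-t) * f i) * (1 * d i + (-t) * f i) :=
      fun i => sq _
    simp_rw [this]
    rw [sum_bilin d f d f 1 (-t) 1 (-t), hdd, hfd, hdf, hff, ht]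
    field_simp
    ring
  rw [e1, e2, e3] at hCS
  -- the derivative
  have hp' : p' = (g' - t * g) * u⁻¹ := by
    rw [hp'd, ht, ← huu]
    field_simp
    ring
  have hsq : p' ^ 2 = (g' - t * g) ^ 2 / ρ := by
    rw [hp', mul_pow, inv_pow, huu, div_eq_mul_inv]
  set bs := (D - ρ' ^ 2 / (4 * ρ)) / ρ with hbs
  have hD : 0 ≤ D - ρ' ^ 2 / (4 * ρ) := by
    rw [← e3]
    exact Finset.sum_nonneg fun i _ => sq_nonneg _
  have hbs0 : 0 ≤ bs := div_nonneg hD hρ0.le
  have hE : 0 ≤ 1 - 2 * (c * p) + c ^ 2 := by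
    rw [← e2]
    exact Finset.sum_nonneg fun i _ => sq_nonneg _
  -- `|p| ≤ 1`
  have hp2 : p ^ 2 ≤ 1 := by
    have h1 := Finset.sum_mul_sq_le_sq_mul_sq Finset.univ a f
    rw [ha, one_mul] at h1
    rw [hpd, mul_pow, inv_pow, huu, ← div_eq_mul_inv, div_le_one hρ0, hgd, hρd]
    exact h1
  have hc2 : c ^ 2 ≤ 1 := by linarith [sq_nonneg s]
  have hpc : p * c ≤ 1 := by
    have h1 := sq_nonneg (p - c)
    have h2 : (p - c) ^ 2 = p ^ 2 - 2 * (p * c) + c ^ 2 := by ring
    linarith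
  have hpc0 : 0 ≤ 1 - p * c := by linarith
  have hmain : p' ^ 2 ≤ (1 - 2 * (c * p) + c ^ 2) * bs := by
    rw [hsq, hbs, ← mul_div_assoc, div_le_div_iff_of_pos_right hρ0]
    exact hCS
  have hmain2 : (p' * s) ^ 2 ≤ (Real.sqrt bs * (1 - p * c)) ^ 2 := by
    rw [mul_pow, mul_pow, Real.sq_sqrt hbs0]
    have h1 : (1 - 2 * (c * p) + c ^ 2) * s ^ 2 ≤ (1 - p * c) ^ 2 := by
      have : s ^ 2 = 1 - c ^ 2 := by linarith
      rw [this]
      have h4 := mul_nonneg (sq_nonneg c) (sq_nonneg (p - c))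
      have h5 : (1 - p * c) ^ 2 - (1 - 2 * (c * p) + c ^ 2) * (1 - c ^ 2) = c ^ 2 * (p - c) ^ 2 := by
        ring
      linarith
    have h2 : p' ^ 2 * s ^ 2 ≤ (1 - 2 * (c * p) + c ^ 2) * bs * s ^ 2 :=
      mul_le_mul_of_nonneg_right hmain (sq_nonneg s)
    have h3 : (1 - 2 * (c * p) + c ^ 2) * s ^ 2 * bs ≤ (1 - p * c) ^ 2 * bs :=
      mul_le_mul_of_nonneg_right h1 hbs0
    calc p' ^ 2 * s ^ 2 ≤ (1 - 2 * (c * p) + c ^ 2) * bs * s ^ 2 := h2
      _ = (1 - 2 * (c * p) + c ^ 2) * s ^ 2 * bs := by ring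
      _ ≤ (1 - p * c) ^ 2 * bs := h3
      _ = bs * (1 - p * c) ^ 2 := by ring
  exact abs_le_of_sq_le_sq hmain2 (mul_nonneg (Real.sqrt_nonneg _) hpc0)

variable {f f' : ι → ℝ → ℝ} {Λ : ℝ}

/-- Unit vector correlation. -/
def pp (f : ι → ℝ → ℝ) (a : ι → ℝ) (y : ℝ) : ℝ :=
  (∑ i, a i * f i y) * (Real.sqrt (rho f y))⁻¹

/-- Its derivative. -/
def dpp (f f' : ι → ℝ → ℝ) (a : ι → ℝ) (y : ℝ) : ℝ :=
  (∑ i, a i * f' i y) * (Real.sqrt (rho f y))⁻¹ +
    (∑ i, a i * f i y) * (-(drho f f' y / (2 * Real.sqrt (rho f y))) / Real.sqrt (rho f y) ^ 2)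

namespace Fam

lemma gg_h1 (hF : Fam f f' Λ) (a : ι → ℝ) :
    RealH1 (fun y => ∑ i, a i * f i y) (fun y => ∑ i, a i * f' i y) :=
  RealH1.sum Finset.univ fun i _ => (hF.h1 i).const_mul (a i)

lemma pp_prim (hF : Fam f f' Λ) (a : ι → ℝ) : Prim (pp f a) (dpp f f' a) :=
  (hF.gg_h1 a).prim.mul (hF.uu_prim.inv hF.uu_pos)

lemma dpp_bound (hF : Fam f f' Λ) {a : ι → ℝ} (ha : ∑ i, a i ^ 2 = 1) (y : ℝ) {c s : ℝ}
    (hcs : s ^ 2 + c ^ 2 = 1) :
    |dpp f f' a y * s| ≤ bb f f' y * (1 - pp f a y * c) :=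
  angle_alg (fun i => f i y) (fun i => f' i y) a ha rfl rfl rfl rfl rfl rfl rfl rfl (hF.pos y) hcs

lemma H_hasDerivAt {p p' A b : ℝ → ℝ} {t A0 σ ε : ℝ} (hp : HasDerivAt p (p' t) t)
    (hA : HasDerivAt A (b t) t) (hs : Real.sin (σ * (A t - A0) + ε) ≠ 0) :
    HasDerivAt (fun t => (p t - Real.cos (σ * (A t - A0) + ε)) * (Real.sin (σ * (A t - A0) + ε))⁻¹)
      ((p' t * Real.sin (σ * (A t - A0) + ε) +
        σ * b t * (1 - p t * Real.cos (σ * (A t - A0) + ε))) /
          Real.sin (σ * (A t - A0) + ε) ^ 2) t := by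
  have hθ : HasDerivAt (fun t => σ * (A t - A0) + ε) (σ * b t) t :=
    ((hA.sub_const A0).const_mul σ).add_const ε
  have h := (hp.fun_sub hθ.cos).fun_mul (hθ.sin.fun_inv hs)
  refine h.congr_deriv ?_
  have hcs := Real.sin_sq_add_cos_sq (σ * (A t - A0) + ε)
  field_simp
  linear_combination (σ * b t) * hcs

lemma angle_half (hF : Fam f f' Λ) {a : ι → ℝ} (ha : ∑ i, a i ^ 2 = 1) {x y σ ε : ℝ}
    (hpx : pp f a x = 1) (hσ : σ = 1 ∨ σ = -1) (hxy : 0 ≤ σ * (y - x))
    (hα : σ * (AA f f' y - AA f f' x) ≤ Real.pi / 2) (h0 : 0 < ε) (h1 : ε < Real.pi / 4) :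
    Real.cos (σ * (AA f f' y - AA f f' x) + ε) ≤ pp f a y := by
  have hpi := Real.pi_pos
  set A := AA f f' with hAdef
  have hAm : Monotone A := hF.AA_mono
  let θ : ℝ → ℝ := fun t => σ * (A t - A x) + ε
  have hθb : ∀ t ∈ uIcc x y, ε ≤ θ t ∧ θ t ≤ Real.pi - ε := by
    intro t ht
    rcases hσ with rfl | rfl
    · have hxy' : x ≤ y := by linarith
      rw [uIcc_of_le hxy'] at ht
      have h2 := hAm ht.1
      have h3 := hAm ht.2
      simp only [θ]
      constructor <;> linarith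
    · have hxy' : y ≤ x := by linarith
      rw [uIcc_of_ge hxy'] at ht
      have h2 := hAm ht.1
      have h3 := hAm ht.2
      simp only [θ]
      constructor <;> linarith
  have hsε : 0 < Real.sin ε := Real.sin_pos_of_pos_of_lt_pi h0 (by linarith)
  have hsb : ∀ t ∈ uIcc x y, Real.sin ε ≤ Real.sin (θ t) := fun t ht =>
    sin_ge_of_mem h0.le (hθb t ht).1 (hθb t ht).2
  have hθp : Prim θ (fun t => σ * bb f f' t) := by
    refine Prim.congr_ae (f' := fun t => σ * bb f f' t + 0) ?_ (ae_of_all _ fun t => by ring)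
    exact ((hF.AA_prim.sub_const (A x)).const_mul σ).add (Prim.const ε)
  have hp := hF.pp_prim a
  let H : ℝ → ℝ := fun t => (pp f a t - Real.cos (θ t)) * (Real.sin (θ t))⁻¹
  let H' : ℝ → ℝ := fun t => (dpp f f' a t * Real.sin (θ t) +
    σ * bb f f' t * (1 - pp f a t * Real.cos (θ t))) / Real.sin (θ t) ^ 2
  have hinv : AbsolutelyContinuousOnInterval (fun t => (Real.sin (θ t))⁻¹) x y := by
    refine ac_of_dist_le (K := (Real.sin ε ^ 2)⁻¹) (hθp.sin.ac x y) (by positivity)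
      fun s hs t ht => ?_
    have h2 := hsb s hs
    have h3 := hsb t ht
    have h4 : 0 < Real.sin (θ s) := hsε.trans_le h2
    have h5 : 0 < Real.sin (θ t) := hsε.trans_le h3
    rw [Real.dist_eq, Real.dist_eq]
    have e : (Real.sin (θ s))⁻¹ - (Real.sin (θ t))⁻¹ =
        -(Real.sin (θ s) - Real.sin (θ t)) * ((Real.sin (θ s))⁻¹ * (Real.sin (θ t))⁻¹) := by
      field_simp
      ring
    rw [e, abs_mul, abs_neg, abs_of_pos (by positivity : 0 < (Real.sin (θ s))⁻¹ * (Real.sin (θ t))⁻¹),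
      mul_comm]
    refine mul_le_mul_of_nonneg_right ?_ (abs_nonneg _)
    rw [sq, mul_inv]
    exact mul_le_mul (inv_anti₀ hsε h2) (inv_anti₀ hsε h3) (by positivity) (by positivity)
  have hac : AbsolutelyContinuousOnInterval H x y :=
    ((hp.sub hθp.cos).ac x y).fun_mul hinv
  have hder : ∀ᵐ t, t ∈ uIcc x y → HasDerivAt H (H' t) t := by
    filter_upwards [hp.ae_hasDerivAt, hF.AA_prim.ae_hasDerivAt] with t h2 h3 ht
    have hs : Real.sin (θ t) ≠ 0 := (hsε.trans_le (hsb t ht)).ne'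
    exact H_hasDerivAt (A0 := A x) (σ := σ) (ε := ε) h2 h3 hs
  have hbd : ∀ t, |dpp f f' a t * Real.sin (θ t)| ≤
      bb f f' t * (1 - pp f a t * Real.cos (θ t)) := fun t =>
    hF.dpp_bound ha t (Real.sin_sq_add_cos_sq _)
  -- monotonicity
  have hHxy : H x ≤ H y := by
    rcases hσ with rfl | rfl
    · have hxy' : x ≤ y := by linarith
      refine le_of_ac_deriv_nonneg (H' := H') hxy' hac ?_
      filter_upwards [hder] with t ht hmem
      have hmem' : t ∈ uIcc x y := by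
        rw [uIcc_of_le hxy']
        exact Ioo_subset_Icc_self hmem
      refine ⟨ht hmem', ?_⟩
      have := (abs_le.1 (hbd t)).1
      simp only [H']
      refine div_nonneg ?_ (sq_nonneg _)
      linarith
    · have hxy' : y ≤ x := by linarith
      have h2 : -H y ≤ -H x := by
        refine le_of_ac_deriv_nonneg (H := fun t => -H t) (H' := fun t => -H' t) hxy'
          hac.symm.fun_neg ?_
        filter_upwards [hder] with t ht hmem
        have hmem' : t ∈ uIcc x y := by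
          rw [uIcc_of_ge hxy']
          exact Ioo_subset_Icc_self hmem
        refine ⟨(ht hmem').fun_neg, ?_⟩
        have := (abs_le.1 (hbd t)).2
        simp only [H']
        rw [← neg_div]
        refine div_nonneg ?_ (sq_nonneg _)
        linarith
      linarith
  have hHx : 0 ≤ H x := by
    simp only [H, θ, sub_self, mul_zero, zero_add, hpx]
    have := Real.cos_le_one ε
    exact mul_nonneg (by linarith) (inv_nonneg.2 hsε.le)
  have hHy : 0 ≤ H y := hHx.trans hHxy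
  have hsy : 0 < Real.sin (θ y) := hsε.trans_le (hsb y right_mem_uIcc)
  have : 0 ≤ pp f a y - Real.cos (θ y) := by
    by_contra hneg
    push Not at hneg
    have := mul_neg_of_neg_of_pos hneg (inv_pos.2 hsy)
    simp only [H] at hHy
    linarith
  simp only [θ] at this
  linarith

lemma angle_cos_le (hF : Fam f f' Λ) {a : ι → ℝ} (ha : ∑ i, a i ^ 2 = 1) {x y : ℝ}
    (hpx : pp f a x = 1) (hα : |AA f f' y - AA f f' x| ≤ Real.pi / 2) :
    Real.cos (AA f f' y - AA f f' x) ≤ pp f a y := by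
  have hpi := Real.pi_pos
  -- the limit
  have key : ∀ α : ℝ, (∀ ε : ℝ, 0 < ε → ε < Real.pi / 4 → Real.cos (α + ε) ≤ pp f a y) →
      Real.cos α ≤ pp f a y := by
    intro α hε
    have h1 : Tendsto (fun ε : ℝ => Real.cos (α + ε)) (𝓝[>] 0) (𝓝 (Real.cos α)) := by
      have h2 : Continuous fun ε : ℝ => Real.cos (α + ε) := by fun_prop
      have h3 := h2.tendsto 0
      simp only [add_zero] at h3
      exact h3.mono_left nhdsWithin_le_nhds
    refine le_of_tendsto h1 ?_
    filter_upwards [Ioo_mem_nhdsGT (show (0:ℝ) < Real.pi / 4 by positivity)] with ε hε2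
    exact hε ε hε2.1 hε2.2
  rcases le_total x y with hxy | hxy
  · have h2 := hF.AA_mono hxy
    rw [abs_of_nonneg (by linarith)] at hα
    refine key _ fun ε h0 h1 => ?_
    have := hF.angle_half ha (σ := 1) (y := y) hpx (Or.inl rfl) (by linarith) (by linarith) h0 h1
    simpa using this
  · have h2 := hF.AA_mono hxy
    rw [abs_of_nonpos (by linarith)] at hα
    rw [← Real.cos_neg]
    refine key _ fun ε h0 h1 => ?_
    have := hF.angle_half ha (σ := -1) (y := y) hpx (Or.inr rfl) (by linarith) (by linarith) h0 h1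
    have e : -1 * (AA f f' y - AA f f' x) + ε = -(AA f f' y - AA f f' x) + ε := by ring
    rwa [e] at this

end Fam

/-- The squared truncated cosine. -/
def cp (t : ℝ) : ℝ := if |t| < Real.pi / 2 then Real.cos t ^ 2 else 0

lemma cp_nonneg (t : ℝ) : 0 ≤ cp t := by
  unfold cp
  split_ifs
  · positivity
  · exact le_rfl

lemma cp_le_one (t : ℝ) : cp t ≤ 1 := by
  unfold cp
  split_ifs
  · exact Real.cos_sq_le_one t
  · exact zero_le_one

lemma cp_measurable : Measurable cp := by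
  unfold cp
  exact Measurable.ite (measurableSet_lt continuous_abs.measurable measurable_const)
    (Real.continuous_cos.measurable.pow_const 2) measurable_const

namespace Fam

/-- The frame bound. -/
theorem frame (hF : Fam f f' Λ) (x : ℝ) :
    ∫ y, rho f y * cp (AA f f' y - AA f f' x) ≤ Λ := by
  have hu := hF.uu_pos x
  have huu : Real.sqrt (rho f x) ^ 2 = rho f x := Real.sq_sqrt (hF.pos x).le
  let a : ι → ℝ := fun i => f i x * (Real.sqrt (rho f x))⁻¹
  have ha : ∑ i, a i ^ 2 = 1 := by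
    simp only [a, mul_pow, inv_pow, huu]
    rw [← Finset.sum_mul]
    change rho f x * _ = 1
    exact mul_inv_cancel₀ (hF.pos x).ne'
  have hpx : pp f a x = 1 := by
    unfold pp
    have : ∑ i, a i * f i x = Real.sqrt (rho f x) := by
      have e : ∀ i, a i * f i x = f i x ^ 2 * (Real.sqrt (rho f x))⁻¹ := fun i => by
        simp only [a]
        ring
      simp_rw [e]
      rw [← Finset.sum_mul]
      change rho f x * _ = _
      generalize Real.sqrt (rho f x) = u at hu huu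
      rw [← huu]
      field_simp
    rw [this]
    exact mul_inv_cancel₀ hu.ne'
  have hgi : Integrable fun y => (∑ i, a i * f i y) ^ 2 := (hF.gg_h1 a).sq
  have hleft : Integrable fun y => rho f y * cp (AA f f' y - AA f f' x) := by
    refine hF.rho_integrable.mul_bdd (c := 1) ?_ (ae_of_all _ fun y => ?_)
    · exact (cp_measurable.comp (hF.AA_continuous.measurable.sub_const _)).aestronglyMeasurable
    · rw [Real.norm_eq_abs, abs_of_nonneg (cp_nonneg _)]
      exact cp_le_one _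
  have hpt : ∀ y, rho f y * cp (AA f f' y - AA f f' x) ≤ (∑ i, a i * f i y) ^ 2 := by
    intro y
    unfold cp
    split_ifs with h
    · have h1 := hF.angle_cos_le ha hpx (y := y) h.le
      have h2 : 0 ≤ Real.cos (AA f f' y - AA f f' x) :=
        Real.cos_nonneg_of_mem_Icc ⟨by linarith [(abs_lt.1 h).1], by linarith [(abs_lt.1 h).2]⟩
      have h3 : Real.cos (AA f f' y - AA f f' x) ^ 2 ≤ pp f a y ^ 2 :=
        pow_le_pow_left₀ h2 h1 2
      have h4 : rho f y * pp f a y ^ 2 = (∑ i, a i * f i y) ^ 2 := by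
        unfold pp
        have hpos := hF.pos y
        have huy : Real.sqrt (rho f y) ^ 2 = rho f y := Real.sq_sqrt hpos.le
        rw [mul_pow, inv_pow, huy]
        field_simp
      rw [← h4]
      exact mul_le_mul_of_nonneg_left h3 (rho_nonneg f y)
    · rw [mul_zero]
      exact sq_nonneg _
  calc ∫ y, rho f y * cp (AA f f' y - AA f f' x) ≤ ∫ y, (∑ i, a i * f i y) ^ 2 :=
        integral_mono hleft hgi hpt
    _ ≤ Λ * ∑ i, a i ^ 2 := hF.bessel a
    _ = Λ := by rw [ha, mul_one]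

end Fam

end

end Vale.Agent.Lib.P371
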