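import Mathlib

/-! Definitions used in the statement of the main theorem. -/

open MeasureTheory
open scoped ComplexOrder

namespace Vale.Agent.Lib.P371

/-- `ψ` lies in `H¹(ℝ; ℂ^m)` with weak derivative `ψ'`: all components of `ψ` and `ψ'` are in `L²`
and every component of `ψ` is the primitive of the corresponding component of `ψ'`. -/
structure IsH1 {m : ℕ} (ψ ψ' : ℝ → Fin m → ℂ) : Prop where
  memLp : ∀ a, MemLp (fun x => ψ x a) 2 volume
  memLp' : ∀ a, MemLp (fun x => ψ' x a) 2 volume
  ftc : ∀ a (s t : ℝ), ψ t a - ψ s a = ∫ u in s..t, ψ' u a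

/-- A measurable function with values in the positive semidefinite Hermitian `m × m` matrices. -/
structure IsPotential {m : ℕ} (W : ℝ → Matrix (Fin m) (Fin m) ℂ) : Prop where
  measurable : ∀ a b, Measurable fun x => W x a b
  psd : ∀ x, (W x).PosSemidef

/-- `tr (W(x) ^ p)`, by functional calculus: the sum of the `p`-th powers of the eigenvalues. -/
noncomputable def trPow {m : ℕ} {W : ℝ → Matrix (Fin m) (Fin m) ℂ} (hW : IsPotential W)
    (p x : ℝ) : ℝ :=
  ∑ i, ((hW.psd x).1.eigenvalues i) ^ p

end Vale.Agent.Lib.P371
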