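import Vale.Agent.Lib.P371.Numeric
import Vale.Agent.Lib.P371.Defs

/-! Complex scalar `H¹` functions and the smoothing operators on them. -/

open MeasureTheory Set Filter Topology

namespace Vale.Agent.Lib.P371

noncomputable section

/-- Complex scalar `H¹`. -/
structure CH1 (φ φ' : ℝ → ℂ) : Prop where
  memLp : MemLp φ 2 volume
  memLp' : MemLp φ' 2 volume
  ftc : ∀ s t, φ t - φ s = ∫ u in s..t, φ' u

namespace CH1

variable {φ φ' χ χ' : ℝ → ℂ}

lemma intervalIntegrable' (h : CH1 φ φ') (a b : ℝ) : IntervalIntegrable φ' volume a b :=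
  intervalIntegrable_iff.2 (((h.memLp'.locallyIntegrable (by norm_num)).integrableOn_isCompact
    isCompact_uIcc).mono_set uIoc_subset_uIcc)

lemma add (h1 : CH1 φ φ') (h2 : CH1 χ χ') :
    CH1 (fun x => φ x + χ x) (fun x => φ' x + χ' x) where
  memLp := h1.memLp.add h2.memLp
  memLp' := h1.memLp'.add h2.memLp'
  ftc a b := by
    rw [intervalIntegral.integral_add (h1.intervalIntegrable' a b) (h2.intervalIntegrable' a b),
      ← h1.ftc, ← h2.ftc]
    ring

lemma const_mul (c : ℂ) (h : CH1 φ φ') :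
    CH1 (fun x => c * φ x) (fun x => c * φ' x) where
  memLp := h.memLp.const_mul c
  memLp' := h.memLp'.const_mul c
  ftc a b := by
    rw [intervalIntegral.integral_const_mul, ← h.ftc]
    ring

lemma zero : CH1 (fun _ => 0) (fun _ => 0) where
  memLp := MemLp.zero
  memLp' := MemLp.zero
  ftc a b := by simp

lemma sum {ι : Type*} (s : Finset ι) {F F' : ι → ℝ → ℂ} (h : ∀ i ∈ s, CH1 (F i) (F' i)) :
    CH1 (fun x => ∑ i ∈ s, F i x) (fun x => ∑ i ∈ s, F' i x) := by
  classical
  induction s using Finset.induction_on with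
  | empty => simpa using CH1.zero
  | insert a s ha ih =>
    simp only [Finset.sum_insert ha]
    exact (h a (Finset.mem_insert_self a s)).add
      (ih fun i hi => h i (Finset.mem_insert_of_mem hi))

lemma re (h : CH1 φ φ') : RealH1 (fun x => (φ x).re) (fun x => (φ' x).re) where
  memLp := h.memLp.re
  memLp' := h.memLp'.re
  ftc a b := by
    have h1 := Complex.reCLM.intervalIntegral_comp_comm (h.intervalIntegrable' a b)
    simp only [Complex.reCLM_apply] at h1
    rw [h1, ← h.ftc, Complex.sub_re]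

lemma im (h : CH1 φ φ') : RealH1 (fun x => (φ x).im) (fun x => (φ' x).im) where
  memLp := h.memLp.im
  memLp' := h.memLp'.im
  ftc a b := by
    have h1 := Complex.imCLM.intervalIntegral_comp_comm (h.intervalIntegrable' a b)
    simp only [Complex.imCLM_apply] at h1
    rw [h1, ← h.ftc, Complex.sub_im]

end CH1

lemma IsH1.ch1 {m : ℕ} {ψ ψ' : ℝ → Fin m → ℂ} (h : IsH1 ψ ψ') (a : Fin m) :
    CH1 (fun x => ψ x a) (fun x => ψ' x a) :=
  ⟨h.memLp a, h.memLp' a, h.ftc a⟩

section V

variable {g g' h h' : ℝ → ℝ} {t : ℝ}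

lemma V_add (ht : 0 < t) (hg : RealH1 g g') (hh : RealH1 h h') (x : ℝ) :
    V t (fun y => g y + h y) x = V t g x + V t h x := by
  unfold V
  rw [← mul_add, ← integral_add (integrable_E_mul_shift ht hg.measurable hg.sq x)
    (integrable_E_mul_shift ht hh.measurable hh.sq x)]
  congr 2
  funext z
  ring

lemma V_const_mul (c : ℝ) (g : ℝ → ℝ) (x : ℝ) :
    V t (fun y => c * g y) x = c * V t g x := by
  unfold V
  have : ∀ z, E t z * (c * g (x - z)) = c * (E t z * g (x - z)) := fun z => by ring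
  simp_rw [this]
  rw [integral_const_mul]
  ring

end V

/-- The smoothing operators on complex functions. -/
def Vc (t : ℝ) (φ : ℝ → ℂ) (x : ℝ) : ℂ :=
  (V t (fun y => (φ y).re) x : ℂ) + (V t (fun y => (φ y).im) x : ℂ) * Complex.I

lemma Vc_re (t : ℝ) (φ : ℝ → ℂ) (x : ℝ) : (Vc t φ x).re = V t (fun y => (φ y).re) x := by
  simp [Vc]

lemma Vc_im (t : ℝ) (φ : ℝ → ℂ) (x : ℝ) : (Vc t φ x).im = V t (fun y => (φ y).im) x := by
  simp [Vc]

section

variable {φ φ' χ χ' : ℝ → ℂ} {t : ℝ}

lemma Vc_add (ht : 0 < t) (h1 : CH1 φ φ') (h2 : CH1 χ χ') (x : ℝ) :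
    Vc t (fun y => φ y + χ y) x = Vc t φ x + Vc t χ x := by
  apply Complex.ext
  · simp only [Vc_re, Complex.add_re]
    exact V_add ht h1.re h2.re x
  · simp only [Vc_im, Complex.add_im]
    exact V_add ht h1.im h2.im x

lemma Vc_const_mul (ht : 0 < t) (c : ℂ) (h : CH1 φ φ') (x : ℝ) :
    Vc t (fun y => c * φ y) x = c * Vc t φ x := by
  apply Complex.ext
  · simp only [Vc_re, Complex.mul_re, Vc_im]
    have h1 := V_const_mul (t := t) c.re (fun y => (φ y).re) x
    have h2 := V_const_mul (t := t) (-c.im) (fun y => (φ y).im) x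
    have h3 := V_add ht (h.re.const_mul c.re) (h.im.const_mul (-c.im)) x
    have e : (fun y => c.re * (φ y).re - c.im * (φ y).im) =
        fun y => c.re * (φ y).re + -c.im * (φ y).im := by
      funext y; ring
    rw [e, h3, h1, h2]
    ring
  · simp only [Vc_im, Complex.mul_im, Vc_re]
    have h1 := V_const_mul (t := t) c.re (fun y => (φ y).im) x
    have h2 := V_const_mul (t := t) c.im (fun y => (φ y).re) x
    have h3 := V_add ht (h.im.const_mul c.re) (h.re.const_mul c.im) x
    rw [h3, h1, h2]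

lemma Vc_zero (x : ℝ) : Vc t (fun _ => 0) x = 0 := by
  have h0 : (fun _ : ℝ => (0:ℂ)) = fun y => (0:ℂ) * (fun _ => (0:ℂ)) y := by simp
  apply Complex.ext
  · simp only [Vc_re, Complex.zero_re, V, mul_zero, integral_zero]
  · simp only [Vc_im, Complex.zero_im, V, mul_zero, integral_zero]

lemma Vc_sum (ht : 0 < t) {ι : Type*} (s : Finset ι) {F F' : ι → ℝ → ℂ}
    (h : ∀ i ∈ s, CH1 (F i) (F' i)) (x : ℝ) :
    Vc t (fun y => ∑ i ∈ s, F i y) x = ∑ i ∈ s, Vc t (F i) x := by
  classical
  induction s using Finset.induction_on with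
  | empty => simpa using Vc_zero x
  | insert a s ha ih =>
    simp only [Finset.sum_insert ha]
    rw [Vc_add ht (h a (Finset.mem_insert_self a s))
      (CH1.sum s fun i hi => h i (Finset.mem_insert_of_mem hi)),
      ih fun i hi => h i (Finset.mem_insert_of_mem hi)]

end

/-! ### Orthonormal coefficient maps -/

section Unitary

variable {m : ℕ}

/-- The coefficient of `v` along the `i`-th column of `U`. -/
def coefU (U : Matrix (Fin m) (Fin m) ℂ) (i : Fin m) (v : Fin m → ℂ) : ℂ := ∑ a, star (U a i) * v a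

lemma parseval_polar {U : Matrix (Fin m) (Fin m) ℂ} (hU : U * star U = 1) (v w : Fin m → ℂ) :
    ∑ i, star (coefU U i v) * coefU U i w = ∑ a, star (v a) * w a := by
  have hU' : ∀ a b, ∑ i, U a i * star (U b i) = if a = b then 1 else 0 := by
    intro a b
    have := congrFun (congrFun hU a) b
    simpa [Matrix.mul_apply, Matrix.one_apply] using this
  unfold coefU
  simp_rw [star_sum, star_mul', star_star]
  calc ∑ i, (∑ a, U a i * star (v a)) * ∑ b, star (U b i) * w b
      = ∑ i, ∑ a, ∑ b, (star (v a) * w b) * (U a i * star (U b i)) := by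
        refine Finset.sum_congr rfl fun i _ => ?_
        rw [Finset.sum_mul_sum]
        refine Finset.sum_congr rfl fun a _ => Finset.sum_congr rfl fun b _ => ?_
        ring
    _ = ∑ a, ∑ b, (star (v a) * w b) * ∑ i, U a i * star (U b i) := by
        rw [Finset.sum_comm]
        refine Finset.sum_congr rfl fun a _ => ?_
        rw [Finset.sum_comm]
        refine Finset.sum_congr rfl fun b _ => ?_
        rw [Finset.mul_sum]
    _ = ∑ a, star (v a) * w a := by
        refine Finset.sum_congr rfl fun a _ => ?_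
        simp_rw [hU']
        simp

lemma norm_sq_eq_star_mul (z : ℂ) : ((‖z‖ ^ 2 : ℝ) : ℂ) = star z * z := by
  rw [Complex.ofReal_pow, ← Complex.conj_mul']
  rfl

lemma parseval {U : Matrix (Fin m) (Fin m) ℂ} (hU : U * star U = 1) (v : Fin m → ℂ) :
    ∑ i, ‖coefU U i v‖ ^ 2 = ∑ a, ‖v a‖ ^ 2 := by
  have := parseval_polar hU v v
  simp_rw [← norm_sq_eq_star_mul] at this
  exact_mod_cast this

lemma norm_coefU_sq_le {U : Matrix (Fin m) (Fin m) ℂ} (hU : U * star U = 1) (i : Fin m)
    (v : Fin m → ℂ) : ‖coefU U i v‖ ^ 2 ≤ ∑ a, ‖v a‖ ^ 2 := by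
  rw [← parseval hU v]
  exact Finset.single_le_sum (f := fun i => ‖coefU U i v‖ ^ 2)
    (fun i _ => by positivity) (Finset.mem_univ i)

end Unitary

end

end Vale.Agent.Lib.P371
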