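import Vale.Agent.Lib.P371.H1

/-! The variational certificate on the half line. -/

open MeasureTheory Set Filter Topology

namespace Vale.Agent.Lib.P371

noncomputable section

/-- `1 / (y + β)`. -/
def zf (β y : ℝ) : ℝ := (y + β)⁻¹

lemma zf_pos {β y : ℝ} (hβ : 0 < β) (hy : 0 ≤ y) : 0 < zf β y := by
  unfold zf; positivity

lemma hasDerivAt_zf {β y : ℝ} (hy : 0 < y + β) : HasDerivAt (zf β) (-(zf β y ^ 2)) y := by
  have h1 : HasDerivAt (fun y => y + β) 1 y := (hasDerivAt_id y).add_const β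
  have h2 := h1.fun_inv hy.ne'
  refine h2.congr_deriv ?_
  unfold zf
  field_simp

lemma hasDerivAt_zf_pow {β y : ℝ} (hy : 0 < y + β) (p : ℕ) :
    HasDerivAt (fun y => zf β y ^ p) (-(p : ℝ) * zf β y ^ (p + 1)) y := by
  have h3 := (hasDerivAt_zf hy).fun_pow p
  refine h3.congr_deriv ?_
  rcases p with _ | p
  · simp
  · simp only [Nat.add_sub_cancel, Nat.cast_add, Nat.cast_one]
    ring

lemma tendsto_zf {β : ℝ} : Tendsto (zf β) atTop (𝓝 0) := by
  unfold zf
  exact (tendsto_atTop_add_const_right _ β tendsto_id).inv_tendsto_atTop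

lemma tendsto_zf_pow {β : ℝ} (m : ℕ) : Tendsto (fun y => zf β y ^ (m + 1)) atTop (𝓝 0) := by
  have := (tendsto_zf (β := β)).pow (m + 1)
  simpa using this

lemma hasDerivAt_zf_anti {β y : ℝ} (hy : 0 < y + β) (m : ℕ) :
    HasDerivAt (fun y => (-1 / ((m:ℝ) + 1)) * zf β y ^ (m + 1)) (zf β y ^ (m + 2)) y := by
  have h := (hasDerivAt_zf_pow hy (m + 1)).const_mul (-1 / ((m:ℝ) + 1))
  refine h.congr_deriv ?_
  have h2 : ((m:ℝ) + 1) ≠ 0 := by positivity
  push_cast
  field_simp

lemma tendsto_zf_anti {β : ℝ} (m : ℕ) :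
    Tendsto (fun y => (-1 / ((m:ℝ) + 1)) * zf β y ^ (m + 1)) atTop (𝓝 0) := by
  have := (tendsto_zf_pow (β := β) m).const_mul (-1 / ((m:ℝ) + 1))
  simpa using this

lemma integrableOn_zf_pow {β : ℝ} (hβ : 0 < β) (m : ℕ) :
    IntegrableOn (fun y => zf β y ^ (m + 2)) (Ioi 0) := by
  have hd : ∀ y ∈ Ici (0:ℝ), HasDerivAt (fun y => (-1 / ((m:ℝ) + 1)) * zf β y ^ (m + 1))
      (zf β y ^ (m + 2)) y := by
    intro y hy
    have hy' : 0 < y + β := by
      have : (0:ℝ) ≤ y := hy
      linarith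
    exact hasDerivAt_zf_anti hy' m
  refine integrableOn_Ioi_deriv_of_nonneg' hd ?_ (tendsto_zf_anti m)
  intro y hy
  exact pow_nonneg (zf_pos hβ (le_of_lt hy)).le _

lemma integral_zf_pow {β : ℝ} (hβ : 0 < β) (m : ℕ) :
    ∫ y in Ioi (0:ℝ), zf β y ^ (m + 2) = 1 / (((m:ℝ) + 1) * β ^ (m + 1)) := by
  have hd : ∀ y ∈ Ioi (0:ℝ), HasDerivAt (fun y => (-1 / ((m:ℝ) + 1)) * zf β y ^ (m + 1))
      (zf β y ^ (m + 2)) y := by
    intro y hy
    have hy' : 0 < y + β := by
      have : (0:ℝ) < y := hy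
      linarith
    exact hasDerivAt_zf_anti hy' m
  have hc : ContinuousWithinAt (fun y => (-1 / ((m:ℝ) + 1)) * zf β y ^ (m + 1)) (Ici 0) 0 := by
    have h0 : (0:ℝ) < 0 + β := by linarith
    exact (hasDerivAt_zf_anti h0 m).continuousAt.continuousWithinAt
  rw [integral_Ioi_of_hasDerivAt_of_tendsto hc hd (integrableOn_zf_pow hβ m) (tendsto_zf_anti m)]
  simp only [zf, zero_add, inv_pow]
  have : β ^ (m + 1) ≠ 0 := (pow_pos hβ _).ne'
  have h2 : ((m:ℝ) + 1) ≠ 0 := by positivity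
  field_simp
  ring

/-- A finite linear combination of powers of `zf`. -/
def zpoly (β : ℝ) (A : ℕ → ℝ) (L p : ℕ) (y : ℝ) : ℝ :=
  ∑ j ∈ Finset.range L, A j * zf β y ^ (j + p)

lemma zpoly_sq (β : ℝ) (A : ℕ → ℝ) (L p : ℕ) (y : ℝ) :
    zpoly β A L p y ^ 2 =
      ∑ j ∈ Finset.range L, ∑ k ∈ Finset.range L, A j * A k * zf β y ^ (j + k + 2 * p) := by
  unfold zpoly
  rw [sq, Finset.sum_mul_sum]
  refine Finset.sum_congr rfl fun j _ => Finset.sum_congr rfl fun k _ => ?_
  rw [show j + k + 2 * p = (j + p) + (k + p) by ring, pow_add]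
  ring

lemma integrableOn_zpoly_sq {β : ℝ} (hβ : 0 < β) (A : ℕ → ℝ) (L : ℕ) {p : ℕ} (hp : 1 ≤ p) :
    IntegrableOn (fun y => zpoly β A L p y ^ 2) (Ioi 0) := by
  simp_rw [zpoly_sq]
  refine integrable_finsetSum _ fun j _ => integrable_finsetSum _ fun k _ => ?_
  refine Integrable.const_mul ?_ _
  have : j + k + 2 * p = (j + k + 2 * p - 2) + 2 := by omega
  rw [this]
  exact integrableOn_zf_pow hβ _

lemma integral_zpoly_sq {β : ℝ} (hβ : 0 < β) (A : ℕ → ℝ) (L : ℕ) (p : ℕ) (hp : 1 ≤ p) :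
    ∫ y in Ioi (0:ℝ), zpoly β A L p y ^ 2 =
      ∑ j ∈ Finset.range L, ∑ k ∈ Finset.range L,
        A j * A k * (1 / (((j + k + 2 * p - 2 : ℕ) + 1 : ℝ) * β ^ (j + k + 2 * p - 2 + 1))) := by
  simp_rw [zpoly_sq]
  rw [integral_finsetSum]
  · refine Finset.sum_congr rfl fun j _ => ?_
    rw [integral_finsetSum]
    · refine Finset.sum_congr rfl fun k _ => ?_
      rw [integral_const_mul]
      have : j + k + 2 * p = (j + k + 2 * p - 2) + 2 := by omega
      rw [this, integral_zf_pow hβ]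
      simp
    · intro k _
      refine Integrable.const_mul ?_ _
      have : j + k + 2 * p = (j + k + 2 * p - 2) + 2 := by omega
      rw [this]
      exact integrableOn_zf_pow hβ _
  · intro j _
    refine integrable_finsetSum _ fun k _ => ?_
    refine Integrable.const_mul ?_ _
    have : j + k + 2 * p = (j + k + 2 * p - 2) + 2 := by omega
    rw [this]
    exact integrableOn_zf_pow hβ _

lemma hasDerivAt_zpoly {β y : ℝ} (hy : 0 < y + β) (A : ℕ → ℝ) (L p : ℕ) :
    HasDerivAt (zpoly β A L p)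
      (-∑ j ∈ Finset.range L, ((j + p : ℕ) : ℝ) * A j * zf β y ^ (j + p + 1)) y := by
  unfold zpoly
  have : HasDerivAt (fun y => ∑ j ∈ Finset.range L, A j * zf β y ^ (j + p))
      (∑ j ∈ Finset.range L, A j * (-((j + p : ℕ) : ℝ) * zf β y ^ (j + p + 1))) y :=
    HasDerivAt.fun_sum fun j _ => (hasDerivAt_zf_pow hy (j + p)).const_mul (A j)
  refine this.congr_deriv ?_
  rw [← Finset.sum_neg_distrib]
  refine Finset.sum_congr rfl fun j _ => ?_
  ring

/-! ### Integration by parts on the half line -/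

namespace RealH1

variable {F F' : ℝ → ℝ}

lemma absolutelyContinuous (h : RealH1 F F') (a b : ℝ) : AbsolutelyContinuousOnInterval F a b := by
  have hG : AbsolutelyContinuousOnInterval (fun x => ∫ v in a..x, F' v) a b :=
    (h.intervalIntegrable' a b).absolutelyContinuousOnInterval_intervalIntegral left_mem_uIcc
  have hc : AbsolutelyContinuousOnInterval (fun _ : ℝ => F a) a b :=
    (contDiffOn_const (c := F a)).absolutelyContinuousOnInterval
  have := hc.add hG
  have e : F = (fun _ : ℝ => F a) + (fun x => ∫ v in a..x, F' v) := by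
    funext x
    simp only [Pi.add_apply]
    rw [← h.ftc a x]
    ring
  rw [e]
  exact this

lemma ae_hasDerivAt (h : RealH1 F F') : ∀ᵐ x, HasDerivAt F (F' x) x := by
  have h1 := LocallyIntegrable.ae_hasDerivAt_integral (h.memLp'.locallyIntegrable (by norm_num))
  filter_upwards [h1] with x hx
  have h2 := (hx 0).const_add (F 0)
  have e : (fun y => F 0 + ∫ t in (0:ℝ)..y, F' t) = F := by
    funext y
    rw [← h.ftc 0 y]
    ring
  rw [e] at h2
  exact h2

lemma parts_interval (h : RealH1 F F') {a da : ℝ → ℝ} {Y : ℝ}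
    (hA : AbsolutelyContinuousOnInterval a 0 Y)
    (hder : ∀ x ∈ uIcc 0 Y, HasDerivAt a (da x) x) :
    ∫ x in (0:ℝ)..Y, a x * F' x = a Y * F Y - a 0 * F 0 - ∫ x in (0:ℝ)..Y, da x * F x := by
  have := AbsolutelyContinuousOnInterval.integral_mul_deriv_eq_deriv_mul hA (h.absolutelyContinuous 0 Y)
  have e1 : ∫ x in (0:ℝ)..Y, a x * deriv F x = ∫ x in (0:ℝ)..Y, a x * F' x := by
    apply intervalIntegral.integral_congr_ae
    filter_upwards [h.ae_hasDerivAt] with x hx _
    rw [hx.deriv]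
  have e2 : ∫ x in (0:ℝ)..Y, deriv a x * F x = ∫ x in (0:ℝ)..Y, da x * F x := by
    apply intervalIntegral.integral_congr_ae
    filter_upwards with x hx
    rw [(hder x (uIoc_subset_uIcc hx)).deriv]
  rw [e1, e2] at this
  exact this

/-- Linear growth bound. -/
lemma abs_le_linear (h : RealH1 F F') {Y : ℝ} (hY : 0 ≤ Y) :
    |F Y| ≤ (|F 0| + 1 / 2 + (∫ x, F' x ^ 2) / 2) * (1 + Y) := by
  have h1 : F Y = F 0 + ∫ t in (0:ℝ)..Y, F' t := by
    rw [← h.ftc 0 Y]; ring
  have hB : 0 ≤ ∫ x, F' x ^ 2 := integral_nonneg fun x => sq_nonneg _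
  have h2 : |∫ t in (0:ℝ)..Y, F' t| ≤ Y / 2 + (∫ x, F' x ^ 2) / 2 := by
    rw [intervalIntegral.integral_of_le hY]
    have hint1 : IntegrableOn (fun x => |F' x|) (Ioc 0 Y) :=
      ((intervalIntegrable_iff_integrableOn_Ioc_of_le hY).1 (h.intervalIntegrable' 0 Y)).abs
    have hint2 : IntegrableOn (fun _ : ℝ => (1:ℝ)) (Ioc 0 Y) := by simp
    have hint3 : IntegrableOn (fun x => F' x ^ 2) (Ioc 0 Y) := h.sq'.integrableOn
    calc |∫ t in Ioc 0 Y, F' t| ≤ ∫ t in Ioc 0 Y, |F' t| := abs_integral_le_integral_abs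
      _ ≤ ∫ t in Ioc 0 Y, (1 + F' t ^ 2) / 2 := by
          refine integral_mono hint1 ((hint2.add hint3).div_const 2) fun t => ?_
          have := abs_mul_le_half_sq 1 (F' t)
          simpa using this
      _ = (∫ t in Ioc 0 Y, (1:ℝ)) / 2 + (∫ t in Ioc 0 Y, F' t ^ 2) / 2 := by
          rw [integral_div, integral_add hint2 hint3]; ring
      _ ≤ Y / 2 + (∫ x, F' x ^ 2) / 2 := by
          have h5 : ∫ t in Ioc 0 Y, F' t ^ 2 ≤ ∫ x, F' x ^ 2 :=
            setIntegral_le_integral h.sq' (ae_of_all _ fun x => sq_nonneg _)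
          have h6 : ∫ _ in Ioc 0 Y, (1:ℝ) = Y := by simp [hY]
          rw [h6]
          linarith
  calc |F Y| = |F 0 + ∫ t in (0:ℝ)..Y, F' t| := by rw [← h1]
    _ ≤ |F 0| + |∫ t in (0:ℝ)..Y, F' t| := abs_add_le _ _
    _ ≤ |F 0| + (Y / 2 + (∫ x, F' x ^ 2) / 2) := by linarith
    _ ≤ (|F 0| + 1 / 2 + (∫ x, F' x ^ 2) / 2) * (1 + Y) := by
        have := abs_nonneg (F 0)
        nlinarith [mul_nonneg this hY, mul_nonneg hB hY]

end RealH1

/-- A product of two functions with integrable squares is integrable. -/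
lemma integrableOn_mul_of_sq {u v : ℝ → ℝ} {S : Set ℝ} (hu : AEStronglyMeasurable u (volume.restrict S))
    (hv : AEStronglyMeasurable v (volume.restrict S))
    (hu2 : IntegrableOn (fun x => u x ^ 2) S) (hv2 : IntegrableOn (fun x => v x ^ 2) S) :
    IntegrableOn (fun x => u x * v x) S := by
  refine Integrable.mono' ((hu2.add hv2).div_const 2) (hu.mul hv)
    (ae_of_all _ fun x => ?_)
  simpa using abs_mul_le_half_sq (u x) (v x)

lemma RealH1.parts_Ioi {F F' : ℝ → ℝ} (h : RealH1 F F') {a da : ℝ → ℝ}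
    (hA : ∀ Y, 0 ≤ Y → AbsolutelyContinuousOnInterval a 0 Y)
    (hder : ∀ x, 0 ≤ x → HasDerivAt a (da x) x)
    (ham : Measurable a) (hdam : Measurable da)
    (ha2 : IntegrableOn (fun x => a x ^ 2) (Ioi 0)) (hda2 : IntegrableOn (fun x => da x ^ 2) (Ioi 0))
    (hlim : Tendsto (fun y => (1 + y) * a y) atTop (𝓝 0)) :
    ∫ x in Ioi (0:ℝ), a x * F' x = - (a 0 * F 0) - ∫ x in Ioi (0:ℝ), da x * F x := by
  have hi1 : IntegrableOn (fun x => a x * F' x) (Ioi 0) :=
    integrableOn_mul_of_sq ham.aestronglyMeasurable h.memLp'.aestronglyMeasurable.restrict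
      ha2 h.sq'.integrableOn
  have hi2 : IntegrableOn (fun x => da x * F x) (Ioi 0) :=
    integrableOn_mul_of_sq hdam.aestronglyMeasurable h.measurable.aestronglyMeasurable hda2
      h.sq.integrableOn
  have t1 := intervalIntegral_tendsto_integral_Ioi 0 hi1 tendsto_id
  have t2 := intervalIntegral_tendsto_integral_Ioi 0 hi2 tendsto_id
  set K := |F 0| + 1 / 2 + (∫ x, F' x ^ 2) / 2 with hK
  have t3 : Tendsto (fun y => a y * F y) atTop (𝓝 0) := by
    have h0 : Tendsto (fun y => |(1 + y) * a y| * K) atTop (𝓝 0) := by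
      have := (hlim.abs).mul_const K
      simpa using this
    refine squeeze_zero_norm' ?_ h0
    filter_upwards [eventually_ge_atTop 0] with y hy
    rw [Real.norm_eq_abs, abs_mul, abs_mul]
    have h1 := h.abs_le_linear hy
    have h2 : |1 + y| = 1 + y := abs_of_nonneg (by linarith)
    rw [h2]
    calc |a y| * |F y| ≤ |a y| * (K * (1 + y)) :=
          mul_le_mul_of_nonneg_left h1 (abs_nonneg _)
      _ = (1 + y) * |a y| * K := by ring
  have t4 : Tendsto (fun Y : ℝ => a Y * F Y - a 0 * F 0 - ∫ x in (0:ℝ)..Y, da x * F x) atTop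
      (𝓝 (0 - a 0 * F 0 - ∫ x in Ioi (0:ℝ), da x * F x)) :=
    (t3.sub_const _).sub t2
  have t5 : Tendsto (fun Y : ℝ => ∫ x in (0:ℝ)..Y, a x * F' x) atTop
      (𝓝 (0 - a 0 * F 0 - ∫ x in Ioi (0:ℝ), da x * F x)) := by
    refine t4.congr' ?_
    filter_upwards [eventually_ge_atTop 0] with Y hY
    refine (h.parts_interval (hA Y hY) fun x hx => ?_).symm
    rw [uIcc_of_le hY] at hx
    exact hder x hx.1
  have := tendsto_nhds_unique t1 t5
  rw [this]
  ring

/-! ### Laplace transform and Fubini -/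

/-- The Laplace transform on the half line. -/
def Lap (F : ℝ → ℝ) (t : ℝ) : ℝ := ∫ y in Ioi (0:ℝ), Real.exp (-(t * y)) * F y

section Lap

variable {F : ℝ → ℝ}

lemma integrableOn_zf_pow_mul {β : ℝ} (hβ : 0 < β) (hFm : Measurable F)
    (hF2 : IntegrableOn (fun x => F x ^ 2) (Ioi 0)) (k : ℕ) :
    IntegrableOn (fun y => zf β y ^ (k + 1) * F y) (Ioi 0) := by
  have hm : Measurable fun y => zf β y ^ (k + 1) := by
    unfold zf; fun_prop
  refine integrableOn_mul_of_sq hm.aestronglyMeasurable hFm.aestronglyMeasurable ?_ hF2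
  have := integrableOn_zf_pow hβ (2 * k)
  refine this.congr_fun (fun y _ => ?_) measurableSet_Ioi
  simp only
  ring

lemma laplace_aux {β : ℝ} (hβ : 0 < β) (F : ℝ → ℝ) (k : ℕ) {y : ℝ} (hy : 0 < y) :
    ∫ t in Ioi (0:ℝ), t ^ k * Real.exp (-(β * t)) * (Real.exp (-(t * y)) * F y) =
      k.factorial * (zf β y ^ (k + 1) * F y) := by
  have hb : 0 < β + y := by linarith
  have e : ∀ t : ℝ, t ^ k * Real.exp (-(β * t)) * (Real.exp (-(t * y)) * F y) =
      (t ^ k * Real.exp (-((β + y) * t))) * F y := by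
    intro t
    have : Real.exp (-((β + y) * t)) = Real.exp (-(β * t)) * Real.exp (-(t * y)) := by
      rw [← Real.exp_add]; congr 1; ring
    rw [this]; ring
  simp_rw [e]
  rw [integral_mul_const, integral_Ioi_pow_exp k hb]
  unfold zf
  rw [add_comm y β, inv_pow]
  field_simp

lemma laplace_integrable {β : ℝ} (hβ : 0 < β) (hFm : Measurable F)
    (hF2 : IntegrableOn (fun x => F x ^ 2) (Ioi 0)) (k : ℕ) :
    Integrable (fun p : ℝ × ℝ => p.1 ^ k * Real.exp (-(β * p.1)) * (Real.exp (-(p.1 * p.2)) * F p.2))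
      ((volume.restrict (Ioi 0)).prod (volume.restrict (Ioi 0))) := by
  have hmeas : Measurable (fun p : ℝ × ℝ =>
      p.1 ^ k * Real.exp (-(β * p.1)) * (Real.exp (-(p.1 * p.2)) * F p.2)) := by
    have h1 : Measurable (fun p : ℝ × ℝ => F p.2) := hFm.comp measurable_snd
    exact Measurable.mul (by fun_prop) (Measurable.mul (by fun_prop) h1)
  rw [integrable_prod_iff' hmeas.aestronglyMeasurable]
  constructor
  · filter_upwards [ae_restrict_mem measurableSet_Ioi] with y hy
    have hy' : (0:ℝ) < y := hy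
    have hb : 0 < β + y := by linarith
    refine ((integrableOn_Ioi_pow_exp k hb).mul_const (F y)).congr (ae_of_all _ fun t => ?_)
    simp only
    have : Real.exp (-((β + y) * t)) = Real.exp (-(β * t)) * Real.exp (-(t * y)) := by
      rw [← Real.exp_add]; congr 1; ring
    rw [this]; ring
  · have hF2' : IntegrableOn (fun x => |F x| ^ 2) (Ioi 0) := by
      simpa using hF2
    have h3 := (integrableOn_zf_pow_mul hβ hFm.abs hF2' k).const_mul (k.factorial : ℝ)
    refine h3.congr ?_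
    filter_upwards [ae_restrict_mem measurableSet_Ioi] with y hy
    have hy' : (0:ℝ) < y := hy
    rw [← laplace_aux hβ (fun y => |F y|) k hy']
    refine setIntegral_congr_fun measurableSet_Ioi fun t ht => ?_
    have ht' : (0:ℝ) < t := ht
    simp only [Real.norm_eq_abs, abs_mul, abs_pow, abs_of_pos ht', Real.abs_exp]

lemma laplace_fubini_integrable {β : ℝ} (hβ : 0 < β) (hFm : Measurable F)
    (hF2 : IntegrableOn (fun x => F x ^ 2) (Ioi 0)) (k : ℕ) :
    IntegrableOn (fun t => t ^ k * Real.exp (-(β * t)) * Lap F t) (Ioi 0) := by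
  have := (laplace_integrable hβ hFm hF2 k).integral_prod_left
  refine this.congr (ae_of_all _ fun t => ?_)
  simp only [Lap]
  rw [integral_const_mul]

lemma laplace_fubini {β : ℝ} (hβ : 0 < β) (hFm : Measurable F)
    (hF2 : IntegrableOn (fun x => F x ^ 2) (Ioi 0)) (k : ℕ) :
    ∫ t in Ioi (0:ℝ), t ^ k * Real.exp (-(β * t)) * Lap F t =
      k.factorial * ∫ y in Ioi (0:ℝ), zf β y ^ (k + 1) * F y := by
  have hI := laplace_integrable hβ hFm hF2 k
  have h1 := integral_integral_swap (μ := volume.restrict (Ioi 0)) (ν := volume.restrict (Ioi 0))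
    (f := fun t y => t ^ k * Real.exp (-(β * t)) * (Real.exp (-(t * y)) * F y)) hI
  have e1 : ∀ t : ℝ, ∫ y in Ioi (0:ℝ), t ^ k * Real.exp (-(β * t)) * (Real.exp (-(t * y)) * F y) =
      t ^ k * Real.exp (-(β * t)) * Lap F t := by
    intro t
    rw [integral_const_mul]
    rfl
  simp_rw [e1] at h1
  rw [h1, ← integral_const_mul]
  refine setIntegral_congr_fun measurableSet_Ioi fun y hy => ?_
  exact laplace_aux hβ F k hy

end Lap

end

end Vale.Agent.Lib.P371

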