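import Vale.Agent.Lib.P371.Cert

/-! The half line certificate. -/

open MeasureTheory Set Filter Topology

namespace Vale.Agent.Lib.P371

noncomputable section

/-- `ofReal (∫ h) ≤ ∫⁻ ofReal h`. -/
lemma ofReal_setIntegral_le {h : ℝ → ℝ} {S : Set ℝ} (hi : IntegrableOn h S) :
    ENNReal.ofReal (∫ t in S, h t) ≤ ∫⁻ t in S, ENNReal.ofReal (h t) := by
  have hi' : IntegrableOn (fun t => max (h t) 0) S := hi.sup (integrable_zero _ _ _)
  have h1 : ∫ t in S, h t ≤ ∫ t in S, max (h t) 0 :=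
    integral_mono hi hi' fun t => le_max_left _ _
  have h2 : ENNReal.ofReal (∫ t in S, max (h t) 0) = ∫⁻ t in S, ENNReal.ofReal (max (h t) 0) :=
    ofReal_integral_eq_lintegral_ofReal hi' (ae_of_all _ fun t => le_max_right _ _)
  calc ENNReal.ofReal (∫ t in S, h t) ≤ ENNReal.ofReal (∫ t in S, max (h t) 0) :=
        ENNReal.ofReal_le_ofReal h1
    _ = ∫⁻ t in S, ENNReal.ofReal (max (h t) 0) := h2
    _ = ∫⁻ t in S, ENNReal.ofReal (h t) := by
        refine lintegral_congr fun t => ?_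
        rcases le_total (h t) 0 with h3 | h3
        · rw [max_eq_right h3, ENNReal.ofReal_of_nonpos h3]
          simp
        · rw [max_eq_left h3]

/-- The polynomial factor of the test function in the Laplace variable. -/
def Sc (c : ℕ → ℝ) (L : ℕ) (t : ℝ) : ℝ := ∑ i ∈ Finset.range L, c i * t ^ i

/-- The minorant of `2 t (1 - G)^2`. -/
def hT (β : ℝ) (c : ℕ → ℝ) (L : ℕ) (F : ℝ → ℝ) (t : ℝ) : ℝ :=
  ∑ i ∈ Finset.range L, 4 * c i * (t ^ (i + 1) * Real.exp (-(β * t)))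
    - ∑ i ∈ Finset.range L, 4 * c i * (t ^ (i + 2) * Real.exp (-(β * t)) * Lap F t)
    - ∑ i ∈ Finset.range L, ∑ l ∈ Finset.range L,
        2 * c i * c l * (t ^ (i + l + 1) * Real.exp (-((2 * β) * t)))

lemma hT_eq (β : ℝ) (c : ℕ → ℝ) (L : ℕ) (F : ℝ → ℝ) (t : ℝ) :
    hT β c L F t = 4 * t * Real.exp (-(β * t)) * Sc c L t
      - 4 * t ^ 2 * Real.exp (-(β * t)) * Sc c L t * Lap F t
      - 2 * t * (Real.exp (-(β * t))) ^ 2 * Sc c L t ^ 2 := by
  have e2 : Real.exp (-((2 * β) * t)) = (Real.exp (-(β * t))) ^ 2 := by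
    rw [sq, ← Real.exp_add]
    congr 1
    ring
  unfold hT
  rw [e2]
  congr 1
  · congr 1
    · unfold Sc
      rw [Finset.mul_sum]
      refine Finset.sum_congr rfl fun i _ => ?_
      ring
    · unfold Sc
      rw [Finset.mul_sum, Finset.sum_mul]
      refine Finset.sum_congr rfl fun i _ => ?_
      ring
  · unfold Sc
    rw [sq (∑ i ∈ Finset.range L, c i * t ^ i), Finset.sum_mul_sum, Finset.mul_sum]
    refine Finset.sum_congr rfl fun i _ => ?_
    rw [Finset.mul_sum]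
    refine Finset.sum_congr rfl fun l _ => ?_
    ring

lemma hT_le (β : ℝ) (c : ℕ → ℝ) (L : ℕ) (F : ℝ → ℝ) {t : ℝ} (ht : 0 < t) :
    hT β c L F t ≤ 2 * t * (1 - t * Lap F t) ^ 2 := by
  rw [hT_eq]
  set e := Real.exp (-(β * t))
  set S := Sc c L t
  set A := Lap F t
  have h1 : 0 ≤ 2 * t * (1 - t * A - e * S) ^ 2 := by positivity
  nlinarith [h1]

lemma hT_integrable {β : ℝ} (hβ : 0 < β) (c : ℕ → ℝ) (L : ℕ) {F : ℝ → ℝ} (hFm : Measurable F)
    (hF2 : IntegrableOn (fun x => F x ^ 2) (Ioi 0)) :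
    IntegrableOn (hT β c L F) (Ioi 0) := by
  unfold hT
  refine Integrable.sub (Integrable.sub ?_ ?_) ?_
  · refine integrable_finsetSum _ fun i _ => Integrable.const_mul ?_ _
    exact integrableOn_Ioi_pow_exp (i + 1) hβ
  · refine integrable_finsetSum _ fun i _ => Integrable.const_mul ?_ _
    exact laplace_fubini_integrable hβ hFm hF2 (i + 2)
  · refine integrable_finsetSum _ fun i _ => integrable_finsetSum _ fun l _ =>
      Integrable.const_mul ?_ _
    exact integrableOn_Ioi_pow_exp (i + l + 1) (by linarith)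

/-- `X_k`. -/
def Xk (β : ℝ) (F : ℝ → ℝ) (k : ℕ) : ℝ := ∫ y in Ioi (0:ℝ), zf β y ^ (k + 3) * F y

/-- `M0'`. -/
def M0c (β : ℝ) (c : ℕ → ℝ) (L : ℕ) : ℝ :=
  ∑ i ∈ Finset.range L, 4 * c i * (((i + 1).factorial : ℝ) / β ^ (i + 2))

/-- `C2`. -/
def C2c (β : ℝ) (c : ℕ → ℝ) (L : ℕ) : ℝ :=
  ∑ i ∈ Finset.range L, ∑ l ∈ Finset.range L,
    2 * c i * c l * (((i + l + 1).factorial : ℝ) / (2 * β) ^ (i + l + 2))

lemma hT_integral {β : ℝ} (hβ : 0 < β) (c : ℕ → ℝ) (L : ℕ) {F : ℝ → ℝ} (hFm : Measurable F)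
    (hF2 : IntegrableOn (fun x => F x ^ 2) (Ioi 0)) :
    ∫ t in Ioi (0:ℝ), hT β c L F t =
      M0c β c L - ∑ i ∈ Finset.range L, 4 * c i * ((i + 2).factorial * Xk β F i) - C2c β c L := by
  have h1 : Integrable (fun t => ∑ i ∈ Finset.range L, 4 * c i * (t ^ (i + 1) * Real.exp (-(β * t))))
      (volume.restrict (Ioi 0)) :=
    integrable_finsetSum _ fun i _ => Integrable.const_mul (integrableOn_Ioi_pow_exp (i + 1) hβ) _
  have h2 : Integrable
      (fun t => ∑ i ∈ Finset.range L, 4 * c i * (t ^ (i + 2) * Real.exp (-(β * t)) * Lap F t))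
      (volume.restrict (Ioi 0)) :=
    integrable_finsetSum _ fun i _ =>
      Integrable.const_mul (laplace_fubini_integrable hβ hFm hF2 (i + 2)) _
  have h3 : Integrable (fun t => ∑ i ∈ Finset.range L, ∑ l ∈ Finset.range L,
        2 * c i * c l * (t ^ (i + l + 1) * Real.exp (-((2 * β) * t))))
      (volume.restrict (Ioi 0)) :=
    integrable_finsetSum _ fun i _ => integrable_finsetSum _ fun l _ =>
      Integrable.const_mul (integrableOn_Ioi_pow_exp (i + l + 1) (by linarith)) _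
  unfold hT
  have h12 : Integrable (fun t => ∑ i ∈ Finset.range L, 4 * c i * (t ^ (i + 1) * Real.exp (-(β * t)))
      - ∑ i ∈ Finset.range L, 4 * c i * (t ^ (i + 2) * Real.exp (-(β * t)) * Lap F t))
      (volume.restrict (Ioi 0)) := h1.sub h2
  rw [integral_sub h12 h3, integral_sub h1 h2]
  congr 1
  · congr 1
    · rw [integral_finsetSum _ fun i _ =>
        Integrable.const_mul (integrableOn_Ioi_pow_exp (i + 1) hβ) _]
      unfold M0c
      refine Finset.sum_congr rfl fun i _ => ?_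
      rw [integral_const_mul, integral_Ioi_pow_exp (i + 1) hβ]
    · rw [integral_finsetSum _ fun i _ =>
        Integrable.const_mul (laplace_fubini_integrable hβ hFm hF2 (i + 2)) _]
      refine Finset.sum_congr rfl fun i _ => ?_
      rw [integral_const_mul, laplace_fubini hβ hFm hF2 (i + 2)]
      rfl
  · rw [integral_finsetSum _ fun i _ => integrable_finsetSum _ fun l _ =>
      Integrable.const_mul (integrableOn_Ioi_pow_exp (i + l + 1) (by linarith)) _]
    unfold C2c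
    refine Finset.sum_congr rfl fun i _ => ?_
    rw [integral_finsetSum _ fun l _ =>
      Integrable.const_mul (integrableOn_Ioi_pow_exp (i + l + 1) (by linarith)) _]
    refine Finset.sum_congr rfl fun l _ => ?_
    rw [integral_const_mul, integral_Ioi_pow_exp (i + l + 1) (by linarith)]

/-- The `T` part. -/
lemma T_part {β : ℝ} (hβ : 0 < β) (c : ℕ → ℝ) (L : ℕ) {F : ℝ → ℝ} (hFm : Measurable F)
    (hF2 : IntegrableOn (fun x => F x ^ 2) (Ioi 0)) :
    ENNReal.ofReal (M0c β c L - ∑ i ∈ Finset.range L, 4 * c i * ((i + 2).factorial * Xk β F i)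
        - C2c β c L) ≤
      ∫⁻ t in Ioi (0:ℝ), ENNReal.ofReal (2 * t * (1 - t * Lap F t) ^ 2) := by
  rw [← hT_integral hβ c L hFm hF2]
  refine (ofReal_setIntegral_le (hT_integrable hβ c L hFm hF2)).trans ?_
  refine setLIntegral_mono' measurableSet_Ioi fun t ht => ?_
  exact ENNReal.ofReal_le_ofReal (hT_le β c L F ht)

/-- Derivative coefficients. -/
def dcoef (d : ℕ → ℝ) (j : ℕ) : ℝ := ((j + 2 : ℕ) : ℝ) * d j

lemma hasDerivAt_zpoly2 {β y : ℝ} (hy : 0 < y + β) (d : ℕ → ℝ) (L : ℕ) :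
    HasDerivAt (zpoly β d L 2) (-(zpoly β (dcoef d) L 3 y)) y := by
  refine (hasDerivAt_zpoly hy d L 2).congr_deriv ?_
  unfold zpoly dcoef
  congr 1

lemma measurable_zpoly (β : ℝ) (A : ℕ → ℝ) (L p : ℕ) : Measurable (zpoly β A L p) := by
  unfold zpoly zf
  fun_prop

lemma zpoly_abscont {β : ℝ} (hβ : 0 < β) (A : ℕ → ℝ) (L p : ℕ) {Y : ℝ} (hY : 0 ≤ Y) :
    AbsolutelyContinuousOnInterval (zpoly β A L p) 0 Y := by
  apply ContDiffOn.absolutelyContinuousOnInterval
  have h : ContDiffOn ℝ 1 (zf β) (uIcc 0 Y) := by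
    unfold zf
    refine ContDiffOn.inv (by fun_prop) fun y hy => ?_
    rw [uIcc_of_le hY] at hy
    have := hy.1
    positivity
  unfold zpoly
  refine ContDiffOn.sum fun j _ => ?_
  exact contDiffOn_const.mul (h.pow _)

lemma tendsto_mul_zf {β : ℝ} : Tendsto (fun y => (1 + y) * zf β y) atTop (𝓝 1) := by
  have h1 : Tendsto (fun y => 1 + (1 - β) * zf β y) atTop (𝓝 (1 + (1 - β) * 0)) :=
    (tendsto_zf.const_mul _).const_add _
  rw [mul_zero, add_zero] at h1
  refine h1.congr' ?_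
  filter_upwards [eventually_gt_atTop (-β)] with y hy
  have : y + β ≠ 0 := by linarith [hy]
  unfold zf
  field_simp
  ring

lemma tendsto_mul_zpoly {β : ℝ} (A : ℕ → ℝ) (L : ℕ) :
    Tendsto (fun y => (1 + y) * zpoly β A L 2 y) atTop (𝓝 0) := by
  have h : Tendsto (fun y => ∑ j ∈ Finset.range L, A j * (((1 + y) * zf β y) * zf β y ^ (j + 1)))
      atTop (𝓝 (∑ j ∈ Finset.range L, A j * (1 * 0))) :=
    tendsto_finsetSum _ fun j _ => (tendsto_mul_zf.mul (tendsto_zf_pow j)).const_mul _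
  simp only [mul_zero, Finset.sum_const_zero] at h
  refine h.congr fun y => ?_
  unfold zpoly
  rw [Finset.mul_sum]
  refine Finset.sum_congr rfl fun j _ => ?_
  rw [show j + 2 = (j + 1) + 1 by ring, pow_succ (zf β y) (j + 1)]
  ring

lemma integral_zpoly3_mul {β : ℝ} (hβ : 0 < β) (A : ℕ → ℝ) (L : ℕ) {F : ℝ → ℝ} (hFm : Measurable F)
    (hF2 : IntegrableOn (fun x => F x ^ 2) (Ioi 0)) :
    ∫ y in Ioi (0:ℝ), zpoly β A L 3 y * F y = ∑ j ∈ Finset.range L, A j * Xk β F j := by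
  unfold zpoly Xk
  simp_rw [Finset.sum_mul]
  rw [integral_finsetSum]
  · refine Finset.sum_congr rfl fun j _ => ?_
    simp_rw [mul_assoc]
    rw [integral_const_mul]
  · intro j _
    simp_rw [mul_assoc]
    exact (integrableOn_zf_pow_mul hβ hFm hF2 (j + 2)).const_mul _

/-- The `F'` part. -/
lemma F_part {F F' : ℝ → ℝ} (hF : RealH1 F F') {β : ℝ} (hβ : 0 < β) (d : ℕ → ℝ) (L : ℕ) :
    2 * zpoly β d L 2 0 * F 0 - 2 * ∑ j ∈ Finset.range L, dcoef d j * Xk β F j
        - ∫ y in Ioi (0:ℝ), zpoly β d L 2 y ^ 2 ≤ ∫ y in Ioi (0:ℝ), F' y ^ 2 := by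
  set a := zpoly β d L 2 with ha
  have hFm := hF.measurable
  have hF2 : IntegrableOn (fun x => F x ^ 2) (Ioi 0) := hF.sq.integrableOn
  have ham : Measurable a := measurable_zpoly _ _ _ _
  have ha2 : IntegrableOn (fun x => a x ^ 2) (Ioi 0) := integrableOn_zpoly_sq hβ d L (by norm_num)
  have hda2 : IntegrableOn (fun x => (-(zpoly β (dcoef d) L 3 x)) ^ 2) (Ioi 0) := by
    simp_rw [neg_sq]
    exact integrableOn_zpoly_sq hβ _ L (by norm_num)
  have hparts := hF.parts_Ioi (a := a) (da := fun x => -(zpoly β (dcoef d) L 3 x))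
    (fun Y hY => zpoly_abscont hβ d L 2 hY)
    (fun x hx => hasDerivAt_zpoly2 (by linarith) d L)
    ham (measurable_zpoly _ _ _ _).neg ha2 hda2 (tendsto_mul_zpoly d L)
  have hint : IntegrableOn (fun x => a x * F' x) (Ioi 0) :=
    integrableOn_mul_of_sq ham.aestronglyMeasurable hF.memLp'.aestronglyMeasurable.restrict
      ha2 hF.sq'.integrableOn
  have e1 : ∫ x in Ioi (0:ℝ), -(zpoly β (dcoef d) L 3 x) * F x =
      - ∑ j ∈ Finset.range L, dcoef d j * Xk β F j := by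
    simp_rw [neg_mul]
    rw [integral_neg, integral_zpoly3_mul hβ _ L hFm hF2]
  rw [e1] at hparts
  have key : ∫ y in Ioi (0:ℝ), (-(2 * (a y * F' y)) - a y ^ 2) ≤ ∫ y in Ioi (0:ℝ), F' y ^ 2 := by
    refine integral_mono ((hint.const_mul 2).neg.sub ha2) hF.sq'.integrableOn fun y => ?_
    simp only
    nlinarith [sq_nonneg (F' y + a y)]
  have e2 : ∫ y in Ioi (0:ℝ), (-(2 * (a y * F' y)) - a y ^ 2) =
      -(2 * ∫ y in Ioi (0:ℝ), a y * F' y) - ∫ y in Ioi (0:ℝ), a y ^ 2 := by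
    have h1 : Integrable (fun y => -(2 * (a y * F' y))) (volume.restrict (Ioi 0)) :=
      (hint.const_mul 2).neg
    rw [integral_sub h1 ha2, integral_neg, integral_const_mul]
  rw [e2, hparts] at key
  linarith

/-- Sum expression for the integral of a square. -/
def Sq (β : ℝ) (A : ℕ → ℝ) (L p : ℕ) : ℝ :=
  ∑ j ∈ Finset.range L, ∑ k ∈ Finset.range L,
    A j * A k * (1 / (((j + k + 2 * p - 2 : ℕ) + 1 : ℝ) * β ^ (j + k + 2 * p - 2 + 1)))

/-- The coefficients of the combined error term. -/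
def Ecoef (θ : ℝ) (c d : ℕ → ℝ) (k : ℕ) : ℝ :=
  θ * dcoef d k + (1 - θ) * (c k * (k + 2).factorial)

/-- The certified constant. -/
def Kval (β θ μ : ℝ) (c d : ℕ → ℝ) (L : ℕ) : ℝ :=
  4 * θ * zpoly β d L 2 0 - 2 * θ * Sq β d L 2 + (1 - θ) * (M0c β c L - C2c β c L)
    - μ - (2 / μ) * Sq β (Ecoef θ c d) L 3

/-- The half line certificate. -/
theorem core_half {F F' : ℝ → ℝ} (hF : RealH1 F F') (hF0 : F 0 = 1)
    (hF2 : 2 * ∫ y in Ioi (0:ℝ), F y ^ 2 ≤ 1) {β μ θ : ℝ} (hβ : 0 < β) (hμ : 0 < μ)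
    (hθ0 : 0 ≤ θ) (hθ1 : θ ≤ 1) (c d : ℕ → ℝ) (L : ℕ) :
    ENNReal.ofReal (Kval β θ μ c d L) ≤
      ENNReal.ofReal (2 * θ * ∫ y in Ioi (0:ℝ), F' y ^ 2) +
        ENNReal.ofReal (1 - θ) *
          ∫⁻ t in Ioi (0:ℝ), ENNReal.ofReal (2 * t * (1 - t * Lap F t) ^ 2) := by
  have hFm := hF.measurable
  have hFi : IntegrableOn (fun x => F x ^ 2) (Ioi 0) := hF.sq.integrableOn
  set Y := M0c β c L - ∑ i ∈ Finset.range L, 4 * c i * ((i + 2).factorial * Xk β F i) - C2c β c L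
    with hY
  have hT := T_part hβ c L hFm hFi
  have hFp := F_part hF hβ d L
  rw [hF0, mul_one] at hFp
  set A := ∫ y in Ioi (0:ℝ), F' y ^ 2 with hA
  have hA0 : 0 ≤ A := integral_nonneg fun y => sq_nonneg _
  have hSa : ∫ y in Ioi (0:ℝ), zpoly β d L 2 y ^ 2 = Sq β d L 2 :=
    integral_zpoly_sq hβ d L 2 (by norm_num)
  have hSe : ∫ y in Ioi (0:ℝ), zpoly β (Ecoef θ c d) L 3 y ^ 2 = Sq β (Ecoef θ c d) L 3 :=
    integral_zpoly_sq hβ _ L 3 (by norm_num)
  rw [hSa] at hFp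
  -- the error term
  have hE : 4 * ∑ k ∈ Finset.range L, Ecoef θ c d k * Xk β F k ≤
      μ + (2 / μ) * Sq β (Ecoef θ c d) L 3 := by
    rw [← integral_zpoly3_mul hβ _ L hFm hFi, ← hSe]
    have hg2 : IntegrableOn (fun y => zpoly β (Ecoef θ c d) L 3 y ^ 2) (Ioi 0) :=
      integrableOn_zpoly_sq hβ _ L (by norm_num)
    have hgF : IntegrableOn (fun y => zpoly β (Ecoef θ c d) L 3 y * F y) (Ioi 0) :=
      integrableOn_mul_of_sq (measurable_zpoly _ _ _ _).aestronglyMeasurable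
        hFm.aestronglyMeasurable hg2 hFi
    have key : ∫ y in Ioi (0:ℝ), 4 * (zpoly β (Ecoef θ c d) L 3 y * F y) ≤
        ∫ y in Ioi (0:ℝ), (2 * μ * F y ^ 2 + (2 / μ) * zpoly β (Ecoef θ c d) L 3 y ^ 2) := by
      refine integral_mono (hgF.const_mul 4) ((hFi.const_mul _).add (hg2.const_mul _)) fun y => ?_
      simp only
      set g := zpoly β (Ecoef θ c d) L 3 y
      have h1 : 0 ≤ (2 / μ) * (g - μ * F y) ^ 2 := by positivity
      have h2 : (2 / μ) * (g - μ * F y) ^ 2 = (2 / μ) * g ^ 2 - 4 * (g * F y) + 2 * μ * F y ^ 2 := by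
        field_simp
        ring
      linarith
    have e1 : ∫ y in Ioi (0:ℝ), (2 * μ * F y ^ 2 + (2 / μ) * zpoly β (Ecoef θ c d) L 3 y ^ 2) =
        2 * μ * (∫ y in Ioi (0:ℝ), F y ^ 2) +
          (2 / μ) * ∫ y in Ioi (0:ℝ), zpoly β (Ecoef θ c d) L 3 y ^ 2 := by
      have h1 : Integrable (fun y => 2 * μ * F y ^ 2) (volume.restrict (Ioi 0)) := hFi.const_mul _
      have h2 : Integrable (fun y => (2 / μ) * zpoly β (Ecoef θ c d) L 3 y ^ 2)
          (volume.restrict (Ioi 0)) := hg2.const_mul _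
      rw [integral_add h1 h2, integral_const_mul, integral_const_mul]
    rw [e1, integral_const_mul] at key
    have h3 : 2 * μ * (∫ y in Ioi (0:ℝ), F y ^ 2) ≤ μ := by nlinarith
    linarith
  -- the real inequality
  have hmain : Kval β θ μ c d L ≤ 2 * θ * A + (1 - θ) * Y := by
    have h1 : 2 * θ * (2 * zpoly β d L 2 0 - 2 * ∑ j ∈ Finset.range L, dcoef d j * Xk β F j
        - Sq β d L 2) ≤ 2 * θ * A :=
      mul_le_mul_of_nonneg_left hFp (by positivity)
    have h2 : ∑ k ∈ Finset.range L, Ecoef θ c d k * Xk β F k =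
        θ * ∑ j ∈ Finset.range L, dcoef d j * Xk β F j +
          (1 - θ) * ∑ i ∈ Finset.range L, c i * ((i + 2).factorial * Xk β F i) := by
      rw [Finset.mul_sum, Finset.mul_sum, ← Finset.sum_add_distrib]
      refine Finset.sum_congr rfl fun k _ => ?_
      unfold Ecoef
      ring
    have h3 : ∑ i ∈ Finset.range L, 4 * c i * ((i + 2).factorial * Xk β F i) =
        4 * ∑ i ∈ Finset.range L, c i * ((i + 2).factorial * Xk β F i) := by
      rw [Finset.mul_sum]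
      refine Finset.sum_congr rfl fun k _ => ?_
      ring
    rw [hY, h3]
    rw [h2] at hE
    unfold Kval
    nlinarith
  have hθ1' : 0 ≤ 1 - θ := by linarith
  calc ENNReal.ofReal (Kval β θ μ c d L) ≤ ENNReal.ofReal (2 * θ * A + (1 - θ) * Y) :=
        ENNReal.ofReal_le_ofReal hmain
    _ ≤ ENNReal.ofReal (2 * θ * A) + ENNReal.ofReal ((1 - θ) * Y) := ENNReal.ofReal_add_le
    _ = ENNReal.ofReal (2 * θ * A) + ENNReal.ofReal (1 - θ) * ENNReal.ofReal Y := by
        rw [ENNReal.ofReal_mul hθ1']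
    _ ≤ _ := by gcongr

end

end Vale.Agent.Lib.P371
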