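import Vale.Agent.Lib.P371.Wirt

/-! Density, angular speed and the angle function of a finite family of `H¹` functions. -/

open MeasureTheory Set Filter Topology

namespace Vale.Agent.Lib.P371

noncomputable section

variable {ι : Type*} [Fintype ι]

/-- The density. -/
def rho (f : ι → ℝ → ℝ) (y : ℝ) : ℝ := ∑ i, f i y ^ 2

/-- The derivative of the density. -/
def drho (f f' : ι → ℝ → ℝ) (y : ℝ) : ℝ := 2 * ∑ i, f i y * f' i y

/-- The kinetic density. -/
def dens (f' : ι → ℝ → ℝ) (y : ℝ) : ℝ := ∑ i, f' i y ^ 2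

/-- The squared angular speed. -/
def bsq (f f' : ι → ℝ → ℝ) (y : ℝ) : ℝ :=
  (dens f' y - drho f f' y ^ 2 / (4 * rho f y)) / rho f y

/-- The angular speed. -/
def bb (f f' : ι → ℝ → ℝ) (y : ℝ) : ℝ := Real.sqrt (bsq f f' y)

/-- The angle function. -/
def AA (f f' : ι → ℝ → ℝ) (y : ℝ) : ℝ := ∫ t in (0:ℝ)..y, bb f f' t

/-- The hypotheses on the family. -/
structure Fam (f f' : ι → ℝ → ℝ) (Λ : ℝ) : Prop where
  h1 : ∀ i, RealH1 (f i) (f' i)
  meas' : ∀ i, Measurable (f' i)
  bessel : ∀ a : ι → ℝ, ∫ y, (∑ i, a i * f i y) ^ 2 ≤ Λ * ∑ i, a i ^ 2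
  pos : ∀ y, 0 < rho f y

lemma memLp_two_of_sq_le {g h : ℝ → ℝ} (hgm : AEStronglyMeasurable g volume) (hh : Integrable h)
    (hgh : ∀ x, g x ^ 2 ≤ h x) : MemLp g 2 volume := by
  rw [memLp_two_iff_integrable_sq hgm]
  refine hh.mono' (hgm.pow 2) (ae_of_all _ fun x => ?_)
  rw [Real.norm_eq_abs, abs_of_nonneg (sq_nonneg _)]
  exact hgh x

lemma drho_sq_le (f f' : ι → ℝ → ℝ) (y : ℝ) :
    drho f f' y ^ 2 ≤ 4 * rho f y * dens f' y := by
  have := Finset.sum_mul_sq_le_sq_mul_sq Finset.univ (fun i => f i y) (fun i => f' i y)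
  unfold drho rho dens
  nlinarith

namespace Fam

variable {f f' : ι → ℝ → ℝ} {Λ : ℝ}

lemma rho_prim (hF : Fam f f' Λ) : Prim (rho f) (drho f f') := by
  have := Prim.sum Finset.univ (fun i _ => (hF.h1 i).prim_sq)
  refine Prim.congr_ae (f' := fun x => ∑ i, 2 * (f i x * f' i x)) ?_ (ae_of_all _ fun x => ?_)
  · exact this
  · unfold drho
    rw [Finset.mul_sum]

lemma rho_continuous (hF : Fam f f' Λ) : Continuous (rho f) := hF.rho_prim.continuous

lemma f_continuous (hF : Fam f f' Λ) (i : ι) : Continuous (f i) := (hF.h1 i).continuous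

lemma rho_integrable (hF : Fam f f' Λ) : Integrable (rho f) :=
  integrable_finsetSum _ fun i _ => (hF.h1 i).sq

lemma dens_integrable (hF : Fam f f' Λ) : Integrable (dens f') :=
  integrable_finsetSum _ fun i _ => (hF.h1 i).sq'

lemma dens_measurable (hF : Fam f f' Λ) : Measurable (dens f') :=
  Finset.measurable_fun_sum _ fun i _ => (hF.meas' i).pow_const 2

lemma drho_measurable (hF : Fam f f' Λ) : Measurable (drho f f') :=
  (Finset.measurable_fun_sum _ fun i _ =>
    (hF.f_continuous i).measurable.mul (hF.meas' i)).const_mul 2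

lemma rho_nonneg (f : ι → ℝ → ℝ) (y : ℝ) : 0 ≤ rho f y :=
  Finset.sum_nonneg fun i _ => sq_nonneg _

lemma dens_nonneg (f' : ι → ℝ → ℝ) (y : ℝ) : 0 ≤ dens f' y :=
  Finset.sum_nonneg fun i _ => sq_nonneg _

lemma exists_rho_bound (hF : Fam f f' Λ) : ∃ C : ℝ, 0 ≤ C ∧ ∀ y, rho f y ≤ C := by
  choose C hC0 hC using fun i => (hF.h1 i).exists_bound
  refine ⟨∑ i, C i ^ 2, Finset.sum_nonneg fun i _ => sq_nonneg _, fun y => ?_⟩
  refine Finset.sum_le_sum fun i _ => ?_
  rw [← sq_abs (f i y)]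
  exact pow_le_pow_left₀ (abs_nonneg _) (hC i y) 2

lemma rho_sq_integrable (hF : Fam f f' Λ) {n : ℕ} :
    Integrable fun y => rho f y ^ (n + 1) := by
  obtain ⟨C, hC0, hC⟩ := hF.exists_rho_bound
  have e : (fun y => rho f y ^ (n + 1)) = fun y => rho f y ^ n * rho f y := by
    funext y
    rw [pow_succ]
  rw [e]
  refine hF.rho_integrable.bdd_mul (c := C ^ n) (hF.rho_continuous.pow n).aestronglyMeasurable
    (ae_of_all _ fun y => ?_)
  rw [Real.norm_eq_abs, abs_of_nonneg (pow_nonneg (rho_nonneg f y) n)]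
  exact pow_le_pow_left₀ (rho_nonneg f y) (hC y) n

lemma drho_memLp (hF : Fam f f' Λ) : MemLp (drho f f') 2 volume := by
  have hsum : MemLp (fun y => ∑ i, f i y * f' i y) 2 volume := by
    refine memLp_finsetSum _ fun i _ => ?_
    obtain ⟨C, hC0, hC⟩ := (hF.h1 i).exists_bound
    refine memLp_two_of_sq_le (h := fun y => C ^ 2 * f' i y ^ 2)
      ((hF.f_continuous i).measurable.mul (hF.meas' i)).aestronglyMeasurable
      ((hF.h1 i).sq'.const_mul _) fun y => ?_
    rw [mul_pow]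
    have : f i y ^ 2 ≤ C ^ 2 := by
      rw [← sq_abs (f i y)]
      exact pow_le_pow_left₀ (abs_nonneg _) (hC y) 2
    exact mul_le_mul_of_nonneg_right this (sq_nonneg _)
  exact hsum.const_mul 2

lemma rho_memLp (hF : Fam f f' Λ) : MemLp (rho f) 2 volume := by
  obtain ⟨C, hC0, hC⟩ := hF.exists_rho_bound
  refine memLp_two_of_sq_le (h := fun y => C * rho f y) hF.rho_continuous.aestronglyMeasurable
    (hF.rho_integrable.const_mul _) fun y => ?_
  rw [sq]
  exact mul_le_mul_of_nonneg_right (hC y) (rho_nonneg f y)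

lemma rho_h1 (hF : Fam f f' Λ) : RealH1 (rho f) (drho f f') :=
  ⟨hF.rho_memLp, hF.drho_memLp, hF.rho_prim.ftc⟩

lemma bsq_nonneg (hF : Fam f f' Λ) (y : ℝ) : 0 ≤ bsq f f' y := by
  have hp := hF.pos y
  unfold bsq
  refine div_nonneg ?_ hp.le
  rw [sub_nonneg, div_le_iff₀ (by positivity)]
  have := drho_sq_le f f' y
  linarith

lemma bb_sq (hF : Fam f f' Λ) (y : ℝ) : bb f f' y ^ 2 = bsq f f' y :=
  Real.sq_sqrt (hF.bsq_nonneg y)

lemma bb_nonneg (f f' : ι → ℝ → ℝ) (y : ℝ) : 0 ≤ bb f f' y := Real.sqrt_nonneg _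

lemma dens_eq (hF : Fam f f' Λ) (y : ℝ) :
    dens f' y = drho f f' y ^ 2 / (4 * rho f y) + rho f y * bb f f' y ^ 2 := by
  have hp := hF.pos y
  rw [hF.bb_sq]
  unfold bsq
  field_simp
  ring

lemma bb_measurable (hF : Fam f f' Λ) : Measurable (bb f f') := by
  unfold bb bsq
  have h1 := hF.rho_continuous.measurable
  have h2 := hF.drho_measurable
  have h3 := hF.dens_measurable
  exact (((h3.sub ((h2.pow_const 2).div (h1.const_mul 4))).div h1)).sqrt

lemma bb_sq_le (hF : Fam f f' Λ) (y : ℝ) : bb f f' y ^ 2 ≤ dens f' y / rho f y := by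
  have hp := hF.pos y
  rw [hF.bb_sq]
  unfold bsq
  rw [div_le_div_iff_of_pos_right hp]
  have : 0 ≤ drho f f' y ^ 2 / (4 * rho f y) := by positivity
  linarith

lemma bb_locallyIntegrable (hF : Fam f f' Λ) : LocallyIntegrable (bb f f') volume := by
  rw [locallyIntegrable_iff]
  intro K hK
  rcases K.eq_empty_or_nonempty with rfl | hne
  · simp
  obtain ⟨x0, hx0, hmin⟩ := hK.exists_isMinOn hne hF.rho_continuous.continuousOn
  have hc := hF.pos x0
  have hD : IntegrableOn (fun y => (1 + dens f' y / rho f x0) / 2) K := by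
    have h1 : IntegrableOn (fun _ : ℝ => (1:ℝ)) K := integrableOn_const hK.measure_lt_top.ne
    have h2 : IntegrableOn (fun y => dens f' y / rho f x0) K :=
      (hF.dens_integrable.div_const _).integrableOn
    exact (h1.add h2).div_const 2
  refine Integrable.mono' hD hF.bb_measurable.aestronglyMeasurable ?_
  rw [ae_restrict_iff' hK.measurableSet]
  refine ae_of_all _ fun y hy => ?_
  rw [Real.norm_eq_abs, abs_of_nonneg (bb_nonneg f f' y)]
  have h1 := hF.bb_sq_le y
  have hy2 : rho f x0 ≤ rho f y := hmin hy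
  have hy3 := hF.pos y
  have h2 : dens f' y / rho f y ≤ dens f' y / rho f x0 :=
    div_le_div_of_nonneg_left (dens_nonneg f' y) hc hy2
  have h3 := sq_nonneg (bb f f' y - 1)
  nlinarith

lemma AA_prim (hF : Fam f f' Λ) : Prim (AA f f') (bb f f') := by
  refine ⟨hF.bb_locallyIntegrable, fun a b => ?_⟩
  have h1 : IntervalIntegrable (bb f f') volume 0 a := by
    exact intervalIntegrable_iff.2 ((hF.bb_locallyIntegrable.integrableOn_isCompact
      isCompact_uIcc).mono_set uIoc_subset_uIcc)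
  have h2 : IntervalIntegrable (bb f f') volume 0 b := by
    exact intervalIntegrable_iff.2 ((hF.bb_locallyIntegrable.integrableOn_isCompact
      isCompact_uIcc).mono_set uIoc_subset_uIcc)
  exact intervalIntegral.integral_interval_sub_left h2 h1

lemma AA_continuous (hF : Fam f f' Λ) : Continuous (AA f f') := hF.AA_prim.continuous

lemma AA_mono (hF : Fam f f' Λ) : Monotone (AA f f') := by
  intro a b hab
  have := hF.AA_prim.ftc a b
  have h2 : 0 ≤ ∫ t in a..b, bb f f' t :=
    intervalIntegral.integral_nonneg hab fun t _ => bb_nonneg f f' t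
  linarith

/-- The square root of the density. -/
lemma uu_prim (hF : Fam f f' Λ) :
    Prim (fun y => Real.sqrt (rho f y)) (fun y => drho f f' y / (2 * Real.sqrt (rho f y))) :=
  hF.rho_prim.sqrt hF.pos

lemma uu_pos (hF : Fam f f' Λ) (y : ℝ) : 0 < Real.sqrt (rho f y) := Real.sqrt_pos.2 (hF.pos y)

end Fam

end

end Vale.Agent.Lib.P371
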