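import Vale.Agent.Lib.P371.CH1

/-! Gram matrices, and the local data attached to a point. -/

open MeasureTheory Set Filter Topology Matrix

namespace Vale.Agent.Lib.P371

noncomputable section

variable {m N : ℕ}

/-- Gram matrix of a family of vector valued functions. -/
def Gram (g : Fin N → ℝ → Fin m → ℂ) (j k : Fin N) : ℂ := ∫ y, star (g j y) ⬝ᵥ g k y

lemma integrable_star_mul {u v : ℝ → ℂ} (hu : MemLp u 2 volume) (hv : MemLp v 2 volume) :
    Integrable (fun y => star (u y) * v y) :=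
  hu.star.integrable_mul hv

lemma integrable_dot {g : Fin N → ℝ → Fin m → ℂ} (hg : ∀ j a, MemLp (fun y => g j y a) 2 volume)
    (j k : Fin N) : Integrable (fun y => star (g j y) ⬝ᵥ g k y) := by
  unfold dotProduct
  refine integrable_finsetSum _ fun a _ => ?_
  exact integrable_star_mul (hg j a) (hg k a)

lemma memLp_combo {g : Fin N → ℝ → Fin m → ℂ} (hg : ∀ j a, MemLp (fun y => g j y a) 2 volume)
    (b : Fin N → ℂ) (a : Fin m) : MemLp (fun y => ∑ j, b j * g j y a) 2 volume :=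
  memLp_finsetSum _ fun j _ => (hg j a).const_mul (b j)

lemma integrable_norm_sq {u : ℝ → ℂ} (hu : MemLp u 2 volume) :
    Integrable (fun y => ‖u y‖ ^ 2) :=
  hu.integrable_norm_pow (by norm_num)

lemma integrable_combo_sq {g : Fin N → ℝ → Fin m → ℂ}
    (hg : ∀ j a, MemLp (fun y => g j y a) 2 volume) (b : Fin N → ℂ) :
    Integrable (fun y => ∑ a, ‖∑ j, b j * g j y a‖ ^ 2) :=
  integrable_finsetSum _ fun a _ => integrable_norm_sq (memLp_combo hg b a)

lemma dot_expand (b : Fin N → ℂ) (g : Fin N → Fin m → ℂ) :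
    ((∑ a, ‖∑ j, b j * g j a‖ ^ 2 : ℝ) : ℂ) =
      ∑ j, ∑ k, star (b j) * b k * (star (g j) ⬝ᵥ g k) := by
  push_cast
  calc ∑ a, ((‖∑ j, b j * g j a‖ : ℂ)) ^ 2
      = ∑ a, star (∑ j, b j * g j a) * ∑ k, b k * g k a := by
        refine Finset.sum_congr rfl fun a _ => ?_
        rw [← norm_sq_eq_star_mul]
        push_cast
        rfl
    _ = ∑ a, ∑ j, ∑ k, star (b j) * b k * (star (g j a) * g k a) := by
        refine Finset.sum_congr rfl fun a _ => ?_
        rw [star_sum, Finset.sum_mul_sum]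
        refine Finset.sum_congr rfl fun j _ => Finset.sum_congr rfl fun k _ => ?_
        rw [star_mul']
        ring
    _ = ∑ j, ∑ k, star (b j) * b k * (star (g j) ⬝ᵥ g k) := by
        rw [Finset.sum_comm]
        refine Finset.sum_congr rfl fun j _ => ?_
        rw [Finset.sum_comm]
        refine Finset.sum_congr rfl fun k _ => ?_
        unfold dotProduct
        rw [Finset.mul_sum]
        rfl

lemma gram_expand {g : Fin N → ℝ → Fin m → ℂ} (hg : ∀ j a, MemLp (fun y => g j y a) 2 volume)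
    (b : Fin N → ℂ) :
    ((∫ y, ∑ a, ‖∑ j, b j * g j y a‖ ^ 2 : ℝ) : ℂ) =
      ∑ j, ∑ k, star (b j) * b k * Gram g j k := by
  rw [← integral_complex_ofReal]
  simp_rw [fun y => dot_expand b (fun j => g j y)]
  rw [integral_finsetSum]
  · refine Finset.sum_congr rfl fun j _ => ?_
    rw [integral_finsetSum]
    · refine Finset.sum_congr rfl fun k _ => ?_
      rw [integral_const_mul]
      rfl
    · exact fun k _ => (integrable_dot hg j k).const_mul _
  · exact fun j _ => integrable_finsetSum _ fun k _ => (integrable_dot hg j k).const_mul _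

lemma gram_orth {g : Fin N → ℝ → Fin m → ℂ} (hg : ∀ j a, MemLp (fun y => g j y a) 2 volume)
    (horth : ∀ j k, Gram g j k = if j = k then 1 else 0) (b : Fin N → ℂ) :
    ∫ y, ∑ a, ‖∑ j, b j * g j y a‖ ^ 2 = ∑ j, ‖b j‖ ^ 2 := by
  have h := gram_expand hg b
  simp_rw [horth] at h
  simp only [mul_ite, mul_one, mul_zero, Finset.sum_ite_eq, Finset.mem_univ, if_true] at h
  simp_rw [← norm_sq_eq_star_mul] at h
  exact_mod_cast h

lemma coefU_combo (U : Matrix (Fin m) (Fin m) ℂ) (i : Fin m) (b : Fin N → ℂ)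
    (g : Fin N → Fin m → ℂ) :
    coefU U i (fun a => ∑ j, b j * g j a) = ∑ j, b j * coefU U i (g j) := by
  unfold coefU
  simp_rw [Finset.mul_sum]
  rw [Finset.sum_comm]
  refine Finset.sum_congr rfl fun j _ => Finset.sum_congr rfl fun a _ => ?_
  ring

/-- The scalar function attached to an index `i` and coefficients `b`. -/
def Phi (U : Matrix (Fin m) (Fin m) ℂ) (g : Fin N → ℝ → Fin m → ℂ) (i : Fin m) (b : Fin N → ℂ)
    (y : ℝ) : ℂ :=
  coefU U i (fun a => ∑ j, b j * g j y a)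

lemma Phi_ch1 {ψ ψ' : Fin N → ℝ → Fin m → ℂ} (hψ : ∀ j, IsH1 (ψ j) (ψ' j))
    (U : Matrix (Fin m) (Fin m) ℂ) (i : Fin m) (b : Fin N → ℂ) :
    CH1 (Phi U ψ i b) (Phi U ψ' i b) := by
  unfold Phi coefU
  exact CH1.sum _ fun a _ => (CH1.sum _ fun j _ => ((hψ j).ch1 a).const_mul (b j)).const_mul _

/-- `(re z)² ≤ ‖z‖²`. -/
lemma re_sq_le_norm_sq (z : ℂ) : z.re ^ 2 ≤ ‖z‖ ^ 2 := by
  rw [← sq_abs z.re]
  exact pow_le_pow_left₀ (abs_nonneg _) (Complex.abs_re_le_norm z) 2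

lemma Phi_re_sq_le {g : Fin N → ℝ → Fin m → ℂ} (hg : ∀ j a, MemLp (fun y => g j y a) 2 volume)
    {U : Matrix (Fin m) (Fin m) ℂ} (hU : U * star U = 1) (i : Fin m) (b : Fin N → ℂ)
    (hi : Integrable fun y => (Phi U g i b y).re ^ 2) :
    ∫ y, (Phi U g i b y).re ^ 2 ≤ ∫ y, ∑ a, ‖∑ j, b j * g j y a‖ ^ 2 := by
  refine integral_mono hi (integrable_combo_sq hg b) fun y => ?_
  exact (re_sq_le_norm_sq _).trans (norm_coefU_sq_le hU i _)

/-- The remainder after smoothing of a component. -/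
def wc (g : ℝ → Fin m → ℂ) (t x : ℝ) (a : Fin m) : ℂ := g x a - Vc t (fun y => g y a) x

lemma Vc_Phi {ψ ψ' : Fin N → ℝ → Fin m → ℂ} (hψ : ∀ j, IsH1 (ψ j) (ψ' j))
    (U : Matrix (Fin m) (Fin m) ℂ) (i : Fin m) (b : Fin N → ℂ) {t : ℝ} (ht : 0 < t) (x : ℝ) :
    Vc t (Phi U ψ i b) x = coefU U i (fun a => ∑ j, b j * Vc t (fun y => ψ j y a) x) := by
  unfold Phi coefU
  rw [Vc_sum ht _ (F' := fun a y => star (U a i) * ∑ j, b j * ψ' j y a)
    fun a _ => (CH1.sum _ fun j _ => ((hψ j).ch1 a).const_mul (b j)).const_mul _]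
  refine Finset.sum_congr rfl fun a _ => ?_
  rw [Vc_const_mul ht _ (CH1.sum _ fun j _ => ((hψ j).ch1 a).const_mul (b j))]
  congr 1
  rw [Vc_sum ht _ (F' := fun j y => b j * ψ' j y a) fun j _ => ((hψ j).ch1 a).const_mul (b j)]
  refine Finset.sum_congr rfl fun j _ => ?_
  rw [Vc_const_mul ht _ ((hψ j).ch1 a)]

lemma Phi_sub_Vc {ψ ψ' : Fin N → ℝ → Fin m → ℂ} (hψ : ∀ j, IsH1 (ψ j) (ψ' j))
    (U : Matrix (Fin m) (Fin m) ℂ) (i : Fin m) (b : Fin N → ℂ) {t : ℝ} (ht : 0 < t) (x : ℝ) :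
    Phi U ψ i b x - Vc t (Phi U ψ i b) x = ∑ j, b j * coefU U i (wc (ψ j) t x) := by
  rw [Vc_Phi hψ U i b ht x]
  unfold Phi
  rw [coefU_combo, coefU_combo U i b (fun j a => Vc t (fun y => ψ j y a) x),
    ← Finset.sum_sub_distrib]
  refine Finset.sum_congr rfl fun j _ => ?_
  rw [← mul_sub]
  congr 1
  unfold coefU wc
  rw [← Finset.sum_sub_distrib]
  refine Finset.sum_congr rfl fun a _ => ?_
  ring

/-- The Rumin type bound at a point. -/
lemma rumin_bound {ψ ψ' : Fin N → ℝ → Fin m → ℂ} (hψ : ∀ j, IsH1 (ψ j) (ψ' j))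
    (U : Matrix (Fin m) (Fin m) ℂ) (i : Fin m) (b : Fin N → ℂ) {t : ℝ} (ht : 0 < t) (x : ℝ) :
    ((Phi U ψ i b x).re - V t (fun y => (Phi U ψ i b y).re) x) ^ 2 ≤
      (∑ j, ‖b j‖ ^ 2) * ∑ j, ‖coefU U i (wc (ψ j) t x)‖ ^ 2 := by
  rw [← Vc_re, ← Complex.sub_re, Phi_sub_Vc hψ U i b ht x]
  set z := ∑ j, b j * coefU U i (wc (ψ j) t x) with hz
  refine (re_sq_le_norm_sq z).trans ?_
  have h1 : ‖z‖ ≤ ∑ j, ‖b j‖ * ‖coefU U i (wc (ψ j) t x)‖ := by
    refine (norm_sum_le _ _).trans (le_of_eq ?_)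
    simp_rw [norm_mul]
  have h2 := Finset.sum_mul_sq_le_sq_mul_sq Finset.univ (fun j => ‖b j‖)
    (fun j => ‖coefU U i (wc (ψ j) t x)‖)
  exact (pow_le_pow_left₀ (norm_nonneg _) h1 2).trans h2

end

end Vale.Agent.Lib.P371
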