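import Vale.Agent.Lib.P371.Kinetic

/-! Real `H¹(ℝ)` functions and the integrated kinetic energy bound. -/

open MeasureTheory Set Filter Topology

namespace Vale.Agent.Lib.P371

noncomputable section

/-- `f` lies in `H¹(ℝ)` with weak derivative `f'`. -/
structure RealH1 (f f' : ℝ → ℝ) : Prop where
  memLp : MemLp f 2 volume
  memLp' : MemLp f' 2 volume
  ftc : ∀ a b, f b - f a = ∫ t in a..b, f' t

namespace RealH1

variable {f f' : ℝ → ℝ}

lemma sq (h : RealH1 f f') : Integrable fun x => f x ^ 2 := h.memLp.integrable_sq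

lemma sq' (h : RealH1 f f') : Integrable fun x => f' x ^ 2 := h.memLp'.integrable_sq

lemma intervalIntegrable' (h : RealH1 f f') (a b : ℝ) : IntervalIntegrable f' volume a b :=
  intervalIntegrable_iff.2 (((h.memLp'.locallyIntegrable (by norm_num)).integrableOn_isCompact
    isCompact_uIcc).mono_set uIoc_subset_uIcc)

lemma continuous (h : RealH1 f f') : Continuous f := by
  have h1 : Continuous fun b => ∫ t in (0:ℝ)..b, f' t :=
    intervalIntegral.continuous_primitive (fun a b => h.intervalIntegrable' a b) 0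
  have h2 : f = fun b => f 0 + ∫ t in (0:ℝ)..b, f' t := by
    funext b
    rw [← h.ftc 0 b]
    ring
  rw [h2]
  exact continuous_const.add h1

lemma measurable (h : RealH1 f f') : Measurable f := h.continuous.measurable

end RealH1

/-- Cauchy-Schwarz on a finite interval, in the form needed for translations. -/
lemma sq_setIntegral_le {g : ℝ → ℝ} {s : ℝ} (hs : 0 ≤ s) (hgm : AEStronglyMeasurable g (volume.restrict (Ioc 0 s)))
    (hg2 : IntegrableOn (fun v => g v ^ 2) (Ioc 0 s)) :
    (∫ v in Ioc 0 s, g v) ^ 2 ≤ s * ∫ v in Ioc 0 s, g v ^ 2 := by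
  have hfin : IntegrableOn (fun _ : ℝ => (1:ℝ)) (Ioc 0 s) := by
    simp [integrableOn_const_iff]
  have hg : IntegrableOn g (Ioc 0 s) := by
    refine Integrable.mono' ((hfin.add hg2).div_const 2) hgm (ae_of_all _ fun v => ?_)
    simp only [Pi.add_apply, Real.norm_eq_abs]
    have := abs_mul_le_half_sq 1 (g v)
    simpa using this
  set I := ∫ v in Ioc 0 s, g v with hI
  set D := ∫ v in Ioc 0 s, g v ^ 2 with hD
  have hvol : ∫ _ in Ioc 0 s, (1:ℝ) = s := by
    simp [hs]
  rcases hs.eq_or_lt with h0 | hpos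
  · subst h0
    simp [hI]
  have h0 : 0 ≤ ∫ v in Ioc 0 s, (g v * s - I) ^ 2 :=
    integral_nonneg fun v => sq_nonneg _
  have e : ∀ v, (g v * s - I) ^ 2 = s ^ 2 * g v ^ 2 - 2 * s * I * g v + I ^ 2 * 1 := by
    intro v; ring
  simp_rw [e] at h0
  have h3 : IntegrableOn (fun v => s ^ 2 * g v ^ 2) (Ioc 0 s) := hg2.const_mul _
  have h4 : IntegrableOn (fun v => 2 * s * I * g v) (Ioc 0 s) := hg.const_mul _
  have h5 : IntegrableOn (fun _ : ℝ => I ^ 2 * (1:ℝ)) (Ioc 0 s) := hfin.const_mul _
  have h34 : IntegrableOn (fun v => s ^ 2 * g v ^ 2 - 2 * s * I * g v) (Ioc 0 s) := h3.sub h4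
  rw [integral_add h34 h5, integral_sub h3 h4, integral_const_mul, integral_const_mul,
    integral_const_mul, hvol] at h0
  have h6 : 0 ≤ s * (s * D - I ^ 2) := by
    have : s ^ 2 * D - 2 * s * I * I + I ^ 2 * s = s * (s * D - I ^ 2) := by ring
    rw [← this]
    exact h0
  have h7 : 0 ≤ s * D - I ^ 2 := nonneg_of_mul_nonneg_right h6 hpos
  linarith

/-- The translation estimate for `s > 0`. -/
lemma translation_bound_pos {f f' : ℝ → ℝ} (h : RealH1 f f') {s : ℝ} (hs : 0 < s) :
    ∫ x, (f x - f (x - s)) ^ 2 ≤ s ^ 2 * ∫ x, f' x ^ 2 := by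
  have hm' : AEStronglyMeasurable f' volume := h.memLp'.aestronglyMeasurable
  have hrep : ∀ x, f x - f (x - s) = ∫ v in Ioc 0 s, f' (x - v) := by
    intro x
    rw [h.ftc (x - s) x, ← intervalIntegral.integral_of_le hs.le]
    have := intervalIntegral.integral_comp_sub_left (a := 0) (b := s) f' x
    rw [this]
    simp
  have hg2 : ∀ x, IntegrableOn (fun v => f' (x - v) ^ 2) (Ioc 0 s) := fun x =>
    (h.sq'.comp_sub_left x).integrableOn
  have hgm : ∀ x, AEStronglyMeasurable (fun v => f' (x - v)) (volume.restrict (Ioc 0 s)) := by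
    intro x
    have h1 : AEStronglyMeasurable (fun v => f' (x - v)) volume :=
      hm'.comp_quasiMeasurePreserving (quasiMeasurePreserving_sub_left volume x)
    exact h1.restrict
  have hpt : ∀ x, (f x - f (x - s)) ^ 2 ≤ s * ∫ v in Ioc 0 s, f' (x - v) ^ 2 := by
    intro x
    rw [hrep x]
    exact sq_setIntegral_le hs.le (hgm x) (hg2 x)
  -- Fubini
  have hI : Integrable (fun p : ℝ × ℝ => f' (p.1 - p.2) ^ 2)
      (volume.prod (volume.restrict (Ioc 0 s))) := by
    have h1 : Integrable (fun _ : ℝ => (1:ℝ)) (volume.restrict (Ioc 0 s)) := by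
      simp
    have := h1.convolution_integrand (μ := volume) (ν := volume.restrict (Ioc 0 s))
      (ContinuousLinearMap.mul ℝ ℝ) h.sq'
    simpa using this
  have hJ : Integrable fun x => ∫ v in Ioc 0 s, f' (x - v) ^ 2 := hI.integral_prod_left
  have hsw := integral_integral_swap (f := fun x v => f' (x - v) ^ 2) hI
  have hval : ∫ x, ∫ v in Ioc 0 s, f' (x - v) ^ 2 = s * ∫ x, f' x ^ 2 := by
    rw [hsw]
    have : ∀ v, ∫ x, f' (x - v) ^ 2 = ∫ x, f' x ^ 2 := fun v =>
      integral_sub_right_eq_self (μ := volume) (fun x => f' x ^ 2) v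
    simp_rw [this]
    simp [hs.le]
  have hleft : Integrable fun x => (f x - f (x - s)) ^ 2 := by
    have e : ∀ x, (f x - f (x - s)) ^ 2 = f x ^ 2 + f (x - s) ^ 2 - 2 * (f x * f (x - s)) := by
      intro x; ring
    simp_rw [e]
    exact (h.sq.add (integrable_sq_comp_sub h.sq s)).sub
      ((integrable_mul_shift h.measurable h.sq s).const_mul 2)
  calc ∫ x, (f x - f (x - s)) ^ 2 ≤ ∫ x, s * ∫ v in Ioc 0 s, f' (x - v) ^ 2 :=
        integral_mono hleft (hJ.const_mul s) hpt
    _ = s ^ 2 * ∫ x, f' x ^ 2 := by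
        rw [integral_const_mul, hval]
        ring

lemma translation_bound {f f' : ℝ → ℝ} (h : RealH1 f f') (s : ℝ) :
    ∫ x, (f x - f (x - s)) ^ 2 ≤ s ^ 2 * ∫ x, f' x ^ 2 := by
  rcases lt_trichotomy s 0 with hs | rfl | hs
  · have h1 := translation_bound_pos h (s := -s) (by linarith)
    have h2 : ∫ x, (f x - f (x - s)) ^ 2 = ∫ x, (f x - f (x - (-s))) ^ 2 := by
      rw [← integral_sub_right_eq_self (μ := volume) (fun x => (f x - f (x - s)) ^ 2) (-s)]
      refine integral_congr_ae (ae_of_all _ fun x => ?_)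
      simp only [sub_neg_eq_add, add_sub_cancel_right]
      ring
    rw [h2]
    simpa using h1
  · simp
  · exact translation_bound_pos h hs

section Kin

variable {f : ℝ → ℝ}

lemma measurable_V_uncurry (hm : Measurable f) :
    Measurable (fun p : ℝ × ℝ => V p.1 f p.2) := by
  have : StronglyMeasurable (fun q : (ℝ × ℝ) × ℝ => E q.1.1 q.2 * f (q.1.2 - q.2)) := by
    have h1 : Measurable (fun q : (ℝ × ℝ) × ℝ => E q.1.1 q.2) :=
      measurable_E_uncurry.comp ((measurable_fst.comp measurable_fst).prodMk measurable_snd)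
    have h2 : Measurable (fun q : (ℝ × ℝ) × ℝ => f (q.1.2 - q.2)) :=
      hm.comp ((measurable_snd.comp measurable_fst).sub measurable_snd)
    exact (h1.mul h2).stronglyMeasurable
  have h3 := (StronglyMeasurable.integral_prod_right' (ν := volume) this).measurable
  exact (measurable_fst.div_const 2).mul h3

lemma lintegral_Icc_deriv_le {L : ℝ → ℝ} {B : ℝ}
    (hmono : MonotoneOn L (Ioi 0)) (hnn : ∀ t, 0 < t → 0 ≤ L t) (hle : ∀ t, 0 < t → L t ≤ B)
    (hd : ∀ t, 0 < t → 0 ≤ deriv L t) {a b : ℝ} (ha : 0 < a) :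
    ∫⁻ t in Icc a b, ENNReal.ofReal (deriv L t) ≤ ENNReal.ofReal B := by
  rcases le_or_gt a b with hab | hab
  · have hsub : uIcc a b ⊆ Ioi 0 := by
      rw [uIcc_of_le hab]
      exact fun x hx => lt_of_lt_of_le ha hx.1
    have hm2 : MonotoneOn L (uIcc a b) := hmono.mono hsub
    have hint := hm2.intervalIntegrable_deriv
    have hmem := hm2.intervalIntegral_deriv_mem_uIcc
    have hba : L a ≤ L b := hmono (mem_Ioi.mpr ha) (mem_Ioi.mpr (lt_of_lt_of_le ha hab)) hab
    have hle2 : ∫ x in a..b, deriv L x ≤ B := by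
      rw [uIcc_of_le (by linarith)] at hmem
      have := hmem.2
      have h1 := hle b (lt_of_lt_of_le ha hab)
      have h2 := hnn a ha
      linarith
    have hintOn : IntegrableOn (deriv L) (Icc a b) := by
      rw [integrableOn_Icc_iff_integrableOn_Ioc]
      exact (intervalIntegrable_iff_integrableOn_Ioc_of_le hab).1 hint
    have h3 : ∫⁻ t in Icc a b, ENNReal.ofReal (deriv L t) =
        ENNReal.ofReal (∫ t in Icc a b, deriv L t) := by
      refine (ofReal_integral_eq_lintegral_ofReal hintOn ?_).symm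
      filter_upwards [ae_restrict_mem measurableSet_Icc] with t ht
      exact hd t (lt_of_lt_of_le ha ht.1)
    rw [h3]
    apply ENNReal.ofReal_le_ofReal
    rw [integral_Icc_eq_integral_Ioc, ← intervalIntegral.integral_of_le hab]
    exact hle2
  · simp [Icc_eq_empty (not_le.mpr hab)]

lemma lintegral_Ioi_deriv_le {L : ℝ → ℝ} {B : ℝ}
    (hmono : MonotoneOn L (Ioi 0)) (hnn : ∀ t, 0 < t → 0 ≤ L t) (hle : ∀ t, 0 < t → L t ≤ B)
    (hd : ∀ t, 0 < t → 0 ≤ deriv L t) :
    ∫⁻ t in Ioi 0, ENNReal.ofReal (deriv L t) ≤ ENNReal.ofReal B := by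
  have hU : Ioi (0:ℝ) = ⋃ n : ℕ, Icc (1 / ((n:ℝ) + 1)) ((n:ℝ) + 1) := by
    ext t
    simp only [mem_Ioi, mem_iUnion, mem_Icc]
    constructor
    · intro ht
      obtain ⟨n, hn⟩ := exists_nat_gt (max t (1 / t))
      refine ⟨n, ?_, ?_⟩
      · have h1 : 1 / t < n := lt_of_le_of_lt (le_max_right _ _) hn
        have hn0 : (0:ℝ) < n := lt_trans (by positivity) h1
        rw [div_le_iff₀ (by positivity)]
        rw [div_lt_iff₀ ht] at h1
        nlinarith
      · have h1 : t < n := lt_of_le_of_lt (le_max_left _ _) hn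
        linarith
    · rintro ⟨n, h1, _⟩
      have : (0:ℝ) < 1 / ((n:ℝ) + 1) := by positivity
      linarith
  rw [hU, setLIntegral_iUnion_of_directed]
  · refine iSup_le fun n => ?_
    exact lintegral_Icc_deriv_le hmono hnn hle hd (by positivity)
  · refine directed_of_isDirected_le ?_
    intro m n hmn
    apply Icc_subset_Icc
    · apply one_div_le_one_div_of_le (by positivity)
      have : (m:ℝ) ≤ n := by exact_mod_cast hmn
      linarith
    · have : (m:ℝ) ≤ n := by exact_mod_cast hmn
      linarith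

/-- The integrated kinetic energy bound, in the order `t` then `x`. -/
lemma kinetic_bound_aux (hm : Measurable f) (h2 : Integrable fun x => f x ^ 2) {B : ℝ}
    (hB : ∀ s, ∫ x, (f x - f (x - s)) ^ 2 ≤ s ^ 2 * B) :
    ∫⁻ t in Ioi 0, ∫⁻ x, ENNReal.ofReal (2 * t * (f x - V t f x) ^ 2) ≤ ENNReal.ofReal B := by
  have hder : ∀ t, 0 < t → deriv (Lam f) t = 2 * t * ∫ x, (f x - V t f x) ^ 2 :=
    fun t ht => (hasDerivAt_Lam ht hm h2).deriv
  have hdn : ∀ t, 0 < t → 0 ≤ deriv (Lam f) t := by
    intro t ht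
    rw [hder t ht]
    exact mul_nonneg (by positivity) (integral_nonneg fun x => sq_nonneg _)
  have hmono : MonotoneOn (Lam f) (Ioi 0) := by
    apply monotoneOn_of_deriv_nonneg (convex_Ioi 0)
    · intro t ht
      exact (hasDerivAt_Lam ht hm h2).continuousAt.continuousWithinAt
    · intro t ht
      rw [interior_Ioi] at ht
      exact (hasDerivAt_Lam ht hm h2).differentiableAt.differentiableWithinAt
    · intro t ht
      rw [interior_Ioi] at ht
      exact hdn t ht
  have h3 := lintegral_Ioi_deriv_le hmono (fun t ht => Lam_nonneg ht hm h2)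
    (fun t ht => Lam_le ht hm h2 hB) hdn
  refine le_trans (le_of_eq ?_) h3
  refine setLIntegral_congr_fun measurableSet_Ioi fun t ht => ?_
  have ht' : 0 < t := ht
  rw [hder t ht']
  rw [← ofReal_integral_eq_lintegral_ofReal ((integrable_sub_V_sq ht' hm h2).const_mul _)
    (ae_of_all _ fun x => mul_nonneg (by positivity) (sq_nonneg _)), integral_const_mul]

/-- The integrated kinetic energy bound for a real `H¹` function. -/
theorem kinetic_bound {f' : ℝ → ℝ} (h : RealH1 f f') :
    ∫⁻ x, ∫⁻ t in Ioi 0, ENNReal.ofReal (2 * t * (f x - V t f x) ^ 2) ≤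
      ENNReal.ofReal (∫ x, f' x ^ 2) := by
  have hm := h.measurable
  rw [lintegral_lintegral_swap]
  · exact kinetic_bound_aux hm h.sq (translation_bound h)
  · have h1 : Measurable (fun p : ℝ × ℝ => f p.1 - V p.2 f p.1) :=
      (hm.comp measurable_fst).sub ((measurable_V_uncurry hm).comp (measurable_snd.prodMk measurable_fst))
    have h2 : Measurable (fun p : ℝ × ℝ => ENNReal.ofReal (2 * p.2 * (f p.1 - V p.2 f p.1) ^ 2)) :=
      ENNReal.measurable_ofReal.comp ((measurable_const.mul measurable_snd).mul (h1.pow_const 2))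
    exact h2.aemeasurable

end Kin

end

end Vale.Agent.Lib.P371
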