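import Mathlib

/-! Elementary facts about the two-sided exponential kernel `exp (-t |z|)`. -/

open MeasureTheory Set Filter Topology

namespace Vale.Agent.Lib.P371

noncomputable section

/-- The kernel `exp (-t |z|)`. -/
def E (t z : ℝ) : ℝ := Real.exp (-(t * |z|))

lemma E_pos (t z : ℝ) : 0 < E t z := Real.exp_pos _

lemma E_nonneg (t z : ℝ) : 0 ≤ E t z := (E_pos t z).le

lemma E_neg (t z : ℝ) : E t (-z) = E t z := by simp [E]

lemma E_sub_comm (t x y : ℝ) : E t (x - y) = E t (y - x) := by simp [E, abs_sub_comm]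

lemma continuous_E (t : ℝ) : Continuous (E t) := by
  unfold E; fun_prop

lemma measurable_E_uncurry : Measurable (fun p : ℝ × ℝ => E p.1 p.2) := by
  unfold E; fun_prop

lemma E_le_one {t : ℝ} (ht : 0 ≤ t) (z : ℝ) : E t z ≤ 1 := by
  unfold E
  rw [Real.exp_le_one_iff]
  have := abs_nonneg z
  nlinarith

lemma integrableOn_Ioi_pow_exp (k : ℕ) {b : ℝ} (hb : 0 < b) :
    IntegrableOn (fun u : ℝ => u ^ k * Real.exp (-(b * u))) (Ioi 0) := by
  have h := integrableOn_rpow_mul_exp_neg_mul_rpow (p := 1) (s := k) (b := b)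
    (by have : (0:ℝ) ≤ k := Nat.cast_nonneg k
        linarith) one_pos hb
  refine h.congr_fun ?_ measurableSet_Ioi
  intro u hu
  simp only [Real.rpow_natCast, Real.rpow_one]
  ring_nf

lemma integral_Ioi_pow_exp (k : ℕ) {b : ℝ} (hb : 0 < b) :
    ∫ u in Ioi (0:ℝ), u ^ k * Real.exp (-(b * u)) = k.factorial / b ^ (k + 1) := by
  have h := Real.integral_rpow_mul_exp_neg_mul_Ioi (a := (k:ℝ) + 1) (r := b)
    (by positivity) hb
  simp only [add_sub_cancel_right, Real.rpow_natCast] at h
  rw [h]
  have h2 : Real.Gamma ((k:ℝ) + 1) = k.factorial := Real.Gamma_nat_eq_factorial k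
  rw [h2, one_div, Real.inv_rpow hb.le, ← Real.rpow_neg hb.le]
  have h3 : (b:ℝ) ^ (-((k:ℝ) + 1)) = (b ^ (k + 1))⁻¹ := by
    rw [Real.rpow_neg hb.le]
    norm_cast
  rw [h3]
  field_simp

lemma integrable_abs_pow_E (k : ℕ) {t : ℝ} (ht : 0 < t) :
    Integrable (fun z : ℝ => |z| ^ k * E t z) := by
  have h1 : IntegrableOn (fun z : ℝ => |z| ^ k * E t z) (Ioi 0) := by
    refine (integrableOn_Ioi_pow_exp k ht).congr_fun ?_ measurableSet_Ioi
    intro u hu
    have : |u| = u := abs_of_pos hu
    simp [E, this]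
  have h2 : IntegrableOn (fun z : ℝ => |z| ^ k * E t z) (Iic 0) := by
    have := h1.comp_neg
    have h3 : IntegrableOn (fun z : ℝ => |z| ^ k * E t z) (Iio 0) := by
      simpa [Function.comp_def, E] using this
    exact (integrableOn_Iic_iff_integrableOn_Iio).2 h3
  have := h2.union h1
  rwa [Iic_union_Ioi, integrableOn_univ] at this

lemma integrable_E {t : ℝ} (ht : 0 < t) : Integrable (E t) := by
  simpa using integrable_abs_pow_E 0 ht

lemma integral_abs_pow_E (k : ℕ) {t : ℝ} (ht : 0 < t) :
    ∫ z : ℝ, |z| ^ k * E t z = 2 * (k.factorial / t ^ (k + 1)) := by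
  have h := integral_comp_abs (f := fun u : ℝ => u ^ k * Real.exp (-(t * u)))
  rw [integral_Ioi_pow_exp k ht] at h
  rw [← h]
  refine integral_congr_ae (ae_of_all _ fun z => ?_)
  simp [E]

lemma integral_E {t : ℝ} (ht : 0 < t) : ∫ z, E t z = 2 / t := by
  have := integral_abs_pow_E 0 ht
  simp only [pow_zero, one_mul, Nat.factorial_zero, Nat.cast_one, zero_add, pow_one] at this
  rw [this]; ring

lemma integral_sq_E {t : ℝ} (ht : 0 < t) : ∫ z, z ^ 2 * E t z = 4 / t ^ 3 := by
  have := integral_abs_pow_E 2 ht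
  have h2 : (fun z : ℝ => z ^ 2 * E t z) = fun z : ℝ => |z| ^ 2 * E t z := by
    funext z; rw [sq_abs]
  rw [h2, this]
  simp [Nat.factorial]
  ring

lemma integrable_E_mul_E {t : ℝ} (ht : 0 < t) (s : ℝ) :
    Integrable (fun z => E t z * E t (z - s)) := by
  have h : Integrable (fun z => E t (z - s) * E t z) :=
    (integrable_E ht).bdd_mul (c := 1) (((continuous_E t).comp (continuous_id.sub continuous_const)).aestronglyMeasurable)
      (ae_of_all _ fun z => by
        rw [Real.norm_of_nonneg (E_nonneg _ _)]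
        exact E_le_one ht.le _)
  simpa [mul_comm] using h

lemma integral_E_mul_E_of_nonneg {t : ℝ} (ht : 0 < t) {s : ℝ} (hs : 0 ≤ s) :
    ∫ z, E t z * E t (z - s) = (1 / t + s) * Real.exp (-(t * s)) := by
  have hI := integrable_E_mul_E ht s
  have h1 : ∫ z in Iic (0:ℝ), E t z * E t (z - s) = Real.exp (-(t * s)) / (2 * t) := by
    have : ∀ z ∈ Iic (0:ℝ), E t z * E t (z - s) = Real.exp (-(t * s)) * Real.exp ((2 * t) * z) := by
      intro z hz
      have hz' : z ≤ 0 := hz
      have h2 : |z| = -z := abs_of_nonpos hz'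
      have h3 : |z - s| = -(z - s) := abs_of_nonpos (by linarith)
      simp only [E, h2, h3]
      rw [← Real.exp_add, ← Real.exp_add]
      congr 1; ring
    rw [setIntegral_congr_fun measurableSet_Iic this, integral_const_mul,
      integral_exp_mul_Iic (by positivity) 0]
    simp
    ring
  have h2 : ∫ z in Ioc (0:ℝ) s, E t z * E t (z - s) = s * Real.exp (-(t * s)) := by
    have : ∀ z ∈ Ioc (0:ℝ) s, E t z * E t (z - s) = Real.exp (-(t * s)) := by
      intro z hz
      have h2 : |z| = z := abs_of_pos hz.1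
      have h3 : |z - s| = -(z - s) := abs_of_nonpos (by linarith [hz.2])
      simp only [E, h2, h3]
      rw [← Real.exp_add]
      congr 1; ring
    rw [setIntegral_congr_fun measurableSet_Ioc this]
    simp [hs]
  have h3 : ∫ z in Ioi s, E t z * E t (z - s) = Real.exp (-(t * s)) / (2 * t) := by
    have : ∀ z ∈ Ioi s, E t z * E t (z - s) = Real.exp (t * s) * Real.exp ((-(2 * t)) * z) := by
      intro z hz
      have hz' : s < z := hz
      have h2 : |z| = z := abs_of_pos (by linarith)
      have h3 : |z - s| = z - s := abs_of_pos (by linarith)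
      simp only [E, h2, h3]
      rw [← Real.exp_add, ← Real.exp_add]
      congr 1; ring
    rw [setIntegral_congr_fun measurableSet_Ioi this, integral_const_mul,
      integral_exp_mul_Ioi (by linarith) s]
    have h4 : Real.exp (t * s) * (-Real.exp (-(2 * t) * s) / -(2 * t)) =
        (Real.exp (t * s) * Real.exp (-(2 * t) * s)) / (2 * t) := by
      field_simp
    rw [h4, ← Real.exp_add]
    congr 2; ring
  have hsplit : ∫ z, E t z * E t (z - s) =
      (∫ z in Iic (0:ℝ), E t z * E t (z - s)) + ∫ z in Ioi (0:ℝ), E t z * E t (z - s) := by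
    rw [← setIntegral_union (Iic_disjoint_Ioi le_rfl) measurableSet_Ioi hI.integrableOn hI.integrableOn,
      Iic_union_Ioi, Measure.restrict_univ]
  have hsplit2 : ∫ z in Ioi (0:ℝ), E t z * E t (z - s) =
      (∫ z in Ioc (0:ℝ) s, E t z * E t (z - s)) + ∫ z in Ioi s, E t z * E t (z - s) := by
    rw [← setIntegral_union (Ioc_disjoint_Ioi le_rfl) measurableSet_Ioi hI.integrableOn hI.integrableOn,
      Ioc_union_Ioi_eq_Ioi hs]
  rw [hsplit, hsplit2, h1, h2, h3]
  field_simp
  ring

lemma integral_E_mul_E {t : ℝ} (ht : 0 < t) (s : ℝ) :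
    ∫ z, E t z * E t (z - s) = (1 / t + |s|) * E t s := by
  rcases le_total 0 s with hs | hs
  · rw [integral_E_mul_E_of_nonneg ht hs]
    simp [E, abs_of_nonneg hs]
  · have h := integral_E_mul_E_of_nonneg ht (s := -s) (by linarith)
    have h2 : ∫ z, E t z * E t (z - s) = ∫ z, E t z * E t (z - (-s)) := by
      rw [← integral_neg_eq_self (fun z => E t z * E t (z - s))]
      refine integral_congr_ae (ae_of_all _ fun z => ?_)
      simp only
      rw [E_neg]
      congr 1
      rw [← E_neg]
      congr 1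
      ring
    rw [h2, h]
    simp [E, abs_of_nonpos hs]

end

end Vale.Agent.Lib.P371
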