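import Vale.Agent.Lib.P371.Kernel

/-! The kinetic energy identity behind the exponential family of smoothing operators. -/

open MeasureTheory Set Filter Topology

namespace Vale.Agent.Lib.P371

noncomputable section

/-- Autocorrelation of `f`. -/
def C (f : ℝ → ℝ) (z : ℝ) : ℝ := ∫ x, f x * f (x - z)

/-- Convolution of `f` with the probability density `(t/2) exp (-t|z|)`. -/
def V (t : ℝ) (f : ℝ → ℝ) (x : ℝ) : ℝ := t / 2 * ∫ z, E t z * f (x - z)

lemma abs_mul_le_half_sq (a b : ℝ) : |a * b| ≤ (a ^ 2 + b ^ 2) / 2 := by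
  rw [abs_mul]
  have h := sq_nonneg (|a| - |b|)
  have h1 : |a| ^ 2 = a ^ 2 := sq_abs a
  have h2 : |b| ^ 2 = b ^ 2 := sq_abs b
  nlinarith

/-- The basic integrability lemma on the plane. -/
lemma integrable_kernel_prod {a h k : ℝ → ℝ} (ha : Integrable a) (ham : Measurable a)
    (ha0 : ∀ z, 0 ≤ a z) (hm : Measurable h) (hkm : Measurable k)
    (hh2 : Integrable fun x => h x ^ 2) (hk2 : Integrable fun x => k x ^ 2) :
    Integrable (fun p : ℝ × ℝ => a p.2 * (h p.1 * k (p.1 - p.2))) (volume.prod volume) := by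
  have h1 : Integrable (fun p : ℝ × ℝ => h p.1 ^ 2 * a p.2) (volume.prod volume) :=
    Integrable.mul_prod hh2 ha
  have h2 : Integrable (fun p : ℝ × ℝ => a p.2 * k (p.1 - p.2) ^ 2) (volume.prod volume) := by
    have := ha.convolution_integrand (μ := volume) (ν := volume) (ContinuousLinearMap.mul ℝ ℝ) hk2
    simpa using this
  refine Integrable.mono' ((h1.add h2).div_const 2) ?_ ?_
  · exact ((ham.comp measurable_snd).mul ((hm.comp measurable_fst).mul
      (hkm.comp (measurable_fst.sub measurable_snd)))).aestronglyMeasurable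
  · refine ae_of_all _ fun p => ?_
    simp only [Pi.add_apply, Real.norm_eq_abs]
    rw [abs_mul, abs_of_nonneg (ha0 _)]
    have := abs_mul_le_half_sq (h p.1) (k (p.1 - p.2))
    have h3 := ha0 p.2
    nlinarith [mul_le_mul_of_nonneg_left this h3]

section

variable {f : ℝ → ℝ}

lemma integrable_sq_comp_sub (h2 : Integrable fun x => f x ^ 2) (z : ℝ) :
    Integrable fun x => f (x - z) ^ 2 :=
  h2.comp_sub_right z

lemma integrable_mul_shift (hm : Measurable f) (h2 : Integrable fun x => f x ^ 2) (z : ℝ) :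
    Integrable fun x => f x * f (x - z) := by
  refine Integrable.mono' ((h2.add (integrable_sq_comp_sub h2 z)).div_const 2) ?_ ?_
  · exact (hm.mul (hm.comp (measurable_id.sub measurable_const))).aestronglyMeasurable
  · refine ae_of_all _ fun x => ?_
    simpa using abs_mul_le_half_sq (f x) (f (x - z))

lemma integral_sq_shift (z : ℝ) : ∫ x, f (x - z) ^ 2 = ∫ x, f x ^ 2 :=
  integral_sub_right_eq_self (μ := volume) (fun x => f x ^ 2) z

lemma abs_C_le (hm : Measurable f) (h2 : Integrable fun x => f x ^ 2) (z : ℝ) :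
    |C f z| ≤ ∫ x, f x ^ 2 := by
  unfold C
  calc |∫ x, f x * f (x - z)| ≤ ∫ x, |f x * f (x - z)| := abs_integral_le_integral_abs
    _ ≤ ∫ x, (f x ^ 2 + f (x - z) ^ 2) / 2 := by
        refine integral_mono (integrable_mul_shift hm h2 z).abs
          ((h2.add (integrable_sq_comp_sub h2 z)).div_const 2) fun x => ?_
        exact abs_mul_le_half_sq _ _
    _ = ∫ x, f x ^ 2 := by
        rw [integral_div, integral_add h2 (integrable_sq_comp_sub h2 z), integral_sq_shift]
        ring

lemma measurable_C (hm : Measurable f) : Measurable (C f) := by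
  have : StronglyMeasurable (fun p : ℝ × ℝ => f p.2 * f (p.2 - p.1)) :=
    ((hm.comp measurable_snd).mul (hm.comp (measurable_snd.sub measurable_fst))).stronglyMeasurable
  exact (this.integral_prod_right').measurable

lemma C_neg (z : ℝ) : C f (-z) = C f z := by
  unfold C
  have := integral_sub_right_eq_self (μ := volume) (fun x => f x * f (x - (-z))) z
  rw [← this]
  refine integral_congr_ae (ae_of_all _ fun x => ?_)
  simp only [sub_neg_eq_add, sub_add_cancel]
  ring

lemma measurable_V (hm : Measurable f) (t : ℝ) : Measurable (V t f) := by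
  have : StronglyMeasurable (fun p : ℝ × ℝ => E t p.2 * f (p.1 - p.2)) :=
    (((continuous_E t).measurable.comp measurable_snd).mul
      (hm.comp (measurable_fst.sub measurable_snd))).stronglyMeasurable
  exact ((this.integral_prod_right').measurable).const_mul _

lemma integrable_E_mul_sq_shift {t : ℝ} (ht : 0 < t)
    (h2 : Integrable fun x => f x ^ 2) (x : ℝ) :
    Integrable fun z => E t z * f (x - z) ^ 2 := by
  have h3 : Integrable fun z => f (x - z) ^ 2 := h2.comp_sub_left x
  refine h3.bdd_mul (c := 1) (continuous_E t).aestronglyMeasurable (ae_of_all _ fun z => ?_)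
  rw [Real.norm_of_nonneg (E_nonneg _ _)]
  exact E_le_one ht.le _

lemma integrable_E_mul_shift {t : ℝ} (ht : 0 < t) (hm : Measurable f)
    (h2 : Integrable fun x => f x ^ 2) (x : ℝ) :
    Integrable fun z => E t z * f (x - z) := by
  refine Integrable.mono' (((integrable_E ht).add (integrable_E_mul_sq_shift ht h2 x)).div_const 2) ?_ ?_
  · exact ((continuous_E t).measurable.mul (hm.comp (measurable_const.sub measurable_id))).aestronglyMeasurable
  · refine ae_of_all _ fun z => ?_
    simp only [Pi.add_apply, Real.norm_eq_abs]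
    rw [abs_mul, abs_of_nonneg (E_nonneg _ _)]
    have := abs_mul_le_half_sq 1 (f (x - z))
    simp only [one_mul] at this
    have h3 := E_nonneg t z
    nlinarith [mul_le_mul_of_nonneg_left this h3]

/-- Cauchy-Schwarz for the probability density `(t/2) E`. -/
lemma V_sq_le {t : ℝ} (ht : 0 < t) (hm : Measurable f) (h2 : Integrable fun x => f x ^ 2) (x : ℝ) :
    V t f x ^ 2 ≤ t / 2 * ∫ z, E t z * f (x - z) ^ 2 := by
  set B := ∫ z, E t z * f (x - z) with hB
  set D := ∫ z, E t z * f (x - z) ^ 2 with hD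
  have hA : ∫ z, E t z = 2 / t := integral_E ht
  set c := B * (t / 2) with hc
  have h0 : 0 ≤ ∫ z, E t z * (f (x - z) - c) ^ 2 :=
    integral_nonneg fun z => mul_nonneg (E_nonneg _ _) (sq_nonneg _)
  have h1 : ∫ z, E t z * (f (x - z) - c) ^ 2 = D - 2 * c * B + c ^ 2 * (2 / t) := by
    have e : ∀ z, E t z * (f (x - z) - c) ^ 2 =
        E t z * f (x - z) ^ 2 - 2 * c * (E t z * f (x - z)) + c ^ 2 * E t z := by
      intro z; ring
    simp_rw [e]
    rw [integral_add, integral_sub, integral_const_mul, integral_const_mul, hA]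
    · exact integrable_E_mul_sq_shift ht h2 x
    · exact (integrable_E_mul_shift ht hm h2 x).const_mul _
    · exact (integrable_E_mul_sq_shift ht h2 x).sub
        ((integrable_E_mul_shift ht hm h2 x).const_mul _)
    · exact (integrable_E ht).const_mul _
  rw [h1] at h0
  have h3 : V t f x = t / 2 * B := rfl
  rw [h3]
  have ht' : t ≠ 0 := ht.ne'
  have h4 : c ^ 2 * (2 / t) = B ^ 2 * (t / 2) := by
    rw [hc]; field_simp
  have h5 : 2 * c * B = B ^ 2 * t := by
    rw [hc]; ring
  rw [h4, h5] at h0
  have h6 : B ^ 2 * (t / 2) ≤ D := by linarith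
  have h7 : (t / 2 * B) ^ 2 = t / 2 * (B ^ 2 * (t / 2)) := by ring
  rw [h7]
  exact mul_le_mul_of_nonneg_left h6 (by positivity)

lemma integrable_V_sq {t : ℝ} (ht : 0 < t) (hm : Measurable f)
    (h2 : Integrable fun x => f x ^ 2) : Integrable fun x => V t f x ^ 2 := by
  have h1 : Integrable (fun p : ℝ × ℝ => E t p.2 * f (p.1 - p.2) ^ 2) (volume.prod volume) := by
    have := (integrable_E ht).convolution_integrand (μ := volume) (ν := volume)
      (ContinuousLinearMap.mul ℝ ℝ) h2
    simpa using this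
  have h3 := (h1.integral_prod_left).const_mul (t / 2)
  refine Integrable.mono' h3 ?_ ?_
  · exact ((measurable_V hm t).pow_const 2).aestronglyMeasurable
  · refine ae_of_all _ fun x => ?_
    rw [Real.norm_of_nonneg (sq_nonneg _)]
    exact V_sq_le ht hm h2 x

/-- `⟨f, V f⟩` in terms of the autocorrelation. -/
lemma integral_mul_V {t : ℝ} (ht : 0 < t) (hm : Measurable f)
    (h2 : Integrable fun x => f x ^ 2) :
    ∫ x, f x * V t f x = t / 2 * ∫ z, E t z * C f z := by
  have hI := integrable_kernel_prod (integrable_E ht) (continuous_E t).measurable (E_nonneg t)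
    hm hm h2 h2
  have e1 : ∀ x, f x * V t f x = t / 2 * ∫ z, E t z * (f x * f (x - z)) := by
    intro x
    unfold V
    rw [mul_left_comm, ← integral_const_mul]
    congr 2
    funext z
    ring
  simp_rw [e1]
  rw [integral_const_mul]
  congr 1
  have := integral_integral_swap (f := fun x z => E t z * (f x * f (x - z))) hI
  rw [this]
  refine integral_congr_ae (ae_of_all _ fun z => ?_)
  simp only
  rw [integral_const_mul]
  rfl

/-- `∫ f(x-z) f(x-w) dx = C(w-z)`. -/
lemma integral_shift_mul_shift (z w : ℝ) :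
    ∫ x, f (x - z) * f (x - w) = C f (w - z) := by
  unfold C
  rw [← integral_sub_right_eq_self (fun x => f x * f (x - (w - z))) z]
  refine integral_congr_ae (ae_of_all _ fun x => ?_)
  simp only
  congr 2
  ring

/-- `∫ V(x) f(x-z) dx` in terms of the autocorrelation. -/
lemma integral_V_mul_shift {t : ℝ} (ht : 0 < t) (hm : Measurable f)
    (h2 : Integrable fun x => f x ^ 2) (z : ℝ) :
    ∫ x, V t f x * f (x - z) = t / 2 * ∫ s, E t (z - s) * C f s := by
  have hk : Measurable fun x => f (x - z) := hm.comp (measurable_id.sub measurable_const)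
  have hI := integrable_kernel_prod (integrable_E ht) (continuous_E t).measurable (E_nonneg t)
    hk hm (integrable_sq_comp_sub h2 z) h2
  have e1 : ∀ x, V t f x * f (x - z) = t / 2 * ∫ w, E t w * (f (x - z) * f (x - w)) := by
    intro x
    unfold V
    rw [mul_assoc, ← integral_mul_const]
    congr 2
    funext w
    ring
  simp_rw [e1]
  rw [integral_const_mul]
  congr 1
  have := integral_integral_swap (f := fun x w => E t w * (f (x - z) * f (x - w))) hI
  rw [this]
  have e2 : ∀ w, ∫ x, E t w * (f (x - z) * f (x - w)) = E t w * C f (w - z) := by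
    intro w
    rw [integral_const_mul, integral_shift_mul_shift]
  simp_rw [e2]
  rw [← integral_sub_left_eq_self (fun w => E t w * C f (w - z)) volume z]
  refine integral_congr_ae (ae_of_all _ fun s => ?_)
  simp only
  rw [show z - s - z = -s by ring, C_neg]

/-- `∫ V² dx` in terms of the autocorrelation. -/
lemma integral_V_sq {t : ℝ} (ht : 0 < t) (hm : Measurable f)
    (h2 : Integrable fun x => f x ^ 2) :
    ∫ x, V t f x ^ 2 = t ^ 2 / 4 * ∫ s, C f s * ((1 / t + |s|) * E t s) := by
  have hI := integrable_kernel_prod (integrable_E ht) (continuous_E t).measurable (E_nonneg t)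
    (measurable_V hm t) hm (integrable_V_sq ht hm h2) h2
  have e1 : ∀ x, V t f x ^ 2 = t / 2 * ∫ z, E t z * (V t f x * f (x - z)) := by
    intro x
    have hV : V t f x = t / 2 * ∫ z, E t z * f (x - z) := rfl
    calc V t f x ^ 2 = t / 2 * (V t f x * ∫ z, E t z * f (x - z)) := by
          rw [sq]; nth_rw 2 [hV]; ring
      _ = t / 2 * ∫ z, V t f x * (E t z * f (x - z)) := by rw [integral_const_mul]
      _ = t / 2 * ∫ z, E t z * (V t f x * f (x - z)) := by
          congr 2; funext z; ring
  simp_rw [e1]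
  rw [integral_const_mul]
  have h3 := integral_integral_swap (f := fun x z => E t z * (V t f x * f (x - z))) hI
  rw [h3]
  have e2 : ∀ z, ∫ x, E t z * (V t f x * f (x - z)) =
      t / 2 * ∫ s, E t z * (E t (z - s) * C f s) := by
    intro z
    rw [integral_const_mul, integral_V_mul_shift ht hm h2 z, integral_const_mul]
    ring
  simp_rw [e2]
  rw [integral_const_mul]
  -- the final swap
  set M := ∫ x, f x ^ 2 with hM
  have hI2 : Integrable (fun p : ℝ × ℝ => E t p.2 * (E t (p.2 - p.1) * C f p.1))
      (volume.prod volume) := by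
    have h5 : Integrable (fun p : ℝ × ℝ => E t p.2 * E t (p.1 - p.2)) (volume.prod volume) := by
      have := (integrable_E ht).convolution_integrand (μ := volume) (ν := volume)
        (ContinuousLinearMap.mul ℝ ℝ) (integrable_E ht)
      simpa using this
    have h6 := h5.bdd_mul (c := M) (f := fun p : ℝ × ℝ => C f p.1)
      ((measurable_C hm).comp measurable_fst).aestronglyMeasurable
      (ae_of_all _ fun p => by
        rw [Real.norm_eq_abs]
        exact abs_C_le hm h2 _)
    refine h6.congr (ae_of_all _ fun p => ?_)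
    simp only
    rw [E_sub_comm t p.2 p.1]
    ring
  have h7 := integral_integral_swap (f := fun s z => E t z * (E t (z - s) * C f s)) hI2
  rw [← h7]
  have e3 : ∀ s, ∫ z, E t z * (E t (z - s) * C f s) = C f s * ((1 / t + |s|) * E t s) := by
    intro s
    have : ∀ z, E t z * (E t (z - s) * C f s) = (E t z * E t (z - s)) * C f s := by
      intro z; ring
    simp_rw [this]
    rw [integral_mul_const, integral_E_mul_E ht s]
    ring
  simp_rw [e3]
  ring

/-- The integrals `J` and `J₁`. -/
def J (f : ℝ → ℝ) (t : ℝ) : ℝ := ∫ s, C f s * E t s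

def J1 (f : ℝ → ℝ) (t : ℝ) : ℝ := ∫ s, C f s * (|s| * E t s)

/-- The monotone quantity. -/
def Lam (f : ℝ → ℝ) (t : ℝ) : ℝ := t ^ 2 * (∫ x, f x ^ 2) - t ^ 3 / 2 * J f t

lemma integrable_C_mul_E {t : ℝ} (ht : 0 < t) (hm : Measurable f)
    (h2 : Integrable fun x => f x ^ 2) : Integrable fun s => C f s * E t s :=
  (integrable_E ht).bdd_mul (c := ∫ x, f x ^ 2) (measurable_C hm).aestronglyMeasurable
    (ae_of_all _ fun s => by
      rw [Real.norm_eq_abs]
      exact abs_C_le hm h2 s)

lemma integrable_C_mul_abs_E {t : ℝ} (ht : 0 < t) (hm : Measurable f)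
    (h2 : Integrable fun x => f x ^ 2) : Integrable fun s => C f s * (|s| * E t s) := by
  have h := integrable_abs_pow_E 1 ht
  simp only [pow_one] at h
  exact h.bdd_mul (c := ∫ x, f x ^ 2) (measurable_C hm).aestronglyMeasurable
    (ae_of_all _ fun s => by
      rw [Real.norm_eq_abs]
      exact abs_C_le hm h2 s)

lemma hasDerivAt_E_param (s t : ℝ) : HasDerivAt (fun τ => E τ s) (-(|s| * E t s)) t := by
  unfold E
  have h1 : HasDerivAt (fun τ : ℝ => -(τ * |s|)) (-(1 * |s|)) t :=
    ((hasDerivAt_id t).mul_const |s|).neg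
  have h2 := h1.exp
  convert h2 using 1
  ring

lemma hasDerivAt_J {t : ℝ} (ht : 0 < t) (hm : Measurable f)
    (h2 : Integrable fun x => f x ^ 2) : HasDerivAt (J f) (-J1 f t) t := by
  have hs : Metric.ball t (t / 2) ∈ 𝓝 t := Metric.ball_mem_nhds t (by positivity)
  have hbd := (integrable_abs_pow_E 1 (t := t / 2) (by positivity)).const_mul (∫ x, f x ^ 2)
  have key := hasDerivAt_integral_of_dominated_loc_of_deriv_le (μ := volume)
    (F := fun τ s => C f s * E τ s) (F' := fun τ s => C f s * (-(|s| * E τ s))) (x₀ := t)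
    (bound := fun s => (∫ x, f x ^ 2) * (|s| ^ 1 * E (t / 2) s)) hs
    (Eventually.of_forall fun τ => ((measurable_C hm).mul (continuous_E τ).measurable).aestronglyMeasurable)
    (integrable_C_mul_E ht hm h2)
    ((measurable_C hm).mul (((continuous_abs.measurable).mul (continuous_E t).measurable).neg)).aestronglyMeasurable
    (ae_of_all _ fun s τ hτ => by
      rw [Real.norm_eq_abs, abs_mul, abs_neg, abs_mul, abs_abs, abs_of_nonneg (E_nonneg τ s), pow_one]
      have h3 : t / 2 < τ := by
        have := Metric.mem_ball.mp hτ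
        rw [Real.dist_eq] at this
        have := (abs_lt.mp this).1
        linarith
      have h4 : E τ s ≤ E (t / 2) s := by
        unfold E
        apply Real.exp_le_exp.mpr
        have := abs_nonneg s
        nlinarith
      have h5 := abs_C_le hm h2 s
      have h6 : 0 ≤ |s| * E τ s := mul_nonneg (abs_nonneg _) (E_nonneg _ _)
      calc |C f s| * (|s| * E τ s) ≤ (∫ x, f x ^ 2) * (|s| * E τ s) :=
            mul_le_mul_of_nonneg_right h5 h6
        _ ≤ (∫ x, f x ^ 2) * (|s| * E (t / 2) s) :=
            mul_le_mul_of_nonneg_left (mul_le_mul_of_nonneg_left h4 (abs_nonneg _))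
              (integral_nonneg fun x => sq_nonneg _))
    hbd
    (ae_of_all _ fun s τ _ => (hasDerivAt_E_param s τ).const_mul (C f s))
  have h7 := key.2
  have h8 : ∫ s, C f s * (-(|s| * E t s)) = -J1 f t := by
    unfold J1
    rw [← integral_neg]
    refine integral_congr_ae (ae_of_all _ fun s => ?_)
    simp only
    ring
  rw [h8] at h7
  exact h7

lemma integral_mul_V_eq {t : ℝ} (ht : 0 < t) (hm : Measurable f)
    (h2 : Integrable fun x => f x ^ 2) : ∫ x, f x * V t f x = t / 2 * J f t := by
  rw [integral_mul_V ht hm h2]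
  unfold J
  congr 2
  funext s
  ring

lemma integral_V_sq_eq {t : ℝ} (ht : 0 < t) (hm : Measurable f)
    (h2 : Integrable fun x => f x ^ 2) :
    ∫ x, V t f x ^ 2 = t / 4 * J f t + t ^ 2 / 4 * J1 f t := by
  rw [integral_V_sq ht hm h2]
  have e : ∀ s, C f s * ((1 / t + |s|) * E t s) =
      1 / t * (C f s * E t s) + C f s * (|s| * E t s) := by
    intro s; ring
  simp_rw [e]
  rw [integral_add ((integrable_C_mul_E ht hm h2).const_mul _) (integrable_C_mul_abs_E ht hm h2),
    integral_const_mul]
  unfold J J1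
  field_simp

lemma integrable_mul_V {t : ℝ} (ht : 0 < t) (hm : Measurable f)
    (h2 : Integrable fun x => f x ^ 2) : Integrable fun x => f x * V t f x := by
  refine Integrable.mono' ((h2.add (integrable_V_sq ht hm h2)).div_const 2) ?_ ?_
  · exact (hm.mul (measurable_V hm t)).aestronglyMeasurable
  · refine ae_of_all _ fun x => ?_
    simpa using abs_mul_le_half_sq (f x) (V t f x)

lemma integrable_sub_V_sq {t : ℝ} (ht : 0 < t) (hm : Measurable f)
    (h2 : Integrable fun x => f x ^ 2) : Integrable fun x => (f x - V t f x) ^ 2 := by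
  have e : ∀ x, (f x - V t f x) ^ 2 = f x ^ 2 - 2 * (f x * V t f x) + V t f x ^ 2 := by
    intro x; ring
  simp_rw [e]
  exact (h2.sub ((integrable_mul_V ht hm h2).const_mul 2)).add (integrable_V_sq ht hm h2)

lemma integral_sub_V_sq {t : ℝ} (ht : 0 < t) (hm : Measurable f)
    (h2 : Integrable fun x => f x ^ 2) :
    ∫ x, (f x - V t f x) ^ 2 =
      (∫ x, f x ^ 2) - 3 * t / 4 * J f t + t ^ 2 / 4 * J1 f t := by
  have e : ∀ x, (f x - V t f x) ^ 2 = f x ^ 2 - 2 * (f x * V t f x) + V t f x ^ 2 := by
    intro x; ring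
  simp_rw [e]
  have h3 : Integrable fun x => 2 * (f x * V t f x) := (integrable_mul_V ht hm h2).const_mul 2
  have h4 : Integrable fun x => f x ^ 2 - 2 * (f x * V t f x) := h2.sub h3
  rw [integral_add h4 (integrable_V_sq ht hm h2), integral_sub h2 h3, integral_const_mul,
    integral_mul_V_eq ht hm h2, integral_V_sq_eq ht hm h2]
  ring

lemma hasDerivAt_Lam {t : ℝ} (ht : 0 < t) (hm : Measurable f)
    (h2 : Integrable fun x => f x ^ 2) :
    HasDerivAt (Lam f) (2 * t * ∫ x, (f x - V t f x) ^ 2) t := by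
  unfold Lam
  have h1 : HasDerivAt (fun τ : ℝ => τ ^ 2 * ∫ x, f x ^ 2) (2 * t * ∫ x, f x ^ 2) t := by
    have := (hasDerivAt_pow 2 t).mul_const (∫ x, f x ^ 2)
    simpa using this
  have h3 : HasDerivAt (fun τ : ℝ => τ ^ 3 / 2 * J f τ)
      (3 * t ^ 2 / 2 * J f t + t ^ 3 / 2 * (-J1 f t)) t := by
    have h4 := ((hasDerivAt_pow 3 t).div_const 2).fun_mul (hasDerivAt_J ht hm h2)
    simpa using h4
  have h5 := h1.fun_sub h3
  have h6 : 2 * t * ∫ x, (f x - V t f x) ^ 2 =
      (2 * t * ∫ x, f x ^ 2) - (3 * t ^ 2 / 2 * J f t + t ^ 3 / 2 * -J1 f t) := by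
    rw [integral_sub_V_sq ht hm h2]
    ring
  rw [h6]
  exact h5

/-- The key bound from the translation estimate. -/
lemma Lam_eq {t : ℝ} (ht : 0 < t) (hm : Measurable f)
    (h2 : Integrable fun x => f x ^ 2) :
    Lam f t = t ^ 3 / 4 * ∫ s, (∫ x, (f x - f (x - s)) ^ 2) * E t s := by
  have hD : ∀ s, ∫ x, (f x - f (x - s)) ^ 2 = 2 * (∫ x, f x ^ 2) - 2 * C f s := by
    intro s
    have e : ∀ x, (f x - f (x - s)) ^ 2 = f x ^ 2 + f (x - s) ^ 2 - 2 * (f x * f (x - s)) := by
      intro x; ring
    simp_rw [e]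
    have h3 : Integrable fun x => 2 * (f x * f (x - s)) := (integrable_mul_shift hm h2 s).const_mul 2
    have h4 : Integrable fun x => f x ^ 2 + f (x - s) ^ 2 := h2.add (integrable_sq_comp_sub h2 s)
    rw [integral_sub h4 h3, integral_add h2 (integrable_sq_comp_sub h2 s),
      integral_sq_shift, integral_const_mul]
    unfold C
    ring
  simp_rw [hD]
  have e : ∀ s, (2 * (∫ x, f x ^ 2) - 2 * C f s) * E t s =
      (2 * ∫ x, f x ^ 2) * E t s - 2 * (C f s * E t s) := by
    intro s; ring
  simp_rw [e]
  rw [integral_sub ((integrable_E ht).const_mul _) ((integrable_C_mul_E ht hm h2).const_mul 2),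
    integral_const_mul, integral_const_mul, integral_E ht]
  unfold Lam J
  field_simp
  ring

lemma Lam_nonneg {t : ℝ} (ht : 0 < t) (hm : Measurable f)
    (h2 : Integrable fun x => f x ^ 2) : 0 ≤ Lam f t := by
  rw [Lam_eq ht hm h2]
  refine mul_nonneg (by positivity) (integral_nonneg fun s => mul_nonneg ?_ (E_nonneg _ _))
  exact integral_nonneg fun x => sq_nonneg _

lemma Lam_le {t : ℝ} (ht : 0 < t) (hm : Measurable f)
    (h2 : Integrable fun x => f x ^ 2) {B : ℝ}
    (hB : ∀ s, ∫ x, (f x - f (x - s)) ^ 2 ≤ s ^ 2 * B) : Lam f t ≤ B := by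
  rw [Lam_eq ht hm h2]
  have hD : ∀ s, ∫ x, (f x - f (x - s)) ^ 2 = 2 * (∫ x, f x ^ 2) - 2 * C f s := by
    intro s
    have e : ∀ x, (f x - f (x - s)) ^ 2 = f x ^ 2 + f (x - s) ^ 2 - 2 * (f x * f (x - s)) := by
      intro x; ring
    simp_rw [e]
    have h3 : Integrable fun x => 2 * (f x * f (x - s)) := (integrable_mul_shift hm h2 s).const_mul 2
    have h4 : Integrable fun x => f x ^ 2 + f (x - s) ^ 2 := h2.add (integrable_sq_comp_sub h2 s)
    rw [integral_sub h4 h3, integral_add h2 (integrable_sq_comp_sub h2 s),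
      integral_sq_shift, integral_const_mul]
    unfold C
    ring
  have hint2 : Integrable fun s => s ^ 2 * E t s := by
    have := integrable_abs_pow_E 2 ht
    refine this.congr (ae_of_all _ fun s => ?_)
    simp only [sq_abs]
  have hint1 : Integrable fun s => (∫ x, (f x - f (x - s)) ^ 2) * E t s := by
    simp_rw [hD]
    have e : ∀ s, (2 * (∫ x, f x ^ 2) - 2 * C f s) * E t s =
        (2 * ∫ x, f x ^ 2) * E t s - 2 * (C f s * E t s) := by
      intro s; ring
    simp_rw [e]
    exact ((integrable_E ht).const_mul _).sub ((integrable_C_mul_E ht hm h2).const_mul 2)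
  have h3 : ∫ s, (∫ x, (f x - f (x - s)) ^ 2) * E t s ≤ ∫ s, B * (s ^ 2 * E t s) := by
    refine integral_mono hint1 (hint2.const_mul B) fun s => ?_
    have := mul_le_mul_of_nonneg_right (hB s) (E_nonneg t s)
    simp only
    linarith
  rw [integral_const_mul, integral_sq_E ht] at h3
  have h4 : t ^ 3 / 4 * ∫ s, (∫ x, (f x - f (x - s)) ^ 2) * E t s ≤ t ^ 3 / 4 * (B * (4 / t ^ 3)) :=
    mul_le_mul_of_nonneg_left h3 (by positivity)
  have h5 : t ^ 3 / 4 * (B * (4 / t ^ 3)) = B := by
    field_simp
  linarith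

end

end

end Vale.Agent.Lib.P371
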