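import Vale.Agent.Lib.P371.Swap

/-! The core inequality for strictly positive densities. -/

open MeasureTheory Set Filter Topology

namespace Vale.Agent.Lib.P371

noncomputable section

/-- The profile used in the Hölder step. -/
structure Prof (r : ℝ → ℝ) (C : ℝ) : Prop where
  meas : Measurable r
  nonneg : ∀ x ∈ Icc (0:ℝ) 1, 0 ≤ r x
  le : ∀ x ∈ Icc (0:ℝ) 1, r x ≤ C
  cube : ∀ x ∈ Icc (0:ℝ) 1, x * r x ^ 3 ≤ 1

/-- The integrand of the constant. -/
def hh (r : ℝ → ℝ) (t : ℝ) : ℝ := cW t ^ 2 * r (cW t) ^ 2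

/-- The constant. -/
def Jr (r : ℝ → ℝ) : ℝ := ∫ t, hh r t

lemma cW_mem (t : ℝ) : cW t ∈ Icc (0:ℝ) 1 := ⟨cW_nonneg t, cW_le_one t⟩

lemma tangent_pt {x R M τ : ℝ} (hx : 0 ≤ x) (hR : 0 ≤ R) (hM : 0 < M) (hτ : 0 < τ)
    (h : x * R ^ 3 ≤ 1) : 3 / τ ^ 2 * (x ^ 2 * R ^ 2) - 2 / τ ^ 3 * (x * M) ≤ x ^ 2 / M ^ 2 := by
  have h1 : 0 ≤ (τ - M * R) ^ 2 * (τ + 2 * (M * R)) := by positivity
  have h2 : 2 * M ^ 3 * (x * R ^ 3) ≤ 2 * M ^ 3 * 1 :=
    mul_le_mul_of_nonneg_left h (by positivity)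
  have h3 : 0 ≤ x * (τ ^ 3 * x - 3 * x * τ * M ^ 2 * R ^ 2 + 2 * M ^ 3) := by
    refine mul_nonneg hx ?_
    have h4 := mul_nonneg hx h1
    have h5 : x * ((τ - M * R) ^ 2 * (τ + 2 * (M * R))) =
        τ ^ 3 * x - 3 * x * τ * M ^ 2 * R ^ 2 + 2 * M ^ 3 * (x * R ^ 3) := by ring
    rw [h5] at h4
    linarith
  have h6 : x ^ 2 / M ^ 2 - (3 / τ ^ 2 * (x ^ 2 * R ^ 2) - 2 / τ ^ 3 * (x * M)) =
      x * (τ ^ 3 * x - 3 * x * τ * M ^ 2 * R ^ 2 + 2 * M ^ 3) / (M ^ 2 * τ ^ 3) := by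
    field_simp
    ring
  have h7 : 0 ≤ x * (τ ^ 3 * x - 3 * x * τ * M ^ 2 * R ^ 2 + 2 * M ^ 3) / (M ^ 2 * τ ^ 3) :=
    div_nonneg h3 (by positivity)
  linarith

variable {r : ℝ → ℝ} {C : ℝ}

namespace Prof

lemma hh_nonneg (hr : Prof r C) (t : ℝ) : 0 ≤ hh r t := by
  unfold hh
  positivity

lemma C_nonneg (hr : Prof r C) : 0 ≤ C :=
  (hr.nonneg 0 ⟨le_rfl, zero_le_one⟩).trans (hr.le 0 ⟨le_rfl, zero_le_one⟩)

lemma hh_le_sq (hr : Prof r C) (t : ℝ) : hh r t ≤ C ^ 2 * cW t ^ 2 := by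
  unfold hh
  have h1 := hr.nonneg _ (cW_mem t)
  have h2 := hr.le _ (cW_mem t)
  have h3 : r (cW t) ^ 2 ≤ C ^ 2 := pow_le_pow_left₀ h1 h2 2
  calc cW t ^ 2 * r (cW t) ^ 2 ≤ cW t ^ 2 * C ^ 2 := by gcongr
    _ = _ := by ring

lemma hh_le (hr : Prof r C) (t : ℝ) : hh r t ≤ C ^ 2 * iW t := by
  refine (hr.hh_le_sq t).trans ?_
  have h1 := cW_le_iW t
  have h2 := cW_nonneg t
  have h3 := iW_le_one t
  have h4 : cW t ^ 2 ≤ iW t := by nlinarith
  exact mul_le_mul_of_nonneg_left h4 (sq_nonneg _)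

lemma hh_measurable (hr : Prof r C) : Measurable (hh r) :=
  (cW_measurable.pow_const 2).mul ((hr.meas.comp cW_measurable).pow_const 2)

lemma hh_integrable (hr : Prof r C) : Integrable (hh r) :=
  integrable_of_le_iW (C := C ^ 2) hr.hh_measurable fun t => by
    rw [abs_of_nonneg (hr.hh_nonneg t)]
    exact hr.hh_le t

end Prof

lemma cW_integrable : Integrable cW :=
  integrable_of_le_iW (C := 1) cW_measurable fun t => by
    rw [abs_of_nonneg (cW_nonneg t), one_mul]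
    exact cW_le_iW t

variable {ι : Type*} [Fintype ι] {f f' : ι → ℝ → ℝ} {Λ : ℝ}

/-- The lower bound for the windowed energy. -/
def Xf (r : ℝ → ℝ) (f f' : ι → ℝ → ℝ) (τ y v : ℝ) : ℝ :=
  rho f y ^ 3 * (3 / τ ^ 2 * hh r (AA f f' y - v) -
    2 / τ ^ 3 * (cW (AA f f' y - v) * Mw f f' v))

namespace Fam

lemma rho3_measurable (hF : Fam f f' Λ) : Measurable fun y => rho f y ^ 3 :=
  hF.rho_continuous.measurable.pow_const 3

lemma rho3_integrable (hF : Fam f f' Λ) : Integrable fun y => rho f y ^ 3 :=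
  hF.rho_sq_integrable (n := 2)

lemma Xf_integrable_prod (hF : Fam f f' Λ) (hr : Prof r C) (τ : ℝ) :
    Integrable (Function.uncurry fun y v => Xf r f f' τ y v) (volume.prod volume) := by
  have hM : ∀ v, |Mw f f' v| ≤ ∫ y, rho f y := fun v => by
    rw [abs_of_nonneg (Mw_nonneg v)]
    exact hF.Mw_le v
  have h1 := kernel_integrable (w := fun y => rho f y ^ 3 * (3 / τ ^ 2)) (F := hh r)
    (g := fun _ => 1) (B := AA f f') (hF.rho3_integrable.mul_const _)
    (hF.rho3_measurable.mul_const _) hF.AA_continuous.measurable hr.hh_measurable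
    hr.hh_integrable measurable_const (C := 1) (fun _ => by simp)
  have h2 := kernel_integrable (w := fun y => rho f y ^ 3 * (2 / τ ^ 3)) (F := cW)
    (g := Mw f f') (B := AA f f') (hF.rho3_integrable.mul_const _)
    (hF.rho3_measurable.mul_const _) hF.AA_continuous.measurable cW_measurable
    cW_integrable hF.Mw_measurable hM
  refine (h1.sub h2).congr (ae_of_all _ fun p => ?_)
  simp only [Function.uncurry, Xf, Pi.sub_apply]
  ring

lemma Xf_integrable_y (hF : Fam f f' Λ) (hr : Prof r C) (τ v : ℝ) :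
    Integrable fun y => Xf r f f' τ y v := by
  have hA : Measurable (fun y => AA f f' y - v) := hF.AA_continuous.measurable.sub_const v
  have h0 : 0 ≤ C ^ 2 := sq_nonneg _
  unfold Xf
  refine hF.rho3_integrable.mul_bdd
    (c := |3 / τ ^ 2| * C ^ 2 + |2 / τ ^ 3| * (1 * ∫ y, rho f y)) ?_ (ae_of_all _ fun y => ?_)
  · exact (((hr.hh_measurable.comp hA).const_mul _).sub
      (((cW_measurable.comp hA).mul_const _).const_mul _)).aestronglyMeasurable
  · set t := AA f f' y - v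
    have h1 := hr.hh_nonneg t
    have h2 := hr.hh_le t
    have h3 := iW_le_one t
    have h4 : hh r t ≤ C ^ 2 := by nlinarith
    have h5 := cW_nonneg t
    have h6 := cW_le_one t
    have h7 : 0 ≤ Mw f f' v := Mw_nonneg v
    have h8 := hF.Mw_le v
    rw [Real.norm_eq_abs]
    refine (abs_sub _ _).trans ?_
    rw [abs_mul, abs_mul, abs_of_nonneg h1, abs_mul, abs_of_nonneg h5, abs_of_nonneg h7]
    have h9 : cW t * Mw f f' v ≤ 1 * ∫ y, rho f y := mul_le_mul h6 h8 h7 zero_le_one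
    gcongr

/-- One window. -/
lemma step_v (hF : Fam f f' Λ) (hr : Prof r C) {τ : ℝ} (hτ : 0 < τ) (v : ℝ) :
    Real.pi ^ 2 * ∫ y, Xf r f f' τ y v ≤ ∫ y, Gw f f' v y := by
  have hpi := Real.pi_pos
  set M := Mw f f' v with hMdef
  have hM0 : 0 ≤ M := Mw_nonneg v
  set Y := ∫ y, rho f y ^ 3 * cW (AA f f' y - v) ^ 2 with hY
  set Z := ∫ y, Gw f f' v y with hZ
  have hZ0 : 0 ≤ Z := integral_nonneg (hF.Gw_nonneg v)
  have hYi : Integrable fun y => rho f y ^ 3 * cW (AA f f' y - v) ^ 2 := by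
    refine hF.rho3_integrable.mul_bdd (c := 1) ?_ (ae_of_all _ fun y => ?_)
    · exact ((cW_measurable.comp (hF.AA_continuous.measurable.sub_const v)).pow_const
        2).aestronglyMeasurable
    · rw [Real.norm_eq_abs, abs_of_nonneg (sq_nonneg _)]
      have h5 := cW_nonneg (AA f f' y - v)
      have h6 := cW_le_one (AA f f' y - v)
      nlinarith
  have hY0 : 0 ≤ Y := integral_nonneg fun y => by
    have := Fam.rho_nonneg f y
    positivity
  have hXi := hF.Xf_integrable_y hr τ v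
  have hw := fun (κ : ℝ) (h1 : 0 ≤ κ) (h2 : κ * M < Real.pi) => hF.wirt_v v h1 h2
  rcases hM0.eq_or_lt with h0 | hMpos
  · -- empty window
    have hY00 : Y ≤ 0 := by
      by_contra hY1
      push Not at hY1
      have h3 := hw (Real.sqrt ((Z + 1) / Y)) (Real.sqrt_nonneg _) (by rw [← h0, mul_zero]; exact hpi)
      rw [Real.sq_sqrt (by positivity), div_mul_cancel₀ _ hY1.ne'] at h3
      linarith
    have hXle : ∫ y, Xf r f f' τ y v ≤ 3 / τ ^ 2 * C ^ 2 * Y := by
      rw [hY, ← integral_const_mul]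
      refine integral_mono hXi (hYi.const_mul _) fun y => ?_
      simp only [Xf]
      rw [← hMdef, ← h0, mul_zero, mul_zero, sub_zero]
      have h1 := hr.hh_le_sq (AA f f' y - v)
      have h2 : 0 ≤ rho f y ^ 3 := pow_nonneg (Fam.rho_nonneg f y) 3
      have h3 : 0 ≤ 3 / τ ^ 2 := by positivity
      calc rho f y ^ 3 * (3 / τ ^ 2 * hh r (AA f f' y - v)) ≤
          rho f y ^ 3 * (3 / τ ^ 2 * (C ^ 2 * cW (AA f f' y - v) ^ 2)) := by gcongr
        _ = _ := by ring
    have h4 : 3 / τ ^ 2 * C ^ 2 * Y ≤ 0 :=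
      mul_nonpos_of_nonneg_of_nonpos (by positivity) hY00
    nlinarith [sq_nonneg Real.pi]
  · -- the limit in the Wirtinger constant
    have hlim : (Real.pi / M) ^ 2 * Y ≤ Z := by
      have h1 : Tendsto (fun t : ℝ => (t * (Real.pi / M)) ^ 2 * Y) (𝓝[<] 1)
          (𝓝 ((1 * (Real.pi / M)) ^ 2 * Y)) := by
        have h2 : Continuous fun t : ℝ => (t * (Real.pi / M)) ^ 2 * Y := by fun_prop
        exact (h2.tendsto 1).mono_left nhdsWithin_le_nhds
      rw [one_mul] at h1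
      refine le_of_tendsto h1 ?_
      filter_upwards [Ioo_mem_nhdsLT (show (0:ℝ) < 1 by norm_num)] with t ht
      refine hw _ (by have := ht.1; positivity) ?_
      have e : t * (Real.pi / M) * M = t * Real.pi := by
        field_simp
      rw [e]
      nlinarith [ht.2]
    have hXle : ∫ y, Xf r f f' τ y v ≤ Y / M ^ 2 := by
      rw [hY, ← integral_div]
      refine integral_mono hXi (hYi.div_const _) fun y => ?_
      simp only [Xf]
      rw [← hMdef]
      have hx := cW_mem (AA f f' y - v)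
      have h1 := tangent_pt hx.1 (hr.nonneg _ hx) hMpos hτ (hr.cube _ hx)
      have h2 : 0 ≤ rho f y ^ 3 := pow_nonneg (Fam.rho_nonneg f y) 3
      have h3 := mul_le_mul_of_nonneg_left h1 h2
      unfold hh
      calc _ ≤ _ := h3
        _ = _ := by ring
    have h5 : Real.pi ^ 2 * ∫ y, Xf r f f' τ y v ≤ Real.pi ^ 2 * (Y / M ^ 2) :=
      mul_le_mul_of_nonneg_left hXle (sq_nonneg _)
    have e : Real.pi ^ 2 * (Y / M ^ 2) = (Real.pi / M) ^ 2 * Y := by
      field_simp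
    linarith

/-- The convolution of the window with the mass. -/
lemma Rt_le (hF : Fam f f' Λ) (y : ℝ) :
    ∫ v, cW (AA f f' y - v) * Mw f f' v ≤ Λ := by
  set A := AA f f' with hA
  have hg : ∀ v, |cW (A y - v)| ≤ 1 := fun v => by
    rw [abs_of_nonneg (cW_nonneg _)]
    exact cW_le_one _
  have hgm : Measurable fun v => cW (A y - v) := cW_measurable.comp (measurable_const.sub measurable_id)
  have h1 := kernel_swap (w := rho f) (F := iW) (g := fun v => cW (A y - v)) (B := A)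
    hF.rho_integrable hF.rho_continuous.measurable hF.AA_continuous.measurable iW_measurable
    iW_integrable hgm hg
  have e1 : ∀ v, cW (A y - v) * Mw f f' v = ∫ z, rho f z * (iW (A z - v) * cW (A y - v)) := by
    intro v
    unfold Mw qw
    rw [← integral_const_mul]
    refine integral_congr_ae (ae_of_all _ fun z => ?_)
    simp only
    ring
  have e2 : ∀ z, ∫ v, iW (A z - v) * cW (A y - v) = cp (A z - A y) := by
    intro z
    rw [← kappa_eq (A z - A y), ← integral_sub_left_eq_self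
      (fun a => cW a * iW (A z - A y + a)) volume (A y)]
    refine integral_congr_ae (ae_of_all _ fun v => ?_)
    simp only
    rw [show A z - A y + (A y - v) = A z - v by ring, mul_comm]
  simp_rw [e1]
  rw [h1]
  simp_rw [e2]
  exact hF.frame y

lemma Xf_integral_v (hF : Fam f f' Λ) (hr : Prof r C) (τ y : ℝ) (hτ : 0 < τ) :
    rho f y ^ 3 * (3 / τ ^ 2 * Jr r - 2 / τ ^ 3 * Λ) ≤ ∫ v, Xf r f f' τ y v := by
  have hM : ∀ v, |Mw f f' v| ≤ ∫ y, rho f y := fun v => by
    rw [abs_of_nonneg (Mw_nonneg v)]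
    exact hF.Mw_le v
  have h1 : Integrable fun v => hh r (AA f f' y - v) := hr.hh_integrable.comp_sub_left _
  have h2 : Integrable fun v => cW (AA f f' y - v) * Mw f f' v :=
    (cW_integrable.comp_sub_left _).mul_bdd hF.Mw_measurable.aestronglyMeasurable
      (ae_of_all _ fun v => hM v)
  unfold Xf
  rw [integral_const_mul, integral_sub (h1.const_mul _) (h2.const_mul _), integral_const_mul,
    integral_const_mul, integral_sub_left_eq_self (hh r) volume]
  have h3 := hF.Rt_le y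
  have h4 : 0 ≤ rho f y ^ 3 := pow_nonneg (Fam.rho_nonneg f y) 3
  refine mul_le_mul_of_nonneg_left ?_ h4
  have h5 : 2 / τ ^ 3 * ∫ v, cW (AA f f' y - v) * Mw f f' v ≤ 2 / τ ^ 3 * Λ :=
    mul_le_mul_of_nonneg_left h3 (by positivity)
  unfold Jr
  linarith

/-- The core inequality. -/
theorem core_ineq (hF : Fam f f' Λ) (hΛ : 0 < Λ) (hr : Prof r C) (hJ : 0 < Jr r) :
    Real.pi * Jr r ^ 3 / Λ ^ 2 * ∫ y, rho f y ^ 3 ≤ ∫ y, dens f' y := by
  have hpi := Real.pi_pos
  set J := Jr r with hJdef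
  set τ := Λ / J with hτdef
  have hτ : 0 < τ := div_pos hΛ hJ
  have hX := hF.Xf_integrable_prod hr τ
  have h1 : ∫ v, Real.pi ^ 2 * ∫ y, Xf r f f' τ y v ≤ ∫ v, ∫ y, Gw f f' v y :=
    integral_mono (hX.integral_prod_right.const_mul _) hF.Gw_integrable_v fun v =>
      hF.step_v hr hτ v
  rw [integral_const_mul, hF.integral_Gw] at h1
  have h2 : ∫ y, rho f y ^ 3 * (3 / τ ^ 2 * J - 2 / τ ^ 3 * Λ) ≤ ∫ v, ∫ y, Xf r f f' τ y v := by
    have hsw := integral_integral_swap hX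
    rw [← hsw]
    exact integral_mono (hF.rho3_integrable.mul_const _) hX.integral_prod_left fun y =>
      hF.Xf_integral_v hr τ y hτ
  rw [integral_mul_const] at h2
  have e : 3 / τ ^ 2 * J - 2 / τ ^ 3 * Λ = J ^ 3 / Λ ^ 2 := by
    rw [hτdef]
    field_simp
    ring
  rw [e] at h2
  have h3 : Real.pi ^ 2 * ((∫ y, rho f y ^ 3) * (J ^ 3 / Λ ^ 2)) ≤ Real.pi * ∫ y, dens f' y :=
    (mul_le_mul_of_nonneg_left h2 (sq_nonneg _)).trans h1
  have h4 : Real.pi * (Real.pi * J ^ 3 / Λ ^ 2 * ∫ y, rho f y ^ 3) ≤ Real.pi * ∫ y, dens f' y := by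
    calc _ = Real.pi ^ 2 * ((∫ y, rho f y ^ 3) * (J ^ 3 / Λ ^ 2)) := by ring
      _ ≤ _ := h3
  exact le_of_mul_le_mul_left h4 hpi

end Fam

end

end Vale.Agent.Lib.P371
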