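import Mathlib

/-! The Sobolev space used in the statement of the scalar theorem. -/

open MeasureTheory

namespace Vale.Agent.Lib.P371

/-- `φ` lies in `H¹(ℝ; ℂ)` with weak derivative `φ'`: both are in `L²` and `φ` is a primitive
of `φ'`. -/
structure ScalarH1 (φ φ' : ℝ → ℂ) : Prop where
  memLp : MemLp φ 2 volume
  memLp' : MemLp φ' 2 volume
  ftc : ∀ s t, φ t - φ s = ∫ u in s..t, φ' u

end Vale.Agent.Lib.P371
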