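import Vale.Agent.Lib.P371.LReduce
import Vale.Agent.Lib.P371.LDefs
import Vale.Agent.Lib.P371.Gram

/-! The kinetic inequality for complex orthonormal families and the eigenvalue bound. -/

open MeasureTheory Set Filter Topology Matrix

namespace Vale.Agent.Lib.P371

noncomputable section

lemma RealH1.exists_measurable {f f' : ℝ → ℝ} (h : RealH1 f f') :
    ∃ g : ℝ → ℝ, Measurable g ∧ RealH1 f g ∧ ∫ y, g y ^ 2 = ∫ y, f' y ^ 2 := by
  have hm := h.memLp'.aestronglyMeasurable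
  have hae : hm.mk f' =ᵐ[volume] f' := hm.ae_eq_mk.symm
  refine ⟨hm.mk f', hm.stronglyMeasurable_mk.measurable, ⟨h.memLp, ?_, fun a b => ?_⟩, ?_⟩
  · exact h.memLp'.ae_eq hae.symm
  · rw [h.ftc a b]
    refine intervalIntegral.integral_congr_ae ?_
    filter_upwards [hae] with x hx _
    exact hx.symm
  · refine integral_congr_ae ?_
    filter_upwards [hae] with x hx
    rw [hx]

variable {N : ℕ}

lemma ScalarH1.ch1 {φ φ' : ℝ → ℂ} (h : ScalarH1 φ φ') : CH1 φ φ' := ⟨h.memLp, h.memLp', h.ftc⟩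

lemma ScalarH1.continuous {φ φ' : ℝ → ℂ} (h : ScalarH1 φ φ') : Continuous φ := by
  have h1 : Continuous fun b => ∫ t in (0:ℝ)..b, φ' t :=
    intervalIntegral.continuous_primitive (fun a b => h.ch1.intervalIntegrable' a b) 0
  have h2 : φ = fun b => φ 0 + ∫ t in (0:ℝ)..b, φ' t := by
    funext b
    rw [← h.ftc 0 b]
    ring
  rw [h2]
  exact continuous_const.add h1

/-- Real and imaginary parts. -/
def reim (ψ : Fin N → ℝ → ℂ) : Fin N ⊕ Fin N → ℝ → ℝ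
  | Sum.inl j => fun y => (ψ j y).re
  | Sum.inr j => fun y => (ψ j y).im

lemma scalar_orth {ψ : Fin N → ℝ → ℂ} (hm : ∀ j, MemLp (ψ j) 2 volume)
    (horth : ∀ j k, ∫ x, star (ψ j x) * ψ k x = if j = k then (1 : ℂ) else 0) (b : Fin N → ℂ) :
    ∫ y, ‖∑ j, b j * ψ j y‖ ^ 2 = ∑ j, ‖b j‖ ^ 2 := by
  have h := gram_orth (m := 1) (g := fun j y _ => ψ j y) (fun j _ => hm j) ?_ b
  · simpa using h
  · intro j k
    rw [← horth j k]
    unfold Gram
    simp [dotProduct]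

lemma rho_reim (ψ : Fin N → ℝ → ℂ) (y : ℝ) : rho (reim ψ) y = ∑ j, ‖ψ j y‖ ^ 2 := by
  unfold rho
  rw [Fintype.sum_sum_type, ← Finset.sum_add_distrib]
  refine Finset.sum_congr rfl fun j _ => ?_
  simp only [reim]
  rw [Complex.sq_norm, Complex.normSq_apply]
  ring

lemma fam0_reim {ψ ψ' : Fin N → ℝ → ℂ} (hψ : ∀ j, ScalarH1 (ψ j) (ψ' j))
    (horth : ∀ j k, ∫ x, star (ψ j x) * ψ k x = if j = k then (1 : ℂ) else 0) :
    ∃ g : Fin N ⊕ Fin N → ℝ → ℝ, Fam0 (reim ψ) g 1 ∧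
      ∫ y, dens g y = ∑ j, ∫ y, ‖ψ' j y‖ ^ 2 := by
  have hi : ∀ i, RealH1 (reim ψ i) (reim ψ' i) := by
    intro i
    cases i with
    | inl j => exact (hψ j).ch1.re
    | inr j => exact (hψ j).ch1.im
  choose g hgm hgh hge using fun i => (hi i).exists_measurable
  refine ⟨g, ⟨hgh, hgm, fun a => ?_⟩, ?_⟩
  · let b : Fin N → ℂ := fun j => (a (Sum.inl j) : ℂ) - Complex.I * (a (Sum.inr j) : ℂ)
    have hm : ∀ j, MemLp (ψ j) 2 volume := fun j => (hψ j).memLp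
    have e1 : ∀ y, ∑ i, a i * reim ψ i y = (∑ j, b j * ψ j y).re := by
      intro y
      rw [Fintype.sum_sum_type, ← Finset.sum_add_distrib, Complex.re_sum]
      refine Finset.sum_congr rfl fun j _ => ?_
      simp only [reim, b, Complex.mul_re, Complex.sub_re, Complex.ofReal_re, Complex.mul_im,
        Complex.I_re, Complex.I_im, Complex.ofReal_im, Complex.sub_im]
      ring
    have hcombo : MemLp (fun y => ∑ j, b j * ψ j y) 2 volume :=
      memLp_finsetSum _ fun j _ => (hm j).const_mul (b j)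
    have hnorm : Integrable fun y => ‖∑ j, b j * ψ j y‖ ^ 2 := integrable_norm_sq hcombo
    have hre : Integrable fun y => (∑ i, a i * reim ψ i y) ^ 2 :=
      (RealH1.sum Finset.univ fun i _ => (hi i).const_mul (a i)).sq
    calc ∫ y, (∑ i, a i * reim ψ i y) ^ 2 ≤ ∫ y, ‖∑ j, b j * ψ j y‖ ^ 2 := by
          refine integral_mono hre hnorm fun y => ?_
          simp only
          rw [e1]
          exact re_sq_le_norm_sq _
      _ = ∑ j, ‖b j‖ ^ 2 := scalar_orth hm horth b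
      _ = 1 * ∑ i, a i ^ 2 := by
          rw [one_mul, Fintype.sum_sum_type, ← Finset.sum_add_distrib]
          refine Finset.sum_congr rfl fun j _ => ?_
          rw [Complex.sq_norm, Complex.normSq_apply]
          simp only [b, Complex.sub_re, Complex.ofReal_re, Complex.mul_re, Complex.I_re,
            Complex.I_im, Complex.ofReal_im, Complex.sub_im, Complex.mul_im]
          ring
  · unfold dens
    rw [integral_finsetSum _ fun i _ => (hgh i).sq', Fintype.sum_sum_type,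
      ← Finset.sum_add_distrib]
    refine Finset.sum_congr rfl fun j _ => ?_
    rw [hge, hge, ← integral_add (hi (Sum.inl j)).sq' (hi (Sum.inr j)).sq']
    refine integral_congr_ae (ae_of_all _ fun y => ?_)
    simp only [reim]
    rw [Complex.sq_norm, Complex.normSq_apply]
    ring

/-- Young's inequality. -/
lemma young_t {μ ρ t : ℝ} (hμ : 0 ≤ μ) (hρ : 0 ≤ ρ) (ht : 0 < t) :
    μ * ρ ≤ 2 * t / 3 * μ ^ (3 / 2 : ℝ) + 1 / (3 * t ^ 2) * ρ ^ 3 := by
  have hs := Real.sqrt_nonneg μ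
  have e1 : μ ^ (3 / 2 : ℝ) = Real.sqrt μ ^ 3 := by
    rw [Real.sqrt_eq_rpow, ← Real.rpow_natCast, ← Real.rpow_mul hμ]
    norm_num
  have e2 : μ = Real.sqrt μ ^ 2 := (Real.sq_sqrt hμ).symm
  rw [e1]
  generalize Real.sqrt μ = s at *
  subst e2
  have h1 : 0 ≤ (ρ - t * s) ^ 2 * (ρ + 2 * (t * s)) := by positivity
  have h2 : 2 * t / 3 * s ^ 3 + 1 / (3 * t ^ 2) * ρ ^ 3 - s ^ 2 * ρ =
      (ρ - t * s) ^ 2 * (ρ + 2 * (t * s)) / (3 * t ^ 2) := by
    field_simp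
    ring
  have h3 : 0 ≤ (ρ - t * s) ^ 2 * (ρ + 2 * (t * s)) / (3 * t ^ 2) := by positivity
  linarith

/-- The eigenvalue bound from the profile. -/
theorem lt_scalar_of {r : ℝ → ℝ} {C : ℝ} (hr : Prof r C) (hJ : 0 < Jr r) {t : ℝ} (ht : 0 < t)
    (hK : 1 / (3 * t ^ 2) ≤ Real.pi * Jr r ^ 3)
    (W : ℝ → ℝ) (hWm : Measurable W) (hW0 : ∀ x, 0 ≤ W x)
    (hint : Integrable fun x => W x ^ (3 / 2 : ℝ))
    (ψ ψ' : Fin N → ℝ → ℂ) (hψ : ∀ j, ScalarH1 (ψ j) (ψ' j)) (lam : Fin N → ℝ)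
    (horth : ∀ j k, ∫ x, star (ψ j x) * ψ k x = if j = k then (1 : ℂ) else 0)
    (hneg : ∀ j, lam j < 0)
    (heig : ∀ j (φ φ' : ℝ → ℂ), ScalarH1 φ φ' →
      (∫ x, star (φ' x) * ψ' j x) - (∫ x, star (φ x) * ((W x : ℂ) * ψ j x)) =
        (lam j : ℂ) * ∫ x, star (φ x) * ψ j x) :
    ∑ j, |lam j| ≤ 2 * t / 3 * ∫ x, W x ^ (3 / 2 : ℝ) := by
  obtain ⟨g, hF, hT⟩ := fam0_reim hψ horth
  have hcore := hF.core one_pos hr hJ
  rw [hT, one_pow, div_one] at hcore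
  set K₀ := 1 / (3 * t ^ 2) with hK₀
  have hK₀0 : 0 ≤ K₀ := by positivity
  have hrho3 := hF.rho3_integrable zero_le_one
  have hrho : ∀ y, rho (reim ψ) y = ∑ j, ‖ψ j y‖ ^ 2 := rho_reim ψ
  have hcont : ∀ j, Continuous (ψ j) := fun j => (hψ j).continuous
  have hmaj : Integrable fun x => 2 * t / 3 * W x ^ (3 / 2 : ℝ) + K₀ * rho (reim ψ) x ^ 3 :=
    (hint.const_mul _).add (hrho3.const_mul _)
  have hVi : ∀ j, Integrable fun x => W x * ‖ψ j x‖ ^ 2 := by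
    intro j
    refine hmaj.mono' (hWm.mul ((hcont j).norm.measurable.pow_const 2)).aestronglyMeasurable
      (ae_of_all _ fun x => ?_)
    have h0 : 0 ≤ W x * ‖ψ j x‖ ^ 2 := mul_nonneg (hW0 x) (by positivity)
    rw [Real.norm_eq_abs, abs_of_nonneg h0]
    have h1 : ‖ψ j x‖ ^ 2 ≤ rho (reim ψ) x := by
      rw [hrho]
      exact Finset.single_le_sum (f := fun j => ‖ψ j x‖ ^ 2) (fun j _ => by positivity)
        (Finset.mem_univ j)
    calc W x * ‖ψ j x‖ ^ 2 ≤ W x * rho (reim ψ) x := mul_le_mul_of_nonneg_left h1 (hW0 x)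
      _ ≤ _ := young_t (hW0 x) (Fam.rho_nonneg _ x) ht
  have key : ∀ j, |lam j| = (∫ x, W x * ‖ψ j x‖ ^ 2) - ∫ x, ‖ψ' j x‖ ^ 2 := by
    intro j
    have h1 := heig j (ψ j) (ψ' j) (hψ j)
    have e1 : ∀ x, star (ψ' j x) * ψ' j x = ((‖ψ' j x‖ ^ 2 : ℝ) : ℂ) := fun x =>
      (norm_sq_eq_star_mul _).symm
    have e2 : ∀ x, star (ψ j x) * ((W x : ℂ) * ψ j x) = ((W x * ‖ψ j x‖ ^ 2 : ℝ) : ℂ) := fun x => by
      rw [Complex.ofReal_mul, norm_sq_eq_star_mul]
      ring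
    simp_rw [e1, e2] at h1
    rw [integral_complex_ofReal, integral_complex_ofReal, horth j j, if_pos rfl, mul_one] at h1
    have h2 : (∫ x, ‖ψ' j x‖ ^ 2) - (∫ x, W x * ‖ψ j x‖ ^ 2) = lam j := by
      exact_mod_cast h1
    rw [abs_of_neg (hneg j), ← h2]
    ring
  simp_rw [key]
  rw [Finset.sum_sub_distrib, ← integral_finsetSum _ fun j _ => hVi j]
  have e3 : ∀ x, ∑ j, W x * ‖ψ j x‖ ^ 2 = W x * rho (reim ψ) x := fun x => by
    rw [hrho, Finset.mul_sum]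
  simp_rw [e3]
  have hVi2 : Integrable fun x => W x * rho (reim ψ) x := by
    have := integrable_finsetSum Finset.univ fun j _ => hVi j
    refine this.congr (ae_of_all _ fun x => ?_)
    exact e3 x
  have h4 : ∫ x, W x * rho (reim ψ) x ≤
      2 * t / 3 * (∫ x, W x ^ (3 / 2 : ℝ)) + K₀ * ∫ x, rho (reim ψ) x ^ 3 := by
    rw [← integral_const_mul, ← integral_const_mul, ← integral_add (hint.const_mul _)
      (hrho3.const_mul _)]
    exact integral_mono hVi2 hmaj fun x => young_t (hW0 x) (Fam.rho_nonneg _ x) ht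
  have hY0 : 0 ≤ ∫ x, rho (reim ψ) x ^ 3 :=
    integral_nonneg fun x => pow_nonneg (Fam.rho_nonneg _ x) 3
  have h5 : K₀ * ∫ x, rho (reim ψ) x ^ 3 ≤ Real.pi * Jr r ^ 3 * ∫ x, rho (reim ψ) x ^ 3 :=
    mul_le_mul_of_nonneg_right hK hY0
  linarith

end

end Vale.Agent.Lib.P371
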