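import Vale.Agent.Lib.P371.LCore

/-! Removing the positivity of the density. -/

open MeasureTheory Set Filter Topology

namespace Vale.Agent.Lib.P371

noncomputable section

/-- An auxiliary positive function. -/
def hb (x : ℝ) : ℝ := (1 + x ^ 2)⁻¹

/-- Its derivative. -/
def hb' (x : ℝ) : ℝ := -(2 * x) / (1 + x ^ 2) ^ 2

lemma hb_pos (x : ℝ) : 0 < hb x := by
  unfold hb
  positivity

lemma hb_hasDerivAt (x : ℝ) : HasDerivAt hb (hb' x) x := by
  have h1 : HasDerivAt (fun x : ℝ => 1 + x ^ 2) (2 * x) x := by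
    have := (hasDerivAt_pow 2 x).const_add 1
    simpa using this
  have h2 := h1.fun_inv (by positivity : (1 + x ^ 2) ≠ 0)
  exact h2

lemma hb'_continuous : Continuous hb' := by
  unfold hb'
  exact (continuous_const.mul continuous_id).neg.div (by fun_prop) fun x => by positivity

lemma hb_h1 : RealH1 hb hb' := by
  have hc : Continuous hb := continuous_iff_continuousAt.2 fun x => (hb_hasDerivAt x).continuousAt
  refine ⟨?_, ?_, fun a b => ?_⟩
  · refine memLp_two_of_sq_le (h := fun x => (1 + x ^ 2)⁻¹) hc.aestronglyMeasurable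
      integrable_inv_one_add_sq fun x => ?_
    unfold hb
    have h1 : 1 ≤ 1 + x ^ 2 := by nlinarith [sq_nonneg x]
    have h2 : (1 + x ^ 2)⁻¹ ≤ 1 := inv_le_one_of_one_le₀ h1
    have h3 : 0 < (1 + x ^ 2)⁻¹ := by positivity
    nlinarith
  · refine memLp_two_of_sq_le (h := fun x => 4 * (1 + x ^ 2)⁻¹) hb'_continuous.aestronglyMeasurable
      (integrable_inv_one_add_sq.const_mul 4) fun x => ?_
    unfold hb'
    have h1 : 1 ≤ 1 + x ^ 2 := by nlinarith [sq_nonneg x]
    have hpos : 0 < 1 + x ^ 2 := by positivity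
    rw [div_pow, neg_sq, div_le_iff₀ (by positivity)]
    have e : 4 * (1 + x ^ 2)⁻¹ * ((1 + x ^ 2) ^ 2) ^ 2 = 4 * (1 + x ^ 2) ^ 3 := by
      field_simp
    rw [e]
    have h2 : (1 + x ^ 2) ^ 3 ≥ 1 + x ^ 2 := by
      nlinarith [mul_nonneg (sq_nonneg x) (sq_nonneg x), pow_nonneg (sq_nonneg x) 3]
    nlinarith
  · rw [intervalIntegral.integral_eq_sub_of_hasDerivAt (fun x _ => hb_hasDerivAt x)
      (hb'_continuous.intervalIntegrable _ _)]

variable {ι : Type*} [Fintype ι]

/-- The hypotheses without positivity of the density. -/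
structure Fam0 (f f' : ι → ℝ → ℝ) (Λ : ℝ) : Prop where
  h1 : ∀ i, RealH1 (f i) (f' i)
  meas' : ∀ i, Measurable (f' i)
  bessel : ∀ a : ι → ℝ, ∫ y, (∑ i, a i * f i y) ^ 2 ≤ Λ * ∑ i, a i ^ 2

/-- Adding one component to a family. -/
def fE (f : ι → ℝ → ℝ) (g : ℝ → ℝ) : Option ι → ℝ → ℝ
  | none => g
  | some i => f i

lemma rho_fE (f : ι → ℝ → ℝ) (g : ℝ → ℝ) (y : ℝ) : rho (fE f g) y = g y ^ 2 + rho f y := by
  unfold rho
  rw [Fintype.sum_option]
  rfl

lemma dens_fE (f' : ι → ℝ → ℝ) (g : ℝ → ℝ) (y : ℝ) :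
    dens (fE f' g) y = g y ^ 2 + dens f' y := by
  unfold dens
  rw [Fintype.sum_option]
  rfl

variable {f f' : ι → ℝ → ℝ} {Λ : ℝ}

namespace Fam0

lemma extend (hF : Fam0 f f' Λ) (hΛ : 0 ≤ Λ) {ε : ℝ} (hε : 0 < ε) :
    Fam (fE f fun x => ε * hb x) (fE f' fun x => ε * hb' x)
      ((1 + ε) * Λ + (ε + ε ^ 2) * ∫ x, hb x ^ 2) := by
  have hgh := hb_h1.const_mul ε
  refine ⟨?_, ?_, ?_, ?_⟩
  · intro o
    cases o with
    | none => exact hgh
    | some i => exact hF.h1 i
  · intro o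
    cases o with
    | none => exact hb'_continuous.measurable.const_mul ε
    | some i => exact hF.meas' i
  · intro a
    set H := ∫ x, hb x ^ 2 with hH
    have hH0 : 0 ≤ H := integral_nonneg fun x => sq_nonneg _
    let a' : ι → ℝ := fun i => a (some i)
    have hU : RealH1 (fun y => ∑ i, a' i * f i y) (fun y => ∑ i, a' i * f' i y) :=
      RealH1.sum Finset.univ fun i _ => (hF.h1 i).const_mul (a' i)
    have e1 : ∀ y, ∑ o, a o * fE f (fun x => ε * hb x) o y =
        a none * (ε * hb y) + ∑ i, a' i * f i y := by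
      intro y
      rw [Fintype.sum_option]
      rfl
    have e2 : ∑ o, a o ^ 2 = a none ^ 2 + ∑ i, a' i ^ 2 := by
      rw [Fintype.sum_option]
    simp_rw [e1]
    rw [e2]
    have hpt : ∀ y, (a none * (ε * hb y) + ∑ i, a' i * f i y) ^ 2 ≤
        (ε ^ 2 + ε) * a none ^ 2 * hb y ^ 2 + (1 + ε) * (∑ i, a' i * f i y) ^ 2 := by
      intro y
      set U := ∑ i, a' i * f i y
      set t := a none * hb y
      have h1 : 0 ≤ ε * (U - t) ^ 2 := by positivity
      have e : (a none * (ε * hb y) + U) ^ 2 = ε ^ 2 * t ^ 2 + 2 * ε * (t * U) + U ^ 2 := by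
        simp only [t]
        ring
      have e' : (ε ^ 2 + ε) * a none ^ 2 * hb y ^ 2 = ε ^ 2 * t ^ 2 + ε * t ^ 2 := by
        simp only [t]
        ring
      rw [e, e']
      nlinarith
    have hb2 : Integrable fun y => hb y ^ 2 := hb_h1.sq
    have hlhs : Integrable fun y => (a none * (ε * hb y) + ∑ i, a' i * f i y) ^ 2 :=
      (((hb_h1.const_mul ε).const_mul (a none)).add hU).sq
    have hrhs : Integrable fun y => (ε ^ 2 + ε) * a none ^ 2 * hb y ^ 2 +
        (1 + ε) * (∑ i, a' i * f i y) ^ 2 := (hb2.const_mul _).add (hU.sq.const_mul _)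
    refine (integral_mono hlhs hrhs hpt).trans ?_
    rw [integral_add (hb2.const_mul _) (hU.sq.const_mul _), integral_const_mul, integral_const_mul,
      ← hH]
    have h3 := hF.bessel a'
    have h4 := mul_le_mul_of_nonneg_left h3 (by positivity : (0:ℝ) ≤ 1 + ε)
    have hA0 : 0 ≤ ∑ i, a' i ^ 2 := Finset.sum_nonneg fun i _ => sq_nonneg _
    have hB0 : 0 ≤ a none ^ 2 := sq_nonneg _
    have h5 : 0 ≤ (1 + ε) * Λ * a none ^ 2 := by positivity
    have h6 : 0 ≤ (ε + ε ^ 2) * H * ∑ i, a' i ^ 2 := by positivity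
    nlinarith
  · intro y
    rw [rho_fE]
    have h1 : 0 < (ε * hb y) ^ 2 := by
      have := hb_pos y
      positivity
    have h2 := Fam.rho_nonneg f y
    linarith

lemma dens_integrable (hF : Fam0 f f' Λ) : Integrable (dens f') :=
  integrable_finsetSum _ fun i _ => (hF.h1 i).sq'

lemma rho3_integrable (hF : Fam0 f f' Λ) (hΛ : 0 ≤ Λ) : Integrable fun y => rho f y ^ 3 := by
  have h1 := (hF.extend hΛ (ε := 1) one_pos).rho3_integrable
  have hm : Measurable fun y => rho f y ^ 3 := by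
    unfold rho
    exact (Finset.measurable_fun_sum _ fun i _ => ((hF.h1 i).measurable.pow_const 2)).pow_const 3
  refine h1.mono' hm.aestronglyMeasurable (ae_of_all _ fun y => ?_)
  rw [Real.norm_eq_abs, abs_of_nonneg (pow_nonneg (Fam.rho_nonneg f y) 3), rho_fE]
  have h2 := Fam.rho_nonneg f y
  have h3 : rho f y ≤ (1 * hb y) ^ 2 + rho f y := by nlinarith [sq_nonneg (1 * hb y)]
  exact pow_le_pow_left₀ h2 h3 3

/-- The core inequality without positivity. -/
theorem core (hF : Fam0 f f' Λ) (hΛ : 0 < Λ) {r : ℝ → ℝ} {C : ℝ} (hr : Prof r C) (hJ : 0 < Jr r) :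
    Real.pi * Jr r ^ 3 / Λ ^ 2 * ∫ y, rho f y ^ 3 ≤ ∫ y, dens f' y := by
  set H := ∫ x, hb x ^ 2 with hH
  set H' := ∫ x, hb' x ^ 2 with hH'
  set Y := ∫ y, rho f y ^ 3 with hY
  set T := ∫ y, dens f' y with hT
  have hH0 : 0 ≤ H := integral_nonneg fun x => sq_nonneg _
  have hJ3 : 0 ≤ Real.pi * Jr r ^ 3 := by
    have := Real.pi_pos
    positivity
  have key : ∀ ε : ℝ, 0 < ε →
      Real.pi * Jr r ^ 3 / ((1 + ε) * Λ + (ε + ε ^ 2) * H) ^ 2 * Y ≤ ε ^ 2 * H' + T := by
    intro ε hε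
    have hE := hF.extend hΛ.le hε
    have hL : 0 < (1 + ε) * Λ + (ε + ε ^ 2) * H := by positivity
    have h1 := hE.core_ineq hL hr hJ
    have h2 : Y ≤ ∫ y, rho (fE f fun x => ε * hb x) y ^ 3 := by
      refine integral_mono (hF.rho3_integrable hΛ.le) hE.rho3_integrable fun y => ?_
      simp only [rho_fE]
      have h3 := Fam.rho_nonneg f y
      have h4 : rho f y ≤ (ε * hb y) ^ 2 + rho f y := by nlinarith [sq_nonneg (ε * hb y)]
      exact pow_le_pow_left₀ h3 h4 3
    have h3 : ∫ y, dens (fE f' fun x => ε * hb' x) y = ε ^ 2 * H' + T := by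
      have hb2 : Integrable fun y => hb' y ^ 2 := hb_h1.sq'
      have e : (fun y => dens (fE f' fun x => ε * hb' x) y) =
          fun y => ε ^ 2 * hb' y ^ 2 + dens f' y := by
        funext y
        rw [dens_fE]
        ring
      rw [e, integral_add (hb2.const_mul _) hF.dens_integrable, integral_const_mul]
    rw [h3] at h1
    refine le_trans ?_ h1
    exact mul_le_mul_of_nonneg_left h2 (by positivity)
  have ht1 : Tendsto (fun ε : ℝ =>
      Real.pi * Jr r ^ 3 / ((1 + ε) * Λ + (ε + ε ^ 2) * H) ^ 2 * Y) (𝓝[>] 0)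
      (𝓝 (Real.pi * Jr r ^ 3 / ((1 + 0) * Λ + (0 + 0 ^ 2) * H) ^ 2 * Y)) := by
    refine Tendsto.mono_left ?_ nhdsWithin_le_nhds
    refine ContinuousAt.tendsto ?_
    refine ContinuousAt.mul (ContinuousAt.div continuousAt_const (by fun_prop) ?_) continuousAt_const
    simp only [add_zero, one_mul, ne_eq, OfNat.ofNat_ne_zero, not_false_eq_true, zero_pow, zero_mul]
    positivity
  have ht2 : Tendsto (fun ε : ℝ => ε ^ 2 * H' + T) (𝓝[>] 0) (𝓝 (0 ^ 2 * H' + T)) := by
    refine Tendsto.mono_left ?_ nhdsWithin_le_nhds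
    exact Continuous.tendsto (by fun_prop) 0
  have := le_of_tendsto_of_tendsto ht1 ht2 (by
    filter_upwards [self_mem_nhdsWithin] with ε hε using key ε hε)
  simpa using this

end Fam0

end

end Vale.Agent.Lib.P371
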