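import Vale.Agent.Lib.P371.Pointwise

/-! The Lieb-Thirring bound for matrix potentials. -/

open MeasureTheory Set Filter Topology Matrix
open scoped ComplexOrder

namespace Vale.Agent.Lib.P371

noncomputable section

variable {m N : ℕ}

lemma spectral_entry {A : Matrix (Fin m) (Fin m) ℂ} (hA : A.IsHermitian) (a b : Fin m) :
    A a b = ∑ i, (hA.eigenvectorUnitary : Matrix (Fin m) (Fin m) ℂ) a i * (hA.eigenvalues i : ℂ) *
      star ((hA.eigenvectorUnitary : Matrix (Fin m) (Fin m) ℂ) b i) := by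
  have h := hA.spectral_theorem
  rw [Unitary.conjStarAlgAut_apply] at h
  have h2 := congrFun (congrFun h a) b
  rw [h2]
  simp only [Matrix.mul_apply, Matrix.diagonal_apply, Function.comp_apply, Matrix.star_apply]
  refine Finset.sum_congr rfl fun i _ => ?_
  congr 1
  rw [Finset.sum_eq_single i]
  · simp
  · intro k _ hk
    simp [hk]
  · simp

lemma quad_of_entries {U A : Matrix (Fin m) (Fin m) ℂ} {μ : Fin m → ℝ}
    (h : ∀ a b, A a b = ∑ i, U a i * (μ i : ℂ) * star (U b i)) (v : Fin m → ℂ) :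
    star v ⬝ᵥ (A *ᵥ v) = ((∑ i, μ i * ‖coefU U i v‖ ^ 2 : ℝ) : ℂ) := by
  have e : ∀ i, ((μ i * ‖coefU U i v‖ ^ 2 : ℝ) : ℂ) =
      ∑ a, ∑ b, (μ i : ℂ) * ((U a i * star (v a)) * (star (U b i) * v b)) := by
    intro i
    rw [Complex.ofReal_mul, norm_sq_eq_star_mul]
    unfold coefU
    rw [star_sum, Finset.sum_mul_sum, Finset.mul_sum]
    refine Finset.sum_congr rfl fun a _ => ?_
    rw [Finset.mul_sum]
    refine Finset.sum_congr rfl fun b _ => ?_
    rw [star_mul', star_star]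
  rw [Complex.ofReal_sum]
  simp_rw [e]
  unfold dotProduct mulVec dotProduct
  simp_rw [h]
  rw [Finset.sum_comm]
  refine Finset.sum_congr rfl fun a _ => ?_
  rw [Finset.sum_comm, Finset.mul_sum]
  refine Finset.sum_congr rfl fun b _ => ?_
  rw [Finset.sum_mul, Finset.mul_sum]
  refine Finset.sum_congr rfl fun i _ => ?_
  simp only [Pi.star_apply]
  ring

lemma quad_eq {A : Matrix (Fin m) (Fin m) ℂ} (hA : A.IsHermitian) (v : Fin m → ℂ) :
    star v ⬝ᵥ (A *ᵥ v) =
      ((∑ i, hA.eigenvalues i *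
        ‖coefU (hA.eigenvectorUnitary : Matrix (Fin m) (Fin m) ℂ) i v‖ ^ 2 : ℝ) : ℂ) :=
  quad_of_entries (spectral_entry hA) v

/-- The real quadratic form. -/
def quad (W : ℝ → Matrix (Fin m) (Fin m) ℂ) (ψ : Fin N → ℝ → Fin m → ℂ) (x : ℝ) (j : Fin N) : ℝ :=
  (star (ψ j x) ⬝ᵥ (W x *ᵥ ψ j x)).re

/-- The master pointwise inequality. -/
theorem master {W : ℝ → Matrix (Fin m) (Fin m) ℂ} (hW : IsPotential W)
    {ψ ψ' : Fin N → ℝ → Fin m → ℂ} (hψ : ∀ j, IsH1 (ψ j) (ψ' j))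
    (horth : ∀ j k, Gram ψ j k = if j = k then 1 else 0) (x : ℝ) :
    ENNReal.ofReal (∑ j, quad W ψ x j) ≤
      ENNReal.ofReal (0.306 * trPow hW (3 / 2) x) + ENNReal.ofReal (5 / 16 * Dens ψ ψ' x) +
      ENNReal.ofReal (11 / 16) * ∑ j, ∑ a,
        (Aint (fun y => (ψ j y a).re) x + Aint (fun y => (ψ j y a).im) x) := by
  have hA := (hW.psd x).1
  have hμ : ∀ i, 0 ≤ (hW.psd x).1.eigenvalues i := fun i => (hW.psd x).eigenvalues_nonneg i
  set U : Matrix (Fin m) (Fin m) ℂ := ((hW.psd x).1.eigenvectorUnitary : Matrix (Fin m) (Fin m) ℂ)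
    with hUd
  have hU : U * star U = 1 := Unitary.coe_mul_star_self _
  have h1 : ∑ j, quad W ψ x j = ∑ i, (hW.psd x).1.eigenvalues i * rr U ψ x i := by
    unfold quad rr
    simp_rw [Finset.mul_sum]
    rw [Finset.sum_comm]
    refine Finset.sum_congr rfl fun j _ => ?_
    rw [quad_eq (hW.psd x).1, Complex.ofReal_re]
  have h2 : ∑ i, (hW.psd x).1.eigenvalues i * rr U ψ x i ≤
      0.306 * trPow hW (3 / 2) x + ∑ i, 1.5822 * rr U ψ x i ^ 3 := by
    unfold trPow
    rw [Finset.mul_sum, ← Finset.sum_add_distrib]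
    exact Finset.sum_le_sum fun i _ => young (hμ i) (rr_nonneg U ψ x i)
  rw [h1]
  calc ENNReal.ofReal (∑ i, (hW.psd x).1.eigenvalues i * rr U ψ x i)
      ≤ ENNReal.ofReal (0.306 * trPow hW (3 / 2) x + ∑ i, 1.5822 * rr U ψ x i ^ 3) :=
        ENNReal.ofReal_le_ofReal h2
    _ ≤ ENNReal.ofReal (0.306 * trPow hW (3 / 2) x) +
          ENNReal.ofReal (∑ i, 1.5822 * rr U ψ x i ^ 3) := ENNReal.ofReal_add_le
    _ = ENNReal.ofReal (0.306 * trPow hW (3 / 2) x) +
          ∑ i, ENNReal.ofReal (1.5822 * rr U ψ x i ^ 3) := by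
        rw [ENNReal.ofReal_sum_of_nonneg fun i _ => by
          have := rr_nonneg U ψ x i
          positivity]
    _ ≤ ENNReal.ofReal (0.306 * trPow hW (3 / 2) x) +
          ∑ i, (ENNReal.ofReal (5 / 16 * DD U ψ ψ' x i) +
            ENNReal.ofReal (11 / 16) * TT U ψ x i) := by
        gcongr with i _
        exact local_i hψ horth hU x i
    _ = _ := by
        rw [Finset.sum_add_distrib, ← Finset.mul_sum, ← ENNReal.ofReal_sum_of_nonneg
          (fun i _ => mul_nonneg (by norm_num) (DD_nonneg U ψ ψ' x i)), ← Finset.mul_sum,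
          DD_sum hψ hU x, TT_sum hψ hU x, add_assoc]

lemma Dens_nonneg {ψ ψ' : Fin N → ℝ → Fin m → ℂ} (hψ : ∀ j, IsH1 (ψ j) (ψ' j)) (x : ℝ) :
    0 ≤ Dens ψ ψ' x := by
  have hU : (1 : Matrix (Fin m) (Fin m) ℂ) * star 1 = 1 := by simp
  rw [← DD_sum hψ hU x]
  exact Finset.sum_nonneg fun i _ => DD_nonneg _ _ _ _ _

lemma gram_re {g : Fin N → ℝ → Fin m → ℂ} (hg : ∀ j a, MemLp (fun y => g j y a) 2 volume)
    (j : Fin N) :
    (Gram g j j).re = ∑ a, ((∫ y, (g j y a).re ^ 2) + ∫ y, (g j y a).im ^ 2) := by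
  unfold Gram
  have h1 : (∫ y, star (g j y) ⬝ᵥ g j y).re = ∫ y, (star (g j y) ⬝ᵥ g j y).re :=
    (integral_re (integrable_dot hg j j)).symm
  rw [h1]
  have e : ∀ y, (star (g j y) ⬝ᵥ g j y).re = ∑ a, ((g j y a).re ^ 2 + (g j y a).im ^ 2) := by
    intro y
    unfold dotProduct
    rw [Complex.re_sum]
    refine Finset.sum_congr rfl fun a _ => ?_
    simp only [Pi.star_apply, Complex.mul_re, Complex.star_def, Complex.conj_re, Complex.conj_im]
    ring
  simp_rw [e]
  have i1 : ∀ a, Integrable (fun y => (g j y a).re ^ 2) := fun a => (hg j a).re.integrable_sq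
  have i2 : ∀ a, Integrable (fun y => (g j y a).im ^ 2) := fun a => (hg j a).im.integrable_sq
  have i3 : ∀ a ∈ Finset.univ, Integrable (fun y => (g j y a).re ^ 2 + (g j y a).im ^ 2) :=
    fun a _ => (i1 a).add (i2 a)
  rw [integral_finsetSum _ i3]
  refine Finset.sum_congr rfl fun a _ => ?_
  exact integral_add (i1 a) (i2 a)

/-- The integrated inequality. -/
theorem integrated {W : ℝ → Matrix (Fin m) (Fin m) ℂ} (hW : IsPotential W)
    (hint : Integrable (trPow hW (3 / 2)))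
    {ψ ψ' : Fin N → ℝ → Fin m → ℂ} (hψ : ∀ j, IsH1 (ψ j) (ψ' j))
    (horth : ∀ j k, Gram ψ j k = if j = k then 1 else 0) :
    ∫⁻ x, ENNReal.ofReal (∑ j, quad W ψ x j) ≤
      ENNReal.ofReal (0.306 * (∫ x, trPow hW (3 / 2) x) + (∑ j, Gram ψ' j j).re) := by
  have hg' : ∀ j a, MemLp (fun y => ψ' j y a) 2 volume := fun j a => (hψ j).memLp' a
  obtain ⟨hDi, hDe⟩ := integral_Dens hψ horth (ψ' := ψ')
  set T := (∑ j, Gram ψ' j j).re with hT
  have hT0 : 0 ≤ T := by
    rw [← hDe]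
    exact integral_nonneg (Dens_nonneg hψ)
  have htr0 : ∀ x, 0 ≤ trPow hW (3 / 2) x := fun x =>
    Finset.sum_nonneg fun i _ => Real.rpow_nonneg ((hW.psd x).eigenvalues_nonneg i) _
  have hA0 : 0 ≤ ∫ x, trPow hW (3 / 2) x := integral_nonneg htr0
  have e1 : ∫⁻ x, ENNReal.ofReal (0.306 * trPow hW (3 / 2) x) =
      ENNReal.ofReal (0.306 * ∫ x, trPow hW (3 / 2) x) := by
    rw [← integral_const_mul, ofReal_integral_eq_lintegral_ofReal (hint.const_mul _)
      (ae_of_all _ fun x => mul_nonneg (by norm_num) (htr0 x))]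
  have e2 : ∫⁻ x, ENNReal.ofReal (5 / 16 * Dens ψ ψ' x) = ENNReal.ofReal (5 / 16 * T) := by
    rw [← hDe, ← integral_const_mul, ofReal_integral_eq_lintegral_ofReal (hDi.const_mul _)
      (ae_of_all _ fun x => mul_nonneg (by norm_num) (Dens_nonneg hψ x))]
  have e3 : ∫⁻ x, ∑ j, ∑ a, (Aint (fun y => (ψ j y a).re) x + Aint (fun y => (ψ j y a).im) x) ≤
      ENNReal.ofReal T := by
    have hm1 : ∀ j a, Measurable (fun x =>
        Aint (fun y => (ψ j y a).re) x + Aint (fun y => (ψ j y a).im) x) := fun j a =>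
      (measurable_Aint ((hψ j).ch1 a).re.measurable).add
        (measurable_Aint ((hψ j).ch1 a).im.measurable)
    have hm2 : ∀ j, Measurable (fun x => ∑ a,
        (Aint (fun y => (ψ j y a).re) x + Aint (fun y => (ψ j y a).im) x)) := fun j =>
      Finset.measurable_fun_sum _ fun a _ => hm1 j a
    rw [lintegral_finsetSum _ fun j _ => hm2 j]
    have e4 : T = ∑ j, ∑ a, ((∫ y, (ψ' j y a).re ^ 2) + ∫ y, (ψ' j y a).im ^ 2) := by
      rw [hT, Complex.re_sum]
      exact Finset.sum_congr rfl fun j _ => gram_re hg' j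
    have h0 : ∀ j a, 0 ≤ (∫ y, (ψ' j y a).re ^ 2) + ∫ y, (ψ' j y a).im ^ 2 := fun j a =>
      add_nonneg (integral_nonneg fun y => sq_nonneg _) (integral_nonneg fun y => sq_nonneg _)
    rw [e4, ENNReal.ofReal_sum_of_nonneg (fun j _ => Finset.sum_nonneg fun a _ => h0 j a)]
    refine Finset.sum_le_sum fun j _ => ?_
    rw [lintegral_finsetSum _ fun a _ => hm1 j a,
      ENNReal.ofReal_sum_of_nonneg (fun a _ => h0 j a)]
    refine Finset.sum_le_sum fun a _ => ?_
    rw [lintegral_add_left (measurable_Aint ((hψ j).ch1 a).re.measurable),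
      ENNReal.ofReal_add (integral_nonneg fun y => sq_nonneg _)
        (integral_nonneg fun y => sq_nonneg _)]
    exact add_le_add (kinetic_bound ((hψ j).ch1 a).re) (kinetic_bound ((hψ j).ch1 a).im)
  have hm3 : Measurable (fun x => ∑ j, ∑ a,
      (Aint (fun y => (ψ j y a).re) x + Aint (fun y => (ψ j y a).im) x)) :=
    Finset.measurable_fun_sum _ fun j _ => Finset.measurable_fun_sum _ fun a _ =>
      (measurable_Aint ((hψ j).ch1 a).re.measurable).add
        (measurable_Aint ((hψ j).ch1 a).im.measurable)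
  calc ∫⁻ x, ENNReal.ofReal (∑ j, quad W ψ x j)
      ≤ ∫⁻ x, (ENNReal.ofReal (0.306 * trPow hW (3 / 2) x) + ENNReal.ofReal (5 / 16 * Dens ψ ψ' x) +
          ENNReal.ofReal (11 / 16) * ∑ j, ∑ a,
            (Aint (fun y => (ψ j y a).re) x + Aint (fun y => (ψ j y a).im) x)) :=
        lintegral_mono fun x => master hW hψ horth x
    _ = (∫⁻ x, (ENNReal.ofReal (0.306 * trPow hW (3 / 2) x) + ENNReal.ofReal (5 / 16 * Dens ψ ψ' x))) +
          ∫⁻ x, ENNReal.ofReal (11 / 16) * ∑ j, ∑ a,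
            (Aint (fun y => (ψ j y a).re) x + Aint (fun y => (ψ j y a).im) x) :=
        lintegral_add_right _ (hm3.const_mul _)
    _ = ENNReal.ofReal (0.306 * ∫ x, trPow hW (3 / 2) x) + ENNReal.ofReal (5 / 16 * T) +
          ENNReal.ofReal (11 / 16) * ∫⁻ x, ∑ j, ∑ a,
            (Aint (fun y => (ψ j y a).re) x + Aint (fun y => (ψ j y a).im) x) := by
        rw [lintegral_const_mul _ hm3, lintegral_add_left'
          (hint.aestronglyMeasurable.const_mul _).aemeasurable.ennreal_ofReal, e1, e2]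
    _ ≤ ENNReal.ofReal (0.306 * ∫ x, trPow hW (3 / 2) x) + ENNReal.ofReal (5 / 16 * T) +
          ENNReal.ofReal (11 / 16) * ENNReal.ofReal T := by gcongr
    _ = ENNReal.ofReal (0.306 * (∫ x, trPow hW (3 / 2) x) + T) := by
        rw [← ENNReal.ofReal_mul (by norm_num),
          ← ENNReal.ofReal_add (by positivity) (by positivity),
          ← ENNReal.ofReal_add (by positivity) (by positivity)]
        congr 1
        ring

lemma CH1.continuous {φ φ' : ℝ → ℂ} (h : CH1 φ φ') : Continuous φ := by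
  have h1 : Continuous fun b => ∫ t in (0:ℝ)..b, φ' t :=
    intervalIntegral.continuous_primitive (fun a b => h.intervalIntegrable' a b) 0
  have h2 : φ = fun b => φ 0 + ∫ t in (0:ℝ)..b, φ' t := by
    funext b
    rw [← h.ftc 0 b]
    ring
  rw [h2]
  exact continuous_const.add h1

lemma measurable_quad {W : ℝ → Matrix (Fin m) (Fin m) ℂ} (hW : IsPotential W)
    {ψ ψ' : Fin N → ℝ → Fin m → ℂ} (hψ : ∀ j, IsH1 (ψ j) (ψ' j)) (j : Fin N) :
    Measurable (fun x => quad W ψ x j) := by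
  have h1 : ∀ a, Measurable (fun x => ψ j x a) := fun a => ((hψ j).ch1 a).continuous.measurable
  unfold quad dotProduct mulVec dotProduct
  refine Complex.measurable_re.comp ?_
  refine Finset.measurable_fun_sum _ fun a _ => ?_
  refine Measurable.mul ?_ ?_
  · exact continuous_star.measurable.comp (h1 a)
  · exact Finset.measurable_fun_sum _ fun b _ => (hW.measurable a b).mul (h1 b)

lemma quad_cast {W : ℝ → Matrix (Fin m) (Fin m) ℂ} (hW : IsPotential W)
    (ψ : Fin N → ℝ → Fin m → ℂ) (x : ℝ) (j : Fin N) :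
    star (ψ j x) ⬝ᵥ (W x *ᵥ ψ j x) = (quad W ψ x j : ℂ) := by
  unfold quad
  rw [quad_eq (hW.psd x).1, Complex.ofReal_re]

lemma quad_nonneg {W : ℝ → Matrix (Fin m) (Fin m) ℂ} (hW : IsPotential W)
    (ψ : Fin N → ℝ → Fin m → ℂ) (x : ℝ) (j : Fin N) : 0 ≤ quad W ψ x j := by
  unfold quad
  rw [quad_eq (hW.psd x).1, Complex.ofReal_re]
  exact Finset.sum_nonneg fun i _ =>
    mul_nonneg ((hW.psd x).eigenvalues_nonneg i) (by positivity)

/-- The bound for orthonormal families. -/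
theorem variational {W : ℝ → Matrix (Fin m) (Fin m) ℂ} (hW : IsPotential W)
    (hint : Integrable (trPow hW (3 / 2)))
    {ψ ψ' : Fin N → ℝ → Fin m → ℂ} (hψ : ∀ j, IsH1 (ψ j) (ψ' j))
    (horth : ∀ j k, Gram ψ j k = if j = k then 1 else 0) :
    (∀ j, Integrable (fun x => quad W ψ x j)) ∧
      ∑ j, ∫ x, quad W ψ x j ≤
        0.306 * (∫ x, trPow hW (3 / 2) x) + (∑ j, Gram ψ' j j).re := by
  have hI := integrated hW hint hψ horth
  have hsum0 : ∀ x, 0 ≤ ∑ j, quad W ψ x j := fun x =>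
    Finset.sum_nonneg fun j _ => quad_nonneg hW ψ x j
  have hsumm : Measurable (fun x => ∑ j, quad W ψ x j) :=
    Finset.measurable_fun_sum _ fun j _ => measurable_quad hW hψ j
  have hsumI : Integrable (fun x => ∑ j, quad W ψ x j) := by
    rw [← lintegral_ofReal_ne_top_iff_integrable hsumm.aestronglyMeasurable
      (ae_of_all _ hsum0)]
    exact ne_top_of_le_ne_top ENNReal.ofReal_ne_top hI
  have hjI : ∀ j, Integrable (fun x => quad W ψ x j) := fun j => by
    refine hsumI.mono' (measurable_quad hW hψ j).aestronglyMeasurable (ae_of_all _ fun x => ?_)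
    rw [Real.norm_eq_abs, abs_of_nonneg (quad_nonneg hW ψ x j)]
    exact Finset.single_le_sum (f := fun j => quad W ψ x j)
      (fun j _ => quad_nonneg hW ψ x j) (Finset.mem_univ j)
  refine ⟨hjI, ?_⟩
  rw [← integral_finsetSum _ fun j _ => hjI j]
  have hT0 : 0 ≤ 0.306 * (∫ x, trPow hW (3 / 2) x) + (∑ j, Gram ψ' j j).re := by
    obtain ⟨-, hDe⟩ := integral_Dens hψ horth (ψ' := ψ')
    have htr0 : ∀ x, 0 ≤ trPow hW (3 / 2) x := fun x =>
      Finset.sum_nonneg fun i _ => Real.rpow_nonneg ((hW.psd x).eigenvalues_nonneg i) _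
    have h1 : 0 ≤ ∫ x, trPow hW (3 / 2) x := integral_nonneg htr0
    have h2 : 0 ≤ (∑ j, Gram ψ' j j).re := by
      rw [← hDe]
      exact integral_nonneg (Dens_nonneg hψ)
    positivity
  rw [← ofReal_integral_eq_lintegral_ofReal hsumI (ae_of_all _ hsum0)] at hI
  exact (ENNReal.ofReal_le_ofReal_iff hT0).1 hI

/-- The Lieb-Thirring bound for eigenvalues. -/
theorem lt_bound {W : ℝ → Matrix (Fin m) (Fin m) ℂ} (hW : IsPotential W)
    (hint : Integrable (trPow hW (3 / 2)))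
    {ψ ψ' : Fin N → ℝ → Fin m → ℂ} (hψ : ∀ j, IsH1 (ψ j) (ψ' j)) {lam : Fin N → ℝ}
    (horth : ∀ j k, ∫ x, star (ψ j x) ⬝ᵥ ψ k x = if j = k then (1:ℂ) else 0)
    (hneg : ∀ j, lam j < 0)
    (heig : ∀ j (φ φ' : ℝ → Fin m → ℂ), IsH1 φ φ' →
      (∫ x, star (φ' x) ⬝ᵥ ψ' j x) - (∫ x, star (φ x) ⬝ᵥ (W x *ᵥ ψ j x)) =
        (lam j : ℂ) * ∫ x, star (φ x) ⬝ᵥ ψ j x) :
    ∑ j, |lam j| ≤ 0.306 * ∫ x, trPow hW (3 / 2) x := by
  obtain ⟨_, hv⟩ := variational hW hint hψ horth
  have key : ∀ j, |lam j| = (∫ x, quad W ψ x j) - (Gram ψ' j j).re := by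
    intro j
    have h1 := heig j (ψ j) (ψ' j) (hψ j)
    simp_rw [quad_cast hW ψ _ j] at h1
    rw [integral_complex_ofReal, horth j j, if_pos rfl, mul_one] at h1
    have h2 := congrArg Complex.re h1
    simp only [Complex.sub_re, Complex.ofReal_re] at h2
    rw [abs_of_neg (hneg j), ← h2]
    have : (∫ x, star (ψ' j x) ⬝ᵥ ψ' j x).re = (Gram ψ' j j).re := rfl
    rw [this]
    ring
  simp_rw [key]
  rw [Finset.sum_sub_distrib]
  rw [Complex.re_sum] at hv
  linarith

end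

end Vale.Agent.Lib.P371
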