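import Vale.Agent.Lib.P371.Scale

/-! The numerical value of the certificate, and the Young inequality. -/

open MeasureTheory Set Filter Topology

namespace Vale.Agent.Lib.P371

noncomputable section

/-- Coefficients in the Laplace variable. -/
def cN : ℕ → ℝ
  | 0 => 0.95732
  | 1 => -0.29635
  | 2 => 0.071843
  | 3 => -0.0087127
  | 4 => 0.00051341
  | 5 => -0.000011914
  | _ => 0

/-- Coefficients in the space variable. -/
def dN : ℕ → ℝ
  | 0 => -1.3992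
  | 1 => 6.8183
  | 2 => -7.1591
  | 3 => 3.2524
  | 4 => -0.72623
  | 5 => 0.067654
  | _ => 0

/-- The certified constant. -/
theorem Kval_ge : (1.5822 : ℝ) ≤ Kval (1 / 3) (5 / 16) (8 / 3) cN dN 6 := by
  unfold Kval zpoly zf Sq M0c C2c
  norm_num [Finset.sum_range_succ, Nat.factorial, Ecoef, dcoef, cN, dN]

/-- The scalar pointwise bound with explicit constants. -/
theorem scalar_pointwise {f f' : ℝ → ℝ} (h : RealH1 f f') {x r : ℝ} (hr : 0 < r) (hfx : f x = r)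
    (hf2 : ∫ y, f y ^ 2 ≤ r) :
    ENNReal.ofReal (1.5822 * r ^ 3) ≤
      ENNReal.ofReal (5 / 16 * ∫ y, f' y ^ 2) +
        ENNReal.ofReal (11 / 16) * (ENNReal.ofReal r⁻¹ *
          ∫⁻ s in Ioi (0:ℝ), ENNReal.ofReal (2 * s * (r - V s f x) ^ 2)) := by
  have hc := core_scalar h hr hfx hf2 (β := 1 / 3) (μ := 8 / 3) (θ := 5 / 16) (by norm_num)
    (by norm_num) (by norm_num) (by norm_num) cN dN 6
  have e : (1:ℝ) - 5 / 16 = 11 / 16 := by norm_num
  rw [e] at hc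
  refine le_trans (ENNReal.ofReal_le_ofReal ?_) hc
  have hr3 : 0 ≤ r ^ 3 := by positivity
  have := mul_le_mul_of_nonneg_left Kval_ge hr3
  linarith

/-- Young's inequality, polynomial form. -/
lemma young_poly {s r : ℝ} (hs : 0 ≤ s) (hr : 0 ≤ r) :
    s ^ 2 * r ≤ 0.306 * s ^ 3 + 1.5822 * r ^ 3 := by
  have h1 : 0 ≤ (r - 0.459 * s) ^ 2 * (r + 2 * (0.459 * s)) := by positivity
  have h2 : 0 ≤ r ^ 3 := by positivity
  have hK : 1 / (3 * (0.459:ℝ) ^ 2) ≤ 1.5822 := by norm_num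
  have h3 : 1 / (3 * (0.459:ℝ) ^ 2) * r ^ 3 ≤ 1.5822 * r ^ 3 :=
    mul_le_mul_of_nonneg_right hK h2
  have h4 := mul_nonneg (by norm_num : (0:ℝ) ≤ 1 / (3 * (0.459:ℝ) ^ 2)) h1
  have h5 : 1 / (3 * (0.459:ℝ) ^ 2) * ((r - 0.459 * s) ^ 2 * (r + 2 * (0.459 * s))) =
      1 / (3 * (0.459:ℝ) ^ 2) * r ^ 3 - s ^ 2 * r + 0.306 * s ^ 3 := by
    norm_num
    ring
  linarith

/-- Young's inequality. -/
lemma young {μ r : ℝ} (hμ : 0 ≤ μ) (hr : 0 ≤ r) :
    μ * r ≤ 0.306 * μ ^ (3 / 2 : ℝ) + 1.5822 * r ^ 3 := by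
  have hs := Real.sqrt_nonneg μ
  have h := young_poly hs hr
  rw [Real.sq_sqrt hμ] at h
  have e : μ ^ (3 / 2 : ℝ) = Real.sqrt μ ^ 3 := by
    rw [Real.sqrt_eq_rpow, ← Real.rpow_natCast, ← Real.rpow_mul hμ]
    norm_num
  rw [e]
  exact h

end

end Vale.Agent.Lib.P371
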