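import Vale.Agent.Lib.P371.Gram

/-! The pointwise inequality at a fixed point and a fixed orthonormal basis of `ℂ^m`. -/

open MeasureTheory Set Filter Topology Matrix

namespace Vale.Agent.Lib.P371

noncomputable section

variable {m N : ℕ}

/-- Density along the `i`-th basis vector. -/
def rr (U : Matrix (Fin m) (Fin m) ℂ) (ψ : Fin N → ℝ → Fin m → ℂ) (x : ℝ) (i : Fin m) : ℝ :=
  ∑ j, ‖coefU U i (ψ j x)‖ ^ 2

/-- The coefficient vector. -/
def bb (U : Matrix (Fin m) (Fin m) ℂ) (ψ : Fin N → ℝ → Fin m → ℂ) (x : ℝ) (i : Fin m)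
    (j : Fin N) : ℂ := star (coefU U i (ψ j x))

/-- Kinetic energy of the scalar test function. -/
def DD (U : Matrix (Fin m) (Fin m) ℂ) (ψ ψ' : Fin N → ℝ → Fin m → ℂ) (x : ℝ) (i : Fin m) : ℝ :=
  ∫ y, ∑ a, ‖∑ j, bb U ψ x i j * ψ' j y a‖ ^ 2

/-- The Rumin part along the `i`-th basis vector. -/
def TT (U : Matrix (Fin m) (Fin m) ℂ) (ψ : Fin N → ℝ → Fin m → ℂ) (x : ℝ) (i : Fin m) : ENNReal :=
  ∫⁻ t in Ioi (0:ℝ), ENNReal.ofReal (2 * t * ∑ j, ‖coefU U i (wc (ψ j) t x)‖ ^ 2)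

lemma rr_nonneg (U : Matrix (Fin m) (Fin m) ℂ) (ψ : Fin N → ℝ → Fin m → ℂ) (x : ℝ) (i : Fin m) :
    0 ≤ rr U ψ x i := Finset.sum_nonneg fun _ _ => by positivity

lemma DD_nonneg (U : Matrix (Fin m) (Fin m) ℂ) (ψ ψ' : Fin N → ℝ → Fin m → ℂ) (x : ℝ) (i : Fin m) :
    0 ≤ DD U ψ ψ' x i := integral_nonneg fun _ => Finset.sum_nonneg fun _ _ => by positivity

lemma sum_norm_bb (U : Matrix (Fin m) (Fin m) ℂ) (ψ : Fin N → ℝ → Fin m → ℂ) (x : ℝ) (i : Fin m) :
    ∑ j, ‖bb U ψ x i j‖ ^ 2 = rr U ψ x i := by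
  unfold bb rr
  simp_rw [norm_star]

lemma Phi_at (U : Matrix (Fin m) (Fin m) ℂ) (ψ : Fin N → ℝ → Fin m → ℂ) (x : ℝ) (i : Fin m) :
    Phi U ψ i (bb U ψ x i) x = (rr U ψ x i : ℂ) := by
  unfold Phi
  rw [coefU_combo]
  unfold rr bb
  push_cast
  refine Finset.sum_congr rfl fun j _ => ?_
  rw [← Complex.ofReal_pow, norm_sq_eq_star_mul]

/-- The local inequality for the `i`-th basis vector. -/
theorem local_i {ψ ψ' : Fin N → ℝ → Fin m → ℂ} (hψ : ∀ j, IsH1 (ψ j) (ψ' j))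
    (horth : ∀ j k, Gram ψ j k = if j = k then 1 else 0)
    {U : Matrix (Fin m) (Fin m) ℂ} (hU : U * star U = 1) (x : ℝ) (i : Fin m) :
    ENNReal.ofReal (1.5822 * rr U ψ x i ^ 3) ≤
      ENNReal.ofReal (5 / 16 * DD U ψ ψ' x i) + ENNReal.ofReal (11 / 16) * TT U ψ x i := by
  rcases (rr_nonneg U ψ x i).eq_or_lt with h0 | hr
  · rw [← h0]
    simp
  set r := rr U ψ x i with hrd
  set b := bb U ψ x i with hbd
  have hch := Phi_ch1 hψ U i b
  have hf := hch.re
  have hfx : (Phi U ψ i b x).re = r := by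
    rw [hbd, Phi_at]
    simp [hrd]
  have hg : ∀ j a, MemLp (fun y => ψ j y a) 2 volume := fun j a => (hψ j).memLp a
  have hg' : ∀ j a, MemLp (fun y => ψ' j y a) 2 volume := fun j a => (hψ j).memLp' a
  have hf2 : ∫ y, (Phi U ψ i b y).re ^ 2 ≤ r := by
    refine (Phi_re_sq_le hg hU i b hf.sq).trans (le_of_eq ?_)
    rw [gram_orth hg horth b]
    exact sum_norm_bb U ψ x i
  have hf2' : ∫ y, (Phi U ψ' i b y).re ^ 2 ≤ DD U ψ ψ' x i :=
    Phi_re_sq_le hg' hU i b hf.sq'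
  have hsc := scalar_pointwise hf hr hfx hf2
  refine hsc.trans (add_le_add (ENNReal.ofReal_le_ofReal ?_) ?_)
  · linarith
  · refine mul_le_mul' le_rfl ?_
    rw [← lintegral_const_mul' _ _ ENNReal.ofReal_ne_top]
    unfold TT
    refine setLIntegral_mono' measurableSet_Ioi fun t ht => ?_
    have ht' : (0:ℝ) < t := ht
    rw [← ENNReal.ofReal_mul (inv_pos.2 hr).le]
    refine ENNReal.ofReal_le_ofReal ?_
    have h1 := rumin_bound hψ U i b ht' x
    rw [hfx, sum_norm_bb] at h1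
    have h2 : r⁻¹ * (2 * t * (r - V t (fun y => (Phi U ψ i b y).re) x) ^ 2) ≤
        r⁻¹ * (2 * t * (r * ∑ j, ‖coefU U i (wc (ψ j) t x)‖ ^ 2)) := by
      gcongr
    refine h2.trans (le_of_eq ?_)
    field_simp

/-- The inner Rumin integral of a real function at `x`. -/
def Aint (f : ℝ → ℝ) (x : ℝ) : ENNReal :=
  ∫⁻ t in Ioi (0:ℝ), ENNReal.ofReal (2 * t * (f x - V t f x) ^ 2)

lemma measurable_V_t {f : ℝ → ℝ} (hm : Measurable f) (x : ℝ) : Measurable (fun t => V t f x) :=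
  (measurable_V_uncurry hm).comp (measurable_id.prodMk measurable_const)

lemma measurable_Aint {f : ℝ → ℝ} (hm : Measurable f) : Measurable (Aint f) := by
  have h1 : Measurable (fun p : ℝ × ℝ => f p.1 - V p.2 f p.1) :=
    (hm.comp measurable_fst).sub ((measurable_V_uncurry hm).comp (measurable_snd.prodMk measurable_fst))
  have h2 : Measurable (fun p : ℝ × ℝ => ENNReal.ofReal (2 * p.2 * (f p.1 - V p.2 f p.1) ^ 2)) :=
    ENNReal.measurable_ofReal.comp ((measurable_const.mul measurable_snd).mul (h1.pow_const 2))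
  exact h2.lintegral_prod_right'

lemma measurable_Aint_integrand {f : ℝ → ℝ} (hm : Measurable f) (x : ℝ) :
    Measurable (fun t => ENNReal.ofReal (2 * t * (f x - V t f x) ^ 2)) :=
  ENNReal.measurable_ofReal.comp ((measurable_const.mul measurable_id).mul
    ((measurable_const.sub (measurable_V_t hm x)).pow_const 2))

lemma norm_wc_sq (g : ℝ → Fin m → ℂ) (t x : ℝ) (a : Fin m) :
    ‖wc g t x a‖ ^ 2 = ((g x a).re - V t (fun y => (g y a).re) x) ^ 2 +
      ((g x a).im - V t (fun y => (g y a).im) x) ^ 2 := by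
  rw [Complex.sq_norm, Complex.normSq_apply]
  unfold wc
  simp only [Complex.sub_re, Complex.sub_im, Vc_re, Vc_im]
  ring

lemma measurable_wc {g g' : ℝ → Fin m → ℂ} (h : IsH1 g g') (x : ℝ) (a : Fin m) :
    Measurable (fun t => wc g t x a) := by
  unfold wc Vc
  refine measurable_const.sub (Measurable.add ?_ (Measurable.mul_const ?_ _))
  · exact Complex.measurable_ofReal.comp (measurable_V_t (h.ch1 a).re.measurable x)
  · exact Complex.measurable_ofReal.comp (measurable_V_t (h.ch1 a).im.measurable x)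

lemma measurable_coefU_wc {g g' : ℝ → Fin m → ℂ} (h : IsH1 g g') (U : Matrix (Fin m) (Fin m) ℂ)
    (i : Fin m) (x : ℝ) : Measurable (fun t => coefU U i (wc g t x)) := by
  unfold coefU
  exact Finset.measurable_sum _ fun a _ => measurable_const.mul (measurable_wc h x a)

/-- The sum of the Rumin parts. -/
theorem TT_sum {ψ ψ' : Fin N → ℝ → Fin m → ℂ} (hψ : ∀ j, IsH1 (ψ j) (ψ' j))
    {U : Matrix (Fin m) (Fin m) ℂ} (hU : U * star U = 1) (x : ℝ) :
    ∑ i, TT U ψ x i =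
      ∑ j, ∑ a, (Aint (fun y => (ψ j y a).re) x + Aint (fun y => (ψ j y a).im) x) := by
  unfold TT
  rw [← lintegral_finsetSum]
  · have key : ∀ t ∈ Ioi (0:ℝ),
        ∑ i, ENNReal.ofReal (2 * t * ∑ j, ‖coefU U i (wc (ψ j) t x)‖ ^ 2) =
        ∑ j, ∑ a, (ENNReal.ofReal (2 * t * ((ψ j x a).re - V t (fun y => (ψ j y a).re) x) ^ 2) +
          ENNReal.ofReal (2 * t * ((ψ j x a).im - V t (fun y => (ψ j y a).im) x) ^ 2)) := by
      intro t ht
      have ht' : (0:ℝ) < t := ht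
      rw [← ENNReal.ofReal_sum_of_nonneg (fun i _ => by positivity)]
      have e : ∑ i, 2 * t * ∑ j, ‖coefU U i (wc (ψ j) t x)‖ ^ 2 =
          ∑ j, ∑ a, (2 * t * ((ψ j x a).re - V t (fun y => (ψ j y a).re) x) ^ 2 +
            2 * t * ((ψ j x a).im - V t (fun y => (ψ j y a).im) x) ^ 2) := by
        rw [← Finset.mul_sum, Finset.sum_comm]
        simp_rw [parseval hU, norm_wc_sq]
        rw [Finset.mul_sum]
        refine Finset.sum_congr rfl fun j _ => ?_
        rw [Finset.mul_sum]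
        refine Finset.sum_congr rfl fun a _ => ?_
        ring
      rw [e, ENNReal.ofReal_sum_of_nonneg (fun j _ => Finset.sum_nonneg fun a _ => by positivity)]
      refine Finset.sum_congr rfl fun j _ => ?_
      rw [ENNReal.ofReal_sum_of_nonneg (fun a _ => by positivity)]
      refine Finset.sum_congr rfl fun a _ => ?_
      rw [ENNReal.ofReal_add (by positivity) (by positivity)]
    rw [setLIntegral_congr_fun measurableSet_Ioi key]
    have hm1 : ∀ j a, Measurable (fun t =>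
        ENNReal.ofReal (2 * t * ((ψ j x a).re - V t (fun y => (ψ j y a).re) x) ^ 2) +
          ENNReal.ofReal (2 * t * ((ψ j x a).im - V t (fun y => (ψ j y a).im) x) ^ 2)) :=
      fun j a => (measurable_Aint_integrand ((hψ j).ch1 a).re.measurable x).add
        (measurable_Aint_integrand ((hψ j).ch1 a).im.measurable x)
    have hm2 : ∀ j, Measurable (fun t => ∑ a,
        (ENNReal.ofReal (2 * t * ((ψ j x a).re - V t (fun y => (ψ j y a).re) x) ^ 2) +
          ENNReal.ofReal (2 * t * ((ψ j x a).im - V t (fun y => (ψ j y a).im) x) ^ 2))) :=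
      fun j => Finset.measurable_fun_sum _ fun a _ => hm1 j a
    rw [lintegral_finsetSum _ fun j _ => hm2 j]
    refine Finset.sum_congr rfl fun j _ => ?_
    rw [lintegral_finsetSum _ fun a _ => hm1 j a]
    refine Finset.sum_congr rfl fun a _ => ?_
    rw [lintegral_add_left (measurable_Aint_integrand ((hψ j).ch1 a).re.measurable x)]
    rfl
  · intro i _
    refine ENNReal.measurable_ofReal.comp ((measurable_const.mul measurable_id).mul ?_)
    refine Finset.measurable_sum _ fun j _ => ?_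
    exact (measurable_coefU_wc (hψ j) U i x).norm.pow_const 2

/-- The Eden-Foias density. -/
def Dens (ψ ψ' : Fin N → ℝ → Fin m → ℂ) (x : ℝ) : ℝ :=
  (∑ j, ∑ k, (star (ψ k x) ⬝ᵥ ψ j x) * Gram ψ' j k).re

theorem DD_sum {ψ ψ' : Fin N → ℝ → Fin m → ℂ} (hψ : ∀ j, IsH1 (ψ j) (ψ' j))
    {U : Matrix (Fin m) (Fin m) ℂ} (hU : U * star U = 1) (x : ℝ) :
    ∑ i, DD U ψ ψ' x i = Dens ψ ψ' x := by
  have hg' : ∀ j a, MemLp (fun y => ψ' j y a) 2 volume := fun j a => (hψ j).memLp' a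
  have h : ((∑ i, DD U ψ ψ' x i : ℝ) : ℂ) = ∑ j, ∑ k, (star (ψ k x) ⬝ᵥ ψ j x) * Gram ψ' j k := by
    push_cast
    unfold DD
    simp_rw [gram_expand hg']
    unfold bb
    simp_rw [star_star]
    rw [Finset.sum_comm]
    refine Finset.sum_congr rfl fun j _ => ?_
    rw [Finset.sum_comm]
    refine Finset.sum_congr rfl fun k _ => ?_
    have h1 := parseval_polar hU (ψ k x) (ψ j x)
    unfold dotProduct
    have e : ∑ a, star (ψ k x) a * ψ j x a = ∑ a, star (ψ k x a) * ψ j x a := rfl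
    rw [e, ← h1, Finset.sum_mul]
    refine Finset.sum_congr rfl fun i _ => ?_
    ring
  unfold Dens
  rw [← h]
  simp

lemma integral_Dens {ψ ψ' : Fin N → ℝ → Fin m → ℂ} (hψ : ∀ j, IsH1 (ψ j) (ψ' j))
    (horth : ∀ j k, Gram ψ j k = if j = k then 1 else 0) :
    Integrable (Dens ψ ψ') ∧ ∫ x, Dens ψ ψ' x = (∑ j, Gram ψ' j j).re := by
  have hg : ∀ j a, MemLp (fun y => ψ j y a) 2 volume := fun j a => (hψ j).memLp a
  have hI : Integrable (fun x => ∑ j, ∑ k, (star (ψ k x) ⬝ᵥ ψ j x) * Gram ψ' j k) :=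
    integrable_finsetSum _ fun j _ => integrable_finsetSum _ fun k _ =>
      (integrable_dot hg k j).mul_const _
  refine ⟨hI.re, ?_⟩
  unfold Dens
  have h1 : ∫ x, (∑ j, ∑ k, (star (ψ k x) ⬝ᵥ ψ j x) * Gram ψ' j k).re =
      (∫ x, ∑ j, ∑ k, (star (ψ k x) ⬝ᵥ ψ j x) * Gram ψ' j k).re :=
    integral_re hI
  rw [h1]
  congr 1
  rw [integral_finsetSum _ fun j _ => integrable_finsetSum _ fun k _ =>
      (integrable_dot hg k j).mul_const _]
  refine Finset.sum_congr rfl fun j _ => ?_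
  rw [integral_finsetSum _ fun k _ => (integrable_dot hg k j).mul_const _]
  simp_rw [integral_mul_const]
  have e : ∀ k, ∫ x, star (ψ k x) ⬝ᵥ ψ j x = if k = j then 1 else 0 := fun k => horth k j
  simp_rw [e]
  simp

end

end Vale.Agent.Lib.P371
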