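import Vale.Agent.Lib.P371.Scale

/-! Locally absolutely continuous functions presented as primitives. -/

open MeasureTheory Set Filter Topology

namespace Vale.Agent.Lib.P371

noncomputable section

/-- `f` is a primitive of the locally integrable function `f'`. -/
structure Prim (f f' : ℝ → ℝ) : Prop where
  loc : LocallyIntegrable f' volume
  ftc : ∀ a b, f b - f a = ∫ t in a..b, f' t

lemma ac_of_dist_le {f g : ℝ → ℝ} {a b K : ℝ} (hf : AbsolutelyContinuousOnInterval f a b)
    (hK : 0 ≤ K) (h : ∀ x ∈ uIcc a b, ∀ y ∈ uIcc a b, dist (g x) (g y) ≤ K * dist (f x) (f y)) :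
    AbsolutelyContinuousOnInterval g a b := by
  rw [absolutelyContinuousOnInterval_iff] at hf ⊢
  intro ε hε
  obtain ⟨δ, hδ, hd⟩ := hf (ε / (K + 1)) (by positivity)
  refine ⟨δ, hδ, fun E hE hlen => ?_⟩
  have h1 := hd E hE hlen
  calc ∑ i ∈ Finset.range E.1, dist (g (E.2 i).1) (g (E.2 i).2)
      ≤ ∑ i ∈ Finset.range E.1, K * dist (f (E.2 i).1) (f (E.2 i).2) := by
        refine Finset.sum_le_sum fun i hi => ?_
        exact h _ (hE.1 i hi).1 _ (hE.1 i hi).2
    _ = K * ∑ i ∈ Finset.range E.1, dist (f (E.2 i).1) (f (E.2 i).2) := by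
        rw [Finset.mul_sum]
    _ ≤ K * (ε / (K + 1)) := by gcongr
    _ < (K + 1) * (ε / (K + 1)) := by
        have : 0 < ε / (K + 1) := by positivity
        nlinarith
    _ = ε := by field_simp

namespace Prim

variable {f f' g g' : ℝ → ℝ}

lemma int (h : Prim f f') (a b : ℝ) : IntervalIntegrable f' volume a b :=
  intervalIntegrable_iff.2 ((h.loc.integrableOn_isCompact isCompact_uIcc).mono_set uIoc_subset_uIcc)

lemma continuous (h : Prim f f') : Continuous f := by
  have h1 : Continuous fun b => ∫ t in (0:ℝ)..b, f' t :=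
    intervalIntegral.continuous_primitive (fun a b => h.int a b) 0
  have h2 : f = fun b => f 0 + ∫ t in (0:ℝ)..b, f' t := by
    funext b
    rw [← h.ftc 0 b]
    ring
  rw [h2]
  exact continuous_const.add h1

lemma ac (h : Prim f f') (a b : ℝ) : AbsolutelyContinuousOnInterval f a b := by
  have hG : AbsolutelyContinuousOnInterval (fun x => ∫ v in a..x, f' v) a b :=
    (h.int a b).absolutelyContinuousOnInterval_intervalIntegral left_mem_uIcc
  have hc : AbsolutelyContinuousOnInterval (fun _ : ℝ => f a) a b :=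
    (contDiffOn_const (c := f a)).absolutelyContinuousOnInterval
  have := hc.add hG
  have e : f = (fun _ : ℝ => f a) + (fun x => ∫ v in a..x, f' v) := by
    funext x
    simp only [Pi.add_apply]
    rw [← h.ftc a x]
    ring
  rw [e]
  exact this

lemma ae_hasDerivAt (h : Prim f f') : ∀ᵐ x, HasDerivAt f (f' x) x := by
  have h1 := LocallyIntegrable.ae_hasDerivAt_integral h.loc
  filter_upwards [h1] with x hx
  have h2 := (hx 0).const_add (f 0)
  have e : (fun y => f 0 + ∫ t in (0:ℝ)..y, f' t) = f := by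
    funext y
    rw [← h.ftc 0 y]
    ring
  rw [e] at h2
  exact h2

/-- Building a primitive from absolute continuity and an almost everywhere derivative. -/
lemma of_ac (hac : ∀ a b, AbsolutelyContinuousOnInterval f a b)
    (hd : ∀ᵐ x, HasDerivAt f (f' x) x) : Prim f f' := by
  have hderiv : deriv f =ᵐ[volume] f' := by
    filter_upwards [hd] with x hx using hx.deriv
  have hii : ∀ a b, IntervalIntegrable f' volume a b := fun a b =>
    ((hac a b).intervalIntegrable_deriv).congr_ae (hderiv.filter_mono (ae_mono Measure.restrict_le_self))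
  refine ⟨?_, ?_⟩
  · rw [locallyIntegrable_iff]
    intro K hK
    obtain ⟨R, hR⟩ := hK.isBounded.subset_closedBall 0
    have hsub : K ⊆ Icc (-R) R := by
      intro x hx
      have := hR hx
      rw [Metric.mem_closedBall, Real.dist_eq, sub_zero, abs_le] at this
      exact this
    have hR0 : -R ≤ R ∨ K = ∅ := by
      rcases K.eq_empty_or_nonempty with hne | ⟨x, hx⟩
      · exact Or.inr hne
      · left
        have := hsub hx
        exact this.1.trans this.2
    rcases hR0 with hR0 | rfl
    · have := (hii (-R) R)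
      rw [intervalIntegrable_iff_integrableOn_Icc_of_le hR0] at this
      exact this.mono_set hsub
    · simp
  · intro a b
    rw [← (hac a b).integral_deriv_eq_sub]
    exact intervalIntegral.integral_congr_ae (by
      filter_upwards [hd] with x hx _
      rw [hx.deriv])

/-- A function dominated by a primitive is a primitive. -/
lemma of_dominated (h : Prim f f')
    (hK : ∀ a b : ℝ, ∃ K : ℝ, 0 ≤ K ∧
      ∀ x ∈ uIcc a b, ∀ y ∈ uIcc a b, |g x - g y| ≤ K * |f x - f y|)
    (hd : ∀ᵐ x, HasDerivAt g (g' x) x) : Prim g g' := by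
  refine of_ac (fun a b => ?_) hd
  obtain ⟨K, hK0, hKd⟩ := hK a b
  refine ac_of_dist_le (h.ac a b) hK0 fun x hx y hy => ?_
  simpa [Real.dist_eq] using hKd x hx y hy

lemma mul (h1 : Prim f f') (h2 : Prim g g') :
    Prim (fun x => f x * g x) (fun x => f' x * g x + f x * g' x) := by
  refine of_ac (fun a b => (h1.ac a b).fun_mul (h2.ac a b)) ?_
  filter_upwards [h1.ae_hasDerivAt, h2.ae_hasDerivAt] with x hx hy
  exact hx.mul hy

lemma add (h1 : Prim f f') (h2 : Prim g g') :
    Prim (fun x => f x + g x) (fun x => f' x + g' x) := by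
  refine ⟨h1.loc.add h2.loc, fun a b => ?_⟩
  rw [intervalIntegral.integral_add (h1.int a b) (h2.int a b), ← h1.ftc, ← h2.ftc]
  ring

lemma sub (h1 : Prim f f') (h2 : Prim g g') :
    Prim (fun x => f x - g x) (fun x => f' x - g' x) := by
  refine ⟨h1.loc.sub h2.loc, fun a b => ?_⟩
  rw [intervalIntegral.integral_sub (h1.int a b) (h2.int a b), ← h1.ftc, ← h2.ftc]
  ring

lemma const_mul (c : ℝ) (h : Prim f f') : Prim (fun x => c * f x) (fun x => c * f' x) := by
  refine ⟨?_, fun a b => ?_⟩
  · exact h.loc.smul c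
  · rw [intervalIntegral.integral_const_mul, ← h.ftc]
    ring

lemma const (c : ℝ) : Prim (fun _ => c) (fun _ => 0) :=
  ⟨locallyIntegrable_zero, fun a b => by simp⟩

lemma sub_const (h : Prim f f') (c : ℝ) : Prim (fun x => f x - c) f' :=
  ⟨h.loc, fun a b => by rw [← h.ftc]; ring⟩

lemma congr_ae (h : Prim f f') (he : ∀ᵐ x, f' x = g' x) : Prim f g' := by
  refine of_ac (fun a b => h.ac a b) ?_
  filter_upwards [h.ae_hasDerivAt, he] with x hx hy
  rwa [← hy]

lemma sum {ι : Type*} (s : Finset ι) {F F' : ι → ℝ → ℝ} (h : ∀ i ∈ s, Prim (F i) (F' i)) :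
    Prim (fun x => ∑ i ∈ s, F i x) (fun x => ∑ i ∈ s, F' i x) := by
  classical
  induction s using Finset.induction_on with
  | empty => simpa using Prim.const 0
  | insert a s ha ih =>
    simp only [Finset.sum_insert ha]
    exact (h a (Finset.mem_insert_self a s)).add
      (ih fun i hi => h i (Finset.mem_insert_of_mem hi))

/-- Composition with a `C¹` function. -/
lemma comp_c1 (h : Prim f f') {φ φ' : ℝ → ℝ} (hφ : ∀ x, HasDerivAt φ (φ' x) x)
    (hc : Continuous φ') : Prim (fun x => φ (f x)) (fun x => φ' (f x) * f' x) := by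
  refine h.of_dominated (fun a b => ?_) ?_
  · have hcomp : IsCompact (f '' uIcc a b) := isCompact_uIcc.image h.continuous
    obtain ⟨R, hR⟩ := hcomp.isBounded.subset_closedBall 0
    have hR' : ∀ x ∈ uIcc a b, f x ∈ Icc (-R) R := by
      intro x hx
      have := hR (mem_image_of_mem f hx)
      rw [Metric.mem_closedBall, Real.dist_eq, sub_zero, abs_le] at this
      exact this
    obtain ⟨C, hC⟩ := (isCompact_Icc (a := -R) (b := R)).exists_bound_of_continuousOn
      hc.continuousOn
    refine ⟨max C 0, le_max_right _ _, fun x hx y hy => ?_⟩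
    have hconv : Convex ℝ (Icc (-R) R) := convex_Icc _ _
    have := hconv.norm_image_sub_le_of_norm_hasDerivWithin_le (f := φ) (f' := φ')
      (s := Icc (-R) R) (C := max C 0) (x := f y) (y := f x)
      (fun z _ => (hφ z).hasDerivWithinAt)
      (fun z hz => (hC z hz).trans (le_max_left _ _)) (hR' y hy) (hR' x hx)
    simpa [Real.norm_eq_abs] using this
  · filter_upwards [h.ae_hasDerivAt] with x hx
    exact (hφ (f x)).comp x hx

lemma cos (h : Prim f f') : Prim (fun x => Real.cos (f x)) (fun x => -Real.sin (f x) * f' x) :=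
  h.comp_c1 (φ := Real.cos) (φ' := fun x => -Real.sin x) Real.hasDerivAt_cos (by fun_prop)

lemma sin (h : Prim f f') : Prim (fun x => Real.sin (f x)) (fun x => Real.cos (f x) * f' x) :=
  h.comp_c1 (φ := Real.sin) (φ' := Real.cos) Real.hasDerivAt_sin (by fun_prop)

/-- Positive lower bound on compact intervals. -/
lemma exists_lower (hc : Continuous f) (hpos : ∀ x, 0 < f x) (a b : ℝ) :
    ∃ c : ℝ, 0 < c ∧ ∀ x ∈ uIcc a b, c ≤ f x := by
  obtain ⟨x0, hx0, hmin⟩ := (isCompact_uIcc (a := a) (b := b)).exists_isMinOn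
    nonempty_uIcc hc.continuousOn
  exact ⟨f x0, hpos x0, fun x hx => hmin hx⟩

/-- The reciprocal of a positive primitive. -/
lemma inv (h : Prim f f') (hpos : ∀ x, 0 < f x) :
    Prim (fun x => (f x)⁻¹) (fun x => -f' x / f x ^ 2) := by
  refine h.of_dominated (fun a b => ?_) ?_
  · obtain ⟨c, hc, hcl⟩ := exists_lower h.continuous hpos a b
    refine ⟨(c ^ 2)⁻¹, by positivity, fun x hx y hy => ?_⟩
    have hxp := hpos x
    have hyp := hpos y
    have e : (f x)⁻¹ - (f y)⁻¹ = -(f x - f y) * ((f x)⁻¹ * (f y)⁻¹) := by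
      field_simp
      ring
    rw [e, abs_mul, abs_neg, abs_of_pos (by positivity : 0 < (f x)⁻¹ * (f y)⁻¹), mul_comm]
    refine mul_le_mul_of_nonneg_right ?_ (abs_nonneg _)
    rw [sq, mul_inv]
    exact mul_le_mul (inv_anti₀ hc (hcl x hx)) (inv_anti₀ hc (hcl y hy)) (by positivity)
      (by positivity)
  · filter_upwards [h.ae_hasDerivAt] with x hx
    exact hx.fun_inv (hpos x).ne'

/-- The square root of a positive primitive. -/
lemma sqrt (h : Prim f f') (hpos : ∀ x, 0 < f x) :
    Prim (fun x => Real.sqrt (f x)) (fun x => f' x / (2 * Real.sqrt (f x))) := by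
  refine h.of_dominated (fun a b => ?_) ?_
  · obtain ⟨c, hc, hcl⟩ := exists_lower h.continuous hpos a b
    refine ⟨(Real.sqrt c)⁻¹, by positivity, fun x hx y hy => ?_⟩
    have hxp := hpos x
    have hyp := hpos y
    have hsc : 0 < Real.sqrt c := Real.sqrt_pos.2 hc
    have hsx : Real.sqrt c ≤ Real.sqrt (f x) := Real.sqrt_le_sqrt (hcl x hx)
    have hsy : 0 < Real.sqrt (f y) := Real.sqrt_pos.2 hyp
    have e : f x - f y = (Real.sqrt (f x) - Real.sqrt (f y)) * (Real.sqrt (f x) + Real.sqrt (f y)) := by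
      have h1 := Real.sq_sqrt hxp.le
      have h2 := Real.sq_sqrt hyp.le
      nlinarith
    rw [e, abs_mul, ← mul_assoc, mul_comm _ (|Real.sqrt (f x) - Real.sqrt (f y)|), mul_assoc]
    have hge : 1 ≤ (Real.sqrt c)⁻¹ * |Real.sqrt (f x) + Real.sqrt (f y)| := by
      rw [abs_of_pos (by positivity), inv_mul_eq_div, one_le_div hsc]
      linarith
    have := abs_nonneg (Real.sqrt (f x) - Real.sqrt (f y))
    nlinarith
  · filter_upwards [h.ae_hasDerivAt] with x hx
    exact hx.sqrt (hpos x).ne'

/-- The limit at infinity of an integrable primitive with integrable derivative. -/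
lemma tendsto_atTop (h : Prim f f') (hf : Integrable f) (hf' : Integrable f') :
    Tendsto f atTop (𝓝 0) := by
  have h1 : Tendsto (fun b => ∫ t in (0:ℝ)..b, f' t) atTop (𝓝 (∫ t in Ioi (0:ℝ), f' t)) :=
    intervalIntegral_tendsto_integral_Ioi 0 hf'.integrableOn tendsto_id
  have h2 : Tendsto f atTop (𝓝 (f 0 + ∫ t in Ioi (0:ℝ), f' t)) := by
    refine (h1.const_add (f 0)).congr fun b => ?_
    rw [← h.ftc 0 b]
    ring
  have hL : f 0 + ∫ t in Ioi (0:ℝ), f' t = 0 := by
    have : IntegrableAtFilter f atTop volume := ⟨univ, univ_mem, by simpa using hf⟩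
    refine IntegrableAtFilter.eq_zero_of_tendsto this ?_ h2
    intro s hs
    rcases mem_atTop_sets.1 hs with ⟨b, hb⟩
    rw [← top_le_iff, ← Real.volume_Ici (a := b)]
    exact measure_mono hb
  rwa [hL] at h2

lemma tendsto_atBot (h : Prim f f') (hf : Integrable f) (hf' : Integrable f') :
    Tendsto f atBot (𝓝 0) := by
  have h1 : Tendsto (fun b => ∫ t in b..(0:ℝ), f' t) atBot (𝓝 (∫ t in Iic (0:ℝ), f' t)) :=
    intervalIntegral_tendsto_integral_Iic 0 hf'.integrableOn tendsto_id
  have h2 : Tendsto f atBot (𝓝 (f 0 - ∫ t in Iic (0:ℝ), f' t)) := by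
    refine (h1.const_sub (f 0)).congr fun b => ?_
    rw [← h.ftc b 0]
    ring
  have hL : f 0 - ∫ t in Iic (0:ℝ), f' t = 0 := by
    have : IntegrableAtFilter f atBot volume := ⟨univ, univ_mem, by simpa using hf⟩
    refine IntegrableAtFilter.eq_zero_of_tendsto this ?_ h2
    intro s hs
    rcases mem_atBot_sets.1 hs with ⟨b, hb⟩
    rw [← top_le_iff, ← Real.volume_Iic (a := b)]
    exact measure_mono hb
  rwa [hL] at h2

/-- The total integral of the derivative vanishes. -/
lemma integral_deriv_eq_zero (h : Prim f f') (htop : Tendsto f atTop (𝓝 0))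
    (hbot : Tendsto f atBot (𝓝 0)) (hf' : Integrable f') : ∫ t, f' t = 0 := by
  have h1 : Tendsto (fun n : ℕ => ∫ t in (-(n:ℝ))..(n:ℝ), f' t) atTop (𝓝 (∫ t, f' t)) :=
    intervalIntegral_tendsto_integral hf' (tendsto_neg_atTop_atBot.comp tendsto_natCast_atTop_atTop)
      tendsto_natCast_atTop_atTop
  have h2 : Tendsto (fun n : ℕ => f (n:ℝ) - f (-(n:ℝ))) atTop (𝓝 (0 - 0)) :=
    (htop.comp tendsto_natCast_atTop_atTop).sub
      (hbot.comp (tendsto_neg_atTop_atBot.comp tendsto_natCast_atTop_atTop))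
  have h3 : (fun n : ℕ => f (n:ℝ) - f (-(n:ℝ))) = fun n : ℕ => ∫ t in (-(n:ℝ))..(n:ℝ), f' t := by
    funext n
    exact h.ftc _ _
  rw [h3] at h2
  have := tendsto_nhds_unique h1 h2
  simpa using this

end Prim

lemma RealH1.prim {f f' : ℝ → ℝ} (h : RealH1 f f') : Prim f f' :=
  ⟨h.memLp'.locallyIntegrable (by norm_num), h.ftc⟩

/-- Derivative sign and absolute continuity give monotonicity. -/
lemma le_of_ac_deriv_nonneg {H H' : ℝ → ℝ} {a b : ℝ} (hab : a ≤ b)
    (hac : AbsolutelyContinuousOnInterval H a b)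
    (hd : ∀ᵐ t, t ∈ Ioo a b → HasDerivAt H (H' t) t ∧ 0 ≤ H' t) : H a ≤ H b := by
  have h1 := hac.integral_deriv_eq_sub
  have h2 : 0 ≤ ∫ t in a..b, deriv H t := by
    rw [intervalIntegral.integral_of_le hab, integral_Ioc_eq_integral_Ioo]
    refine integral_nonneg_of_ae ?_
    rw [Filter.EventuallyLE, ae_restrict_iff' measurableSet_Ioo]
    filter_upwards [hd] with t ht hmem
    have := ht hmem
    rw [this.1.deriv]
    exact this.2
  linarith

end

end Vale.Agent.Lib.P371
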