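import Vale.Agent.Lib.P371.Core

/-! Reduction of the scalar pointwise bound to the half line certificate. -/

open MeasureTheory Set Filter Topology

namespace Vale.Agent.Lib.P371

noncomputable section

namespace RealH1

variable {f f' g g' : ℝ → ℝ}

lemma add (h1 : RealH1 f f') (h2 : RealH1 g g') :
    RealH1 (fun x => f x + g x) (fun x => f' x + g' x) where
  memLp := h1.memLp.add h2.memLp
  memLp' := h1.memLp'.add h2.memLp'
  ftc a b := by
    rw [intervalIntegral.integral_add (h1.intervalIntegrable' a b) (h2.intervalIntegrable' a b),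
      ← h1.ftc, ← h2.ftc]
    ring

lemma const_mul (c : ℝ) (h : RealH1 f f') :
    RealH1 (fun x => c * f x) (fun x => c * f' x) where
  memLp := h.memLp.const_mul c
  memLp' := h.memLp'.const_mul c
  ftc a b := by
    rw [intervalIntegral.integral_const_mul, ← h.ftc]
    ring

lemma zero : RealH1 (fun _ => 0) (fun _ => 0) where
  memLp := MemLp.zero
  memLp' := MemLp.zero
  ftc a b := by simp

lemma sum {ι : Type*} (s : Finset ι) {F F' : ι → ℝ → ℝ} (h : ∀ i ∈ s, RealH1 (F i) (F' i)) :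
    RealH1 (fun x => ∑ i ∈ s, F i x) (fun x => ∑ i ∈ s, F' i x) := by
  classical
  induction s using Finset.induction_on with
  | empty => simpa using RealH1.zero
  | insert a s ha ih =>
    simp only [Finset.sum_insert ha]
    exact (h a (Finset.mem_insert_self a s)).add
      (ih fun i hi => h i (Finset.mem_insert_of_mem hi))

/-- Affine change of variables. -/
lemma qmp_affine (x : ℝ) {b : ℝ} (hb : b ≠ 0) :
    Measure.QuasiMeasurePreserving (fun z : ℝ => x + b * z) volume volume := by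
  have h1 : Measure.QuasiMeasurePreserving (fun z : ℝ => b * z) volume volume := by
    refine ⟨by fun_prop, ?_⟩
    rw [Real.map_volume_mul_left hb]
    exact Measure.smul_absolutelyContinuous
  exact (measurePreserving_add_left volume x).quasiMeasurePreserving.comp h1

lemma comp_affine (h : RealH1 f f') (x : ℝ) {b : ℝ} (hb : b ≠ 0) :
    RealH1 (fun z => f (x + b * z)) (fun z => b * f' (x + b * z)) := by
  have hm : AEStronglyMeasurable (fun z => f (x + b * z)) volume :=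
    h.memLp.aestronglyMeasurable.comp_quasiMeasurePreserving (qmp_affine x hb)
  have hm' : AEStronglyMeasurable (fun z => f' (x + b * z)) volume :=
    h.memLp'.aestronglyMeasurable.comp_quasiMeasurePreserving (qmp_affine x hb)
  have i1 : Integrable (fun z => f (x + b * z) ^ 2) :=
    (h.sq.comp_add_left x).comp_mul_left' hb
  have i2 : Integrable (fun z => f' (x + b * z) ^ 2) :=
    (h.sq'.comp_add_left x).comp_mul_left' hb
  refine ⟨(memLp_two_iff_integrable_sq hm).2 i1,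
    MemLp.const_mul ((memLp_two_iff_integrable_sq hm').2 i2) b, fun s t => ?_⟩
  rw [intervalIntegral.integral_const_mul]
  have := intervalIntegral.smul_integral_comp_add_mul (a := s) (b := t) f' b x
  rw [smul_eq_mul] at this
  rw [this, ← h.ftc]

end RealH1

/-- Symmetrized rescaling of `f` around `x`. -/
def Fsym (f : ℝ → ℝ) (x r z : ℝ) : ℝ := (f (x + r⁻¹ * z) + f (x + (-r⁻¹) * z)) / (2 * r)

/-- The derivative of `Fsym`. -/
def Fsym' (f' : ℝ → ℝ) (x r z : ℝ) : ℝ :=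
  (r⁻¹ * f' (x + r⁻¹ * z) + (-r⁻¹) * f' (x + (-r⁻¹) * z)) / (2 * r)

lemma RealH1.Fsym {f f' : ℝ → ℝ} (h : RealH1 f f') (x : ℝ) {r : ℝ} (hr : 0 < r) :
    RealH1 (Fsym f x r) (Fsym' f' x r) := by
  have h1 : r⁻¹ ≠ 0 := (inv_pos.2 hr).ne'
  have h2 : -r⁻¹ ≠ 0 := neg_ne_zero.2 h1
  have := ((h.comp_affine x h1).add (h.comp_affine x h2)).const_mul (2 * r)⁻¹
  have e1 : P371.Fsym f x r = fun z => (2 * r)⁻¹ * (f (x + r⁻¹ * z) + f (x + -r⁻¹ * z)) := by
    funext z
    unfold P371.Fsym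
    rw [div_eq_inv_mul]
  have e2 : Fsym' f' x r =
      fun z => (2 * r)⁻¹ * (r⁻¹ * f' (x + r⁻¹ * z) + -r⁻¹ * f' (x + -r⁻¹ * z)) := by
    funext z
    unfold Fsym'
    rw [div_eq_inv_mul]
  rw [e1, e2]
  exact this

/-- The even rescaling of an integral. -/
lemma integral_even_scale {g : ℝ → ℝ} (hg : Integrable g) (x : ℝ) {r : ℝ} (hr : 0 < r) :
    ∫ z in Ioi (0:ℝ), (g (x + r⁻¹ * z) + g (x + (-r⁻¹) * z)) = r * ∫ u, g u := by
  have hb : 0 < r⁻¹ := inv_pos.2 hr
  have h1 : Integrable (fun z => g (x + r⁻¹ * z)) := (hg.comp_add_left x).comp_mul_left' hb.ne'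
  have h2 : Integrable (fun z => g (x + (-r⁻¹) * z)) :=
    (hg.comp_add_left x).comp_mul_left' (neg_ne_zero.2 hb.ne')
  rw [integral_add h1.integrableOn h2.integrableOn]
  have e1 : ∫ z in Ioi (0:ℝ), g (x + r⁻¹ * z) = r * ∫ u in Ioi (0:ℝ), g (x + u) := by
    have := integral_comp_mul_left_Ioi (fun u => g (x + u)) 0 hb
    simp only [mul_zero, inv_inv, smul_eq_mul] at this
    exact this
  have e2 : ∫ z in Ioi (0:ℝ), g (x + (-r⁻¹) * z) = r * ∫ u in Iic (0:ℝ), g (x + u) := by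
    have := integral_comp_mul_left_Ioi (fun u => g (x + (-u))) 0 hb
    simp only [mul_zero, inv_inv, smul_eq_mul] at this
    have e3 : ∀ z, g (x + (-r⁻¹) * z) = g (x + -(r⁻¹ * z)) := fun z => by ring_nf
    simp_rw [e3]
    rw [this, integral_comp_neg_Ioi (c := 0) (f := fun u => g (x + u))]
    simp
  rw [e1, e2, ← mul_add]
  congr 1
  have h3 : Integrable (fun u => g (x + u)) := hg.comp_add_left x
  rw [add_comm, intervalIntegral.integral_Iic_add_Ioi h3.integrableOn h3.integrableOn]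
  exact integral_add_left_eq_self g x

lemma Fsym_at_zero (f : ℝ → ℝ) (x r : ℝ) : Fsym f x r 0 = f x / r := by
  unfold Fsym
  simp only [mul_zero, add_zero]
  by_cases hr : r = 0
  · simp [hr]
  · field_simp
    ring

/-- `2 ∫ F² ≤ ∫ f² / r`. -/
lemma Fsym_sq_le {f f' : ℝ → ℝ} (h : RealH1 f f') (x : ℝ) {r : ℝ} (hr : 0 < r) :
    2 * ∫ z in Ioi (0:ℝ), Fsym f x r z ^ 2 ≤ (∫ u, f u ^ 2) / r := by
  have hb : 0 < r⁻¹ := inv_pos.2 hr
  have i0 : Integrable (fun z => f (x + r⁻¹ * z) ^ 2 + f (x + (-r⁻¹) * z) ^ 2) :=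
    ((h.sq.comp_add_left x).comp_mul_left' hb.ne').add
      ((h.sq.comp_add_left x).comp_mul_left' (neg_ne_zero.2 hb.ne'))
  have h2 := (h.Fsym x hr).sq
  have key : ∫ z in Ioi (0:ℝ), Fsym f x r z ^ 2 ≤
      ∫ z in Ioi (0:ℝ), (2 * r ^ 2)⁻¹ * (f (x + r⁻¹ * z) ^ 2 + f (x + (-r⁻¹) * z) ^ 2) := by
    refine integral_mono h2.integrableOn (i0.const_mul _).integrableOn fun z => ?_
    simp only [Fsym]
    set a := f (x + r⁻¹ * z)
    set b := f (x + -r⁻¹ * z)
    rw [div_pow, inv_mul_eq_div, div_le_div_iff₀ (by positivity) (by positivity)]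
    nlinarith [mul_nonneg (sq_nonneg r) (sq_nonneg (a - b))]
  rw [integral_const_mul, integral_even_scale h.sq x hr] at key
  have : 2 * ((2 * r ^ 2)⁻¹ * (r * ∫ u, f u ^ 2)) = (∫ u, f u ^ 2) / r := by
    field_simp
  linarith

/-- `2 r³ ∫ F'² ≤ ∫ f'²`. -/
lemma Fsym_sq_le' {f f' : ℝ → ℝ} (h : RealH1 f f') (x : ℝ) {r : ℝ} (hr : 0 < r) :
    r ^ 3 * (2 * ∫ z in Ioi (0:ℝ), Fsym' f' x r z ^ 2) ≤ ∫ u, f' u ^ 2 := by
  have hb : 0 < r⁻¹ := inv_pos.2 hr
  have i0 : Integrable (fun z => f' (x + r⁻¹ * z) ^ 2 + f' (x + (-r⁻¹) * z) ^ 2) :=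
    ((h.sq'.comp_add_left x).comp_mul_left' hb.ne').add
      ((h.sq'.comp_add_left x).comp_mul_left' (neg_ne_zero.2 hb.ne'))
  have h2 := (h.Fsym x hr).sq'
  have key : ∫ z in Ioi (0:ℝ), Fsym' f' x r z ^ 2 ≤
      ∫ z in Ioi (0:ℝ), (2 * r ^ 4)⁻¹ * (f' (x + r⁻¹ * z) ^ 2 + f' (x + (-r⁻¹) * z) ^ 2) := by
    refine integral_mono h2.integrableOn (i0.const_mul _).integrableOn fun z => ?_
    simp only [Fsym']
    set a := f' (x + r⁻¹ * z)
    set b := f' (x + -r⁻¹ * z)
    have e : (r⁻¹ * a + -r⁻¹ * b) / (2 * r) = (a - b) / (2 * r ^ 2) := by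
      field_simp
      ring
    rw [e, div_pow, inv_mul_eq_div, div_le_div_iff₀ (by positivity) (by positivity)]
    nlinarith [mul_nonneg (sq_nonneg (r ^ 2)) (sq_nonneg (a + b))]
  rw [integral_const_mul, integral_even_scale h.sq' x hr] at key
  have e : r ^ 3 * (2 * ((2 * r ^ 4)⁻¹ * (r * ∫ u, f' u ^ 2))) = ∫ u, f' u ^ 2 := by
    field_simp
  have h3 : 0 < r ^ 3 := by positivity
  nlinarith [mul_le_mul_of_nonneg_left key h3.le]

/-- The smoothing operator at `x` in terms of the Laplace transform of `Fsym`. -/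
lemma V_eq_Lap {f f' : ℝ → ℝ} (h : RealH1 f f') (x : ℝ) {r s : ℝ} (hr : 0 < r) (hs : 0 < s) :
    V s f x = s * Lap (Fsym f x r) (s / r) := by
  have hm := h.measurable
  have hb : 0 < r⁻¹ := inv_pos.2 hr
  have hi := integrable_E_mul_shift hs hm h.sq x
  have e1 : ∫ z, E s z * f (x - z) =
      ∫ z in Ioi (0:ℝ), Real.exp (-(s * z)) * (f (x + z) + f (x - z)) := by
    rw [← intervalIntegral.integral_Iic_add_Ioi hi.integrableOn hi.integrableOn]
    have e2 : ∫ z in Iic (0:ℝ), E s z * f (x - z) =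
        ∫ z in Ioi (0:ℝ), E s z * f (x + z) := by
      have := integral_comp_neg_Ioi (c := 0) (f := fun z => E s z * f (x - z))
      simp only [neg_zero] at this
      rw [← this]
      refine setIntegral_congr_fun measurableSet_Ioi fun z _ => ?_
      simp only [E_neg, sub_neg_eq_add]
    rw [e2]
    have i1 : IntegrableOn (fun z => E s z * f (x + z)) (Ioi 0) := by
      have := (hi.comp_neg (μ := volume))
      refine Integrable.integrableOn (this.congr (ae_of_all _ fun z => ?_))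
      simp only [E_neg, sub_neg_eq_add]
    rw [← integral_add i1 hi.integrableOn]
    refine setIntegral_congr_fun measurableSet_Ioi fun z hz => ?_
    have hz' : (0:ℝ) < z := hz
    simp only [E, abs_of_pos hz']
    ring
  have e3 := integral_comp_mul_left_Ioi
    (fun z => Real.exp (-(s * z)) * (f (x + z) + f (x - z))) 0 hb
  simp only [mul_zero, inv_inv, smul_eq_mul] at e3
  have e4 : ∫ z in Ioi (0:ℝ), Real.exp (-(s * (r⁻¹ * z))) * (f (x + r⁻¹ * z) + f (x - r⁻¹ * z)) =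
      2 * r * Lap (Fsym f x r) (s / r) := by
    unfold Lap
    rw [← integral_const_mul]
    refine setIntegral_congr_fun measurableSet_Ioi fun z _ => ?_
    simp only [Fsym]
    have e5 : x + -r⁻¹ * z = x - r⁻¹ * z := by ring
    have e6 : s / r * z = s * (r⁻¹ * z) := by
      field_simp
    rw [e5, e6]
    field_simp
  rw [e4] at e3
  unfold V
  rw [e1]
  have e7 : ∫ z in Ioi (0:ℝ), Real.exp (-(s * z)) * (f (x + z) + f (x - z)) =
      r⁻¹ * (2 * r * Lap (Fsym f x r) (s / r)) := by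
    rw [e3]
    field_simp
  rw [e7]
  field_simp

/-- Scaling of a Lebesgue integral over the half line. -/
lemma lintegral_Ioi_scale (g : ℝ → ENNReal) {r : ℝ} (hr : 0 < r) :
    ∫⁻ s in Ioi (0:ℝ), g s = ENNReal.ofReal r * ∫⁻ t in Ioi (0:ℝ), g (r * t) := by
  have h := lintegral_image_eq_lintegral_abs_deriv_mul (s := Ioi (0:ℝ)) (f := fun t => r * t)
    (f' := fun _ => r) measurableSet_Ioi
    (fun x _ => ((hasDerivAt_id x).const_mul r).hasDerivWithinAt.congr_deriv (by simp))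
    (fun a _ b _ hab => mul_left_cancel₀ hr.ne' hab) g
  rw [image_mul_left_Ioi hr, mul_zero] at h
  rw [h, abs_of_pos hr, lintegral_const_mul' _ _ ENNReal.ofReal_ne_top]

/-- The scalar pointwise bound. -/
theorem core_scalar {f f' : ℝ → ℝ} (h : RealH1 f f') {x r : ℝ} (hr : 0 < r) (hfx : f x = r)
    (hf2 : ∫ y, f y ^ 2 ≤ r) {β μ θ : ℝ} (hβ : 0 < β) (hμ : 0 < μ)
    (hθ0 : 0 ≤ θ) (hθ1 : θ ≤ 1) (c d : ℕ → ℝ) (L : ℕ) :
    ENNReal.ofReal (r ^ 3 * Kval β θ μ c d L) ≤
      ENNReal.ofReal (θ * ∫ y, f' y ^ 2) +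
        ENNReal.ofReal (1 - θ) * (ENNReal.ofReal r⁻¹ *
          ∫⁻ s in Ioi (0:ℝ), ENNReal.ofReal (2 * s * (r - V s f x) ^ 2)) := by
  set F := Fsym f x r with hFd
  have hF := h.Fsym x hr
  have hF0 : F 0 = 1 := by
    rw [hFd, Fsym_at_zero, hfx]
    field_simp
  have hF2 : 2 * ∫ y in Ioi (0:ℝ), F y ^ 2 ≤ 1 := by
    refine (Fsym_sq_le h x hr).trans ?_
    rw [div_le_one hr]
    exact hf2
  have hcore := core_half hF hF0 hF2 hβ hμ hθ0 hθ1 c d L
  have hr3 : 0 ≤ r ^ 3 := by positivity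
  have e1 : ENNReal.ofReal r⁻¹ * ∫⁻ s in Ioi (0:ℝ), ENNReal.ofReal (2 * s * (r - V s f x) ^ 2) =
      ENNReal.ofReal (r ^ 3) *
        ∫⁻ t in Ioi (0:ℝ), ENNReal.ofReal (2 * t * (1 - t * Lap F t) ^ 2) := by
    rw [lintegral_Ioi_scale _ hr, ← mul_assoc, ← ENNReal.ofReal_mul (inv_pos.2 hr).le,
      inv_mul_cancel₀ hr.ne', ENNReal.ofReal_one, one_mul,
      ← lintegral_const_mul' _ _ ENNReal.ofReal_ne_top]
    refine setLIntegral_congr_fun measurableSet_Ioi fun t ht => ?_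
    have ht' : (0:ℝ) < t := ht
    rw [← ENNReal.ofReal_mul hr3]
    congr 1
    rw [V_eq_Lap h x hr (by positivity : 0 < r * t)]
    have : r * t / r = t := by field_simp
    rw [this]
    ring
  rw [e1]
  have hθ1' : 0 ≤ 1 - θ := by linarith
  calc ENNReal.ofReal (r ^ 3 * Kval β θ μ c d L)
      = ENNReal.ofReal (r ^ 3) * ENNReal.ofReal (Kval β θ μ c d L) := ENNReal.ofReal_mul hr3
    _ ≤ ENNReal.ofReal (r ^ 3) * (ENNReal.ofReal (2 * θ * ∫ y in Ioi (0:ℝ), Fsym' f' x r y ^ 2) +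
        ENNReal.ofReal (1 - θ) *
          ∫⁻ t in Ioi (0:ℝ), ENNReal.ofReal (2 * t * (1 - t * Lap F t) ^ 2)) := by gcongr
    _ = ENNReal.ofReal (r ^ 3 * (2 * θ * ∫ y in Ioi (0:ℝ), Fsym' f' x r y ^ 2)) +
        ENNReal.ofReal (1 - θ) * (ENNReal.ofReal (r ^ 3) *
          ∫⁻ t in Ioi (0:ℝ), ENNReal.ofReal (2 * t * (1 - t * Lap F t) ^ 2)) := by
        rw [mul_add, ENNReal.ofReal_mul hr3]
        congr 1
        rw [← mul_assoc, ← mul_assoc, mul_comm (ENNReal.ofReal (r ^ 3))]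
    _ ≤ _ := by
        refine add_le_add (ENNReal.ofReal_le_ofReal ?_) le_rfl
        have := Fsym_sq_le' h x hr
        calc r ^ 3 * (2 * θ * ∫ y in Ioi (0:ℝ), Fsym' f' x r y ^ 2)
            = θ * (r ^ 3 * (2 * ∫ y in Ioi (0:ℝ), Fsym' f' x r y ^ 2)) := by ring
          _ ≤ θ * ∫ y, f' y ^ 2 := mul_le_mul_of_nonneg_left this hθ0

end

end Vale.Agent.Lib.P371
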