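import Vale.Agent.Lib.P371.SharpTrig

/-! The Lyapunov equation and the pointwise bound. -/

open Matrix

namespace Vale.Agent.Lib.P371.Sharp

noncomputable section

variable {ι : Type*} [Fintype ι] [DecidableEq ι]

/-- The Frobenius pairing. -/
def fro (X Z : Matrix ι ι ℝ) : ℝ := trace (Xᵀ * Z)

omit [DecidableEq ι] in
lemma fro_eq_sum (X Z : Matrix ι ι ℝ) : fro X Z = ∑ i, ∑ j, X i j * Z i j := by
  simp only [fro, trace, Matrix.diag_apply, Matrix.mul_apply, Matrix.transpose_apply]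
  rw [Finset.sum_comm]

omit [DecidableEq ι] in
lemma fro_comm (X Z : Matrix ι ι ℝ) : fro X Z = fro Z X := by
  simp only [fro_eq_sum, mul_comm]

omit [DecidableEq ι] in
lemma fro_add_right (X Z W : Matrix ι ι ℝ) : fro X (Z + W) = fro X Z + fro X W := by
  simp [fro, Matrix.mul_add, trace_add]

omit [DecidableEq ι] in
lemma fro_sub_right (X Z W : Matrix ι ι ℝ) : fro X (Z - W) = fro X Z - fro X W := by
  simp [fro, Matrix.mul_sub, trace_sub]

omit [DecidableEq ι] in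
lemma fro_smul_right (c : ℝ) (X Z : Matrix ι ι ℝ) : fro X (c • Z) = c * fro X Z := by
  simp [fro, trace_smul]

omit [DecidableEq ι] in
lemma fro_add_left (X Z W : Matrix ι ι ℝ) : fro (Z + W) X = fro Z X + fro W X := by
  rw [fro_comm, fro_add_right, fro_comm X, fro_comm X]

omit [DecidableEq ι] in
lemma fro_sub_left (X Z W : Matrix ι ι ℝ) : fro (Z - W) X = fro Z X - fro W X := by
  rw [fro_comm, fro_sub_right, fro_comm X, fro_comm X]

omit [DecidableEq ι] in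
lemma fro_smul_left (c : ℝ) (X Z : Matrix ι ι ℝ) : fro (c • Z) X = c * fro Z X := by
  rw [fro_comm, fro_smul_right, fro_comm X]

omit [DecidableEq ι] in
lemma fro_mul_left (Z M X : Matrix ι ι ℝ) : fro Z (M * X) = fro (Mᵀ * Z) X := by
  simp [fro, Matrix.transpose_mul, Matrix.mul_assoc]

omit [DecidableEq ι] in
lemma fro_mul_right (Z M X : Matrix ι ι ℝ) : fro Z (X * M) = fro (Z * Mᵀ) X := by
  simp only [fro, Matrix.transpose_mul, Matrix.transpose_transpose]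
  rw [← Matrix.mul_assoc, Matrix.trace_mul_comm, Matrix.mul_assoc]

omit [DecidableEq ι] in
lemma fro_transpose (X Z : Matrix ι ι ℝ) : fro Xᵀ Zᵀ = fro X Z := by
  simp only [fro_eq_sum, Matrix.transpose_apply]
  rw [Finset.sum_comm]

omit [DecidableEq ι] in
lemma fro_self_nonneg (X : Matrix ι ι ℝ) : 0 ≤ fro X X := by
  rw [fro_eq_sum]
  exact Finset.sum_nonneg fun i _ => Finset.sum_nonneg fun j _ => mul_self_nonneg _

omit [DecidableEq ι] in
lemma entry_sq_le (X : Matrix ι ι ℝ) (i j : ι) : X i j ^ 2 ≤ fro X X := by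
  rw [fro_eq_sum]
  have h1 : X i j ^ 2 ≤ ∑ j, X i j * X i j := by
    have := Finset.single_le_sum (f := fun j => X i j * X i j) (fun j _ => mul_self_nonneg _)
      (Finset.mem_univ j)
    simpa [sq] using this
  have h2 := Finset.single_le_sum (f := fun i => ∑ j, X i j * X i j)
    (fun i _ => Finset.sum_nonneg fun j _ => mul_self_nonneg _) (Finset.mem_univ i)
  exact h1.trans h2

omit [DecidableEq ι] in
/-- Cauchy-Schwarz for the Frobenius pairing. -/
lemma fro_sq_le (X Z : Matrix ι ι ℝ) : fro X Z ^ 2 ≤ fro X X * fro Z Z := by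
  have h := Finset.sum_mul_sq_le_sq_mul_sq (Finset.univ : Finset (ι × ι))
    (fun p => X p.1 p.2) (fun p => Z p.1 p.2)
  simp only [fro_eq_sum, ← Finset.sum_product', sq] at *
  exact h

/-- The Lyapunov map. -/
def lyap (M : Matrix ι ι ℝ) (k : ℤ) (X : Matrix ι ι ℝ) : Matrix ι ι ℝ :=
  (1 / 2 : ℝ) • (M * X + X * M) - (k : ℝ) • X

omit [DecidableEq ι] in
lemma lyap_sub (M : Matrix ι ι ℝ) (k : ℤ) (X Z : Matrix ι ι ℝ) :
    lyap M k (X - Z) = lyap M k X - lyap M k Z := by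
  unfold lyap
  simp only [Matrix.mul_sub, Matrix.sub_mul, smul_sub, smul_add]
  abel

omit [DecidableEq ι] in
/-- Changing the matrix. -/
lemma lyap_change (M N : Matrix ι ι ℝ) (k : ℤ) (X : Matrix ι ι ℝ) :
    lyap M k X = lyap N k X + (1 / 2 : ℝ) • ((M - N) * X + X * (M - N)) := by
  unfold lyap
  simp only [Matrix.mul_sub, Matrix.sub_mul, smul_sub, smul_add]
  abel

/-- The hypotheses on the matrix: symmetric with spectrum in `[ε, 1 - ε]`. -/
structure Spec (M : Matrix ι ι ℝ) (ε : ℝ) : Prop where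
  symm : Mᵀ = M
  lower : ∀ a : ι → ℝ, ε * (a ⬝ᵥ a) ≤ a ⬝ᵥ (M *ᵥ a)
  upper : ∀ a : ι → ℝ, a ⬝ᵥ (M *ᵥ a) ≤ (1 - ε) * (a ⬝ᵥ a)

omit [DecidableEq ι] in
lemma fro_col (M X : Matrix ι ι ℝ) :
    fro X (M * X) = ∑ j, (fun i => X i j) ⬝ᵥ (M *ᵥ fun i => X i j) := by
  rw [fro_eq_sum, Finset.sum_comm]
  refine Finset.sum_congr rfl fun j _ => ?_
  simp [dotProduct, mulVec, Matrix.mul_apply]

omit [DecidableEq ι] in
lemma fro_col' (X : Matrix ι ι ℝ) :
    fro X X = ∑ j, (fun i => X i j) ⬝ᵥ (fun i => X i j) := by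
  rw [fro_eq_sum, Finset.sum_comm]
  refine Finset.sum_congr rfl fun j _ => ?_
  simp [dotProduct]

namespace Spec

variable {M : Matrix ι ι ℝ} {ε : ℝ}

omit [DecidableEq ι] in
lemma fro_left (h : Spec M ε) (X : Matrix ι ι ℝ) :
    ε * fro X X ≤ fro X (M * X) ∧ fro X (M * X) ≤ (1 - ε) * fro X X := by
  rw [fro_col, fro_col', Finset.mul_sum, Finset.mul_sum]
  exact ⟨Finset.sum_le_sum fun j _ => h.lower _, Finset.sum_le_sum fun j _ => h.upper _⟩

omit [DecidableEq ι] in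
lemma fro_right (h : Spec M ε) (X : Matrix ι ι ℝ) :
    ε * fro X X ≤ fro X (X * M) ∧ fro X (X * M) ≤ (1 - ε) * fro X X := by
  have h1 := h.fro_left Xᵀ
  have e : M * Xᵀ = (X * M)ᵀ := by
    rw [Matrix.transpose_mul, h.symm]
  rw [e, fro_transpose, fro_transpose] at h1
  exact h1

omit [DecidableEq ι] in
/-- Coercivity of the Lyapunov map. -/
lemma coercive (h : Spec M ε) (hε : 0 < ε) (k : ℤ) (X : Matrix ι ι ℝ) :
    ε ^ 2 * fro X X ≤ fro (lyap M k X) (lyap M k X) := by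
  have h0 := fro_self_nonneg X
  have h1 := h.fro_left X
  have h2 := h.fro_right X
  have hq : fro X (lyap M k X) =
      (1 / 2) * (fro X (M * X) + fro X (X * M)) - (k : ℝ) * fro X X := by
    unfold lyap
    rw [fro_sub_right, fro_smul_right, fro_smul_right, fro_add_right]
  have hcs := fro_sq_le X (lyap M k X)
  have hlow : (ε * fro X X) ^ 2 ≤ fro X (lyap M k X) ^ 2 := by
    rcases le_or_gt k 0 with hk | hk
    · have hk' : (k : ℝ) ≤ 0 := by exact_mod_cast hk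
      have : ε * fro X X ≤ fro X (lyap M k X) := by
        rw [hq]
        nlinarith [h1.1, h2.1]
      exact pow_le_pow_left₀ (by positivity) this 2
    · have hk' : (1 : ℝ) ≤ k := by exact_mod_cast hk
      have : fro X (lyap M k X) ≤ -(ε * fro X X) := by
        rw [hq]
        nlinarith [h1.2, h2.2]
      have h3 : 0 ≤ ε * fro X X := by positivity
      nlinarith
  rcases h0.eq_or_lt with h00 | hpos
  · rw [← h00, mul_zero]
    exact fro_self_nonneg _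
  · have : fro X X * (ε ^ 2 * fro X X) ≤ fro X X * fro (lyap M k X) (lyap M k X) := by
      nlinarith
    exact le_of_mul_le_mul_left this hpos

end Spec

omit [DecidableEq ι] in
lemma fro_lyap_symm {M : Matrix ι ι ℝ} (hM : Mᵀ = M) (k : ℤ) (Z X : Matrix ι ι ℝ) :
    fro Z (lyap M k X) = fro (lyap M k Z) X := by
  unfold lyap
  rw [fro_sub_right, fro_sub_left, fro_smul_right, fro_smul_left, fro_smul_right, fro_smul_left,
    fro_add_right, fro_add_left, fro_mul_left, fro_mul_right, hM]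

lemma mulVec_dot_mulVec {U : Matrix ι ι ℝ} (hU : Uᵀ * U = 1) (v w : ι → ℝ) :
    (U *ᵥ v) ⬝ᵥ (U *ᵥ w) = v ⬝ᵥ w := by
  calc (U *ᵥ v) ⬝ᵥ (U *ᵥ w) = ((U *ᵥ v) ᵥ* U) ⬝ᵥ w := Matrix.dotProduct_mulVec _ _ _
    _ = (Uᵀ *ᵥ (U *ᵥ v)) ⬝ᵥ w := by rw [← Matrix.vecMul_transpose Uᵀ, Matrix.transpose_transpose]
    _ = v ⬝ᵥ w := by rw [Matrix.mulVec_mulVec, hU, Matrix.one_mulVec]

/-- Orthogonal diagonalization with the spectral bounds. -/
lemma Spec.exists_diag {M : Matrix ι ι ℝ} {ε : ℝ} (h : Spec M ε) :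
    ∃ (U : Matrix ι ι ℝ) (μ : ι → ℝ), Uᵀ * U = 1 ∧ U * Uᵀ = 1 ∧ M = U * diagonal μ * Uᵀ ∧
      ∀ a, ε ≤ μ a ∧ μ a ≤ 1 - ε := by
  have hA : M.IsHermitian := by
    rw [Matrix.IsHermitian, Matrix.conjTranspose_eq_transpose_of_trivial]
    exact h.symm
  set U : Matrix ι ι ℝ := hA.eigenvectorUnitary.1 with hUdef
  have hst : star U = Uᵀ := by
    rw [Matrix.star_eq_conjTranspose, Matrix.conjTranspose_eq_transpose_of_trivial]
  have h1 : Uᵀ * U = 1 := by
    have := Matrix.mem_unitaryGroup_iff'.1 hA.eigenvectorUnitary.2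
    rwa [← hUdef, hst] at this
  have h2 : U * Uᵀ = 1 := by
    have := Matrix.mem_unitaryGroup_iff.1 hA.eigenvectorUnitary.2
    rwa [← hUdef, hst] at this
  have h3 : M = U * diagonal hA.eigenvalues * Uᵀ := by
    have := hA.spectral_theorem
    rw [Unitary.conjStarAlgAut_apply, ← hUdef, hst] at this
    simpa using this
  have key : ∀ μ : ι → ℝ, M = U * diagonal μ * Uᵀ → ∀ a, ε ≤ μ a ∧ μ a ≤ 1 - ε := by
    intro μ hμ a
    have e0 : (fun i => U i a) = U *ᵥ Pi.single a 1 := by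
      funext i
      simp
    have e1 : (fun i => U i a) ⬝ᵥ (fun i => U i a) = 1 := by
      rw [e0, mulVec_dot_mulVec h1]
      simp
    have e2 : (fun i => U i a) ⬝ᵥ (M *ᵥ fun i => U i a) = μ a := by
      have e3 : Uᵀ *ᵥ (U *ᵥ Pi.single a 1) = (Pi.single a 1 : ι → ℝ) := by
        rw [Matrix.mulVec_mulVec, h1, Matrix.one_mulVec]
      have e4 : M *ᵥ (U *ᵥ Pi.single a 1) = U *ᵥ (diagonal μ *ᵥ Pi.single a 1) := by
        rw [hμ, ← Matrix.mulVec_mulVec, e3, ← Matrix.mulVec_mulVec]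
      rw [e0, e4, mulVec_dot_mulVec h1, single_dotProduct]
      simp [Matrix.mulVec_diagonal]
    have a1 := h.lower (fun i => U i a)
    have a2 := h.upper (fun i => U i a)
    rw [e1, e2, mul_one] at a1 a2
    exact ⟨a1, a2⟩
  exact ⟨U, hA.eigenvalues, h1, h2, h3, key _ h3⟩

lemma conj_mul {U : Matrix ι ι ℝ} (hU : Uᵀ * U = 1) (A B : Matrix ι ι ℝ) :
    (U * A * Uᵀ) * (U * B * Uᵀ) = U * (A * B) * Uᵀ := by
  calc (U * A * Uᵀ) * (U * B * Uᵀ) = U * A * (Uᵀ * U) * B * Uᵀ := by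
        simp only [Matrix.mul_assoc]
    _ = U * (A * B) * Uᵀ := by
        rw [hU]
        simp only [Matrix.mul_assoc, Matrix.one_mul]

/-- The solutions of the Lyapunov equations and the pointwise lower bound. -/
theorem Spec.exists_Y {M : Matrix ι ι ℝ} {ε : ℝ} (h : Spec M ε) (hε : 0 < ε) (F : ι → ℝ) :
    ∃ Y : ℤ → Matrix ι ι ℝ, (∀ k, (Y k)ᵀ = Y k ∧ lyap M k (Y k) = vecMulVec F F) ∧
      ∀ (S : Finset ℤ) (c₀ : ℝ), (∀ x y : ℝ, ε ≤ x → x ≤ 1 - ε → ε ≤ y → y ≤ 1 - ε →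
        c₀ ≤ ∑ k ∈ S, 1 / ((x - (k : ℝ)) * (y - (k : ℝ))) -
          (∑ k ∈ S, 1 / (x - (k : ℝ))) * ∑ k ∈ S, 1 / (y - (k : ℝ))) →
        c₀ * (F ⬝ᵥ F) ^ 3 ≤ ∑ k ∈ S, ((Y k *ᵥ F) ⬝ᵥ (Y k *ᵥ F)) -
          (∑ k ∈ S, Y k *ᵥ F) ⬝ᵥ (∑ k ∈ S, Y k *ᵥ F) := by
  obtain ⟨U, μ, hU1, hU2, hM, hμ⟩ := h.exists_diag
  set g : ι → ℝ := Uᵀ *ᵥ F with hg
  have hUg : U *ᵥ g = F := by
    rw [hg, Matrix.mulVec_mulVec, hU2, Matrix.one_mulVec]
  set ν : ι → ι → ℝ := fun a b => (μ a + μ b) / 2 with hν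
  have hνb : ∀ a b, ε ≤ ν a b ∧ ν a b ≤ 1 - ε := by
    intro a b
    have h1 := hμ a
    have h2 := hμ b
    simp only [hν]
    constructor <;> linarith [h1.1, h1.2, h2.1, h2.2]
  have hne : ∀ a b (k : ℤ), ν a b - (k : ℝ) ≠ 0 := by
    intro a b k
    have h1 := hνb a b
    rcases le_or_gt k 0 with hk | hk
    · have hk' : (k : ℝ) ≤ 0 := by exact_mod_cast hk
      have : 0 < ν a b - (k : ℝ) := by linarith [h1.1]
      exact this.ne'
    · have hk' : (1 : ℝ) ≤ k := by exact_mod_cast hk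
      have : ν a b - (k : ℝ) < 0 := by linarith [h1.2]
      exact this.ne
  let Z : ℤ → Matrix ι ι ℝ := fun k => Matrix.of fun a b => g a * g b / (ν a b - (k : ℝ))
  have hZs : ∀ k, (Z k)ᵀ = Z k := by
    intro k
    ext a b
    simp only [Z, Matrix.transpose_apply, Matrix.of_apply, hν]
    rw [mul_comm (g b), add_comm (μ b)]
  have hZl : ∀ k, (1 / 2 : ℝ) • (diagonal μ * Z k + Z k * diagonal μ) - (k : ℝ) • Z k =
      vecMulVec g g := by
    intro k
    ext a b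
    simp only [Matrix.sub_apply, Matrix.smul_apply, Matrix.add_apply, Matrix.diagonal_mul,
      Matrix.mul_diagonal, smul_eq_mul, Matrix.vecMulVec_apply, Z, Matrix.of_apply]
    have := hne a b k
    have e : ν a b = (μ a + μ b) / 2 := rfl
    field_simp
    rw [e]
    ring
  have hMY : ∀ k, lyap M k (U * Z k * Uᵀ) = vecMulVec F F := by
    intro k
    have e1 : M * (U * Z k * Uᵀ) = U * (diagonal μ * Z k) * Uᵀ := by
      rw [hM, conj_mul hU1]
    have e2 : (U * Z k * Uᵀ) * M = U * (Z k * diagonal μ) * Uᵀ := by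
      rw [hM, conj_mul hU1]
    unfold lyap
    rw [e1, e2]
    have e3 : (1 / 2 : ℝ) • (U * (diagonal μ * Z k) * Uᵀ + U * (Z k * diagonal μ) * Uᵀ) -
        (k : ℝ) • (U * Z k * Uᵀ) =
        U * ((1 / 2 : ℝ) • (diagonal μ * Z k + Z k * diagonal μ) - (k : ℝ) • Z k) * Uᵀ := by
      simp only [Matrix.mul_sub, Matrix.sub_mul, Matrix.mul_add, Matrix.add_mul, Matrix.mul_smul,
        Matrix.smul_mul, smul_add]
    rw [e3, hZl, Matrix.mul_vecMulVec, Matrix.vecMulVec_mul, Matrix.vecMul_transpose, hUg]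
  refine ⟨fun k => U * Z k * Uᵀ, fun k => ⟨?_, hMY k⟩, fun S c₀ hD => ?_⟩
  · simp only [Matrix.transpose_mul, Matrix.transpose_transpose, hZs, Matrix.mul_assoc]
  · -- reduction to the eigenbasis
    have hc : ∀ k, (U * Z k * Uᵀ) *ᵥ F = U *ᵥ (Z k *ᵥ g) := by
      intro k
      rw [hg, Matrix.mulVec_mulVec, Matrix.mulVec_mulVec]
    have hd : ∀ k a, (Z k *ᵥ g) a = g a * ∑ b, g b ^ 2 / (ν a b - (k : ℝ)) := by
      intro k a
      simp only [Matrix.mulVec, dotProduct, Z, Matrix.of_apply]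
      rw [Finset.mul_sum]
      refine Finset.sum_congr rfl fun b _ => ?_
      ring
    simp_rw [hc]
    rw [← Matrix.mulVec_sum, mulVec_dot_mulVec hU1]
    simp_rw [mulVec_dot_mulVec hU1]
    set R : ι → ℤ → ℝ := fun a k => ∑ b, g b ^ 2 / (ν a b - (k : ℝ)) with hR
    have e1 : ∑ k ∈ S, (Z k *ᵥ g) ⬝ᵥ (Z k *ᵥ g) = ∑ a, g a ^ 2 * ∑ k ∈ S, R a k ^ 2 := by
      simp only [dotProduct, hd]
      rw [Finset.sum_comm]
      refine Finset.sum_congr rfl fun a _ => ?_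
      rw [Finset.mul_sum]
      refine Finset.sum_congr rfl fun k _ => ?_
      simp only [hR]
      ring
    have e2 : (∑ k ∈ S, Z k *ᵥ g) ⬝ᵥ (∑ k ∈ S, Z k *ᵥ g) =
        ∑ a, g a ^ 2 * (∑ k ∈ S, R a k) ^ 2 := by
      have e3 : ∀ a, (∑ k ∈ S, Z k *ᵥ g) a = g a * ∑ k ∈ S, R a k := by
        intro a
        rw [Finset.sum_apply, Finset.mul_sum]
        exact Finset.sum_congr rfl fun k _ => hd k a
      simp only [dotProduct, e3]
      refine Finset.sum_congr rfl fun a _ => ?_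
      ring
    rw [e1, e2, ← Finset.sum_sub_distrib]
    have e4 : (F ⬝ᵥ F) = ∑ b, g b ^ 2 := by
      rw [← hUg, mulVec_dot_mulVec hU1]
      simp [dotProduct, sq]
    have hq : ∀ a, c₀ * (∑ b, g b ^ 2) ^ 2 ≤ ∑ k ∈ S, R a k ^ 2 - (∑ k ∈ S, R a k) ^ 2 := by
      intro a
      refine quad_bound S (fun b => g b ^ 2) (ν a) (fun b => sq_nonneg _) fun b c => ?_
      exact hD _ _ (hνb a b).1 (hνb a b).2 (hνb a c).1 (hνb a c).2
    have e5 : c₀ * (F ⬝ᵥ F) ^ 3 = ∑ a, g a ^ 2 * (c₀ * (∑ b, g b ^ 2) ^ 2) := by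
      rw [← Finset.sum_mul, e4]
      ring
    rw [e5]
    refine Finset.sum_le_sum fun a _ => ?_
    rw [← mul_sub]
    exact mul_le_mul_of_nonneg_left (hq a) (sq_nonneg _)

end

end Vale.Agent.Lib.P371.Sharp
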