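import Vale.Agent.Lib.P371.SharpQ

/-! The two-sided approximation of the limiting expression by truncated sums. -/

open Filter Topology Set

namespace Vale.Agent.Lib.P371.Sharp

noncomputable section

/-- The limiting expression. -/
def Dinf (x y : ℝ) : ℝ :=
  Real.pi ^ 2 + Real.pi ^ 2 * Gd (Real.pi * (x - y)) / (Real.sin (Real.pi * x) * Real.sin (Real.pi * y))

lemma cot_eq_Dinf {x y : ℝ} (hx0 : 0 < x) (hx1 : x < 1) (hy0 : 0 < y) (hy1 : y < 1) (hxy : x ≠ y) :
    (Real.pi * Real.cot (Real.pi * y) - Real.pi * Real.cot (Real.pi * x)) / (x - y)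
      - (Real.pi * Real.cot (Real.pi * x)) * (Real.pi * Real.cot (Real.pi * y)) = Dinf x y := by
  have hpi := Real.pi_pos
  have hsx : 0 < Real.sin (Real.pi * x) :=
    Real.sin_pos_of_pos_of_lt_pi (by positivity) (by nlinarith)
  have hsy : 0 < Real.sin (Real.pi * y) :=
    Real.sin_pos_of_pos_of_lt_pi (by positivity) (by nlinarith)
  have hne : x - y ≠ 0 := sub_ne_zero.2 hxy
  have hd : Real.pi * (x - y) ≠ 0 := mul_ne_zero hpi.ne' hne
  unfold Dinf
  rw [Gd_eq hd, Real.cot_eq_cos_div_sin, Real.cot_eq_cos_div_sin]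
  have e : Real.pi * (x - y) = Real.pi * x - Real.pi * y := by ring
  rw [e] at hd ⊢
  have e2 : x - y = (Real.pi * x - Real.pi * y) / Real.pi := by
    rw [← e]
    field_simp
  rw [e2]
  generalize Real.pi * x = a at *
  generalize Real.pi * y = b at *
  rw [Real.sin_sub, Real.cos_sub]
  have h1 := Real.sin_sq_add_cos_sq a
  have h2 := Real.sin_sq_add_cos_sq b
  have hab : a - b ≠ 0 := hd
  field_simp
  ring

lemma pK_mono {x y : ℝ} (hx0 : 0 < x) (hx1 : x < 1) (hy0 : 0 < y) (hy1 : y < 1) {K K' : ℕ}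
    (h : K ≤ K') : pK K x y ≤ pK K' x y := by
  induction K', h using Nat.le_induction with
  | base => exact le_refl _
  | succ K' h ih =>
    rw [pK_succ]
    have hc : (0:ℝ) ≤ K' := Nat.cast_nonneg K'
    have h1 : 0 ≤ 1 / ((x - ((K' : ℝ) + 1)) * (y - ((K' : ℝ) + 1))) := by
      have e : (x - ((K' : ℝ) + 1)) * (y - ((K' : ℝ) + 1)) = (K' + 1 - x) * (K' + 1 - y) := by ring
      rw [e]
      have a1 : 0 < (K' : ℝ) + 1 - x := by linarith
      have a2 : 0 < (K' : ℝ) + 1 - y := by linarith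
      positivity
    have h2 : 0 ≤ 1 / ((x + K') * (y + K')) := by positivity
    linarith

/-- The truncated expression is close to the limit at distinct points. -/
lemma DK_close_ne {ε x y : ℝ} (hε : 0 < ε) (hx0 : ε ≤ x) (hx1 : x ≤ 1 - ε) (hy0 : ε ≤ y)
    (hy1 : y ≤ 1 - ε) (hxy : x ≠ y) {K : ℕ} (hK1 : 1 ≤ K) :
    |pK K x y - hK K x * hK K y - Dinf x y| ≤ (4 + 4 * (2 / ε + 2)) / K := by
  have hx0' : 0 < x := by linarith
  have hx1' : x < 1 := by linarith
  have hy0' : 0 < y := by linarith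
  have hy1' : y < 1 := by linarith
  have hKp : (0:ℝ) < K := by exact_mod_cast hK1
  set B := 2 / ε + 2 with hB
  have hB0 : 0 ≤ B := by positivity
  have hlim : Tendsto (fun K' : ℕ => pK K' x y - hK K' x * hK K' y) atTop (𝓝 (Dinf x y)) := by
    rw [← cot_eq_Dinf hx0' hx1' hy0' hy1' hxy]
    have hx := hK_tendsto hx0' hx1'
    have hy := hK_tendsto hy0' hy1'
    have h1 := ((hy.sub hx).div_const (x - y)).sub (hx.mul hy)
    refine h1.congr fun K' => ?_
    rw [pK_eq hx0' hx1' hy0' hy1' hxy]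
  have hlim2 : Tendsto (fun K' : ℕ => |pK K x y - hK K x * hK K y -
      (pK K' x y - hK K' x * hK K' y)|) atTop (𝓝 |pK K x y - hK K x * hK K y - Dinf x y|) :=
    (tendsto_const_nhds.sub hlim).abs
  refine le_of_tendsto hlim2 ?_
  filter_upwards [eventually_ge_atTop K] with K' hK'
  have hK'p : (0:ℝ) < K' := by
    have : 1 ≤ K' := hK1.trans hK'
    exact_mod_cast this
  have e1 := pK_tail hx0'.le hx1'.le hy0'.le hy1'.le hK1 hK'
  have e0 := pK_mono hx0' hx1' hy0' hy1' hK'
  have e2 := hK_tail hx0'.le hx1'.le hK1 hK'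
  have e3 := hK_tail hy0'.le hy1'.le hK1 hK'
  have b1 := abs_hK_le hε hy0 hy1 (hK1.trans hK')
  have b2 := abs_hK_le hε hx0 hx1 hK1
  have a1 : |hK K' x * hK K' y - hK K x * hK K y| ≤ 4 * B / K := by
    have e : hK K' x * hK K' y - hK K x * hK K y =
        (hK K' x - hK K x) * hK K' y + hK K x * (hK K' y - hK K y) := by ring
    rw [e]
    refine (abs_add_le _ _).trans ?_
    rw [abs_mul, abs_mul]
    have c1 : |hK K' x - hK K x| ≤ 2 / K := by
      refine e2.trans ?_
      rw [mul_sub, mul_one_div, mul_one_div]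
      have : (0:ℝ) ≤ 2 / (K' : ℝ) := by positivity
      linarith
    have c2 : |hK K' y - hK K y| ≤ 2 / K := by
      refine e3.trans ?_
      rw [mul_sub, mul_one_div, mul_one_div]
      have : (0:ℝ) ≤ 2 / (K' : ℝ) := by positivity
      linarith
    have c3 : |hK K' x - hK K x| * |hK K' y| ≤ 2 / K * B :=
      mul_le_mul c1 b1 (abs_nonneg _) (by positivity)
    have c4 : |hK K x| * |hK K' y - hK K y| ≤ B * (2 / K) :=
      mul_le_mul b2 c2 (abs_nonneg _) hB0
    have e' : 4 * B / K = 2 / K * B + B * (2 / K) := by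
      field_simp
      ring
    linarith
  have a2 := abs_le.1 a1
  have a3 : pK K' x y - pK K x y ≤ 4 / K := by
    refine e1.trans ?_
    rw [mul_sub, mul_one_div, mul_one_div]
    have : (0:ℝ) ≤ 4 / (K' : ℝ) := by positivity
    linarith
  have e' : (4 + 4 * B) / K = 4 / K + 4 * B / K := by
    field_simp
  rw [e', abs_le]
  constructor <;> linarith [a2.1, a2.2]

lemma Dinf_continuousAt {x : ℝ} (hx0 : 0 < x) (hx1 : x < 1) :
    ContinuousAt (fun y => Dinf x y) x := by
  have hpi := Real.pi_pos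
  have hsx : 0 < Real.sin (Real.pi * x) :=
    Real.sin_pos_of_pos_of_lt_pi (by positivity) (by nlinarith)
  unfold Dinf
  have hG := Gd_continuous
  refine ContinuousAt.add continuousAt_const (ContinuousAt.div ?_ ?_ (by positivity))
  · exact ContinuousAt.mul continuousAt_const (hG.continuousAt.comp (by fun_prop))
  · fun_prop

/-- The truncated expression is close to the limit on a compact subinterval. -/
lemma DK_close {ε x y : ℝ} (hε : 0 < ε) (hx0 : ε ≤ x) (hx1 : x ≤ 1 - ε) (hy0 : ε ≤ y)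
    (hy1 : y ≤ 1 - ε) {K : ℕ} (hK1 : 1 ≤ K) :
    |pK K x y - hK K x * hK K y - Dinf x y| ≤ (4 + 4 * (2 / (ε / 2) + 2)) / K := by
  have hε2 : 0 < ε / 2 := by positivity
  rcases ne_or_eq x y with hxy | rfl
  · exact DK_close_ne hε2 (by linarith) (by linarith) (by linarith) (by linarith) hxy hK1
  · have hx0' : 0 < x := by linarith
    have hx1' : x < 1 := by linarith
    have hc : ContinuousAt (fun y => |pK K x y - hK K x * hK K y - Dinf x y|) x :=
      (((pK_continuousAt hx0' hx1' K).sub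
        (continuousAt_const.mul (hK_continuousAt hx0' hx1' K))).sub
        (Dinf_continuousAt hx0' hx1')).abs
    have hc' := hc.tendsto.mono_left (nhdsWithin_le_nhds (s := {x}ᶜ))
    refine le_of_tendsto hc' ?_
    have h1 : Ioo (ε / 2) (1 - ε / 2) ∈ 𝓝 x := Ioo_mem_nhds (by linarith) (by linarith)
    filter_upwards [self_mem_nhdsWithin, nhdsWithin_le_nhds h1] with y hy hy'
    exact DK_close_ne hε2 (by linarith) (by linarith) hy'.1.le hy'.2.le (Ne.symm hy) hK1

/-- Uniform closeness to the limit with sums over a symmetric set of integers. -/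
lemma exists_K2 {ε δ : ℝ} (hε : 0 < ε) (hδ : 0 < δ) :
    ∃ S : Finset ℤ, ∀ x y : ℝ, ε ≤ x → x ≤ 1 - ε → ε ≤ y → y ≤ 1 - ε →
      |∑ k ∈ S, 1 / ((x - (k : ℝ)) * (y - (k : ℝ))) -
        (∑ k ∈ S, 1 / (x - (k : ℝ))) * (∑ k ∈ S, 1 / (y - (k : ℝ))) - Dinf x y| ≤ δ := by
  set A := 4 + 4 * (2 / (ε / 2) + 2) with hA
  have hA0 : 0 < A := by positivity
  obtain ⟨K, hK⟩ := exists_nat_ge (A / δ + 1)
  have hKr : A / δ + 1 ≤ (K : ℝ) := hK
  have hd : 0 < A / δ := by positivity
  have hKp : (0:ℝ) < K := by linarith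
  have hK1 : 1 ≤ K := by exact_mod_cast hKp
  refine ⟨SK K, fun x y hx0 hx1 hy0 hy1 => ?_⟩
  rw [sum_SK_p, sum_SK_h, sum_SK_h]
  have h := DK_close hε hx0 hx1 hy0 hy1 hK1
  rw [← hA] at h
  refine h.trans ?_
  rw [div_le_iff₀ hKp]
  have : A / δ ≤ K := by linarith
  rw [div_le_iff₀ hδ] at this
  linarith

end

end Vale.Agent.Lib.P371.Sharp
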