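import Vale.Agent.Lib.P371.SharpAlg
import Vale.Agent.Lib.P371.SharpTrig2

/-! The pointwise bound for a general density matrix. -/

open Matrix

namespace Vale.Agent.Lib.P371.Sharp

noncomputable section

section psd

variable {κ : Type*} [Fintype κ] {P : κ → κ → ℝ}

/-- Cauchy-Schwarz for a positive semidefinite kernel. -/
lemma psd_cs (hP : PK P) (x y : κ → ℝ) :
    (∑ a, ∑ b, x a * y b * P a b) ^ 2 ≤
      (∑ a, ∑ b, x a * x b * P a b) * ∑ a, ∑ b, y a * y b * P a b := by
  set A := ∑ a, ∑ b, x a * x b * P a b with hA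
  set B := ∑ a, ∑ b, x a * y b * P a b with hB
  set C := ∑ a, ∑ b, y a * y b * P a b with hC
  have hB' : ∑ a, ∑ b, y a * x b * P a b = B := by
    rw [hB, Finset.sum_comm]
    refine Finset.sum_congr rfl fun a _ => Finset.sum_congr rfl fun b _ => ?_
    rw [hP.1 b a]
    ring
  have key : ∀ t : ℝ, 0 ≤ C * (t * t) + (2 * B) * t + A := by
    intro t
    have h := hP.2 fun a => x a + t * y a
    have e : ∑ a, ∑ b, (x a + t * y a) * (x b + t * y b) * P a b =
        C * (t * t) + (2 * B) * t + A := by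
      have e1 : ∀ a b, (x a + t * y a) * (x b + t * y b) * P a b =
          t * t * (y a * y b * P a b) + t * (x a * y b * P a b) + t * (y a * x b * P a b) +
            x a * x b * P a b := by
        intro a b
        ring
      simp_rw [e1, Finset.sum_add_distrib, ← Finset.mul_sum]
      rw [hB', ← hA, ← hB, ← hC]
      ring
    rw [e] at h
    exact h
  have h := discrim_le_zero key
  unfold discrim at h
  nlinarith

lemma psd_diag_nonneg (hP : PK P) (a : κ) : 0 ≤ P a a := by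
  classical
  have h := hP.2 (Pi.single a 1)
  simpa [Pi.single_apply, Finset.sum_ite_eq', ite_mul] using h

lemma psd_entry_sq (hP : PK P) (a b : κ) : P a b ^ 2 ≤ P a a * P b b := by
  classical
  have h := psd_cs hP (Pi.single a 1) (Pi.single b 1)
  simpa [Pi.single_apply, Finset.sum_ite_eq', ite_mul] using h

lemma diag_cube_le (hP : PK P) (a : κ) :
    P a a ^ 3 ≤ ∑ b, ∑ c, P a b * P a c * P b c := by
  classical
  have h0 := psd_diag_nonneg hP a
  have hq := hP.2 (fun b => P a b)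
  have h := psd_cs hP (Pi.single a 1) (fun b => P a b)
  have e1 : ∑ b, ∑ c, (Pi.single a 1 : κ → ℝ) b * (fun b => P a b) c * P b c =
      ∑ c, P a c ^ 2 := by
    simp [Pi.single_apply, Finset.sum_ite_eq', ite_mul, sq]
  have e2 : ∑ b, ∑ c, (Pi.single a 1 : κ → ℝ) b * (Pi.single a 1 : κ → ℝ) c * P b c = P a a := by
    simp [Pi.single_apply, Finset.sum_ite_eq', ite_mul]
  rw [e1, e2] at h
  have h3 : P a a ^ 2 ≤ ∑ c, P a c ^ 2 :=
    Finset.single_le_sum (f := fun c => P a c ^ 2) (fun c _ => sq_nonneg _) (Finset.mem_univ a)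
  have h4 : (P a a ^ 2) ^ 2 ≤ (∑ c, P a c ^ 2) ^ 2 :=
    pow_le_pow_left₀ (sq_nonneg _) h3 2
  rcases h0.eq_or_lt with h00 | hpos
  · rw [← h00]
    simpa using hq
  · have h5 : P a a * P a a ^ 3 ≤ P a a * ∑ b, ∑ c, P a b * P a c * P b c := by
      calc P a a * P a a ^ 3 = (P a a ^ 2) ^ 2 := by ring
        _ ≤ _ := h4.trans h
    exact le_of_mul_le_mul_left h5 hpos

lemma abs_entry_le_trace (hP : PK P) (a b : κ) : |P a b| ≤ ∑ c, P c c := by
  have hd := fun c => psd_diag_nonneg hP c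
  have ht0 : 0 ≤ ∑ c, P c c := Finset.sum_nonneg fun c _ => hd c
  refine abs_le_of_sq_le_sq ?_ ht0
  have h1 : P a a ≤ ∑ c, P c c :=
    Finset.single_le_sum (f := fun c => P c c) (fun c _ => hd c) (Finset.mem_univ a)
  have h2 : P b b ≤ ∑ c, P c c :=
    Finset.single_le_sum (f := fun c => P c c) (fun c _ => hd c) (Finset.mem_univ b)
  refine (psd_entry_sq hP a b).trans ?_
  rw [sq]
  exact mul_le_mul h1 h2 (hd b) ht0

/-- The sum of absolute values is controlled by the cubic trace. -/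
lemma sum_abs_le (hP : PK P) :
    ∑ a, ∑ b, ∑ c, |P a b * P a c * P b c| ≤
      (Fintype.card κ : ℝ) ^ 5 * ∑ a, ∑ b, ∑ c, P a b * P a c * P b c := by
  set n : ℝ := (Fintype.card κ : ℝ) with hn
  set t := ∑ c, P c c with ht
  have hd := fun c => psd_diag_nonneg hP c
  have ht0 : 0 ≤ t := Finset.sum_nonneg fun c _ => hd c
  have h1 : ∑ a, ∑ b, ∑ c, |P a b * P a c * P b c| ≤ n ^ 3 * t ^ 3 := by
    have h2 : ∀ a b c, |P a b * P a c * P b c| ≤ t ^ 3 := by
      intro a b c
      rw [abs_mul, abs_mul]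
      have h3 := abs_entry_le_trace hP a b
      have h4 := abs_entry_le_trace hP a c
      have h5 := abs_entry_le_trace hP b c
      calc |P a b| * |P a c| * |P b c| ≤ t * t * t := by gcongr
        _ = t ^ 3 := by ring
    calc ∑ a, ∑ b, ∑ c, |P a b * P a c * P b c| ≤ ∑ _a : κ, ∑ _b : κ, ∑ _c : κ, t ^ 3 :=
          Finset.sum_le_sum fun a _ => Finset.sum_le_sum fun b _ => Finset.sum_le_sum fun c _ =>
            h2 a b c
      _ = n ^ 3 * t ^ 3 := by
          simp only [Finset.sum_const, Finset.card_univ, nsmul_eq_mul]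
          ring
  have h6 : t ^ 3 ≤ n ^ 2 * ∑ a, P a a ^ 3 := by
    rcases (Nat.eq_zero_or_pos (Fintype.card κ)) with h0 | hpos
    · have : IsEmpty κ := Fintype.card_eq_zero_iff.1 h0
      simp [ht]
    · have hp : (0:ℝ) < n := by
        rw [hn]
        exact_mod_cast hpos
      have h7 := pow_sum_div_card_le_sum_pow (s := Finset.univ) (f := fun c => P c c)
        (fun c _ => hd c) 2
      rw [Finset.card_univ, div_le_iff₀ (by positivity)] at h7
      rw [mul_comm]
      exact h7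
  have h8 : ∑ a, P a a ^ 3 ≤ ∑ a, ∑ b, ∑ c, P a b * P a c * P b c :=
    Finset.sum_le_sum fun a _ => diag_cube_le hP a
  have hn0 : 0 ≤ n := Nat.cast_nonneg _
  calc _ ≤ n ^ 3 * t ^ 3 := h1
    _ ≤ n ^ 3 * (n ^ 2 * ∑ a, ∑ b, ∑ c, P a b * P a c * P b c) := by
        refine mul_le_mul_of_nonneg_left (h6.trans ?_) (by positivity)
        exact mul_le_mul_of_nonneg_left h8 (by positivity)
    _ = _ := by ring

end psd

variable {ι : Type*} [Fintype ι] [DecidableEq ι]

/-- The cubic trace. -/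
def tr3 (P : Matrix ι ι ℝ) : ℝ := fro P (P * P)

omit [DecidableEq ι] in
lemma fro_expand (A B C : Matrix ι ι ℝ) :
    fro A (B * C) = ∑ a, ∑ b, ∑ c, A a b * (B a c * C c b) := by
  rw [fro_eq_sum]
  refine Finset.sum_congr rfl fun a _ => Finset.sum_congr rfl fun b _ => ?_
  rw [Matrix.mul_apply, Finset.mul_sum]

lemma fro_conj {U : Matrix ι ι ℝ} (hU : Uᵀ * U = 1) (A C : Matrix ι ι ℝ) :
    fro (U * A * Uᵀ) (U * C * Uᵀ) = fro A C := by
  have e : (U * A * Uᵀ)ᵀ = U * Aᵀ * Uᵀ := by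
    simp [Matrix.transpose_mul, Matrix.mul_assoc]
  unfold fro
  rw [e, conj_mul hU, Matrix.trace_mul_comm, ← Matrix.mul_assoc, hU, Matrix.one_mul]

/-- The solutions of the Lyapunov equations and the pointwise lower bound for a general positive
semidefinite matrix `P`. -/
theorem Spec.exists_Ym {M : Matrix ι ι ℝ} {ε : ℝ} (h : Spec M ε) (hε : 0 < ε) (P : Matrix ι ι ℝ)
    (hPs : Pᵀ = P) (hP0 : ∀ a : ι → ℝ, 0 ≤ a ⬝ᵥ (P *ᵥ a)) :
    ∃ Y : ℤ → Matrix ι ι ℝ, (∀ k, (Y k)ᵀ = Y k ∧ lyap M k (Y k) = P) ∧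
      ∀ (S : Finset ℤ) (δ : ℝ), 0 ≤ δ → (∀ x y : ℝ, ε ≤ x → x ≤ 1 - ε → ε ≤ y → y ≤ 1 - ε →
        |∑ k ∈ S, 1 / ((x - (k : ℝ)) * (y - (k : ℝ))) -
          (∑ k ∈ S, 1 / (x - (k : ℝ))) * (∑ k ∈ S, 1 / (y - (k : ℝ))) - Dinf x y| ≤ δ) →
        (Real.pi ^ 2 - δ * (Fintype.card ι : ℝ) ^ 5) * tr3 P ≤
          ∑ k ∈ S, fro (Y k) (Y k * P) - fro (∑ k ∈ S, Y k) ((∑ k ∈ S, Y k) * P) := by
  obtain ⟨U, μ, hU1, hU2, hM, hμ⟩ := h.exists_diag
  set Q : Matrix ι ι ℝ := Uᵀ * P * U with hQ
  have hPQ : P = U * Q * Uᵀ := by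
    rw [hQ]
    calc P = (U * Uᵀ) * P * (U * Uᵀ) := by rw [hU2, Matrix.one_mul, Matrix.mul_one]
      _ = _ := by simp only [Matrix.mul_assoc]
  have hQs : Qᵀ = Q := by
    rw [hQ]
    simp [Matrix.transpose_mul, hPs, Matrix.mul_assoc]
  have hQPK : PK fun a b => Q a b := by
    refine ⟨fun a b => by
      have := congrFun (congrFun hQs a) b
      simpa using this.symm, fun x => ?_⟩
    have e : ∑ a, ∑ b, x a * x b * Q a b = (U *ᵥ x) ⬝ᵥ (P *ᵥ (U *ᵥ x)) := by
      have e1 : ∑ a, ∑ b, x a * x b * Q a b = x ⬝ᵥ (Q *ᵥ x) := by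
        simp only [dotProduct, mulVec]
        refine Finset.sum_congr rfl fun a _ => ?_
        rw [Finset.mul_sum]
        refine Finset.sum_congr rfl fun b _ => ?_
        ring
      rw [e1, hQ, ← Matrix.mulVec_mulVec, ← Matrix.mulVec_mulVec, Matrix.dotProduct_mulVec,
        Matrix.vecMul_transpose]
    rw [e]
    exact hP0 _
  set ν : ι → ι → ℝ := fun a b => (μ a + μ b) / 2 with hν
  have hνb : ∀ a b, ε ≤ ν a b ∧ ν a b ≤ 1 - ε := by
    intro a b
    have h1 := hμ a
    have h2 := hμ b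
    simp only [hν]
    constructor <;> linarith [h1.1, h1.2, h2.1, h2.2]
  have hne : ∀ a b (k : ℤ), ν a b - (k : ℝ) ≠ 0 := by
    intro a b k
    have h1 := hνb a b
    rcases le_or_gt k 0 with hk | hk
    · have hk' : (k : ℝ) ≤ 0 := by exact_mod_cast hk
      have : 0 < ν a b - (k : ℝ) := by linarith [h1.1]
      exact this.ne'
    · have hk' : (1 : ℝ) ≤ k := by exact_mod_cast hk
      have : ν a b - (k : ℝ) < 0 := by linarith [h1.2]
      exact this.ne
  let Z : ℤ → Matrix ι ι ℝ := fun k => Matrix.of fun a b => Q a b / (ν a b - (k : ℝ))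
  have hZs : ∀ k, (Z k)ᵀ = Z k := by
    intro k
    ext a b
    simp only [Z, Matrix.transpose_apply, Matrix.of_apply, hν]
    have := congrFun (congrFun hQs a) b
    simp only [Matrix.transpose_apply] at this
    rw [this, add_comm (μ b)]
  have hZl : ∀ k, (1 / 2 : ℝ) • (diagonal μ * Z k + Z k * diagonal μ) - (k : ℝ) • Z k = Q := by
    intro k
    ext a b
    simp only [Matrix.sub_apply, Matrix.smul_apply, Matrix.add_apply, Matrix.diagonal_mul,
      Matrix.mul_diagonal, smul_eq_mul, Z, Matrix.of_apply]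
    have := hne a b k
    have e : ν a b = (μ a + μ b) / 2 := rfl
    field_simp
    rw [e]
    ring
  have hMY : ∀ k, lyap M k (U * Z k * Uᵀ) = P := by
    intro k
    have e1 : M * (U * Z k * Uᵀ) = U * (diagonal μ * Z k) * Uᵀ := by
      rw [hM, conj_mul hU1]
    have e2 : (U * Z k * Uᵀ) * M = U * (Z k * diagonal μ) * Uᵀ := by
      rw [hM, conj_mul hU1]
    unfold lyap
    rw [e1, e2]
    have e3 : (1 / 2 : ℝ) • (U * (diagonal μ * Z k) * Uᵀ + U * (Z k * diagonal μ) * Uᵀ) -
        (k : ℝ) • (U * Z k * Uᵀ) =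
        U * ((1 / 2 : ℝ) • (diagonal μ * Z k + Z k * diagonal μ) - (k : ℝ) • Z k) * Uᵀ := by
      simp only [Matrix.mul_sub, Matrix.sub_mul, Matrix.mul_add, Matrix.add_mul, Matrix.mul_smul,
        Matrix.smul_mul, smul_add]
    rw [e3, hZl, ← hPQ]
  refine ⟨fun k => U * Z k * Uᵀ, fun k => ⟨?_, hMY k⟩, fun S δ hδ hD => ?_⟩
  · simp only [Matrix.transpose_mul, Matrix.transpose_transpose, hZs, Matrix.mul_assoc]
  · have hF : ∀ A : Matrix ι ι ℝ, fro (U * A * Uᵀ) ((U * A * Uᵀ) * P) = fro A (A * Q) := by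
      intro A
      conv_lhs => rw [hPQ]
      rw [conj_mul hU1, fro_conj hU1]
    have hsum : ∑ k ∈ S, U * Z k * Uᵀ = U * (∑ k ∈ S, Z k) * Uᵀ := by
      rw [Finset.mul_sum, Finset.sum_mul]
    simp only [hF, hsum]
    have htr : tr3 P = ∑ a, ∑ b, ∑ c, Q a b * Q a c * Q b c := by
      unfold tr3
      rw [hPQ, conj_mul hU1, fro_conj hU1, fro_expand]
      refine Finset.sum_congr rfl fun a _ => Finset.sum_congr rfl fun b _ =>
        Finset.sum_congr rfl fun c _ => ?_
      have := congrFun (congrFun hQs c) b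
      simp only [Matrix.transpose_apply] at this
      rw [← this]
      ring
    -- expansion of the two terms
    set Dk : ℝ → ℝ → ℝ := fun x y => ∑ k ∈ S, 1 / ((x - (k : ℝ)) * (y - (k : ℝ))) with hDk
    set hS : ℝ → ℝ := fun x => ∑ k ∈ S, 1 / (x - (k : ℝ)) with hhS
    have hQcb : ∀ b c, Q c b = Q b c := fun b c => by
      have := congrFun (congrFun hQs b) c
      simpa using this
    have e1 : ∑ k ∈ S, fro (Z k) (Z k * Q) =
        ∑ a, ∑ b, ∑ c, Q a b * Q a c * Q b c * Dk (ν a b) (ν a c) := by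
      simp_rw [fro_expand]
      rw [Finset.sum_comm]
      refine Finset.sum_congr rfl fun a _ => ?_
      rw [Finset.sum_comm]
      refine Finset.sum_congr rfl fun b _ => ?_
      rw [Finset.sum_comm]
      refine Finset.sum_congr rfl fun c _ => ?_
      simp only [hDk]
      rw [Finset.mul_sum]
      refine Finset.sum_congr rfl fun k _ => ?_
      simp only [Z, Matrix.of_apply]
      rw [hQcb b c]
      have a1 := hne a b k
      have a2 := hne a c k
      field_simp
    have e2 : fro (∑ k ∈ S, Z k) ((∑ k ∈ S, Z k) * Q) =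
        ∑ a, ∑ b, ∑ c, Q a b * Q a c * Q b c * (hS (ν a b) * hS (ν a c)) := by
      have a0 : ∀ a b, (∑ k ∈ S, Z k) a b = Q a b * hS (ν a b) := by
        intro a b
        simp only [Matrix.sum_apply, Z, Matrix.of_apply, hhS]
        rw [Finset.mul_sum]
        refine Finset.sum_congr rfl fun k _ => ?_
        rw [mul_one_div]
      rw [fro_expand]
      refine Finset.sum_congr rfl fun a _ => Finset.sum_congr rfl fun b _ =>
        Finset.sum_congr rfl fun c _ => ?_
      rw [a0, a0, hQcb b c]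
      ring
    rw [e1, e2]
    -- the angles
    set θ : ι → ℝ := fun a => Real.pi * μ a / 2 with hθ
    have hpi := Real.pi_pos
    have hθ0 : ∀ a, 0 < θ a := fun a => by
      have := (hμ a).1
      simp only [hθ]
      have : 0 < μ a := by linarith
      positivity
    have hθ1 : ∀ a, θ a < Real.pi / 2 := fun a => by
      have := (hμ a).2
      simp only [hθ]
      have h3 : μ a < 1 := by linarith
      nlinarith
    have hQQ := Q_nonneg hQPK hθ0 hθ1
    have e3 : ∀ a b, Real.pi * ν a b = θ a + θ b := fun a b => by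
      simp only [hν, hθ]
      ring
    have hterm : ∀ a b c, Q a b * Q a c * Q b c * Dinf (ν a b) (ν a c) =
        Real.pi ^ 2 * (Q a b * Q a c * Q b c) + Real.pi ^ 2 *
          (Q a b / Real.sin (θ a + θ b) * (Q a c / Real.sin (θ a + θ c)) * Q b c *
            Gd (θ b - θ c)) := by
      intro a b c
      unfold Dinf
      have e4 : Real.pi * (ν a b - ν a c) = θ b - θ c := by
        rw [mul_sub, e3, e3]
        ring
      rw [e4, e3, e3]
      ring
    have hmain : ∑ a, ∑ b, ∑ c, Q a b * Q a c * Q b c * Dinf (ν a b) (ν a c) ≥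
        Real.pi ^ 2 * ∑ a, ∑ b, ∑ c, Q a b * Q a c * Q b c := by
      simp_rw [hterm, Finset.sum_add_distrib, ← Finset.mul_sum]
      have := mul_nonneg (sq_nonneg Real.pi) hQQ
      linarith
    have herr : ∑ a, ∑ b, ∑ c, Q a b * Q a c * Q b c *
          (Dk (ν a b) (ν a c) - hS (ν a b) * hS (ν a c)) ≥
        ∑ a, ∑ b, ∑ c, Q a b * Q a c * Q b c * Dinf (ν a b) (ν a c) -
          δ * ∑ a, ∑ b, ∑ c, |Q a b * Q a c * Q b c| := by
      rw [Finset.mul_sum, ← Finset.sum_sub_distrib]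
      refine Finset.sum_le_sum fun a _ => ?_
      rw [Finset.mul_sum, ← Finset.sum_sub_distrib]
      refine Finset.sum_le_sum fun b _ => ?_
      rw [Finset.mul_sum, ← Finset.sum_sub_distrib]
      refine Finset.sum_le_sum fun c _ => ?_
      have h1 := hD (ν a b) (ν a c) (hνb a b).1 (hνb a b).2 (hνb a c).1 (hνb a c).2
      have h2 := neg_abs_le (Q a b * Q a c * Q b c)
      have h3 := le_abs_self (Q a b * Q a c * Q b c)
      have h4 := abs_le.1 h1
      set X := Q a b * Q a c * Q b c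
      set e := Dk (ν a b) (ν a c) - hS (ν a b) * hS (ν a c) - Dinf (ν a b) (ν a c) with he
      have h5 : Dk (ν a b) (ν a c) - hS (ν a b) * hS (ν a c) = Dinf (ν a b) (ν a c) + e := by
        rw [he]
        ring
      rw [h5]
      have h6 : -(δ * |X|) ≤ X * e := by
        have h7 : |X * e| ≤ |X| * δ := by
          rw [abs_mul]
          exact mul_le_mul_of_nonneg_left h1 (abs_nonneg _)
        have h8 := neg_abs_le (X * e)
        linarith
      have h9 : X * (Dinf (ν a b) (ν a c) + e) = X * Dinf (ν a b) (ν a c) + X * e := by ring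
      rw [h9]
      linarith
    have e5 : ∑ a, ∑ b, ∑ c, Q a b * Q a c * Q b c * Dk (ν a b) (ν a c) -
        ∑ a, ∑ b, ∑ c, Q a b * Q a c * Q b c * (hS (ν a b) * hS (ν a c)) =
        ∑ a, ∑ b, ∑ c, Q a b * Q a c * Q b c *
          (Dk (ν a b) (ν a c) - hS (ν a b) * hS (ν a c)) := by
      rw [← Finset.sum_sub_distrib]
      refine Finset.sum_congr rfl fun a _ => ?_
      rw [← Finset.sum_sub_distrib]
      refine Finset.sum_congr rfl fun b _ => ?_
      rw [← Finset.sum_sub_distrib]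
      refine Finset.sum_congr rfl fun c _ => ?_
      ring
    rw [e5, htr]
    have h10 := sum_abs_le hQPK
    have h11 := mul_le_mul_of_nonneg_left h10 hδ
    have e6 : (Real.pi ^ 2 - δ * (Fintype.card ι : ℝ) ^ 5) * ∑ a, ∑ b, ∑ c, Q a b * Q a c * Q b c =
        Real.pi ^ 2 * (∑ a, ∑ b, ∑ c, Q a b * Q a c * Q b c) -
          δ * ((Fintype.card ι : ℝ) ^ 5 * ∑ a, ∑ b, ∑ c, Q a b * Q a c * Q b c) := by ring
    rw [e6]
    linarith

end

end Vale.Agent.Lib.P371.Sharp
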