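import Vale.Agent.Lib.P371.SharpMat

/-! The kinetic inequality with the sharp constant `π² / 4`. -/

open Matrix Filter Topology Set MeasureTheory

namespace Vale.Agent.Lib.P371.Sharp

noncomputable section

variable {ι : Type*} [Fintype ι] {f f' : ι → ℝ → ℝ} {Λ ε : ℝ}

lemma dot_integrable {u v : ℝ → ι → ℝ} (hu : Measurable u) (hv : Measurable v)
    (hui : Integrable fun x => u x ⬝ᵥ u x) (hvi : Integrable fun x => v x ⬝ᵥ v x) :
    Integrable fun x => u x ⬝ᵥ v x := by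
  have hm : Measurable fun x => u x ⬝ᵥ v x := by
    simp only [dotProduct]
    refine Finset.measurable_fun_sum _ fun i _ => ?_
    exact ((measurable_pi_apply i).comp hu).mul ((measurable_pi_apply i).comp hv)
  refine ((hui.add hvi).div_const 2).mono' hm.aestronglyMeasurable (ae_of_all _ fun x => ?_)
  have h1 := dot_self_nonneg (u x - v x)
  have h2 := dot_self_nonneg (u x + v x)
  rw [sub_dotProduct, dotProduct_sub, dotProduct_sub, dotProduct_comm (v x) (u x)] at h1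
  rw [add_dotProduct, dotProduct_add, dotProduct_add, dotProduct_comm (v x) (u x)] at h2
  rw [Real.norm_eq_abs, abs_le]
  simp only [Pi.add_apply]
  constructor <;> linarith

/-- The value of the derivative. -/
lemma deriv_value (F F' : ι → ℝ) (Y : Matrix ι ι ℝ) (hYs : Yᵀ = Y) :
    2 * fro (vecMulVec F' F + vecMulVec F F') Y -
        fro Y ((1 / 2 : ℝ) • (vecMulVec F F * Y + Y * vecMulVec F F)) =
      4 * (F' ⬝ᵥ (Y *ᵥ F)) - (Y *ᵥ F) ⬝ᵥ (Y *ᵥ F) := by
  have e0 : F ᵥ* Y = Y *ᵥ F := by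
    conv_lhs => rw [← hYs]
    rw [Matrix.vecMul_transpose]
  have e1 : F ⬝ᵥ (Y *ᵥ F') = F' ⬝ᵥ (Y *ᵥ F) := by
    rw [Matrix.dotProduct_mulVec, e0, dotProduct_comm]
  have e2 : fro Y (Y * vecMulVec F F) = (Y *ᵥ F) ⬝ᵥ (Y *ᵥ F) := by
    rw [Matrix.mul_vecMulVec, fro_comm, fro_vecMulVec]
  have e3 : fro Y (vecMulVec F F * Y) = (Y *ᵥ F) ⬝ᵥ (Y *ᵥ F) := by
    rw [Matrix.vecMulVec_mul, e0, fro_comm, fro_vecMulVec, Matrix.dotProduct_mulVec, e0]
  rw [fro_add_left, fro_vecMulVec, fro_vecMulVec, e1, fro_smul_right, fro_add_right, e2, e3]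
  ring

variable [DecidableEq ι]

/-- The integral identity for a single integer. -/
theorem per_k (hF : Fam0 f f' Λ) (hΛ0 : 0 ≤ Λ) (hε : 0 < ε) (hΛ : Λ + 2 * ε ≤ 1)
    {Y : ℝ → Matrix ι ι ℝ} {k : ℤ} (hYs : ∀ x, (Y x)ᵀ = Y x)
    (hY : ∀ x, lyap (Mm ε f x) k (Y x) = Pm f x) :
    Continuous (fun x => Y x *ᵥ Fv f x) ∧
      Integrable (fun x => (Y x *ᵥ Fv f x) ⬝ᵥ (Y x *ᵥ Fv f x)) ∧
      4 * ∫ x, Fv f' x ⬝ᵥ (Y x *ᵥ Fv f x) = ∫ x, (Y x *ᵥ Fv f x) ⬝ᵥ (Y x *ᵥ Fv f x) := by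
  have hS : ∀ x, Spec (Mm ε f x) ε := Mm_spec hF hΛ
  have hYc : Continuous Y := Y_continuous hε hS (Mm_continuous hF) (Pm_continuous hF) hY
  set c : ℝ → ι → ℝ := fun x => Y x *ᵥ Fv f x with hc
  have hcc : Continuous c := hYc.matrix_mulVec (Fv_continuous hF)
  have hρ0 : ∀ x, 0 ≤ rho f x := Fam.rho_nonneg f
  have hYb : ∀ x, fro (Y x) (Y x) ≤ rho f x ^ 2 / ε ^ 2 := by
    intro x
    have := (hS x).coercive hε k (Y x)
    rw [hY x, fro_Pm_self] at this
    rw [le_div_iff₀ (by positivity)]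
    linarith
  have hcb : ∀ x, c x ⬝ᵥ c x ≤ rho f x ^ 3 / ε ^ 2 := by
    intro x
    have h1 := dot_mulVec_le (Y x) (Fv f x)
    rw [dot_rho] at h1
    have h2 := mul_le_mul_of_nonneg_right (hYb x) (hρ0 x)
    have e : rho f x ^ 2 / ε ^ 2 * rho f x = rho f x ^ 3 / ε ^ 2 := by ring
    rw [e] at h2
    exact h1.trans h2
  have hρ3 := hF.rho3_integrable hΛ0
  have hcm : Continuous fun x => c x ⬝ᵥ c x := hcc.dotProduct hcc
  have hci : Integrable fun x => c x ⬝ᵥ c x := by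
    refine (hρ3.div_const (ε ^ 2)).mono' hcm.aestronglyMeasurable (ae_of_all _ fun x => ?_)
    rw [Real.norm_eq_abs, abs_of_nonneg (dot_self_nonneg _)]
    exact hcb x
  have hFm : Measurable (Fv f') := measurable_pi_iff.2 fun i => hF.meas' i
  have hFi : Integrable fun x => Fv f' x ⬝ᵥ Fv f' x := by
    simp_rw [dot_dens]
    exact hF.dens_integrable
  have hdi : Integrable fun x => Fv f' x ⬝ᵥ c x := dot_integrable hFm hcc.measurable hFi hci
  set B : ℝ → ℝ := fun x => fro (Pm f x) (Y x) with hB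
  have hderiv : ∀ᵐ x, HasDerivAt B (4 * (Fv f' x ⬝ᵥ c x) - c x ⬝ᵥ c x) x := by
    have hall : ∀ᵐ x, ∀ i, HasDerivAt (f i) (f' i x) x :=
      ae_all_iff.2 fun i => (hF.h1 i).prim.ae_hasDerivAt
    filter_upwards [hall] with x hx
    have h1 := B_hasDerivAt (P := Pm f) (Y := Y) (M := Mm ε f) (k := k) (P' := Pd f f' x)
      (M' := Pm f x) (x := x) (fun x => Mm_symm ε f x) hY (fun i j => ?_)
      (fun i j => Mm_hasDerivAt hF x i j) hYc.continuousAt
    · have h2 := deriv_value (Fv f x) (Fv f' x) (Y x) (hYs x)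
      unfold Pd Pm at h1
      rw [h2] at h1
      exact h1
    · have h2 := (hx i).mul (hx j)
      have e : Pd f f' x i j = f' i x * f j x + f i x * f' j x := by
        simp [Pd, Fv, vecMulVec_apply]
      rw [e]
      exact h2
  have hFc := Fv_continuous hF
  have hρc : Continuous (rho f) := by
    have : rho f = fun x => Fv f x ⬝ᵥ Fv f x := by
      funext x
      rw [dot_rho]
    rw [this]
    exact hFc.dotProduct hFc
  have hprim : Prim B fun x => 4 * (Fv f' x ⬝ᵥ c x) - c x ⬝ᵥ c x := by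
    obtain ⟨G, G', hG, hdom⟩ := exists_dom_mat hF ε (f' := f') (Λ := Λ)
    refine hG.of_dominated (fun a b => ?_) hderiv
    obtain ⟨R, hR⟩ := (isCompact_uIcc (a := a) (b := b)).exists_bound_of_continuousOn
      hρc.continuousOn
    have hR0 : 0 ≤ R := (norm_nonneg _).trans (hR a left_mem_uIcc)
    set L := R / ε with hL
    have hL0 : 0 ≤ L := by positivity
    have hent : ∀ x ∈ uIcc a b, ∀ i j, |Y x i j| ≤ L := by
      intro x hx i j
      refine abs_le_of_sq_le_sq ?_ hL0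
      have h1 := entry_sq_le (Y x) i j
      have h2 := hYb x
      have h3 : rho f x ≤ R := by
        have := hR x hx
        rwa [Real.norm_eq_abs, abs_of_nonneg (hρ0 x)] at this
      have h4 : rho f x ^ 2 ≤ R ^ 2 := pow_le_pow_left₀ (hρ0 x) h3 2
      have h5 : rho f x ^ 2 / ε ^ 2 ≤ R ^ 2 / ε ^ 2 := by gcongr
      rw [hL, div_pow]
      linarith
    refine ⟨2 * (Fintype.card ι : ℝ) ^ 2 * L + (Fintype.card ι : ℝ) ^ 3 * L ^ 2, by positivity,
      fun x hx y hy => ?_⟩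
    exact B_dominated (Mm_symm ε f x) (hY x) (hY y) (hent x hx) (hent y hy)
      (fun i j => (hdom i j x y).1) (fun i j => (hdom i j x y).2)
  have hBb : ∀ x, |B x| ≤ rho f x ^ 2 / ε := by
    intro x
    have hp : 0 ≤ rho f x ^ 2 / ε := by
      have := hρ0 x
      positivity
    refine abs_le_of_sq_le_sq ?_ hp
    have h1 := fro_sq_le (Pm f x) (Y x)
    rw [fro_Pm_self] at h1
    have h2 := mul_le_mul_of_nonneg_left (hYb x) (sq_nonneg (rho f x))
    have e : rho f x ^ 2 * (rho f x ^ 2 / ε ^ 2) = (rho f x ^ 2 / ε) ^ 2 := by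
      field_simp
    rw [e] at h2
    exact h1.trans h2
  have hρt : Tendsto (rho f) atTop (𝓝 0) := by
    have : Tendsto (fun x => ∑ i, f i x ^ 2) atTop (𝓝 (∑ _i : ι, (0:ℝ))) :=
      tendsto_finsetSum _ fun i _ => (hF.h1 i).tendsto_sq_atTop
    have e : rho f = fun x => ∑ i, f i x ^ 2 := rfl
    rw [e]
    simpa using this
  have hρb : Tendsto (rho f) atBot (𝓝 0) := by
    have : Tendsto (fun x => ∑ i, f i x ^ 2) atBot (𝓝 (∑ _i : ι, (0:ℝ))) :=
      tendsto_finsetSum _ fun i _ => (hF.h1 i).tendsto_sq_atBot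
    have e : rho f = fun x => ∑ i, f i x ^ 2 := rfl
    rw [e]
    simpa using this
  have hBt : Tendsto B atTop (𝓝 0) := by
    refine squeeze_zero_norm (fun x => ?_) (a := fun x => rho f x ^ 2 / ε) ?_
    · rw [Real.norm_eq_abs]
      exact hBb x
    · simpa using (hρt.pow 2).div_const ε
  have hBb' : Tendsto B atBot (𝓝 0) := by
    refine squeeze_zero_norm (fun x => ?_) (a := fun x => rho f x ^ 2 / ε) ?_
    · rw [Real.norm_eq_abs]
      exact hBb x
    · simpa using (hρb.pow 2).div_const ε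
  have hi : Integrable fun x => 4 * (Fv f' x ⬝ᵥ c x) - c x ⬝ᵥ c x := (hdi.const_mul 4).sub hci
  have h0 := hprim.integral_deriv_eq_zero hBt hBb' hi
  rw [integral_sub (hdi.const_mul 4) hci, integral_const_mul] at h0
  exact ⟨hcc, hci, by linarith⟩

/-- The kinetic inequality with a small loss, under a strict Bessel bound. -/
theorem core_strict (hF : Fam0 f f' Λ) (hΛ0 : 0 ≤ Λ) (hε : 0 < ε) (hΛ : Λ + 2 * ε ≤ 1) {δ : ℝ}
    (hδ : 0 < δ) : (Real.pi ^ 2 - δ) / 4 * ∫ y, rho f y ^ 3 ≤ ∫ y, dens f' y := by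
  have hS : ∀ x, Spec (Mm ε f x) ε := Mm_spec hF hΛ
  choose Y hY1 hY2 using fun x => (hS x).exists_Y hε (Fv f x)
  obtain ⟨S, hSb⟩ := exists_K hε hδ
  have hk := fun k : ℤ => per_k hF hΛ0 hε hΛ (Y := fun x => Y x k) (k := k)
    (fun x => (hY1 x k).1) (fun x => (hY1 x k).2)
  set c : ℤ → ℝ → ι → ℝ := fun k x => Y x k *ᵥ Fv f x with hc
  set C : ℝ → ι → ℝ := fun x => ∑ k ∈ S, c k x with hC
  have hpt : ∀ x, (Real.pi ^ 2 - δ) * rho f x ^ 3 ≤ ∑ k ∈ S, c k x ⬝ᵥ c k x - C x ⬝ᵥ C x := by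
    intro x
    have := hY2 x S (Real.pi ^ 2 - δ) (fun a b h1 h2 h3 h4 => hSb a b h1 h2 h3 h4)
    rwa [dot_rho] at this
  have hcm : ∀ k, Measurable (c k) := fun k => (hk k).1.measurable
  have hci : ∀ k, Integrable fun x => c k x ⬝ᵥ c k x := fun k => (hk k).2.1
  have hCm : Measurable C := Finset.measurable_fun_sum _ fun k _ => hcm k
  have hCe : ∀ x, C x ⬝ᵥ C x = ∑ k ∈ S, ∑ l ∈ S, c k x ⬝ᵥ c l x := by
    intro x
    simp only [hC]
    rw [sum_dotProduct]
    refine Finset.sum_congr rfl fun k _ => ?_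
    rw [dotProduct_sum]
  have hCi : Integrable fun x => C x ⬝ᵥ C x := by
    simp_rw [hCe]
    exact integrable_finsetSum _ fun k _ => integrable_finsetSum _ fun l _ =>
      dot_integrable (hcm k) (hcm l) (hci k) (hci l)
  have hFm : Measurable (Fv f') := measurable_pi_iff.2 fun i => hF.meas' i
  have hFi : Integrable fun x => Fv f' x ⬝ᵥ Fv f' x := by
    simp_rw [dot_dens]
    exact hF.dens_integrable
  have hFc : ∀ k, Integrable fun x => Fv f' x ⬝ᵥ c k x := fun k =>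
    dot_integrable hFm (hcm k) hFi (hci k)
  have hFC : Integrable fun x => Fv f' x ⬝ᵥ C x := by
    have : (fun x => Fv f' x ⬝ᵥ C x) = fun x => ∑ k ∈ S, Fv f' x ⬝ᵥ c k x := by
      funext x
      simp only [hC]
      rw [dotProduct_sum]
    rw [this]
    exact integrable_finsetSum _ fun k _ => hFc k
  have hFCe : ∫ x, Fv f' x ⬝ᵥ C x = ∑ k ∈ S, ∫ x, Fv f' x ⬝ᵥ c k x := by
    have : (fun x => Fv f' x ⬝ᵥ C x) = fun x => ∑ k ∈ S, Fv f' x ⬝ᵥ c k x := by
      funext x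
      simp only [hC]
      rw [dotProduct_sum]
    rw [this, integral_finsetSum _ fun k _ => hFc k]
  have hsq : ∀ x, 0 ≤ (Fv f' x ⬝ᵥ Fv f' x) - Fv f' x ⬝ᵥ C x + (1 / 4) * (C x ⬝ᵥ C x) := by
    intro x
    have h1 := dot_self_nonneg ((2:ℝ) • Fv f' x - C x)
    rw [sub_dotProduct, dotProduct_sub, dotProduct_sub, smul_dotProduct, smul_dotProduct,
      dotProduct_smul, dotProduct_smul, dotProduct_comm (C x) (Fv f' x)] at h1
    simp only [smul_eq_mul] at h1
    linarith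
  have hint : 0 ≤ ∫ x, ((Fv f' x ⬝ᵥ Fv f' x) - Fv f' x ⬝ᵥ C x + (1 / 4) * (C x ⬝ᵥ C x)) :=
    integral_nonneg fun x => hsq x
  have hsub : Integrable fun x => Fv f' x ⬝ᵥ Fv f' x - Fv f' x ⬝ᵥ C x := hFi.sub hFC
  rw [integral_add hsub (hCi.const_mul _), integral_sub hFi hFC, integral_const_mul,
    hFCe] at hint
  have h4 : ∑ k ∈ S, ∫ x, Fv f' x ⬝ᵥ c k x = (1 / 4) * ∑ k ∈ S, ∫ x, c k x ⬝ᵥ c k x := by
    rw [Finset.mul_sum]
    refine Finset.sum_congr rfl fun k _ => ?_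
    have := (hk k).2.2
    simp only [hc] at *
    linarith
  rw [h4] at hint
  have hT : ∫ x, Fv f' x ⬝ᵥ Fv f' x = ∫ y, dens f' y := by
    simp_rw [dot_dens]
  rw [hT] at hint
  have hρ3 := hF.rho3_integrable hΛ0
  have h5 : (Real.pi ^ 2 - δ) * ∫ y, rho f y ^ 3 ≤
      (∑ k ∈ S, ∫ x, c k x ⬝ᵥ c k x) - ∫ x, C x ⬝ᵥ C x := by
    have hsum : Integrable fun x => ∑ k ∈ S, c k x ⬝ᵥ c k x :=
      integrable_finsetSum _ fun k _ => hci k
    have hsub2 : Integrable fun x => ∑ k ∈ S, c k x ⬝ᵥ c k x - C x ⬝ᵥ C x := hsum.sub hCi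
    rw [← integral_finsetSum _ fun k _ => hci k, ← integral_sub hsum hCi, ← integral_const_mul]
    exact integral_mono (hρ3.const_mul _) hsub2 hpt
  have e : (Real.pi ^ 2 - δ) / 4 * ∫ y, rho f y ^ 3 =
      (1 / 4) * ((Real.pi ^ 2 - δ) * ∫ y, rho f y ^ 3) := by ring
  rw [e]
  linarith

omit [DecidableEq ι] in
/-- Scaling a family. -/
lemma fam_scale (hF : Fam0 f f' 1) (t : ℝ) :
    Fam0 (fun i x => t * f i x) (fun i x => t * f' i x) (t ^ 2) := by
  refine ⟨fun i => (hF.h1 i).const_mul t, fun i => (hF.meas' i).const_mul t, fun a => ?_⟩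
  have e : ∀ y, (∑ i, a i * (t * f i y)) ^ 2 = t ^ 2 * (∑ i, a i * f i y) ^ 2 := by
    intro y
    rw [← mul_pow, Finset.mul_sum]
    congr 1
    refine Finset.sum_congr rfl fun i _ => ?_
    ring
  simp_rw [e]
  rw [integral_const_mul]
  have := hF.bessel a
  rw [one_mul] at this
  exact mul_le_mul_of_nonneg_left this (sq_nonneg t)

omit [DecidableEq ι] in
/-- **The kinetic inequality with the sharp constant.** If a finite family of real `H¹(ℝ)`
functions satisfies the Bessel inequality with constant `1`, then `∫ |F'|² ≥ (π²/4) ∫ |F|⁶`. -/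
theorem sharp_kinetic (hF : Fam0 f f' 1) :
    Real.pi ^ 2 / 4 * ∫ y, rho f y ^ 3 ≤ ∫ y, dens f' y := by
  classical
  set Y := ∫ y, rho f y ^ 3 with hY
  set T := ∫ y, dens f' y with hT
  have key : ∀ s : ℝ, 0 < s → s < 1 → (Real.pi ^ 2 - s) / 4 * (1 - s) ^ 4 * Y ≤ T := by
    intro s hs0 hs1
    have ht0 : 0 < 1 - s := by linarith
    set t := 1 - s with ht
    have ht1 : t < 1 := by linarith
    have ht2 : t ^ 2 < 1 := by nlinarith
    have hG := fam_scale hF t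
    have h1 := core_strict hG (sq_nonneg t) (ε := (1 - t ^ 2) / 2) (by linarith) (by linarith) hs0
    have e1 : ∀ y, rho (fun i x => t * f i x) y ^ 3 = t ^ 6 * rho f y ^ 3 := by
      intro y
      have : rho (fun i x => t * f i x) y = t ^ 2 * rho f y := by
        unfold rho
        rw [Finset.mul_sum]
        refine Finset.sum_congr rfl fun i _ => ?_
        ring
      rw [this]
      ring
    have e2 : ∀ y, dens (fun i x => t * f' i x) y = t ^ 2 * dens f' y := by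
      intro y
      unfold dens
      rw [Finset.mul_sum]
      refine Finset.sum_congr rfl fun i _ => ?_
      ring
    simp_rw [e1, e2] at h1
    rw [integral_const_mul, integral_const_mul, ← hY, ← hT] at h1
    have hp : 0 < t ^ 2 := by positivity
    have h2 : t ^ 2 * ((Real.pi ^ 2 - s) / 4 * t ^ 4 * Y) ≤ t ^ 2 * T := by
      calc t ^ 2 * ((Real.pi ^ 2 - s) / 4 * t ^ 4 * Y) = (Real.pi ^ 2 - s) / 4 * (t ^ 6 * Y) := by
            ring
        _ ≤ t ^ 2 * T := h1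
    exact le_of_mul_le_mul_left h2 hp
  have hlim : Tendsto (fun s : ℝ => (Real.pi ^ 2 - s) / 4 * (1 - s) ^ 4 * Y) (𝓝[>] 0)
      (𝓝 ((Real.pi ^ 2 - 0) / 4 * (1 - 0) ^ 4 * Y)) := by
    refine Tendsto.mono_left ?_ nhdsWithin_le_nhds
    exact Continuous.tendsto (by fun_prop) 0
  have h3 : (Real.pi ^ 2 - 0) / 4 * (1 - 0) ^ 4 * Y ≤ T := by
    refine le_of_tendsto hlim ?_
    have h4 : Ioo (0:ℝ) 1 ∈ 𝓝[>] (0:ℝ) := Ioo_mem_nhdsGT one_pos
    filter_upwards [h4] with s hs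
    exact key s hs.1 hs.2
  simpa using h3

end

end Vale.Agent.Lib.P371.Sharp
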