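import Vale.Agent.Lib.P371.SharpMatM

/-! The kinetic inequality with the sharp constant for families with several channels. -/

open Matrix Filter Topology Set MeasureTheory

namespace Vale.Agent.Lib.P371.Sharp

noncomputable section

variable {ι κ : Type*} [Fintype ι] [Fintype κ] {f f' : κ → ι → ℝ → ℝ} {Λ ε : ℝ}

/-- The value of the derivative. -/
lemma deriv_value_m (f f' : κ → ι → ℝ → ℝ) (x : ℝ) (Y : Matrix ι ι ℝ) (hYs : Yᵀ = Y) :
    2 * fro (Pdm f f' x) Y - fro Y ((1 / 2 : ℝ) • (Pmm f x * Y + Y * Pmm f x)) =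
      ∑ α, (4 * (Fv (f' α) x ⬝ᵥ (Y *ᵥ Fv (f α) x)) -
        (Y *ᵥ Fv (f α) x) ⬝ᵥ (Y *ᵥ Fv (f α) x)) := by
  unfold Pdm Pmm
  rw [Finset.sum_mul, Finset.mul_sum, ← Finset.sum_add_distrib, Finset.smul_sum, fro_sum_left,
    fro_sum_right, Finset.mul_sum, ← Finset.sum_sub_distrib]
  refine Finset.sum_congr rfl fun α _ => ?_
  exact deriv_value (Fv (f α) x) (Fv (f' α) x) Y hYs

variable [DecidableEq ι]

/-- The integral identity for a single integer. -/
theorem per_k_m (hF : FamM f f' Λ) (hε : 0 < ε) (hΛ : Λ + 2 * ε ≤ 1)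
    {Y : ℝ → Matrix ι ι ℝ} {k : ℤ} (hYs : ∀ x, (Y x)ᵀ = Y x)
    (hY : ∀ x, lyap (Mmm ε f x) k (Y x) = Pmm f x) :
    (∀ α, Continuous (fun x => Y x *ᵥ Fv (f α) x)) ∧
      (∀ α, Integrable (fun x => (Y x *ᵥ Fv (f α) x) ⬝ᵥ (Y x *ᵥ Fv (f α) x))) ∧
      4 * ∑ α, ∫ x, Fv (f' α) x ⬝ᵥ (Y x *ᵥ Fv (f α) x) =
        ∑ α, ∫ x, (Y x *ᵥ Fv (f α) x) ⬝ᵥ (Y x *ᵥ Fv (f α) x) := by
  have hS : ∀ x, Spec (Mmm ε f x) ε := Mmm_spec hF hΛ
  have hYc : Continuous Y := Y_continuous hε hS (Mmm_continuous hF) (Pmm_continuous hF) hY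
  set c : κ → ℝ → ι → ℝ := fun α x => Y x *ᵥ Fv (f α) x with hc
  have hcc : ∀ α, Continuous (c α) := fun α => hYc.matrix_mulVec (hF.fv_continuous α)
  have hρ0 : ∀ x, 0 ≤ rhoM f x := rhoM_nonneg f
  have hYb : ∀ x, fro (Y x) (Y x) ≤ rhoM f x ^ 2 / ε ^ 2 := by
    intro x
    have h1 := (hS x).coercive hε k (Y x)
    rw [hY x] at h1
    have h2 := fro_Pmm_self_le f x
    rw [le_div_iff₀ (by positivity)]
    linarith
  have hcb : ∀ α x, c α x ⬝ᵥ c α x ≤ rhoM f x ^ 3 / ε ^ 2 := by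
    intro α x
    have h1 := dot_mulVec_le (Y x) (Fv (f α) x)
    rw [dot_rho] at h1
    have h3 : rho (f α) x ≤ rhoM f x :=
      Finset.single_le_sum (f := fun α => rho (f α) x) (fun α _ => Fam.rho_nonneg _ x)
        (Finset.mem_univ α)
    have h4 := fro_self_nonneg (Y x)
    have h2 : fro (Y x) (Y x) * rho (f α) x ≤ rhoM f x ^ 2 / ε ^ 2 * rhoM f x :=
      mul_le_mul (hYb x) h3 (Fam.rho_nonneg _ x) (by have := hρ0 x; positivity)
    have e : rhoM f x ^ 2 / ε ^ 2 * rhoM f x = rhoM f x ^ 3 / ε ^ 2 := by ring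
    rw [e] at h2
    exact h1.trans h2
  have hρ3 := rhoM3_integrable hF
  have hcm : ∀ α, Continuous fun x => c α x ⬝ᵥ c α x := fun α => (hcc α).dotProduct (hcc α)
  have hci : ∀ α, Integrable fun x => c α x ⬝ᵥ c α x := by
    intro α
    refine (hρ3.div_const (ε ^ 2)).mono' (hcm α).aestronglyMeasurable (ae_of_all _ fun x => ?_)
    rw [Real.norm_eq_abs, abs_of_nonneg (dot_self_nonneg _)]
    exact hcb α x
  have hFm : ∀ α, Measurable (Fv (f' α)) := fun α => measurable_pi_iff.2 fun i => hF.meas' α i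
  have hFi : ∀ α, Integrable fun x => Fv (f' α) x ⬝ᵥ Fv (f' α) x := by
    intro α
    simp_rw [dot_dens]
    exact integrable_finsetSum _ fun i _ => (hF.h1 α i).sq'
  have hdi : ∀ α, Integrable fun x => Fv (f' α) x ⬝ᵥ c α x := fun α =>
    dot_integrable (hFm α) (hcc α).measurable (hFi α) (hci α)
  set B : ℝ → ℝ := fun x => fro (Pmm f x) (Y x) with hB
  set B' : ℝ → ℝ := fun x => ∑ α, (4 * (Fv (f' α) x ⬝ᵥ c α x) - c α x ⬝ᵥ c α x) with hB'
  have hderiv : ∀ᵐ x, HasDerivAt B (B' x) x := by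
    have hall : ∀ᵐ x, ∀ α i, HasDerivAt (f α i) (f' α i x) x :=
      ae_all_iff.2 fun α => ae_all_iff.2 fun i => (hF.h1 α i).prim.ae_hasDerivAt
    filter_upwards [hall] with x hx
    have h1 := B_hasDerivAt (P := Pmm f) (Y := Y) (M := Mmm ε f) (k := k) (P' := Pdm f f' x)
      (M' := Pmm f x) (x := x) (fun x => Mmm_symm ε f x) hY (fun i j => ?_)
      (fun i j => Mmm_hasDerivAt hF x i j) hYc.continuousAt
    · rw [deriv_value_m f f' x (Y x) (hYs x)] at h1
      exact h1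
    · have h2 : ∀ α ∈ (Finset.univ : Finset κ), HasDerivAt (fun y => f α i y * f α j y)
          (f' α i x * f α j x + f α i x * f' α j x) x := fun α _ => (hx α i).mul (hx α j)
      have h3 := HasDerivAt.fun_sum h2
      have e1 : (fun y => Pmm f y i j) = fun y => ∑ α, f α i y * f α j y := by
        funext y
        simp [Pmm, Pm, Fv, Matrix.sum_apply, vecMulVec_apply]
      have e2 : Pdm f f' x i j = ∑ α, (f' α i x * f α j x + f α i x * f' α j x) := by
        simp [Pdm, Pd, Fv, Matrix.sum_apply, vecMulVec_apply]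
      rw [e1, e2]
      exact h3
  have hρc : Continuous (rhoM f) := rhoM_continuous hF
  have hprim : Prim B B' := by
    obtain ⟨G, G', hG, hdom⟩ := exists_dom_matm hF ε (f' := f') (Λ := Λ)
    refine hG.of_dominated (fun a b => ?_) hderiv
    obtain ⟨R, hR⟩ := (isCompact_uIcc (a := a) (b := b)).exists_bound_of_continuousOn
      hρc.continuousOn
    have hR0 : 0 ≤ R := (norm_nonneg _).trans (hR a left_mem_uIcc)
    set L := R / ε with hL
    have hL0 : 0 ≤ L := by positivity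
    have hent : ∀ x ∈ uIcc a b, ∀ i j, |Y x i j| ≤ L := by
      intro x hx i j
      refine abs_le_of_sq_le_sq ?_ hL0
      have h1 := entry_sq_le (Y x) i j
      have h2 := hYb x
      have h3 : rhoM f x ≤ R := by
        have := hR x hx
        rwa [Real.norm_eq_abs, abs_of_nonneg (hρ0 x)] at this
      have h4 : rhoM f x ^ 2 ≤ R ^ 2 := pow_le_pow_left₀ (hρ0 x) h3 2
      have h5 : rhoM f x ^ 2 / ε ^ 2 ≤ R ^ 2 / ε ^ 2 := by gcongr
      rw [hL, div_pow]
      linarith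
    refine ⟨2 * (Fintype.card ι : ℝ) ^ 2 * L + (Fintype.card ι : ℝ) ^ 3 * L ^ 2, by positivity,
      fun x hx y hy => ?_⟩
    exact B_dominated (Mmm_symm ε f x) (hY x) (hY y) (hent x hx) (hent y hy)
      (fun i j => (hdom i j x y).1) (fun i j => (hdom i j x y).2)
  have hBb : ∀ x, |B x| ≤ rhoM f x ^ 2 / ε := by
    intro x
    have hp : 0 ≤ rhoM f x ^ 2 / ε := by
      have := hρ0 x
      positivity
    refine abs_le_of_sq_le_sq ?_ hp
    have h1 := fro_sq_le (Pmm f x) (Y x)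
    have h0 := fro_self_nonneg (Y x)
    have h2 := mul_le_mul (fro_Pmm_self_le f x) (hYb x) h0 (sq_nonneg _)
    have e : rhoM f x ^ 2 * (rhoM f x ^ 2 / ε ^ 2) = (rhoM f x ^ 2 / ε) ^ 2 := by
      field_simp
    rw [e] at h2
    exact h1.trans h2
  have hρt : Tendsto (rhoM f) atTop (𝓝 0) := by
    have : Tendsto (fun x => ∑ α, ∑ i, f α i x ^ 2) atTop (𝓝 (∑ _α : κ, ∑ _i : ι, (0:ℝ))) :=
      tendsto_finsetSum _ fun α _ => tendsto_finsetSum _ fun i _ => (hF.h1 α i).tendsto_sq_atTop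
    have e : rhoM f = fun x => ∑ α, ∑ i, f α i x ^ 2 := rfl
    rw [e]
    simpa using this
  have hρb : Tendsto (rhoM f) atBot (𝓝 0) := by
    have : Tendsto (fun x => ∑ α, ∑ i, f α i x ^ 2) atBot (𝓝 (∑ _α : κ, ∑ _i : ι, (0:ℝ))) :=
      tendsto_finsetSum _ fun α _ => tendsto_finsetSum _ fun i _ => (hF.h1 α i).tendsto_sq_atBot
    have e : rhoM f = fun x => ∑ α, ∑ i, f α i x ^ 2 := rfl
    rw [e]
    simpa using this
  have hBt : Tendsto B atTop (𝓝 0) := by
    refine squeeze_zero_norm (fun x => ?_) (a := fun x => rhoM f x ^ 2 / ε) ?_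
    · rw [Real.norm_eq_abs]
      exact hBb x
    · simpa using (hρt.pow 2).div_const ε
  have hBb' : Tendsto B atBot (𝓝 0) := by
    refine squeeze_zero_norm (fun x => ?_) (a := fun x => rhoM f x ^ 2 / ε) ?_
    · rw [Real.norm_eq_abs]
      exact hBb x
    · simpa using (hρb.pow 2).div_const ε
  have hi1 : ∀ α, Integrable fun x => 4 * (Fv (f' α) x ⬝ᵥ c α x) - c α x ⬝ᵥ c α x := fun α =>
    ((hdi α).const_mul 4).sub (hci α)
  have hi : Integrable B' := integrable_finsetSum _ fun α _ => hi1 α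
  have h0 := hprim.integral_deriv_eq_zero hBt hBb' hi
  rw [hB', integral_finsetSum _ fun α _ => hi1 α] at h0
  have h2 : ∀ α, ∫ x, (4 * (Fv (f' α) x ⬝ᵥ c α x) - c α x ⬝ᵥ c α x) =
      4 * (∫ x, Fv (f' α) x ⬝ᵥ c α x) - ∫ x, c α x ⬝ᵥ c α x := by
    intro α
    rw [integral_sub ((hdi α).const_mul 4) (hci α), integral_const_mul]
  simp_rw [h2] at h0
  rw [Finset.sum_sub_distrib, ← Finset.mul_sum] at h0
  exact ⟨hcc, hci, by linarith⟩

/-- The cubic trace of the density matrix is integrable. -/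
lemma tr3_integrable (hF : FamM f f' Λ) : Integrable fun x => tr3 (Pmm f x) := by
  have hPK : ∀ x, PK fun a b => Pmm f x a b := by
    intro x
    refine ⟨fun a b => ?_, fun y => ?_⟩
    · have := congrFun (congrFun (Pmm_symm f x) a) b
      simpa using this.symm
    · have h := Pmm_psd f x y
      have e : ∑ a, ∑ b, y a * y b * Pmm f x a b = y ⬝ᵥ (Pmm f x *ᵥ y) := by
        simp only [dotProduct, mulVec]
        refine Finset.sum_congr rfl fun a _ => ?_
        rw [Finset.mul_sum]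
        refine Finset.sum_congr rfl fun b _ => ?_
        ring
      rw [e]
      exact h
  have htr : ∀ x, ∑ c, Pmm f x c c = rhoM f x := by
    intro x
    unfold Pmm rhoM
    simp only [Matrix.sum_apply]
    rw [Finset.sum_comm]
    refine Finset.sum_congr rfl fun α _ => ?_
    simp [Pm, Fv, vecMulVec_apply, rho, sq]
  have hc : Continuous fun x => tr3 (Pmm f x) := by
    unfold tr3 fro
    have hP := Pmm_continuous hF
    exact (hP.matrix_transpose.matrix_mul (hP.matrix_mul hP)).matrix_trace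
  refine ((rhoM3_integrable hF).const_mul ((Fintype.card ι : ℝ) ^ 3)).mono' hc.aestronglyMeasurable
    (ae_of_all _ fun x => ?_)
  rw [Real.norm_eq_abs]
  unfold tr3
  rw [fro_expand]
  have h0 := rhoM_nonneg f x
  have h2 : ∀ a b c, |Pmm f x a b * (Pmm f x a c * Pmm f x c b)| ≤ rhoM f x ^ 3 := by
    intro a b c
    rw [abs_mul, abs_mul]
    have h3 := abs_entry_le_trace (hPK x) a b
    have h4 := abs_entry_le_trace (hPK x) a c
    have h5 := abs_entry_le_trace (hPK x) c b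
    rw [htr] at h3 h4 h5
    calc |Pmm f x a b| * (|Pmm f x a c| * |Pmm f x c b|) ≤ rhoM f x * (rhoM f x * rhoM f x) := by
          gcongr
      _ = rhoM f x ^ 3 := by ring
  calc |∑ a, ∑ b, ∑ c, Pmm f x a b * (Pmm f x a c * Pmm f x c b)|
      ≤ ∑ a, ∑ b, ∑ c, |Pmm f x a b * (Pmm f x a c * Pmm f x c b)| :=
        (Finset.abs_sum_le_sum_abs _ _).trans (Finset.sum_le_sum fun a _ =>
          (Finset.abs_sum_le_sum_abs _ _).trans (Finset.sum_le_sum fun b _ =>
            Finset.abs_sum_le_sum_abs _ _))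
    _ ≤ ∑ _a : ι, ∑ _b : ι, ∑ _c : ι, rhoM f x ^ 3 :=
        Finset.sum_le_sum fun a _ => Finset.sum_le_sum fun b _ => Finset.sum_le_sum fun c _ =>
          h2 a b c
    _ = _ := by
        simp only [Finset.sum_const, Finset.card_univ, nsmul_eq_mul]
        ring

/-- The kinetic inequality with a small loss, under a strict Bessel bound. -/
theorem core_strict_m (hF : FamM f f' Λ) (hε : 0 < ε) (hΛ : Λ + 2 * ε ≤ 1) {δ : ℝ}
    (hδ : 0 < δ) : (Real.pi ^ 2 - δ * (Fintype.card ι : ℝ) ^ 5) / 4 * ∫ y, tr3 (Pmm f y) ≤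
      ∫ y, densM f' y := by
  have hS : ∀ x, Spec (Mmm ε f x) ε := Mmm_spec hF hΛ
  choose Y hY1 hY2 using fun x => (hS x).exists_Ym hε (Pmm f x) (Pmm_symm f x) (Pmm_psd f x)
  obtain ⟨S, hSb⟩ := exists_K2 hε hδ
  have hk := fun k : ℤ => per_k_m hF hε hΛ (Y := fun x => Y x k) (k := k)
    (fun x => (hY1 x k).1) (fun x => (hY1 x k).2)
  set c : ℤ → κ → ℝ → ι → ℝ := fun k α x => Y x k *ᵥ Fv (f α) x with hc
  set C : κ → ℝ → ι → ℝ := fun α x => ∑ k ∈ S, c k α x with hC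
  have hCY : ∀ α x, C α x = (∑ k ∈ S, Y x k) *ᵥ Fv (f α) x := by
    intro α x
    simp only [hC, hc]
    rw [Matrix.sum_mulVec]
  have hpt : ∀ x, (Real.pi ^ 2 - δ * (Fintype.card ι : ℝ) ^ 5) * tr3 (Pmm f x) ≤
      ∑ k ∈ S, ∑ α, c k α x ⬝ᵥ c k α x - ∑ α, C α x ⬝ᵥ C α x := by
    intro x
    have h1 := hY2 x S δ hδ.le (fun a b h1 h2 h3 h4 => hSb a b h1 h2 h3 h4)
    have e1 : ∀ k, ∑ α, c k α x ⬝ᵥ c k α x = fro (Y x k) (Y x k * Pmm f x) := fun k =>
      sum_dot_eq f x (Y x k)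
    have e2 : ∑ α, C α x ⬝ᵥ C α x = fro (∑ k ∈ S, Y x k) ((∑ k ∈ S, Y x k) * Pmm f x) := by
      simp_rw [hCY]
      exact sum_dot_eq f x _
    rw [e2]
    simp_rw [e1]
    exact h1
  have hcm : ∀ k α, Measurable (c k α) := fun k α => ((hk k).1 α).measurable
  have hci : ∀ k α, Integrable fun x => c k α x ⬝ᵥ c k α x := fun k α => (hk k).2.1 α
  have hCm : ∀ α, Measurable (C α) := fun α => Finset.measurable_fun_sum _ fun k _ => hcm k α
  have hCi : ∀ α, Integrable fun x => C α x ⬝ᵥ C α x := by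
    intro α
    have hCe : ∀ x, C α x ⬝ᵥ C α x = ∑ k ∈ S, ∑ l ∈ S, c k α x ⬝ᵥ c l α x := by
      intro x
      simp only [hC]
      rw [sum_dotProduct]
      refine Finset.sum_congr rfl fun k _ => ?_
      rw [dotProduct_sum]
    simp_rw [hCe]
    exact integrable_finsetSum _ fun k _ => integrable_finsetSum _ fun l _ =>
      dot_integrable (hcm k α) (hcm l α) (hci k α) (hci l α)
  have hFm : ∀ α, Measurable (Fv (f' α)) := fun α => measurable_pi_iff.2 fun i => hF.meas' α i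
  have hFi : ∀ α, Integrable fun x => Fv (f' α) x ⬝ᵥ Fv (f' α) x := by
    intro α
    simp_rw [dot_dens]
    exact integrable_finsetSum _ fun i _ => (hF.h1 α i).sq'
  have hFc : ∀ k α, Integrable fun x => Fv (f' α) x ⬝ᵥ c k α x := fun k α =>
    dot_integrable (hFm α) (hcm k α) (hFi α) (hci k α)
  have hFC : ∀ α, Integrable fun x => Fv (f' α) x ⬝ᵥ C α x := fun α =>
    dot_integrable (hFm α) (hCm α) (hFi α) (hCi α)
  have hFCe : ∀ α, ∫ x, Fv (f' α) x ⬝ᵥ C α x = ∑ k ∈ S, ∫ x, Fv (f' α) x ⬝ᵥ c k α x := by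
    intro α
    have : (fun x => Fv (f' α) x ⬝ᵥ C α x) = fun x => ∑ k ∈ S, Fv (f' α) x ⬝ᵥ c k α x := by
      funext x
      simp only [hC]
      rw [dotProduct_sum]
    rw [this, integral_finsetSum _ fun k _ => hFc k α]
  have hsq : ∀ α x, 0 ≤ (Fv (f' α) x ⬝ᵥ Fv (f' α) x) - Fv (f' α) x ⬝ᵥ C α x +
      (1 / 4) * (C α x ⬝ᵥ C α x) := by
    intro α x
    have h1 := dot_self_nonneg ((2:ℝ) • Fv (f' α) x - C α x)
    rw [sub_dotProduct, dotProduct_sub, dotProduct_sub, smul_dotProduct, smul_dotProduct,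
      dotProduct_smul, dotProduct_smul, dotProduct_comm (C α x) (Fv (f' α) x)] at h1
    simp only [smul_eq_mul] at h1
    linarith
  have hint : ∀ α, 0 ≤ (∫ x, Fv (f' α) x ⬝ᵥ Fv (f' α) x) - (∫ x, Fv (f' α) x ⬝ᵥ C α x) +
      (1 / 4) * ∫ x, C α x ⬝ᵥ C α x := by
    intro α
    have h0 : 0 ≤ ∫ x, ((Fv (f' α) x ⬝ᵥ Fv (f' α) x) - Fv (f' α) x ⬝ᵥ C α x +
        (1 / 4) * (C α x ⬝ᵥ C α x)) := integral_nonneg fun x => hsq α x
    have hsub : Integrable fun x => Fv (f' α) x ⬝ᵥ Fv (f' α) x - Fv (f' α) x ⬝ᵥ C α x :=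
      (hFi α).sub (hFC α)
    rw [integral_add hsub ((hCi α).const_mul _), integral_sub (hFi α) (hFC α),
      integral_const_mul] at h0
    exact h0
  have hT : ∑ α, ∫ x, Fv (f' α) x ⬝ᵥ Fv (f' α) x = ∫ y, densM f' y := by
    unfold densM
    have hd : ∀ α, Integrable (fun y => dens (f' α) y) := fun α =>
      integrable_finsetSum _ fun i _ => (hF.h1 α i).sq'
    rw [integral_finsetSum _ fun α _ => hd α]
    refine Finset.sum_congr rfl fun α _ => ?_
    simp_rw [dot_dens]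
  have h4 : ∑ α, ∫ x, Fv (f' α) x ⬝ᵥ C α x =
      (1 / 4) * ∑ k ∈ S, ∑ α, ∫ x, c k α x ⬝ᵥ c k α x := by
    simp_rw [hFCe]
    rw [Finset.sum_comm, Finset.mul_sum]
    refine Finset.sum_congr rfl fun k _ => ?_
    have := (hk k).2.2
    simp only [hc] at *
    linarith
  have hsum := Finset.sum_nonneg fun α (_ : α ∈ (Finset.univ : Finset κ)) => hint α
  rw [Finset.sum_add_distrib, Finset.sum_sub_distrib, hT, h4, ← Finset.mul_sum] at hsum
  have h5 : (Real.pi ^ 2 - δ * (Fintype.card ι : ℝ) ^ 5) * ∫ y, tr3 (Pmm f y) ≤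
      (∑ k ∈ S, ∑ α, ∫ x, c k α x ⬝ᵥ c k α x) - ∑ α, ∫ x, C α x ⬝ᵥ C α x := by
    have hsum1 : ∀ k, Integrable fun x => ∑ α, c k α x ⬝ᵥ c k α x := fun k =>
      integrable_finsetSum _ fun α _ => hci k α
    have hsum2 : Integrable fun x => ∑ k ∈ S, ∑ α, c k α x ⬝ᵥ c k α x :=
      integrable_finsetSum _ fun k _ => hsum1 k
    have hsum3 : Integrable fun x => ∑ α, C α x ⬝ᵥ C α x :=
      integrable_finsetSum _ fun α _ => hCi α
    have hsub2 : Integrable fun x => ∑ k ∈ S, ∑ α, c k α x ⬝ᵥ c k α x - ∑ α, C α x ⬝ᵥ C α x :=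
      hsum2.sub hsum3
    have e1 : (∑ k ∈ S, ∑ α, ∫ x, c k α x ⬝ᵥ c k α x) = ∫ x, ∑ k ∈ S, ∑ α, c k α x ⬝ᵥ c k α x := by
      rw [integral_finsetSum _ fun k _ => hsum1 k]
      refine Finset.sum_congr rfl fun k _ => ?_
      rw [integral_finsetSum _ fun α _ => hci k α]
    have e2 : (∑ α, ∫ x, C α x ⬝ᵥ C α x) = ∫ x, ∑ α, C α x ⬝ᵥ C α x := by
      rw [integral_finsetSum _ fun α _ => hCi α]
    rw [e1, e2, ← integral_sub hsum2 hsum3, ← integral_const_mul]
    exact integral_mono ((tr3_integrable hF).const_mul _) hsub2 hpt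
  have e : (Real.pi ^ 2 - δ * (Fintype.card ι : ℝ) ^ 5) / 4 * ∫ y, tr3 (Pmm f y) =
      (1 / 4) * ((Real.pi ^ 2 - δ * (Fintype.card ι : ℝ) ^ 5) * ∫ y, tr3 (Pmm f y)) := by ring
  rw [e]
  linarith

omit [DecidableEq ι] in
/-- Scaling a family. -/
lemma famM_scale (hF : FamM f f' 1) (t : ℝ) :
    FamM (fun α i x => t * f α i x) (fun α i x => t * f' α i x) (t ^ 2) := by
  refine ⟨fun α i => (hF.h1 α i).const_mul t, fun α i => (hF.meas' α i).const_mul t, fun a => ?_⟩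
  have e : ∀ α y, (∑ i, a i * (t * f α i y)) ^ 2 = t ^ 2 * (∑ i, a i * f α i y) ^ 2 := by
    intro α y
    rw [← mul_pow, Finset.mul_sum]
    congr 1
    refine Finset.sum_congr rfl fun i _ => ?_
    ring
  simp_rw [e]
  simp_rw [integral_const_mul]
  rw [← Finset.mul_sum]
  have := hF.bessel a
  rw [one_mul] at this
  exact mul_le_mul_of_nonneg_left this (sq_nonneg t)

/-- **The kinetic inequality with the sharp constant for several channels.** -/
theorem sharp_kinetic_m (hF : FamM f f' 1) :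
    Real.pi ^ 2 / 4 * ∫ y, tr3 (Pmm f y) ≤ ∫ y, densM f' y := by
  set Y := ∫ y, tr3 (Pmm f y) with hY
  set T := ∫ y, densM f' y with hT
  set n : ℝ := (Fintype.card ι : ℝ) ^ 5 with hn
  have key : ∀ s : ℝ, 0 < s → s < 1 → (Real.pi ^ 2 - s * n) / 4 * (1 - s) ^ 4 * Y ≤ T := by
    intro s hs0 hs1
    have ht0 : 0 < 1 - s := by linarith
    set t := 1 - s with ht
    have ht1 : t < 1 := by linarith
    have ht2 : t ^ 2 < 1 := by nlinarith
    have hG := famM_scale hF t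
    have h1 := core_strict_m hG (ε := (1 - t ^ 2) / 2) (by linarith) (by linarith) hs0
    have e0 : ∀ y, Pmm (fun α i x => t * f α i x) y = t ^ 2 • Pmm f y := by
      intro y
      ext i j
      simp only [Pmm, Pm, Fv, Matrix.sum_apply, Matrix.smul_apply, vecMulVec_apply, smul_eq_mul,
        Finset.mul_sum]
      refine Finset.sum_congr rfl fun α _ => ?_
      ring
    have e1 : ∀ y, tr3 (Pmm (fun α i x => t * f α i x) y) = t ^ 6 * tr3 (Pmm f y) := by
      intro y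
      unfold tr3
      rw [e0, Matrix.smul_mul, Matrix.mul_smul, fro_smul_left, fro_smul_right, fro_smul_right]
      ring
    have e2 : ∀ y, densM (fun α i x => t * f' α i x) y = t ^ 2 * densM f' y := by
      intro y
      unfold densM dens
      rw [Finset.mul_sum]
      refine Finset.sum_congr rfl fun α _ => ?_
      rw [Finset.mul_sum]
      refine Finset.sum_congr rfl fun i _ => ?_
      ring
    simp_rw [e1, e2] at h1
    rw [integral_const_mul, integral_const_mul, ← hY, ← hT] at h1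
    have hp : 0 < t ^ 2 := by positivity
    have h2 : t ^ 2 * ((Real.pi ^ 2 - s * n) / 4 * t ^ 4 * Y) ≤ t ^ 2 * T := by
      calc t ^ 2 * ((Real.pi ^ 2 - s * n) / 4 * t ^ 4 * Y)
          = (Real.pi ^ 2 - s * n) / 4 * (t ^ 6 * Y) := by ring
        _ ≤ t ^ 2 * T := h1
    exact le_of_mul_le_mul_left h2 hp
  have hlim : Tendsto (fun s : ℝ => (Real.pi ^ 2 - s * n) / 4 * (1 - s) ^ 4 * Y) (𝓝[>] 0)
      (𝓝 ((Real.pi ^ 2 - 0 * n) / 4 * (1 - 0) ^ 4 * Y)) := by
    refine Tendsto.mono_left ?_ nhdsWithin_le_nhds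
    exact Continuous.tendsto (by fun_prop) 0
  have h3 : (Real.pi ^ 2 - 0 * n) / 4 * (1 - 0) ^ 4 * Y ≤ T := by
    refine le_of_tendsto hlim ?_
    have h4 : Ioo (0:ℝ) 1 ∈ 𝓝[>] (0:ℝ) := Ioo_mem_nhdsGT one_pos
    filter_upwards [h4] with s hs
    exact key s hs.1 hs.2
  simpa using h3

end

end Vale.Agent.Lib.P371.Sharp
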