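import Vale.Agent.Lib.P371.SharpReg
import Vale.Agent.Lib.P371.LDual

/-! Domination of finitely many primitives, and entrywise bounds. -/

open Matrix Filter Topology Set MeasureTheory

namespace Vale.Agent.Lib.P371.Sharp

noncomputable section

/-- A common dominating primitive for finitely many primitives. -/
lemma exists_dom {β : Type*} [Fintype β] {g g' : β → ℝ → ℝ} (h : ∀ l, Prim (g l) (g' l)) :
    ∃ G G' : ℝ → ℝ, Prim G G' ∧ ∀ l x y, |g l x - g l y| ≤ |G x - G y| := by
  set G' : ℝ → ℝ := fun t => ∑ l, ‖g' l t‖ with hG'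
  have hloc : LocallyIntegrable G' volume :=
    locallyIntegrable_finsetSum _ fun l _ => fun x => ((h l).loc x).norm
  have hint : ∀ a b, IntervalIntegrable G' volume a b := fun a b =>
    intervalIntegrable_iff.2 ((hloc.integrableOn_isCompact isCompact_uIcc).mono_set uIoc_subset_uIcc)
  set G : ℝ → ℝ := fun x => ∫ t in (0:ℝ)..x, G' t with hG
  have hftc : ∀ a b, G b - G a = ∫ t in a..b, G' t := fun a b =>
    intervalIntegral.integral_interval_sub_left (hint 0 b) (hint 0 a)
  refine ⟨G, G', ⟨hloc, hftc⟩, fun l x y => ?_⟩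
  have key : ∀ a b, a ≤ b → |g l b - g l a| ≤ |G b - G a| := by
    intro a b hab
    rw [(h l).ftc a b, hftc a b]
    have h1 := intervalIntegral.norm_integral_le_of_norm_le (f := g' l) (g := G') (μ := volume) hab
      (ae_of_all _ fun t _ => ?_) (hint a b)
    · rw [Real.norm_eq_abs] at h1
      exact h1.trans (le_abs_self _)
    · exact Finset.single_le_sum (f := fun l => ‖g' l t‖) (fun l _ => norm_nonneg _)
        (Finset.mem_univ l)
  rcases le_total y x with hxy | hxy
  · exact key y x hxy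
  · rw [abs_sub_comm, abs_sub_comm (G x)]
    exact key x y hxy

variable {ι : Type*} [Fintype ι]

lemma fro_abs_le {X Z : Matrix ι ι ℝ} {a b : ℝ} (hX : ∀ i j, |X i j| ≤ a) (hZ : ∀ i j, |Z i j| ≤ b) :
    |fro X Z| ≤ (Fintype.card ι : ℝ) ^ 2 * (a * b) := by
  rw [fro_eq_sum]
  have h1 : ∀ i j, |X i j * Z i j| ≤ a * b := by
    intro i j
    rw [abs_mul]
    exact mul_le_mul (hX i j) (hZ i j) (abs_nonneg _) ((abs_nonneg _).trans (hX i j))
  calc |∑ i, ∑ j, X i j * Z i j| ≤ ∑ i, ∑ j, |X i j * Z i j| :=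
        (Finset.abs_sum_le_sum_abs _ _).trans
          (Finset.sum_le_sum fun i _ => Finset.abs_sum_le_sum_abs _ _)
    _ ≤ ∑ _i : ι, ∑ _j : ι, a * b :=
        Finset.sum_le_sum fun i _ => Finset.sum_le_sum fun j _ => h1 i j
    _ = _ := by
        simp only [Finset.sum_const, Finset.card_univ, nsmul_eq_mul]
        ring

lemma mul_entry_le {A B : Matrix ι ι ℝ} {a b : ℝ} (hA : ∀ i j, |A i j| ≤ a)
    (hB : ∀ i j, |B i j| ≤ b) (i j : ι) : |(A * B) i j| ≤ (Fintype.card ι : ℝ) * (a * b) := by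
  rw [Matrix.mul_apply]
  have h1 : ∀ l, |A i l * B l j| ≤ a * b := by
    intro l
    rw [abs_mul]
    exact mul_le_mul (hA i l) (hB l j) (abs_nonneg _) ((abs_nonneg _).trans (hA i l))
  calc |∑ l, A i l * B l j| ≤ ∑ l, |A i l * B l j| := Finset.abs_sum_le_sum_abs _ _
    _ ≤ ∑ _l : ι, a * b := Finset.sum_le_sum fun l _ => h1 l
    _ = _ := by
        simp only [Finset.sum_const, Finset.card_univ, nsmul_eq_mul]

/-- The difference of the pairings is controlled by the differences of the data. -/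
lemma B_dominated [DecidableEq ι] {M N X Z P Q : Matrix ι ι ℝ} {k : ℤ} (hM : Mᵀ = M)
    (hX : lyap M k X = P) (hZ : lyap N k Z = Q) {L g : ℝ} (hLX : ∀ i j, |X i j| ≤ L)
    (hLZ : ∀ i j, |Z i j| ≤ L) (hPQ : ∀ i j, |P i j - Q i j| ≤ g)
    (hMN : ∀ i j, |M i j - N i j| ≤ g) :
    |fro P X - fro Q Z| ≤
      (2 * (Fintype.card ι : ℝ) ^ 2 * L + (Fintype.card ι : ℝ) ^ 3 * L ^ 2) * g := by
  set n : ℝ := (Fintype.card ι : ℝ) with hn
  have hn0 : 0 ≤ n := Nat.cast_nonneg _
  rw [B_diff hM hX hZ]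
  have h1 : |fro (P - Q) (X + Z)| ≤ n ^ 2 * (g * (2 * L)) := by
    refine fro_abs_le (fun i j => ?_) fun i j => ?_
    · simpa using hPQ i j
    · rw [Matrix.add_apply]
      refine (abs_add_le _ _).trans ?_
      have := hLX i j
      have := hLZ i j
      linarith
  have h2 : |fro X ((1 / 2 : ℝ) • ((M - N) * Z + Z * (M - N)))| ≤
      n ^ 2 * (L * (n * (g * L))) := by
    refine fro_abs_le hLX fun i j => ?_
    have a1 : |((M - N) * Z) i j| ≤ n * (g * L) :=
      mul_entry_le (fun i j => by simpa using hMN i j) hLZ i j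
    have a2 : |(Z * (M - N)) i j| ≤ n * (L * g) :=
      mul_entry_le hLZ (fun i j => by simpa using hMN i j) i j
    rw [Matrix.smul_apply, Matrix.add_apply, smul_eq_mul, abs_mul,
      abs_of_pos (by norm_num : (0:ℝ) < 1 / 2)]
    have a3 := abs_add_le (((M - N) * Z) i j) ((Z * (M - N)) i j)
    have e : n * (L * g) = n * (g * L) := by ring
    rw [e] at a2
    linarith
  refine (abs_sub _ _).trans ?_
  calc _ ≤ n ^ 2 * (g * (2 * L)) + n ^ 2 * (L * (n * (g * L))) := add_le_add h1 h2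
    _ = _ := by ring

end

end Vale.Agent.Lib.P371.Sharp
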