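import Vale.Agent.Lib.P371.SharpCoreM

/-! The sharp bound at `γ = 1` for matrix potentials: reduction to real families. -/

open MeasureTheory Set Filter Topology Matrix

namespace Vale.Agent.Lib.P371.Sharp

noncomputable section

variable {m N : ℕ}

lemma spectral_entry {A : Matrix (Fin m) (Fin m) ℂ} (hA : A.IsHermitian) (a b : Fin m) :
    A a b = ∑ i, (hA.eigenvectorUnitary : Matrix (Fin m) (Fin m) ℂ) a i * (hA.eigenvalues i : ℂ) *
      star ((hA.eigenvectorUnitary : Matrix (Fin m) (Fin m) ℂ) b i) := by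
  have h := hA.spectral_theorem
  rw [Unitary.conjStarAlgAut_apply] at h
  have h2 := congrFun (congrFun h a) b
  rw [h2]
  simp only [Matrix.mul_apply, Matrix.diagonal_apply, Function.comp_apply, Matrix.star_apply]
  refine Finset.sum_congr rfl fun i _ => ?_
  congr 1
  rw [Finset.sum_eq_single i]
  · simp
  · intro k _ hk
    simp [hk]
  · simp

lemma quad_of_entries {U A : Matrix (Fin m) (Fin m) ℂ} {μ : Fin m → ℝ}
    (h : ∀ a b, A a b = ∑ i, U a i * (μ i : ℂ) * star (U b i)) (v : Fin m → ℂ) :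
    star v ⬝ᵥ (A *ᵥ v) = ((∑ i, μ i * ‖coefU U i v‖ ^ 2 : ℝ) : ℂ) := by
  have e : ∀ i, ((μ i * ‖coefU U i v‖ ^ 2 : ℝ) : ℂ) =
      ∑ a, ∑ b, (μ i : ℂ) * ((U a i * star (v a)) * (star (U b i) * v b)) := by
    intro i
    rw [Complex.ofReal_mul, norm_sq_eq_star_mul]
    unfold coefU
    rw [star_sum, Finset.sum_mul_sum, Finset.mul_sum]
    refine Finset.sum_congr rfl fun a _ => ?_
    rw [Finset.mul_sum]
    refine Finset.sum_congr rfl fun b _ => ?_
    rw [star_mul', star_star]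
  rw [Complex.ofReal_sum]
  simp_rw [e]
  unfold dotProduct mulVec dotProduct
  simp_rw [h]
  rw [Finset.sum_comm]
  refine Finset.sum_congr rfl fun a _ => ?_
  rw [Finset.sum_comm, Finset.mul_sum]
  refine Finset.sum_congr rfl fun b _ => ?_
  rw [Finset.sum_mul, Finset.mul_sum]
  refine Finset.sum_congr rfl fun i _ => ?_
  simp only [Pi.star_apply]
  ring

lemma quad_eq {A : Matrix (Fin m) (Fin m) ℂ} (hA : A.IsHermitian) (v : Fin m → ℂ) :
    star v ⬝ᵥ (A *ᵥ v) =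
      ((∑ i, hA.eigenvalues i *
        ‖coefU (hA.eigenvectorUnitary : Matrix (Fin m) (Fin m) ℂ) i v‖ ^ 2 : ℝ) : ℂ) :=
  quad_of_entries (spectral_entry hA) v

/-- The real quadratic form. -/
def quad (W : ℝ → Matrix (Fin m) (Fin m) ℂ) (ψ : Fin N → ℝ → Fin m → ℂ) (x : ℝ) (j : Fin N) : ℝ :=
  (star (ψ j x) ⬝ᵥ (W x *ᵥ ψ j x)).re

lemma gram_re {g : Fin N → ℝ → Fin m → ℂ} (hg : ∀ j a, MemLp (fun y => g j y a) 2 volume)
    (j : Fin N) :
    (Gram g j j).re = ∑ a, ((∫ y, (g j y a).re ^ 2) + ∫ y, (g j y a).im ^ 2) := by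
  unfold Gram
  have h1 : (∫ y, star (g j y) ⬝ᵥ g j y).re = ∫ y, (star (g j y) ⬝ᵥ g j y).re :=
    (integral_re (integrable_dot hg j j)).symm
  rw [h1]
  have e : ∀ y, (star (g j y) ⬝ᵥ g j y).re = ∑ a, ((g j y a).re ^ 2 + (g j y a).im ^ 2) := by
    intro y
    unfold dotProduct
    rw [Complex.re_sum]
    refine Finset.sum_congr rfl fun a _ => ?_
    simp only [Pi.star_apply, Complex.mul_re, Complex.star_def, Complex.conj_re, Complex.conj_im]
    ring
  simp_rw [e]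
  have i1 : ∀ a, Integrable (fun y => (g j y a).re ^ 2) := fun a => (hg j a).re.integrable_sq
  have i2 : ∀ a, Integrable (fun y => (g j y a).im ^ 2) := fun a => (hg j a).im.integrable_sq
  have i3 : ∀ a ∈ Finset.univ, Integrable (fun y => (g j y a).re ^ 2 + (g j y a).im ^ 2) :=
    fun a _ => (i1 a).add (i2 a)
  rw [integral_finsetSum _ i3]
  refine Finset.sum_congr rfl fun a _ => ?_
  exact integral_add (i1 a) (i2 a)

lemma CH1_continuous {φ φ' : ℝ → ℂ} (h : CH1 φ φ') : Continuous φ := by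
  have h1 : Continuous fun b => ∫ t in (0:ℝ)..b, φ' t :=
    intervalIntegral.continuous_primitive (fun a b => h.intervalIntegrable' a b) 0
  have h2 : φ = fun b => φ 0 + ∫ t in (0:ℝ)..b, φ' t := by
    funext b
    rw [← h.ftc 0 b]
    ring
  rw [h2]
  exact continuous_const.add h1

lemma measurable_quad {W : ℝ → Matrix (Fin m) (Fin m) ℂ} (hW : IsPotential W)
    {ψ ψ' : Fin N → ℝ → Fin m → ℂ} (hψ : ∀ j, IsH1 (ψ j) (ψ' j)) (j : Fin N) :
    Measurable (fun x => quad W ψ x j) := by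
  have h1 : ∀ a, Measurable (fun x => ψ j x a) := fun a => (CH1_continuous ((hψ j).ch1 a)).measurable
  unfold quad dotProduct mulVec dotProduct
  refine Complex.measurable_re.comp ?_
  refine Finset.measurable_fun_sum _ fun a _ => ?_
  refine Measurable.mul ?_ ?_
  · exact continuous_star.measurable.comp (h1 a)
  · exact Finset.measurable_fun_sum _ fun b _ => (hW.measurable a b).mul (h1 b)

lemma quad_cast {W : ℝ → Matrix (Fin m) (Fin m) ℂ} (hW : IsPotential W)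
    (ψ : Fin N → ℝ → Fin m → ℂ) (x : ℝ) (j : Fin N) :
    star (ψ j x) ⬝ᵥ (W x *ᵥ ψ j x) = (quad W ψ x j : ℂ) := by
  unfold quad
  rw [quad_eq (hW.psd x).1, Complex.ofReal_re]

lemma quad_nonneg {W : ℝ → Matrix (Fin m) (Fin m) ℂ} (hW : IsPotential W)
    (ψ : Fin N → ℝ → Fin m → ℂ) (x : ℝ) (j : Fin N) : 0 ≤ quad W ψ x j := by
  unfold quad
  rw [quad_eq (hW.psd x).1, Complex.ofReal_re]
  exact Finset.sum_nonneg fun i _ =>
    mul_nonneg ((hW.psd x).eigenvalues_nonneg i) (by positivity)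

/-- Density along the `i`-th basis vector. -/
def rr (U : Matrix (Fin m) (Fin m) ℂ) (ψ : Fin N → ℝ → Fin m → ℂ) (x : ℝ) (i : Fin m) : ℝ :=
  ∑ j, ‖coefU U i (ψ j x)‖ ^ 2

lemma rr_nonneg (U : Matrix (Fin m) (Fin m) ℂ) (ψ : Fin N → ℝ → Fin m → ℂ) (x : ℝ) (i : Fin m) :
    0 ≤ rr U ψ x i := Finset.sum_nonneg fun _ _ => by positivity

/-- The two units. -/
def uu (s : Bool) : ℂ := if s then Complex.I else 1

/-- The two real coordinates of a complex number. -/
def part (t : Bool) (z : ℂ) : ℝ := if t then z.im else z.re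

lemma part_sum (z w : ℂ) : ∑ t : Bool, part t z * part t w = (star z * w).re := by
  simp only [part, Fintype.sum_bool, if_true, Bool.false_eq_true, if_false, Complex.mul_re,
    Complex.star_def, Complex.conj_re, Complex.conj_im]
  ring

lemma part_sq_sum (z : ℂ) : ∑ t : Bool, part t z ^ 2 = ‖z‖ ^ 2 := by
  rw [Complex.sq_norm, Complex.normSq_apply]
  simp only [part, Fintype.sum_bool, if_true, Bool.false_eq_true, if_false]
  ring

lemma part_uu_sum (t : Bool) (z : ℂ) : ∑ s : Bool, part t (uu s * z) ^ 2 = ‖z‖ ^ 2 := by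
  rw [Complex.sq_norm, Complex.normSq_apply]
  cases t <;>
    simp only [part, uu, Fintype.sum_bool, if_true, Bool.false_eq_true, if_false, Complex.mul_re,
      Complex.mul_im, Complex.I_re, Complex.I_im, Complex.one_re, Complex.one_im] <;> ring

/-- The real family attached to a complex vector valued family. -/
def dbl (g : Fin N → ℝ → Fin m → ℂ) : Fin m × Bool → Fin N × Bool → ℝ → ℝ :=
  fun α i y => part α.2 (uu i.2 * g i.1 y α.1)

lemma dbl_combo (g : Fin N → ℝ → Fin m → ℂ) (a : Fin N × Bool → ℝ) (α : Fin m × Bool) (y : ℝ) :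
    ∑ i, a i * dbl g α i y =
      part α.2 (∑ j, ((a (j, false) : ℂ) + (a (j, true) : ℂ) * Complex.I) * g j y α.1) := by
  rw [Fintype.sum_prod_type]
  obtain ⟨c, t⟩ := α
  have hpsum : ∀ w : Fin N → ℂ, part t (∑ j, w j) = ∑ j, part t (w j) := by
    intro w
    cases t <;> simp [part, Complex.re_sum, Complex.im_sum]
  simp only [hpsum]
  refine Finset.sum_congr rfl fun j _ => ?_
  rw [Fintype.sum_bool]
  simp only [dbl]
  cases t <;>
    simp only [part, uu, if_true, Bool.false_eq_true, if_false, Complex.mul_re,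
      Complex.mul_im, Complex.I_re, Complex.I_im, Complex.one_re, Complex.one_im, Complex.add_re,
      Complex.add_im, Complex.ofReal_re, Complex.ofReal_im] <;> ring

lemma dbl_h1 {ψ ψ' : Fin N → ℝ → Fin m → ℂ} (hψ : ∀ j, IsH1 (ψ j) (ψ' j))
    (α : Fin m × Bool) (i : Fin N × Bool) : RealH1 (dbl ψ α i) (dbl ψ' α i) := by
  obtain ⟨a, t⟩ := α
  obtain ⟨j, s⟩ := i
  have h := ((hψ j).ch1 a).const_mul (uu s)
  cases t
  · exact h.re
  · exact h.im

lemma dbl_part_memLp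
    (t : Bool) (u : ℝ → ℂ) (hu : MemLp u 2 volume) : Integrable fun y => part t (u y) ^ 2 := by
  cases t
  · simpa [part] using hu.re.integrable_sq
  · simpa [part] using hu.im.integrable_sq

/-- The real family satisfies the hypotheses of the main inequality. -/
theorem famM_dbl {ψ ψ' : Fin N → ℝ → Fin m → ℂ} (hψ : ∀ j, IsH1 (ψ j) (ψ' j))
    (horth : ∀ j k, Gram ψ j k = if j = k then 1 else 0) :
    ∃ g : Fin m × Bool → Fin N × Bool → ℝ → ℝ, FamM (dbl ψ) g 1 ∧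
      ∫ y, densM g y = 2 * (∑ j, Gram ψ' j j).re := by
  have hg : ∀ j a, MemLp (fun y => ψ j y a) 2 volume := fun j a => (hψ j).memLp a
  have hg' : ∀ j a, MemLp (fun y => ψ' j y a) 2 volume := fun j a => (hψ j).memLp' a
  choose g hgm hgh hge using fun α i => (dbl_h1 hψ α i).exists_measurable
  refine ⟨g, ⟨hgh, hgm, fun a => ?_⟩, ?_⟩
  · -- Bessel inequality, in fact equality
    set b : Fin N → ℂ := fun j => (a (j, false) : ℂ) + (a (j, true) : ℂ) * Complex.I with hb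
    have hcombo : ∀ c : Fin m, MemLp (fun y => ∑ j, b j * ψ j y c) 2 volume :=
      fun c => memLp_combo hg b c
    have e1 : ∀ α : Fin m × Bool, ∀ y, ∑ i, a i * dbl ψ α i y =
        part α.2 (∑ j, b j * ψ j y α.1) := fun α y => dbl_combo ψ a α y
    simp_rw [e1]
    have hI : ∀ α : Fin m × Bool, Integrable fun y => part α.2 (∑ j, b j * ψ j y α.1) ^ 2 :=
      fun α => dbl_part_memLp _ _ (hcombo α.1)
    rw [← integral_finsetSum _ fun α _ => hI α]
    have e2 : ∀ y, ∑ α : Fin m × Bool, part α.2 (∑ j, b j * ψ j y α.1) ^ 2 =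
        ∑ c, ‖∑ j, b j * ψ j y c‖ ^ 2 := by
      intro y
      rw [Fintype.sum_prod_type]
      refine Finset.sum_congr rfl fun c _ => ?_
      exact part_sq_sum _
    simp_rw [e2]
    rw [gram_orth hg horth b, one_mul, Fintype.sum_prod_type]
    refine le_of_eq (Finset.sum_congr rfl fun j _ => ?_)
    rw [Fintype.sum_bool, hb, Complex.sq_norm, Complex.normSq_apply]
    simp only [Complex.add_re, Complex.add_im, Complex.mul_re, Complex.mul_im, Complex.ofReal_re,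
      Complex.ofReal_im, Complex.I_re, Complex.I_im]
    ring
  · -- kinetic energy
    have hI : ∀ α i, Integrable fun y => g α i y ^ 2 := fun α i => (hgh α i).sq'
    unfold densM dens
    rw [integral_finsetSum _ fun α _ => integrable_finsetSum _ fun i _ => hI α i]
    simp_rw [integral_finsetSum _ fun i _ => hI _ i, hge]
    rw [Complex.re_sum, Finset.mul_sum]
    simp_rw [gram_re hg']
    have e3 : ∀ (a : Fin m) (j : Fin N), ∑ t : Bool, ∑ s : Bool, ∫ y, dbl ψ' (a, t) (j, s) y ^ 2 =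
        2 * ((∫ y, (ψ' j y a).re ^ 2) + ∫ y, (ψ' j y a).im ^ 2) := by
      intro a j
      have e00 : ∀ y, dbl ψ' (a, false) (j, false) y ^ 2 = (ψ' j y a).re ^ 2 := fun y => by
        simp [dbl, part, uu]
      have e01 : ∀ y, dbl ψ' (a, false) (j, true) y ^ 2 = (ψ' j y a).im ^ 2 := fun y => by
        simp [dbl, part, uu]
      have e10 : ∀ y, dbl ψ' (a, true) (j, false) y ^ 2 = (ψ' j y a).im ^ 2 := fun y => by
        simp [dbl, part, uu]
      have e11 : ∀ y, dbl ψ' (a, true) (j, true) y ^ 2 = (ψ' j y a).re ^ 2 := fun y => by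
        simp [dbl, part, uu]
      simp only [Fintype.sum_bool, e00, e01, e10, e11]
      ring
    calc ∑ α : Fin m × Bool, ∑ i : Fin N × Bool, ∫ y, dbl ψ' α i y ^ 2
        = ∑ a : Fin m, ∑ j : Fin N, ∑ t : Bool, ∑ s : Bool, ∫ y, dbl ψ' (a, t) (j, s) y ^ 2 := by
          rw [Fintype.sum_prod_type]
          refine Finset.sum_congr rfl fun a _ => ?_
          simp_rw [Fintype.sum_prod_type]
          rw [Finset.sum_comm]
      _ = ∑ j : Fin N, 2 * ∑ a : Fin m, ((∫ y, (ψ' j y a).re ^ 2) + ∫ y, (ψ' j y a).im ^ 2) := by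
          simp_rw [e3]
          rw [Finset.sum_comm]
          refine Finset.sum_congr rfl fun j _ => ?_
          rw [Finset.mul_sum]

/-- The rotated real family. -/
def rot (U : Matrix (Fin m) (Fin m) ℂ) (ψ : Fin N → ℝ → Fin m → ℂ) :
    Fin m × Bool → Fin N × Bool → ℝ → ℝ :=
  fun β i y => part β.2 (uu i.2 * coefU U β.1 (ψ i.1 y))

lemma Pmm_dbl_eq_rot {U : Matrix (Fin m) (Fin m) ℂ} (hU : U * star U = 1)
    (ψ : Fin N → ℝ → Fin m → ℂ) (x : ℝ) : Pmm (dbl ψ) x = Pmm (rot U ψ) x := by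
  ext i k
  simp only [Pmm, Pm, Fv, Matrix.sum_apply, vecMulVec_apply]
  rw [Fintype.sum_prod_type, Fintype.sum_prod_type]
  have e1 : ∀ a : Fin m, ∑ t : Bool, dbl ψ (a, t) i x * dbl ψ (a, t) k x =
      (star (uu i.2 * ψ i.1 x a) * (uu k.2 * ψ k.1 x a)).re := fun a => part_sum _ _
  have e2 : ∀ b : Fin m, ∑ t : Bool, rot U ψ (b, t) i x * rot U ψ (b, t) k x =
      (star (uu i.2 * coefU U b (ψ i.1 x)) * (uu k.2 * coefU U b (ψ k.1 x))).re := fun a =>
    part_sum _ _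
  simp_rw [e1, e2]
  rw [← Complex.re_sum, ← Complex.re_sum]
  congr 1
  have h := parseval_polar hU (ψ i.1 x) (ψ k.1 x)
  have e3 : ∀ a : Fin m, star (uu i.2 * ψ i.1 x a) * (uu k.2 * ψ k.1 x a) =
      star (uu i.2) * uu k.2 * (star (ψ i.1 x a) * ψ k.1 x a) := fun a => by
    rw [star_mul']
    ring
  have e4 : ∀ b : Fin m, star (uu i.2 * coefU U b (ψ i.1 x)) * (uu k.2 * coefU U b (ψ k.1 x)) =
      star (uu i.2) * uu k.2 * (star (coefU U b (ψ i.1 x)) * coefU U b (ψ k.1 x)) := fun a => by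
    rw [star_mul']
    ring
  simp_rw [e3, e4]
  rw [← Finset.mul_sum, ← Finset.mul_sum, h]

lemma dot_rot (U : Matrix (Fin m) (Fin m) ℂ) (ψ : Fin N → ℝ → Fin m → ℂ) (x : ℝ)
    (β : Fin m × Bool) : Fv (rot U ψ β) x ⬝ᵥ Fv (rot U ψ β) x = rr U ψ x β.1 := by
  unfold rr
  simp only [dotProduct, Fv]
  rw [Fintype.sum_prod_type]
  refine Finset.sum_congr rfl fun j _ => ?_
  rw [← part_uu_sum β.2 (coefU U β.1 (ψ j x))]
  refine Finset.sum_congr rfl fun s _ => ?_
  rw [sq]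
  rfl

/-- The sum of the cubes of the lengths is at most the trace of the cube. -/
lemma cube_le_tr3 {ι κ : Type*} [Fintype ι] [Fintype κ] (f : κ → ι → ℝ → ℝ) (x : ℝ) :
    ∑ β, (Fv (f β) x ⬝ᵥ Fv (f β) x) ^ 3 ≤ tr3 (Pmm f x) := by
  set P := Pmm f x with hP
  have hT : tr3 P = ∑ β, (P *ᵥ Fv (f β) x) ⬝ᵥ (P *ᵥ Fv (f β) x) := by
    rw [sum_dot_eq f x P]
    rfl
  rw [hT]
  refine Finset.sum_le_sum fun β _ => ?_
  set v := Fv (f β) x with hv
  set w := P *ᵥ v with hw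
  have h1 : (v ⬝ᵥ v) ^ 2 ≤ v ⬝ᵥ w := by
    rw [hw, hP, Pmm_quad]
    have h2 : (v ⬝ᵥ Fv (f β) x) ^ 2 ≤ ∑ α, (v ⬝ᵥ Fv (f α) x) ^ 2 :=
      Finset.single_le_sum (f := fun α => (v ⬝ᵥ Fv (f α) x) ^ 2) (fun α _ => sq_nonneg _)
        (Finset.mem_univ β)
    rwa [← hv] at h2
  have h0 := dot_self_nonneg v
  have h2 : (v ⬝ᵥ w) ^ 2 ≤ (v ⬝ᵥ v) * (w ⬝ᵥ w) := by
    have := Finset.sum_mul_sq_le_sq_mul_sq Finset.univ v w
    simpa [dotProduct, sq] using this
  have h3 : ((v ⬝ᵥ v) ^ 2) ^ 2 ≤ (v ⬝ᵥ w) ^ 2 := pow_le_pow_left₀ (sq_nonneg _) h1 2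
  have h4 : (v ⬝ᵥ v) * (v ⬝ᵥ v) ^ 3 ≤ (v ⬝ᵥ v) * (w ⬝ᵥ w) := by
    calc (v ⬝ᵥ v) * (v ⬝ᵥ v) ^ 3 = ((v ⬝ᵥ v) ^ 2) ^ 2 := by ring
      _ ≤ _ := h3.trans h2
  rcases h0.eq_or_lt with h00 | hpos
  · rw [← h00]
    simpa using dot_self_nonneg w
  · exact le_of_mul_le_mul_left h4 hpos

/-- The pointwise bound for the cubes of the densities along a basis. -/
lemma rr_cube_le {U : Matrix (Fin m) (Fin m) ℂ} (hU : U * star U = 1)
    (ψ : Fin N → ℝ → Fin m → ℂ) (x : ℝ) :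
    2 * ∑ i, rr U ψ x i ^ 3 ≤ tr3 (Pmm (dbl ψ) x) := by
  rw [Pmm_dbl_eq_rot hU]
  refine le_trans (le_of_eq ?_) (cube_le_tr3 (rot U ψ) x)
  simp_rw [dot_rot]
  rw [Fintype.sum_prod_type]
  simp [two_mul, Finset.sum_add_distrib]

/-- The sharp bound for orthonormal families. -/
theorem variational_sharp {W : ℝ → Matrix (Fin m) (Fin m) ℂ} (hW : IsPotential W)
    (hint : Integrable (trPow hW (3 / 2)))
    {ψ ψ' : Fin N → ℝ → Fin m → ℂ} (hψ : ∀ j, IsH1 (ψ j) (ψ' j))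
    (horth : ∀ j k, Gram ψ j k = if j = k then 1 else 0)
    {t : ℝ} (ht : 0 < t) (hK : 1 / (3 * t ^ 2) ≤ Real.pi ^ 2 / 4) :
    (∀ j, Integrable (fun x => quad W ψ x j)) ∧
      ∑ j, ∫ x, quad W ψ x j ≤
        2 * t / 3 * (∫ x, trPow hW (3 / 2) x) + (∑ j, Gram ψ' j j).re := by
  obtain ⟨g, hF, hT⟩ := famM_dbl hψ horth
  have hcore := sharp_kinetic_m hF
  rw [hT] at hcore
  have htri := tr3_integrable hF
  set K₀ := 1 / (3 * t ^ 2) with hK₀
  have hK₀0 : 0 ≤ K₀ := by positivity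
  have hpt : ∀ x, ∑ j, quad W ψ x j ≤
      2 * t / 3 * trPow hW (3 / 2) x + K₀ / 2 * tr3 (Pmm (dbl ψ) x) := by
    intro x
    set U : Matrix (Fin m) (Fin m) ℂ := ((hW.psd x).1.eigenvectorUnitary :
      Matrix (Fin m) (Fin m) ℂ) with hUd
    have hU : U * star U = 1 := Unitary.coe_mul_star_self _
    have hμ : ∀ i, 0 ≤ (hW.psd x).1.eigenvalues i := fun i => (hW.psd x).eigenvalues_nonneg i
    have h1 : ∑ j, quad W ψ x j = ∑ i, (hW.psd x).1.eigenvalues i * rr U ψ x i := by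
      unfold quad rr
      simp_rw [Finset.mul_sum]
      rw [Finset.sum_comm]
      refine Finset.sum_congr rfl fun j _ => ?_
      rw [quad_eq (hW.psd x).1, Complex.ofReal_re]
    rw [h1]
    have h2 : ∑ i, (hW.psd x).1.eigenvalues i * rr U ψ x i ≤
        ∑ i, (2 * t / 3 * (hW.psd x).1.eigenvalues i ^ (3 / 2 : ℝ) + K₀ * rr U ψ x i ^ 3) :=
      Finset.sum_le_sum fun i _ => young_t (hμ i) (rr_nonneg U ψ x i) ht
    rw [Finset.sum_add_distrib, ← Finset.mul_sum, ← Finset.mul_sum] at h2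
    have h3 := rr_cube_le hU ψ x
    have h4 : K₀ * ∑ i, rr U ψ x i ^ 3 ≤ K₀ / 2 * tr3 (Pmm (dbl ψ) x) := by
      have := mul_le_mul_of_nonneg_left h3 hK₀0
      linarith
    unfold trPow
    linarith
  have hmaj : Integrable fun x => 2 * t / 3 * trPow hW (3 / 2) x + K₀ / 2 * tr3 (Pmm (dbl ψ) x) :=
    (hint.const_mul _).add (htri.const_mul _)
  have hsumm : Measurable (fun x => ∑ j, quad W ψ x j) :=
    Finset.measurable_fun_sum _ fun j _ => measurable_quad hW hψ j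
  have hle : ∀ j x, quad W ψ x j ≤ ∑ j, quad W ψ x j := fun j x =>
    Finset.single_le_sum (f := fun j => quad W ψ x j)
      (fun j _ => quad_nonneg hW ψ x j) (Finset.mem_univ j)
  have hjI : ∀ j, Integrable (fun x => quad W ψ x j) := fun j => by
    refine hmaj.mono' (measurable_quad hW hψ j).aestronglyMeasurable (ae_of_all _ fun x => ?_)
    rw [Real.norm_eq_abs, abs_of_nonneg (quad_nonneg hW ψ x j)]
    exact (hle j x).trans (hpt x)
  refine ⟨hjI, ?_⟩
  rw [← integral_finsetSum _ fun j _ => hjI j]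
  have h5 : ∫ x, ∑ j, quad W ψ x j ≤
      2 * t / 3 * (∫ x, trPow hW (3 / 2) x) + K₀ / 2 * ∫ x, tr3 (Pmm (dbl ψ) x) := by
    rw [← integral_const_mul, ← integral_const_mul, ← integral_add (hint.const_mul _)
      (htri.const_mul _)]
    exact integral_mono (integrable_finsetSum _ fun j _ => hjI j) hmaj hpt
  have htr0 : 0 ≤ ∫ x, tr3 (Pmm (dbl ψ) x) := by
    refine integral_nonneg fun x => ?_
    have := rr_cube_le (U := 1) (by simp) ψ x
    have h0 : 0 ≤ ∑ i, rr 1 ψ x i ^ 3 :=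
      Finset.sum_nonneg fun i _ => pow_nonneg (rr_nonneg _ _ _ _) 3
    show 0 ≤ tr3 (Pmm (dbl ψ) x)
    linarith
  have h6 : K₀ * ∫ x, tr3 (Pmm (dbl ψ) x) ≤ Real.pi ^ 2 / 4 * ∫ x, tr3 (Pmm (dbl ψ) x) :=
    mul_le_mul_of_nonneg_right hK htr0
  linarith

/-- The eigenvalue bound with the sharp constant for matrix potentials. -/
theorem lt_matrix_sharp {W : ℝ → Matrix (Fin m) (Fin m) ℂ} (hW : IsPotential W)
    (hint : Integrable (trPow hW (3 / 2)))
    {ψ ψ' : Fin N → ℝ → Fin m → ℂ} (hψ : ∀ j, IsH1 (ψ j) (ψ' j)) {lam : Fin N → ℝ}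
    (horth : ∀ j k, ∫ x, star (ψ j x) ⬝ᵥ ψ k x = if j = k then (1:ℂ) else 0)
    (hneg : ∀ j, lam j < 0)
    (heig : ∀ j (φ φ' : ℝ → Fin m → ℂ), IsH1 φ φ' →
      (∫ x, star (φ' x) ⬝ᵥ ψ' j x) - (∫ x, star (φ x) ⬝ᵥ (W x *ᵥ ψ j x)) =
        (lam j : ℂ) * ∫ x, star (φ x) ⬝ᵥ ψ j x)
    {t : ℝ} (ht : 0 < t) (hK : 1 / (3 * t ^ 2) ≤ Real.pi ^ 2 / 4) :
    ∑ j, |lam j| ≤ 2 * t / 3 * ∫ x, trPow hW (3 / 2) x := by
  obtain ⟨_, hv⟩ := variational_sharp hW hint hψ horth ht hK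
  have key : ∀ j, |lam j| = (∫ x, quad W ψ x j) - (Gram ψ' j j).re := by
    intro j
    have h1 := heig j (ψ j) (ψ' j) (hψ j)
    simp_rw [quad_cast hW ψ _ j] at h1
    rw [integral_complex_ofReal, horth j j, if_pos rfl, mul_one] at h1
    have h2 := congrArg Complex.re h1
    simp only [Complex.sub_re, Complex.ofReal_re] at h2
    rw [abs_of_neg (hneg j), ← h2]
    have : (∫ x, star (ψ' j x) ⬝ᵥ ψ' j x).re = (Gram ψ' j j).re := rfl
    rw [this]
    ring
  simp_rw [key]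
  rw [Finset.sum_sub_distrib]
  rw [Complex.re_sum] at hv
  linarith

end

end Vale.Agent.Lib.P371.Sharp
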