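import Vale.Agent.Lib.P371.SharpDom

/-! The density matrix and its integral along the line. -/

open Matrix Filter Topology Set MeasureTheory

namespace Vale.Agent.Lib.P371.Sharp

noncomputable section

variable {ι : Type*} [Fintype ι] {f f' : ι → ℝ → ℝ} {Λ ε : ℝ}

/-- The vector of values. -/
def Fv (f : ι → ℝ → ℝ) (x : ℝ) : ι → ℝ := fun i => f i x

/-- The density matrix. -/
def Pm (f : ι → ℝ → ℝ) (x : ℝ) : Matrix ι ι ℝ := vecMulVec (Fv f x) (Fv f x)

/-- The derivative of the density matrix. -/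
def Pd (f f' : ι → ℝ → ℝ) (x : ℝ) : Matrix ι ι ℝ :=
  vecMulVec (Fv f' x) (Fv f x) + vecMulVec (Fv f x) (Fv f' x)

/-- The integrated density matrix, shifted by `ε`. -/
def Mm [DecidableEq ι] (ε : ℝ) (f : ι → ℝ → ℝ) (x : ℝ) : Matrix ι ι ℝ :=
  ε • 1 + Matrix.of fun i j => ∫ t in Iic x, f i t * f j t

lemma dot_rho (f : ι → ℝ → ℝ) (x : ℝ) : Fv f x ⬝ᵥ Fv f x = rho f x := by
  simp [dotProduct, rho, Fv, sq]

lemma dot_dens (f' : ι → ℝ → ℝ) (x : ℝ) : Fv f' x ⬝ᵥ Fv f' x = dens f' x := by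
  simp [dotProduct, dens, Fv, sq]

lemma dot_self_nonneg (u : ι → ℝ) : 0 ≤ u ⬝ᵥ u :=
  Finset.sum_nonneg fun i _ => mul_self_nonneg _

lemma fro_vecMulVec (u v : ι → ℝ) (X : Matrix ι ι ℝ) : fro (vecMulVec u v) X = u ⬝ᵥ (X *ᵥ v) := by
  rw [fro_eq_sum]
  simp only [vecMulVec_apply, dotProduct, mulVec]
  refine Finset.sum_congr rfl fun i _ => ?_
  rw [Finset.mul_sum]
  refine Finset.sum_congr rfl fun j _ => ?_
  ring

lemma fro_vecMulVec_self (u v : ι → ℝ) :
    fro (vecMulVec u v) (vecMulVec u v) = (u ⬝ᵥ u) * (v ⬝ᵥ v) := by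
  rw [fro_eq_sum]
  simp only [vecMulVec_apply, dotProduct]
  rw [Finset.sum_mul_sum]
  refine Finset.sum_congr rfl fun i _ => Finset.sum_congr rfl fun j _ => ?_
  ring

lemma fro_Pm_self (f : ι → ℝ → ℝ) (x : ℝ) : fro (Pm f x) (Pm f x) = rho f x ^ 2 := by
  unfold Pm
  rw [fro_vecMulVec_self, dot_rho]
  ring

/-- `c ⬝ c ≤ |Y|² |F|²`. -/
lemma dot_mulVec_le (Y : Matrix ι ι ℝ) (F : ι → ℝ) :
    (Y *ᵥ F) ⬝ᵥ (Y *ᵥ F) ≤ fro Y Y * (F ⬝ᵥ F) := by
  set c := Y *ᵥ F with hc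
  have h1 : fro (vecMulVec c F) Y = c ⬝ᵥ c := by
    rw [fro_vecMulVec]
  have h2 := fro_sq_le (vecMulVec c F) Y
  rw [fro_vecMulVec_self, h1] at h2
  have h0 := dot_self_nonneg c
  rcases h0.eq_or_lt with h00 | hpos
  · rw [← h00]
    exact mul_nonneg (fro_self_nonneg _) (dot_self_nonneg _)
  · have : (c ⬝ᵥ c) * (c ⬝ᵥ c) ≤ (c ⬝ᵥ c) * (fro Y Y * (F ⬝ᵥ F)) := by
      nlinarith
    exact le_of_mul_le_mul_left this hpos

variable [DecidableEq ι]

omit [DecidableEq ι] in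
lemma fam_mul_integrable (hF : Fam0 f f' Λ) (i j : ι) : Integrable fun t => f i t * f j t :=
  (hF.h1 i).memLp.integrable_mul (hF.h1 j).memLp

lemma Mm_symm (ε : ℝ) (f : ι → ℝ → ℝ) (x : ℝ) : (Mm ε f x)ᵀ = Mm ε f x := by
  unfold Mm
  rw [Matrix.transpose_add, Matrix.transpose_smul, Matrix.transpose_one]
  congr 1
  ext i j
  simp only [Matrix.transpose_apply, Matrix.of_apply]
  exact integral_congr_ae (ae_of_all _ fun t => mul_comm _ _)

lemma Mm_quad (hF : Fam0 f f' Λ) (x : ℝ) (a : ι → ℝ) :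
    a ⬝ᵥ (Mm ε f x *ᵥ a) = ε * (a ⬝ᵥ a) + ∫ t in Iic x, (∑ i, a i * f i t) ^ 2 := by
  unfold Mm
  rw [Matrix.add_mulVec, Matrix.smul_mulVec, Matrix.one_mulVec, dotProduct_add, dotProduct_smul,
    smul_eq_mul]
  congr 1
  have e : ∀ t, (∑ i, a i * f i t) ^ 2 = ∑ i, ∑ j, a i * a j * (f i t * f j t) := by
    intro t
    rw [sq, Finset.sum_mul_sum]
    refine Finset.sum_congr rfl fun i _ => Finset.sum_congr rfl fun j _ => ?_
    ring
  simp_rw [e]
  rw [integral_finsetSum _ fun i _ => integrable_finsetSum _ fun j _ =>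
    ((fam_mul_integrable hF i j).const_mul _).integrableOn]
  simp only [dotProduct, mulVec, Matrix.of_apply]
  refine Finset.sum_congr rfl fun i _ => ?_
  rw [integral_finsetSum _ fun j _ => ((fam_mul_integrable hF i j).const_mul _).integrableOn,
    Finset.mul_sum]
  refine Finset.sum_congr rfl fun j _ => ?_
  rw [integral_const_mul]
  ring

theorem Mm_spec (hF : Fam0 f f' Λ) (hΛ : Λ + 2 * ε ≤ 1) (x : ℝ) :
    Spec (Mm ε f x) ε := by
  have hsq : ∀ a : ι → ℝ, a ⬝ᵥ a = ∑ i, a i ^ 2 := fun a => by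
    simp [dotProduct, sq]
  refine ⟨Mm_symm _ _ _, fun a => ?_, fun a => ?_⟩
  · rw [Mm_quad hF]
    have : 0 ≤ ∫ t in Iic x, (∑ i, a i * f i t) ^ 2 :=
      setIntegral_nonneg measurableSet_Iic fun t _ => sq_nonneg _
    linarith
  · rw [Mm_quad hF]
    have hU : Integrable fun t => (∑ i, a i * f i t) ^ 2 :=
      (RealH1.sum Finset.univ fun i _ => (hF.h1 i).const_mul (a i)).sq
    have h1 : ∫ t in Iic x, (∑ i, a i * f i t) ^ 2 ≤ ∫ t, (∑ i, a i * f i t) ^ 2 :=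
      setIntegral_le_integral hU (ae_of_all _ fun t => sq_nonneg _)
    have h2 := hF.bessel a
    rw [← hsq] at h2
    have h3 := dot_self_nonneg a
    nlinarith

lemma Mm_hasDerivAt (hF : Fam0 f f' Λ) (x : ℝ) (i j : ι) :
    HasDerivAt (fun y => Mm ε f y i j) (Pm f x i j) x := by
  have hc : Continuous fun t => f i t * f j t := (hF.h1 i).continuous.mul (hF.h1 j).continuous
  have h1 := (hc.integral_hasStrictDerivAt 0 x).hasDerivAt
  have h2 := h1.const_add ((ε • (1 : Matrix ι ι ℝ)) i j + ∫ t in Iic (0:ℝ), f i t * f j t)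
  have e : (fun y => Mm ε f y i j) = fun y => ((ε • (1 : Matrix ι ι ℝ)) i j +
      ∫ t in Iic (0:ℝ), f i t * f j t) + ∫ t in (0:ℝ)..y, f i t * f j t := by
    funext y
    have h3 := intervalIntegral.integral_Iic_sub_Iic (μ := volume) (a := 0) (b := y)
      (fam_mul_integrable hF i j).integrableOn (fam_mul_integrable hF i j).integrableOn
    rw [← h3]
    simp only [Mm, Matrix.add_apply, Matrix.of_apply]
    ring
  rw [e]
  exact h2

lemma Mm_continuous (hF : Fam0 f f' Λ) : Continuous (Mm ε f) :=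
  continuous_matrix fun i j => continuous_iff_continuousAt.2 fun x =>
    (Mm_hasDerivAt hF x i j).continuousAt

omit [DecidableEq ι] in
lemma Fv_continuous (hF : Fam0 f f' Λ) : Continuous (Fv f) :=
  continuous_pi fun i => (hF.h1 i).continuous

omit [DecidableEq ι] in
lemma Pm_continuous (hF : Fam0 f f' Λ) : Continuous (Pm f) :=
  (Fv_continuous hF).matrix_vecMulVec (Fv_continuous hF)

omit [DecidableEq ι] in
lemma Pm_prim (hF : Fam0 f f' Λ) (i j : ι) :
    Prim (fun x => Pm f x i j) (fun x => Pd f f' x i j) := by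
  have := (hF.h1 i).prim.mul (hF.h1 j).prim
  refine this.congr_ae (ae_of_all _ fun x => ?_)
  simp [Pd, Fv, vecMulVec_apply]

lemma Mm_prim (hF : Fam0 f f' Λ) (i j : ι) :
    Prim (fun x => Mm ε f x i j) (fun x => Pm f x i j) := by
  have hc : Continuous fun x => Pm f x i j := (Pm_continuous hF).matrix_elem i j
  refine ⟨hc.locallyIntegrable, fun a b => ?_⟩
  rw [intervalIntegral.integral_eq_sub_of_hasDerivAt (fun x _ => Mm_hasDerivAt hF x i j)
    (hc.intervalIntegrable _ _)]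

/-- A common dominating primitive for the density matrix and its integral. -/
lemma exists_dom_mat (hF : Fam0 f f' Λ) (ε : ℝ) :
    ∃ G G' : ℝ → ℝ, Prim G G' ∧ ∀ i j x y,
      |Pm f x i j - Pm f y i j| ≤ |G x - G y| ∧ |Mm ε f x i j - Mm ε f y i j| ≤ |G x - G y| := by
  let g : (ι × ι) ⊕ (ι × ι) → ℝ → ℝ := fun l => match l with
    | Sum.inl p => fun x => Pm f x p.1 p.2
    | Sum.inr p => fun x => Mm ε f x p.1 p.2
  let g' : (ι × ι) ⊕ (ι × ι) → ℝ → ℝ := fun l => match l with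
    | Sum.inl p => fun x => Pd f f' x p.1 p.2
    | Sum.inr p => fun x => Pm f x p.1 p.2
  have h : ∀ l, Prim (g l) (g' l) := by
    intro l
    cases l with
    | inl p => exact Pm_prim hF p.1 p.2
    | inr p => exact Mm_prim hF p.1 p.2
  obtain ⟨G, G', hG, hdom⟩ := exists_dom h
  exact ⟨G, G', hG, fun i j x y => ⟨hdom (Sum.inl (i, j)) x y, hdom (Sum.inr (i, j)) x y⟩⟩

end

end Vale.Agent.Lib.P371.Sharp
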