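import Vale.Agent.Lib.P371.SharpCore
import Vale.Agent.Lib.P371.SharpAlg2

/-! Families with several channels: the density matrix and its integral along the line. -/

open Matrix Filter Topology Set MeasureTheory

namespace Vale.Agent.Lib.P371.Sharp

noncomputable section

variable {ι κ : Type*} [Fintype ι] [Fintype κ] {f f' : κ → ι → ℝ → ℝ} {Λ ε : ℝ}

/-- The hypotheses on a family with several channels. -/
structure FamM (f f' : κ → ι → ℝ → ℝ) (Λ : ℝ) : Prop where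
  h1 : ∀ α i, RealH1 (f α i) (f' α i)
  meas' : ∀ α i, Measurable (f' α i)
  bessel : ∀ a : ι → ℝ, ∑ α, ∫ y, (∑ i, a i * f α i y) ^ 2 ≤ Λ * ∑ i, a i ^ 2

/-- The density matrix. -/
def Pmm (f : κ → ι → ℝ → ℝ) (x : ℝ) : Matrix ι ι ℝ := ∑ α, Pm (f α) x

/-- The derivative of the density matrix. -/
def Pdm (f f' : κ → ι → ℝ → ℝ) (x : ℝ) : Matrix ι ι ℝ := ∑ α, Pd (f α) (f' α) x

/-- The trace of the density matrix. -/
def rhoM (f : κ → ι → ℝ → ℝ) (x : ℝ) : ℝ := ∑ α, rho (f α) x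

/-- The kinetic density. -/
def densM (f' : κ → ι → ℝ → ℝ) (x : ℝ) : ℝ := ∑ α, dens (f' α) x

/-- The integrated density matrix, shifted by `ε`. -/
def Mmm [DecidableEq ι] (ε : ℝ) (f : κ → ι → ℝ → ℝ) (x : ℝ) : Matrix ι ι ℝ :=
  ε • 1 + Matrix.of fun i j => ∑ α, ∫ t in Iic x, f α i t * f α j t

lemma rhoM_nonneg (f : κ → ι → ℝ → ℝ) (x : ℝ) : 0 ≤ rhoM f x :=
  Finset.sum_nonneg fun α _ => Fam.rho_nonneg _ x

lemma fro_sum_left {β : Type*} (s : Finset β) (A : β → Matrix ι ι ℝ) (X : Matrix ι ι ℝ) :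
    fro (∑ α ∈ s, A α) X = ∑ α ∈ s, fro (A α) X := by
  classical
  induction s using Finset.induction_on with
  | empty => simp [fro_eq_sum]
  | insert a s ha ih => rw [Finset.sum_insert ha, Finset.sum_insert ha, fro_add_left, ih]

lemma fro_sum_right {β : Type*} (s : Finset β) (A : β → Matrix ι ι ℝ) (X : Matrix ι ι ℝ) :
    fro X (∑ α ∈ s, A α) = ∑ α ∈ s, fro X (A α) := by
  rw [fro_comm, fro_sum_left]
  exact Finset.sum_congr rfl fun α _ => fro_comm _ _

lemma fro_self_vecMulVec_le (u v : ι → ℝ) :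
    fro (vecMulVec u u) (vecMulVec v v) ≤ (u ⬝ᵥ u) * (v ⬝ᵥ v) := by
  have h := fro_sq_le (vecMulVec u u) (vecMulVec v v)
  rw [fro_vecMulVec_self, fro_vecMulVec_self] at h
  have hu := dot_self_nonneg u
  have hv := dot_self_nonneg v
  have h2 : 0 ≤ (u ⬝ᵥ u) * (v ⬝ᵥ v) := mul_nonneg hu hv
  have e : (u ⬝ᵥ u) * (u ⬝ᵥ u) * ((v ⬝ᵥ v) * (v ⬝ᵥ v)) = ((u ⬝ᵥ u) * (v ⬝ᵥ v)) ^ 2 := by ring
  rw [e] at h
  exact (le_abs_self _).trans (abs_le_of_sq_le_sq h h2)

lemma fro_Pmm_self_le (f : κ → ι → ℝ → ℝ) (x : ℝ) :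
    fro (Pmm f x) (Pmm f x) ≤ rhoM f x ^ 2 := by
  unfold Pmm rhoM
  rw [fro_sum_left, sq, Finset.sum_mul_sum]
  refine Finset.sum_le_sum fun α _ => ?_
  rw [fro_sum_right]
  refine Finset.sum_le_sum fun β _ => ?_
  unfold Pm
  rw [← dot_rho, ← dot_rho]
  exact fro_self_vecMulVec_le _ _

/-- The sum over the channels of the squares of `Y F`. -/
lemma sum_dot_eq (f : κ → ι → ℝ → ℝ) (x : ℝ) (Y : Matrix ι ι ℝ) :
    ∑ α, (Y *ᵥ Fv (f α) x) ⬝ᵥ (Y *ᵥ Fv (f α) x) = fro Y (Y * Pmm f x) := by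
  unfold Pmm
  rw [Finset.mul_sum, fro_sum_right]
  refine Finset.sum_congr rfl fun α _ => ?_
  unfold Pm
  rw [Matrix.mul_vecMulVec, fro_comm, fro_vecMulVec]

lemma Pmm_symm (f : κ → ι → ℝ → ℝ) (x : ℝ) : (Pmm f x)ᵀ = Pmm f x := by
  unfold Pmm Pm
  rw [Matrix.transpose_sum]
  refine Finset.sum_congr rfl fun α _ => ?_
  rw [Matrix.transpose_vecMulVec]

lemma Pmm_quad (f : κ → ι → ℝ → ℝ) (x : ℝ) (a : ι → ℝ) :
    a ⬝ᵥ (Pmm f x *ᵥ a) = ∑ α, (a ⬝ᵥ Fv (f α) x) ^ 2 := by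
  unfold Pmm Pm
  rw [Matrix.sum_mulVec, dotProduct_sum]
  refine Finset.sum_congr rfl fun α _ => ?_
  simp only [dotProduct, mulVec, vecMulVec_apply]
  rw [sq, Finset.sum_mul_sum]
  refine Finset.sum_congr rfl fun i _ => ?_
  rw [Finset.mul_sum]
  refine Finset.sum_congr rfl fun j _ => ?_
  ring

lemma Pmm_psd (f : κ → ι → ℝ → ℝ) (x : ℝ) (a : ι → ℝ) : 0 ≤ a ⬝ᵥ (Pmm f x *ᵥ a) := by
  rw [Pmm_quad]
  exact Finset.sum_nonneg fun α _ => sq_nonneg _

lemma Pmm_continuous (hF : FamM f f' Λ) : Continuous (Pmm f) := by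
  unfold Pmm
  refine continuous_matrix fun i j => ?_
  simp only [Matrix.sum_apply]
  refine continuous_finsetSum _ fun α _ => ?_
  simp only [Pm, Fv, vecMulVec_apply]
  exact (hF.h1 α i).continuous.mul (hF.h1 α j).continuous

lemma FamM.fv_continuous (hF : FamM f f' Λ) (α : κ) : Continuous (Fv (f α)) :=
  continuous_pi fun i => (hF.h1 α i).continuous

lemma FamM.mul_integrable (hF : FamM f f' Λ) (α : κ) (i j : ι) :
    Integrable fun t => f α i t * f α j t :=
  (hF.h1 α i).memLp.integrable_mul (hF.h1 α j).memLp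

lemma rhoM_continuous (hF : FamM f f' Λ) : Continuous (rhoM f) := by
  unfold rhoM
  refine continuous_finsetSum _ fun α _ => ?_
  have : rho (f α) = fun x => Fv (f α) x ⬝ᵥ Fv (f α) x := by
    funext x
    rw [dot_rho]
  rw [this]
  exact (hF.fv_continuous α).dotProduct (hF.fv_continuous α)

lemma rhoM_integrable (hF : FamM f f' Λ) : Integrable (rhoM f) :=
  integrable_finsetSum _ fun α _ => integrable_finsetSum _ fun i _ => (hF.h1 α i).sq

/-- The trace of the density matrix is bounded. -/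
lemma exists_rhoM_bound (hF : FamM f f' Λ) : ∃ C : ℝ, 0 ≤ C ∧ ∀ x, rhoM f x ≤ C := by
  refine ⟨∑ α, ∑ i, ∫ t, |2 * (f α i t * f' α i t)|, ?_, fun x => ?_⟩
  · exact Finset.sum_nonneg fun α _ => Finset.sum_nonneg fun i _ =>
      integral_nonneg fun t => abs_nonneg _
  · unfold rhoM rho
    exact Finset.sum_le_sum fun α _ => Finset.sum_le_sum fun i _ => (hF.h1 α i).sq_le x

lemma rhoM3_integrable (hF : FamM f f' Λ) : Integrable fun x => rhoM f x ^ 3 := by
  obtain ⟨C, hC0, hC⟩ := exists_rhoM_bound hF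
  have hc := rhoM_continuous hF
  refine ((rhoM_integrable hF).const_mul (C ^ 2)).mono' (hc.pow 3).aestronglyMeasurable
    (ae_of_all _ fun x => ?_)
  have h0 := rhoM_nonneg f x
  rw [Real.norm_eq_abs, abs_of_nonneg (by positivity)]
  have h1 : rhoM f x ^ 2 ≤ C ^ 2 := pow_le_pow_left₀ h0 (hC x) 2
  calc rhoM f x ^ 3 = rhoM f x ^ 2 * rhoM f x := by ring
    _ ≤ C ^ 2 * rhoM f x := mul_le_mul_of_nonneg_right h1 h0

variable [DecidableEq ι]

lemma Mmm_symm (ε : ℝ) (f : κ → ι → ℝ → ℝ) (x : ℝ) : (Mmm ε f x)ᵀ = Mmm ε f x := by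
  unfold Mmm
  rw [Matrix.transpose_add, Matrix.transpose_smul, Matrix.transpose_one]
  congr 1
  ext i j
  simp only [Matrix.transpose_apply, Matrix.of_apply]
  exact Finset.sum_congr rfl fun α _ => integral_congr_ae (ae_of_all _ fun t => mul_comm _ _)

lemma Mmm_quad (hF : FamM f f' Λ) (x : ℝ) (a : ι → ℝ) :
    a ⬝ᵥ (Mmm ε f x *ᵥ a) = ε * (a ⬝ᵥ a) + ∑ α, ∫ t in Iic x, (∑ i, a i * f α i t) ^ 2 := by
  unfold Mmm
  rw [Matrix.add_mulVec, Matrix.smul_mulVec, Matrix.one_mulVec, dotProduct_add, dotProduct_smul,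
    smul_eq_mul]
  congr 1
  have e : ∀ α t, (∑ i, a i * f α i t) ^ 2 = ∑ i, ∑ j, a i * a j * (f α i t * f α j t) := by
    intro α t
    rw [sq, Finset.sum_mul_sum]
    refine Finset.sum_congr rfl fun i _ => Finset.sum_congr rfl fun j _ => ?_
    ring
  simp_rw [e]
  have e2 : ∀ α, ∫ t in Iic x, ∑ i, ∑ j, a i * a j * (f α i t * f α j t) =
      ∑ i, ∑ j, a i * a j * ∫ t in Iic x, f α i t * f α j t := by
    intro α
    rw [integral_finsetSum _ fun i _ => integrable_finsetSum _ fun j _ =>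
      ((hF.mul_integrable α i j).const_mul _).integrableOn]
    refine Finset.sum_congr rfl fun i _ => ?_
    rw [integral_finsetSum _ fun j _ => ((hF.mul_integrable α i j).const_mul _).integrableOn]
    refine Finset.sum_congr rfl fun j _ => ?_
    rw [integral_const_mul]
  simp_rw [e2]
  simp only [dotProduct, mulVec, Matrix.of_apply]
  rw [Finset.sum_comm]
  refine Finset.sum_congr rfl fun i _ => ?_
  rw [Finset.mul_sum, Finset.sum_comm]
  refine Finset.sum_congr rfl fun j _ => ?_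
  rw [Finset.sum_mul, Finset.mul_sum]
  refine Finset.sum_congr rfl fun α _ => ?_
  ring

theorem Mmm_spec (hF : FamM f f' Λ) (hΛ : Λ + 2 * ε ≤ 1) (x : ℝ) : Spec (Mmm ε f x) ε := by
  have hsq : ∀ a : ι → ℝ, a ⬝ᵥ a = ∑ i, a i ^ 2 := fun a => by
    simp [dotProduct, sq]
  refine ⟨Mmm_symm _ _ _, fun a => ?_, fun a => ?_⟩
  · rw [Mmm_quad hF]
    have : 0 ≤ ∑ α, ∫ t in Iic x, (∑ i, a i * f α i t) ^ 2 :=
      Finset.sum_nonneg fun α _ => setIntegral_nonneg measurableSet_Iic fun t _ => sq_nonneg _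
    linarith
  · rw [Mmm_quad hF]
    have h1 : ∑ α, ∫ t in Iic x, (∑ i, a i * f α i t) ^ 2 ≤ ∑ α, ∫ t, (∑ i, a i * f α i t) ^ 2 := by
      refine Finset.sum_le_sum fun α _ => ?_
      have hU : Integrable fun t => (∑ i, a i * f α i t) ^ 2 :=
        (RealH1.sum Finset.univ fun i _ => (hF.h1 α i).const_mul (a i)).sq
      exact setIntegral_le_integral hU (ae_of_all _ fun t => sq_nonneg _)
    have h2 := hF.bessel a
    rw [← hsq] at h2
    have h3 := dot_self_nonneg a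
    nlinarith

lemma Mmm_hasDerivAt (hF : FamM f f' Λ) (x : ℝ) (i j : ι) :
    HasDerivAt (fun y => Mmm ε f y i j) (Pmm f x i j) x := by
  have h1 : ∀ α ∈ (Finset.univ : Finset κ), HasDerivAt
      (fun y => ∫ t in Iic y, f α i t * f α j t) (f α i x * f α j x) x := by
    intro α _
    have hc : Continuous fun t => f α i t * f α j t :=
      (hF.h1 α i).continuous.mul (hF.h1 α j).continuous
    have h2 := (hc.integral_hasStrictDerivAt 0 x).hasDerivAt
    have h3 := h2.const_add (∫ t in Iic (0:ℝ), f α i t * f α j t)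
    have e : (fun y => ∫ t in Iic y, f α i t * f α j t) =
        fun y => (∫ t in Iic (0:ℝ), f α i t * f α j t) + ∫ t in (0:ℝ)..y, f α i t * f α j t := by
      funext y
      have h4 := intervalIntegral.integral_Iic_sub_Iic (μ := volume) (a := 0) (b := y)
        (hF.mul_integrable α i j).integrableOn (hF.mul_integrable α i j).integrableOn
      rw [← h4]
      ring
    rw [e]
    exact h3
  have h2 := (HasDerivAt.fun_sum h1).const_add ((ε • (1 : Matrix ι ι ℝ)) i j)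
  have e : Pmm f x i j = ∑ α, f α i x * f α j x := by
    simp [Pmm, Pm, Fv, Matrix.sum_apply, vecMulVec_apply]
  rw [e]
  exact h2

lemma Mmm_continuous (hF : FamM f f' Λ) : Continuous (Mmm ε f) :=
  continuous_matrix fun i j => continuous_iff_continuousAt.2 fun x =>
    (Mmm_hasDerivAt hF x i j).continuousAt

omit [DecidableEq ι] in
lemma Pmm_prim (hF : FamM f f' Λ) (i j : ι) :
    Prim (fun x => Pmm f x i j) (fun x => Pdm f f' x i j) := by
  have h : ∀ α ∈ (Finset.univ : Finset κ),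
      Prim (fun x => f α i x * f α j x) (fun x => f' α i x * f α j x + f α i x * f' α j x) :=
    fun α _ => (hF.h1 α i).prim.mul (hF.h1 α j).prim
  have h2 := Prim.sum Finset.univ h
  have e1 : (fun x => Pmm f x i j) = fun x => ∑ α, f α i x * f α j x := by
    funext x
    simp [Pmm, Pm, Fv, Matrix.sum_apply, vecMulVec_apply]
  rw [e1]
  refine h2.congr_ae (ae_of_all _ fun x => ?_)
  simp [Pdm, Pd, Fv, Matrix.sum_apply, vecMulVec_apply]

lemma Mmm_prim (hF : FamM f f' Λ) (i j : ι) :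
    Prim (fun x => Mmm ε f x i j) (fun x => Pmm f x i j) := by
  have hc : Continuous fun x => Pmm f x i j := (Pmm_continuous hF).matrix_elem i j
  refine ⟨hc.locallyIntegrable, fun a b => ?_⟩
  rw [intervalIntegral.integral_eq_sub_of_hasDerivAt (fun x _ => Mmm_hasDerivAt hF x i j)
    (hc.intervalIntegrable _ _)]

/-- A common dominating primitive for the density matrix and its integral. -/
lemma exists_dom_matm (hF : FamM f f' Λ) (ε : ℝ) :
    ∃ G G' : ℝ → ℝ, Prim G G' ∧ ∀ i j x y,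
      |Pmm f x i j - Pmm f y i j| ≤ |G x - G y| ∧ |Mmm ε f x i j - Mmm ε f y i j| ≤ |G x - G y| := by
  let g : (ι × ι) ⊕ (ι × ι) → ℝ → ℝ := fun l => match l with
    | Sum.inl p => fun x => Pmm f x p.1 p.2
    | Sum.inr p => fun x => Mmm ε f x p.1 p.2
  let g' : (ι × ι) ⊕ (ι × ι) → ℝ → ℝ := fun l => match l with
    | Sum.inl p => fun x => Pdm f f' x p.1 p.2
    | Sum.inr p => fun x => Pmm f x p.1 p.2
  have h : ∀ l, Prim (g l) (g' l) := by
    intro l
    cases l with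
    | inl p => exact Pmm_prim hF p.1 p.2
    | inr p => exact Mmm_prim hF p.1 p.2
  obtain ⟨G, G', hG, hdom⟩ := exists_dom h
  exact ⟨G, G', hG, fun i j x y => ⟨hdom (Sum.inl (i, j)) x y, hdom (Sum.inr (i, j)) x y⟩⟩

end

end Vale.Agent.Lib.P371.Sharp
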