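import Vale.Agent.Lib.P371.SharpTrig

/-! Positive semidefinite kernels built from the sine function. -/

open Filter Topology Set Matrix MeasureTheory

namespace Vale.Agent.Lib.P371.Sharp

noncomputable section

variable {κ : Type*} [Fintype κ]

/-- A symmetric positive semidefinite kernel on a finite set. -/
def PK (K : κ → κ → ℝ) : Prop :=
  (∀ a b, K a b = K b a) ∧ ∀ x : κ → ℝ, 0 ≤ ∑ a, ∑ b, x a * x b * K a b

lemma PK.congr {K L : κ → κ → ℝ} (hK : PK K) (e : ∀ a b, L a b = K a b) : PK L := by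
  have : L = K := by
    funext a b
    exact e a b
  rwa [this]

lemma PK.add {K L : κ → κ → ℝ} (hK : PK K) (hL : PK L) : PK fun a b => K a b + L a b := by
  refine ⟨fun a b => by dsimp only; rw [hK.1, hL.1], fun x => ?_⟩
  have e : ∑ a, ∑ b, x a * x b * (K a b + L a b) =
      ∑ a, ∑ b, x a * x b * K a b + ∑ a, ∑ b, x a * x b * L a b := by
    rw [← Finset.sum_add_distrib]
    refine Finset.sum_congr rfl fun a _ => ?_
    rw [← Finset.sum_add_distrib]
    refine Finset.sum_congr rfl fun b _ => ?_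
    ring
  rw [e]
  exact add_nonneg (hK.2 x) (hL.2 x)

lemma PK.smul {K : κ → κ → ℝ} (hK : PK K) {c : ℝ} (hc : 0 ≤ c) : PK fun a b => c * K a b := by
  refine ⟨fun a b => by dsimp only; rw [hK.1], fun x => ?_⟩
  have e : ∑ a, ∑ b, x a * x b * (c * K a b) = c * ∑ a, ∑ b, x a * x b * K a b := by
    rw [Finset.mul_sum]
    refine Finset.sum_congr rfl fun a _ => ?_
    rw [Finset.mul_sum]
    refine Finset.sum_congr rfl fun b _ => ?_
    ring
  rw [e]
  exact mul_nonneg hc (hK.2 x)

/-- A rank one kernel. -/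
lemma PK.rank_one (f : κ → ℝ) : PK fun a b => f a * f b := by
  refine ⟨fun a b => mul_comm _ _, fun x => ?_⟩
  have e : ∑ a, ∑ b, x a * x b * (f a * f b) = (∑ a, x a * f a) ^ 2 := by
    rw [sq, Finset.sum_mul_sum]
    refine Finset.sum_congr rfl fun a _ => Finset.sum_congr rfl fun b _ => ?_
    ring
  rw [e]
  exact sq_nonneg _

lemma PK.const {c : ℝ} (hc : 0 ≤ c) : PK fun _ _ : κ => c := by
  have := (PK.rank_one (fun _ : κ => (1:ℝ))).smul hc
  simpa using this

/-- The cosine kernel. -/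
lemma PK.cos (f : κ → ℝ) : PK fun a b => Real.cos (f a - f b) := by
  have := (PK.rank_one fun a => Real.cos (f a)).add (PK.rank_one fun a => Real.sin (f a))
  refine ⟨fun a b => ?_, fun x => ?_⟩
  · dsimp only
    rw [← Real.cos_neg, neg_sub]
  · have h := this.2 x
    simpa only [Real.cos_sub] using h

/-- The **Schur product theorem** for kernels. -/
lemma PK.mul {K L : κ → κ → ℝ} (hK : PK K) (hL : PK L) : PK fun a b => K a b * L a b := by
  classical
  have key : ∀ {K : κ → κ → ℝ}, PK K → (Matrix.of K).PosSemidef := by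
    intro K hK
    rw [Matrix.posSemidef_iff_dotProduct_mulVec]
    refine ⟨?_, fun x => ?_⟩
    · ext a b
      simp [hK.1 b a]
    · have h := hK.2 x
      have e : star x ⬝ᵥ (Matrix.of K *ᵥ x) = ∑ a, ∑ b, x a * x b * K a b := by
        simp only [dotProduct, mulVec, Matrix.of_apply, star_trivial]
        refine Finset.sum_congr rfl fun a _ => ?_
        rw [Finset.mul_sum]
        refine Finset.sum_congr rfl fun b _ => ?_
        ring
      rw [e]
      exact h
  have h := (key hK).hadamard (key hL)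
  rw [Matrix.posSemidef_iff_dotProduct_mulVec] at h
  refine ⟨fun a b => by dsimp only; rw [hK.1, hL.1], fun x => ?_⟩
  have h2 := h.2 x
  have e : star x ⬝ᵥ ((Matrix.of K ⊙ Matrix.of L) *ᵥ x) =
      ∑ a, ∑ b, x a * x b * (K a b * L a b) := by
    simp only [dotProduct, mulVec, Matrix.hadamard_apply, Matrix.of_apply, star_trivial]
    refine Finset.sum_congr rfl fun a _ => ?_
    rw [Finset.mul_sum]
    refine Finset.sum_congr rfl fun b _ => ?_
    ring
  rw [e] at h2
  exact h2

/-- Limits of kernels. -/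
lemma PK.of_tendsto {K : κ → κ → ℝ} {L : ℕ → κ → κ → ℝ} (hL : ∀ n, PK (L n))
    (h : ∀ a b, Tendsto (fun n => L n a b) atTop (𝓝 (K a b))) : PK K := by
  refine ⟨fun a b => ?_, fun x => ?_⟩
  · refine tendsto_nhds_unique (h a b) ?_
    simp_rw [(hL _).1 a b]
    exact h b a
  · have h1 : Tendsto (fun n => ∑ a, ∑ b, x a * x b * L n a b) atTop
        (𝓝 (∑ a, ∑ b, x a * x b * K a b)) :=
      tendsto_finsetSum _ fun a _ => tendsto_finsetSum _ fun b _ => (h a b).const_mul _
    exact ge_of_tendsto' h1 fun n => (hL n).2 x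

lemma PK.prod {K : ℕ → κ → κ → ℝ} (hK : ∀ n, PK (K n)) (N : ℕ) :
    PK fun a b => ∏ n ∈ Finset.range N, K n a b := by
  induction N with
  | zero => simpa using PK.const (κ := κ) (zero_le_one)
  | succ N ih =>
    simp only [Finset.prod_range_succ]
    exact ih.mul (hK N)

/-- The Cauchy kernel. -/
lemma PK.cauchy {f : κ → ℝ} (hf : ∀ a, 0 < f a) : PK fun a b => 1 / (f a + f b) := by
  refine ⟨fun a b => by dsimp only; rw [add_comm], fun x => ?_⟩
  have hint : ∀ a b, IntegrableOn (fun t => Real.exp (-(f a + f b) * t)) (Ioi 0) := fun a b =>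
    integrableOn_exp_mul_Ioi (by have := hf a; have := hf b; linarith) 0
  have e1 : ∀ a b, 1 / (f a + f b) = ∫ t in Ioi (0:ℝ), Real.exp (-(f a + f b) * t) := by
    intro a b
    have h0 : -(f a + f b) < 0 := by have := hf a; have := hf b; linarith
    rw [integral_exp_mul_Ioi h0 0, mul_zero, Real.exp_zero, neg_div_neg_eq]
  have e2 : ∑ a, ∑ b, x a * x b * (1 / (f a + f b)) =
      ∫ t in Ioi (0:ℝ), (∑ a, x a * Real.exp (-f a * t)) ^ 2 := by
    have e3 : ∀ t : ℝ, (∑ a, x a * Real.exp (-f a * t)) ^ 2 =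
        ∑ a, ∑ b, x a * x b * Real.exp (-(f a + f b) * t) := by
      intro t
      rw [sq, Finset.sum_mul_sum]
      refine Finset.sum_congr rfl fun a _ => Finset.sum_congr rfl fun b _ => ?_
      have : -(f a + f b) * t = -f a * t + -f b * t := by ring
      rw [this, Real.exp_add]
      ring
    simp_rw [e3]
    rw [integral_finsetSum _ fun a _ => integrable_finsetSum _ fun b _ => (hint a b).const_mul _]
    refine Finset.sum_congr rfl fun a _ => ?_
    rw [integral_finsetSum _ fun b _ => (hint a b).const_mul _]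
    refine Finset.sum_congr rfl fun b _ => ?_
    rw [integral_const_mul, e1]
  rw [e2]
  exact setIntegral_nonneg measurableSet_Ioi fun t _ => sq_nonneg _

variable {β : κ → ℝ}

/-- One factor of the Euler product. -/
lemma PK.factor {lam c : ℝ} (hl0 : 0 ≤ lam) (hl1 : lam ≤ 1) (hc : Real.pi ≤ c)
    (hβ0 : ∀ a, 0 < β a) (hβ1 : ∀ a, β a < Real.pi / 2) :
    PK fun a b => (1 - lam ^ 2 * (β a + β b) ^ 2 / c ^ 2) / (1 - (β a + β b) ^ 2 / c ^ 2) := by
  have hpi := Real.pi_pos
  have hc0 : 0 < c := by linarith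
  have h1 : PK fun a b => 1 / ((c / 2 + β a) + (c / 2 + β b)) :=
    PK.cauchy fun a => by have := hβ0 a; positivity
  have h2 : PK fun a b => 1 / ((c / 2 - β a) + (c / 2 - β b)) :=
    PK.cauchy fun a => by have := hβ1 a; linarith
  have hl : 0 ≤ 1 - lam ^ 2 := by nlinarith
  have h3 := ((h1.add h2).smul (mul_nonneg hl (by positivity : (0:ℝ) ≤ c / 2))).add
    ((PK.const (κ := κ) (sq_nonneg lam)))
  refine h3.congr fun a b => ?_
  have a0 := hβ0 a
  have b0 := hβ0 b
  have a1 := hβ1 a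
  have b1 := hβ1 b
  set z := β a + β b with hz
  have hz0 : 0 < z := by positivity
  have hz1 : z < c := by linarith
  have e1 : (c / 2 + β a) + (c / 2 + β b) = c + z := by rw [hz]; ring
  have e2 : (c / 2 - β a) + (c / 2 - β b) = c - z := by rw [hz]; ring
  rw [e1, e2]
  have h5 : c - z ≠ 0 := by linarith
  have h6 : c + z ≠ 0 := by linarith
  have h8 : 1 - z ^ 2 / c ^ 2 = (c - z) * (c + z) / c ^ 2 := by
    field_simp
    ring
  rw [h8]
  field_simp
  ring

/-- The ratio of sines is a positive semidefinite kernel. -/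
lemma PK.xi {lam : ℝ} (hl0 : 0 ≤ lam) (hl1 : lam ≤ 1)
    (hβ0 : ∀ a, 0 < β a) (hβ1 : ∀ a, β a < Real.pi / 2) :
    PK fun a b => Real.sin (lam * (β a + β b)) / Real.sin (β a + β b) := by
  have hpi := Real.pi_pos
  have hfac : ∀ n : ℕ, PK fun a b =>
      (1 - lam ^ 2 * (β a + β b) ^ 2 / ((n + 1 : ℝ) * Real.pi) ^ 2) /
        (1 - (β a + β b) ^ 2 / ((n + 1 : ℝ) * Real.pi) ^ 2) := fun n => by
    refine PK.factor hl0 hl1 ?_ hβ0 hβ1
    have : (0:ℝ) ≤ n := Nat.cast_nonneg n
    nlinarith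
  have hprod := fun N : ℕ => (PK.prod (κ := κ) hfac N).smul hl0
  refine PK.of_tendsto hprod fun a b => ?_
  have a0 := hβ0 a
  have b0 := hβ0 b
  have a1 := hβ1 a
  have b1 := hβ1 b
  set z := β a + β b with hz
  have hz0 : 0 < z := by positivity
  have hz1 : z < Real.pi := by linarith
  have hs : Real.sin z ≠ 0 := (Real.sin_pos_of_pos_of_lt_pi hz0 hz1).ne'
  have h1 := Real.tendsto_euler_sin_prod (lam * z / Real.pi)
  have h2 := Real.tendsto_euler_sin_prod (z / Real.pi)
  have e1 : Real.pi * (lam * z / Real.pi) = lam * z := by field_simp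
  have e2 : Real.pi * (z / Real.pi) = z := by field_simp
  rw [e1] at h1
  rw [e2] at h2
  have h3 : Tendsto (fun n : ℕ =>
      (lam * z * ∏ j ∈ Finset.range n, (1 - (lam * z / Real.pi) ^ 2 / ((j : ℝ) + 1) ^ 2)) /
        (z * ∏ j ∈ Finset.range n, (1 - (z / Real.pi) ^ 2 / ((j : ℝ) + 1) ^ 2))) atTop
      (𝓝 (Real.sin (lam * z) / Real.sin z)) := h1.div h2 hs
  have hne : ∀ n : ℕ, ∏ j ∈ Finset.range n, (1 - (z / Real.pi) ^ 2 / ((j : ℝ) + 1) ^ 2) ≠ 0 := by
    intro n
    refine Finset.prod_ne_zero_iff.2 fun j _ => ?_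
    have hj : (1:ℝ) ≤ (j : ℝ) + 1 := by
      have : (0:ℝ) ≤ j := Nat.cast_nonneg j
      linarith
    have h4 : (z / Real.pi) ^ 2 < 1 := by
      have : z / Real.pi < 1 := by
        rw [div_lt_one hpi]
        exact hz1
      have h0 : 0 < z / Real.pi := by positivity
      nlinarith
    have h5 : (z / Real.pi) ^ 2 / ((j : ℝ) + 1) ^ 2 < 1 := by
      rw [div_lt_one (by positivity)]
      nlinarith
    linarith
  have e3 : ∀ j : ℕ, 1 - lam ^ 2 * z ^ 2 / (((j : ℝ) + 1) * Real.pi) ^ 2 =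
      1 - (lam * z / Real.pi) ^ 2 / ((j : ℝ) + 1) ^ 2 := by
    intro j
    have : (j : ℝ) + 1 ≠ 0 := by positivity
    field_simp
  have e4 : ∀ j : ℕ, 1 - z ^ 2 / (((j : ℝ) + 1) * Real.pi) ^ 2 =
      1 - (z / Real.pi) ^ 2 / ((j : ℝ) + 1) ^ 2 := by
    intro j
    have : (j : ℝ) + 1 ≠ 0 := by positivity
    field_simp
  refine h3.congr fun n => ?_
  rw [Finset.prod_div_distrib]
  simp_rw [e3, e4]
  have := hne n
  field_simp

/-- The reflected ratio of sines. -/
lemma PK.xi' {lam : ℝ} (hl0 : 0 ≤ lam) (hl1 : lam ≤ 1)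
    (hβ0 : ∀ a, 0 < β a) (hβ1 : ∀ a, β a < Real.pi / 2) :
    PK fun a b => Real.sin (lam * (Real.pi - (β a + β b))) / Real.sin (β a + β b) := by
  have h := PK.xi (β := fun a => Real.pi / 2 - β a) hl0 hl1 (fun a => by have := hβ1 a; linarith)
    (fun a => by have := hβ0 a; linarith)
  refine h.congr fun a b => ?_
  have e : Real.pi / 2 - β a + (Real.pi / 2 - β b) = Real.pi - (β a + β b) := by ring
  rw [e, Real.sin_pi_sub]

/-- The general ratio. -/
lemma PK.eta {A lam : ℝ} (hl0 : 0 < lam) (hl1 : lam < 1) (hA : 0 ≤ Real.sin A)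
    (hA' : 0 ≤ Real.sin (A + lam * Real.pi))
    (hβ0 : ∀ a, 0 < β a) (hβ1 : ∀ a, β a < Real.pi / 2) :
    PK fun a b => Real.sin (A + lam * (β a + β b)) / Real.sin (β a + β b) := by
  have hpi := Real.pi_pos
  have hs : 0 < Real.sin (lam * Real.pi) :=
    Real.sin_pos_of_pos_of_lt_pi (by positivity) (by nlinarith)
  have h1 := PK.xi' (β := β) hl0.le hl1.le hβ0 hβ1
  have h2 := PK.xi (β := β) hl0.le hl1.le hβ0 hβ1
  have h3 := (h1.smul (div_nonneg hA hs.le)).add (h2.smul (div_nonneg hA' hs.le))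
  refine h3.congr fun a b => ?_
  set z := β a + β b with hz
  have key : Real.sin (A + lam * z) * Real.sin (lam * Real.pi) =
      Real.sin A * Real.sin (lam * (Real.pi - z)) +
        Real.sin (A + lam * Real.pi) * Real.sin (lam * z) := by
    have e1 : lam * (Real.pi - z) = lam * Real.pi - lam * z := by ring
    rw [e1, Real.sin_add, Real.sin_sub, Real.sin_add]
    ring
  have hsz : Real.sin z ≠ 0 := by
    have a0 := hβ0 a
    have b0 := hβ0 b
    have a1 := hβ1 a
    have b1 := hβ1 b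
    exact (Real.sin_pos_of_pos_of_lt_pi (by rw [hz]; positivity) (by rw [hz]; linarith)).ne'
  field_simp
  linear_combination key

lemma sum_form (u v : ℝ) : (Real.sin (u + v) + Real.sin (u - v)) / 2 = Real.sin u * Real.cos v := by
  rw [Real.sin_add, Real.sin_sub]
  ring

/-- The main kernel: for a parameter `t` in `[0, 1)` and a base point `α` the kernel
`(T a + T b) / sin (β a + β b)` with `T a = sin (α + β a) cos (t (α - β a))` is positive
semidefinite. -/
theorem PK.main {α t : ℝ} (hα0 : 0 < α) (hα1 : α < Real.pi / 2) (ht0 : 0 ≤ t) (ht1 : t < 1)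
    (hβ0 : ∀ a, 0 < β a) (hβ1 : ∀ a, β a < Real.pi / 2) :
    PK fun a b => (Real.sin (α + β a) * Real.cos (t * (α - β a)) +
      Real.sin (α + β b) * Real.cos (t * (α - β b))) / Real.sin (β a + β b) := by
  have hpi := Real.pi_pos
  set p := 1 + t with hp
  set q := 1 - t with hq
  have hq0 : 0 < q := by rw [hq]; linarith
  have hp0 : 0 < p := by rw [hp]; linarith
  have hpq : p + q = 2 := by rw [hp, hq]; ring
  have hA1 : 0 ≤ Real.sin (p * α) :=
    Real.sin_nonneg_of_nonneg_of_le_pi (by positivity) (by nlinarith)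
  have hA2 : 0 ≤ Real.sin (p * α + q / 2 * Real.pi) :=
    Real.sin_nonneg_of_nonneg_of_le_pi (by positivity) (by nlinarith)
  have hA3 : 0 ≤ Real.sin (q * α) :=
    Real.sin_nonneg_of_nonneg_of_le_pi (by positivity) (by nlinarith)
  have hA4 : 0 ≤ Real.sin (q * α + p / 2 * Real.pi) :=
    Real.sin_nonneg_of_nonneg_of_le_pi (by positivity) (by nlinarith)
  have h1 := (PK.eta (β := β) (A := p * α) (lam := q / 2) (by positivity) (by linarith) hA1 hA2
    hβ0 hβ1).mul (PK.cos (fun a => q / 2 * β a))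
  have h2 := (PK.eta (β := β) (A := q * α) (lam := p / 2) (by positivity) (by linarith) hA3 hA4
    hβ0 hβ1).mul (PK.cos (fun a => p / 2 * β a))
  refine (h1.add h2).congr fun a b => ?_
  have key : ∀ x y : ℝ, Real.sin (α + x) * Real.cos (t * (α - x)) +
      Real.sin (α + y) * Real.cos (t * (α - y)) =
      Real.sin (p * α + q / 2 * (x + y)) * Real.cos (q / 2 * x - q / 2 * y) +
      Real.sin (q * α + p / 2 * (x + y)) * Real.cos (p / 2 * x - p / 2 * y) := by
    intro x y
    have e1 : ∀ x : ℝ, Real.sin (α + x) * Real.cos (t * (α - x)) =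
        (Real.sin (p * α + q * x) + Real.sin (q * α + p * x)) / 2 := by
      intro x
      have a1 : p * α + q * x = (α + x) + t * (α - x) := by rw [hp, hq]; ring
      have a2 : q * α + p * x = (α + x) - t * (α - x) := by rw [hp, hq]; ring
      rw [a1, a2, sum_form]
    have e2 : ∀ A w : ℝ, ∀ x y : ℝ,
        (Real.sin (A + w * x) + Real.sin (A + w * y)) / 2 =
        Real.sin (A + w / 2 * (x + y)) * Real.cos (w / 2 * x - w / 2 * y) := by
      intro A w x y
      have a1 : A + w * x = (A + w / 2 * (x + y)) + (w / 2 * x - w / 2 * y) := by ring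
      have a2 : A + w * y = (A + w / 2 * (x + y)) - (w / 2 * x - w / 2 * y) := by ring
      rw [a1, a2, sum_form]
    rw [e1, e1, ← e2, ← e2]
    ring
  rw [key, add_div]
  ring

end

end Vale.Agent.Lib.P371.Sharp
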