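import Vale.Agent.Lib.P371.SharpPD

/-! The positivity of the cubic form. -/

open Filter Topology Set MeasureTheory

namespace Vale.Agent.Lib.P371.Sharp

noncomputable section

/-- The weight function `d² ∫₀¹ (1 - t²)/2 cos (t d) dt = sin d / d - cos d`. -/
def Gd (d : ℝ) : ℝ := d ^ 2 * ∫ t in (0:ℝ)..1, (1 - t ^ 2) / 2 * Real.cos (t * d)

lemma Gd_zero : Gd 0 = 0 := by
  simp [Gd]

lemma Gd_eq {d : ℝ} (hd : d ≠ 0) : Gd d = Real.sin d / d - Real.cos d := by
  have hF : ∀ t ∈ uIcc (0:ℝ) 1, HasDerivAt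
      (fun t => (1 - t ^ 2) / 2 * (Real.sin (t * d) / d) +
        (-t * Real.cos (t * d) / d ^ 2 + Real.sin (t * d) / d ^ 3))
      ((1 - t ^ 2) / 2 * Real.cos (t * d)) t := by
    intro t _
    have h1 : HasDerivAt (fun t : ℝ => t * d) d t := by
      simpa using (hasDerivAt_id t).mul_const d
    have h2 : HasDerivAt (fun t : ℝ => Real.sin (t * d)) (Real.cos (t * d) * d) t :=
      (Real.hasDerivAt_sin _).comp t h1
    have h3 : HasDerivAt (fun t : ℝ => Real.cos (t * d)) (-Real.sin (t * d) * d) t :=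
      (Real.hasDerivAt_cos _).comp t h1
    have h4 : HasDerivAt (fun t : ℝ => (1 - t ^ 2) / 2) (-t) t := by
      have := ((hasDerivAt_pow 2 t).const_sub 1).div_const 2
      exact this.congr_deriv (by push_cast; ring)
    have h6 : HasDerivAt (fun t : ℝ => -t) (-1) t := (hasDerivAt_id' t).fun_neg
    have h5 := (h4.mul (h2.div_const d)).add
      (((h6.mul h3).div_const (d ^ 2)).add (h2.div_const (d ^ 3)))
    exact h5.congr_deriv (by field_simp; ring)
  have hc : IntervalIntegrable (fun t : ℝ => (1 - t ^ 2) / 2 * Real.cos (t * d)) volume 0 1 :=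
    Continuous.intervalIntegrable (by fun_prop) _ _
  unfold Gd
  rw [intervalIntegral.integral_eq_sub_of_hasDerivAt hF hc]
  simp only [zero_mul, Real.sin_zero, Real.cos_zero, one_mul]
  field_simp
  ring

lemma Gd_continuous : Continuous Gd := by
  unfold Gd
  refine (continuous_pow 2).mul ?_
  exact intervalIntegral.continuous_parametric_intervalIntegral_of_continuous'
    (by fun_prop) _ _

section sums

variable {κ : Type*} [Fintype κ]

lemma sum3_rot (f : κ → κ → κ → ℝ) :
    ∑ a, ∑ b, ∑ c, f a b c = ∑ b, ∑ c, ∑ a, f a b c := by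
  rw [Finset.sum_comm]
  refine Finset.sum_congr rfl fun b _ => ?_
  rw [Finset.sum_comm]

lemma sum3_rev (f : κ → κ → κ → ℝ) :
    ∑ a, ∑ b, ∑ c, f a b c = ∑ c, ∑ b, ∑ a, f a b c := by
  rw [sum3_rot, Finset.sum_comm]

lemma sum3_swap (f : κ → κ → κ → ℝ) :
    ∑ a, ∑ b, ∑ c, f a b c = ∑ a, ∑ c, ∑ b, f a b c :=
  Finset.sum_congr rfl fun _ _ => Finset.sum_comm

end sums

variable {κ : Type*} [Fintype κ] {P : κ → κ → ℝ} {θ : κ → ℝ}

/-- The form with a fixed parameter is non-negative. -/
theorem Qt_nonneg (hP : PK P) (h0 : ∀ a, 0 < θ a) (h1 : ∀ a, θ a < Real.pi / 2) {t : ℝ}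
    (ht0 : 0 ≤ t) (ht1 : t < 1) :
    0 ≤ ∑ a, ∑ b, ∑ c, P a b / Real.sin (θ a + θ b) * (P a c / Real.sin (θ a + θ c)) * P b c *
      ((θ b - θ c) ^ 2 * Real.cos (t * (θ b - θ c))) := by
  set R : κ → κ → ℝ := fun a b => P a b / Real.sin (θ a + θ b) with hR
  have hs : ∀ a b, Real.sin (θ a + θ b) ≠ 0 := fun a b =>
    (Real.sin_pos_of_pos_of_lt_pi (by have := h0 a; have := h0 b; positivity)
      (by have := h1 a; have := h1 b; linarith)).ne'
  have hRs : ∀ a b, R a b = R b a := fun a b => by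
    simp only [hR]
    rw [hP.1 a b, add_comm]
  set T : κ → κ → ℝ := fun i a => Real.sin (θ i + θ a) * Real.cos (t * (θ i - θ a)) with hT
  have hTs : ∀ a b, T a b = T b a := fun a b => by
    simp only [hT]
    rw [add_comm, ← Real.cos_neg]
    congr 2
    ring
  have hPR : ∀ a b, P a b = R a b * Real.sin (θ a + θ b) := fun a b => by
    simp only [hR]
    rw [div_mul_cancel₀ _ (hs a b)]
  set X : κ → κ → κ → ℝ := fun a b c => R a b * R a c * R b c with hX
  -- the positive quantity
  have hpos : 0 ≤ ∑ i, ∑ a, ∑ c, ((θ i - θ a) * R i a) * ((θ i - θ c) * R i c) *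
      (P a c * ((T i a + T i c) / Real.sin (θ a + θ c))) := by
    refine Finset.sum_nonneg fun i _ => ?_
    exact (hP.mul (PK.main (h0 i) (h1 i) ht0 ht1 h0 h1)).2 fun a => (θ i - θ a) * R i a
  set S₁ := ∑ i, ∑ a, ∑ c, X i a c * ((θ i - θ a) * (θ i - θ c)) * T i a with hS₁
  have e1 : ∑ i, ∑ a, ∑ c, ((θ i - θ a) * R i a) * ((θ i - θ c) * R i c) *
      (P a c * ((T i a + T i c) / Real.sin (θ a + θ c))) = 2 * S₁ := by
    have a1 : ∀ i a c, ((θ i - θ a) * R i a) * ((θ i - θ c) * R i c) *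
        (P a c * ((T i a + T i c) / Real.sin (θ a + θ c))) =
        X i a c * ((θ i - θ a) * (θ i - θ c)) * T i a +
          X i a c * ((θ i - θ a) * (θ i - θ c)) * T i c := by
      intro i a c
      rw [hPR a c]
      simp only [hX]
      have := hs a c
      field_simp
    simp_rw [a1, Finset.sum_add_distrib]
    have a2 : ∑ i, ∑ a, ∑ c, X i a c * ((θ i - θ a) * (θ i - θ c)) * T i c = S₁ := by
      rw [sum3_swap]
      refine Finset.sum_congr rfl fun i _ => Finset.sum_congr rfl fun a _ =>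
        Finset.sum_congr rfl fun c _ => ?_
      simp only [hX]
      rw [hRs c a]
      ring
    rw [a2]
    ring
  have e2 : ∑ a, ∑ b, ∑ c, P a b / Real.sin (θ a + θ b) * (P a c / Real.sin (θ a + θ c)) * P b c *
      ((θ b - θ c) ^ 2 * Real.cos (t * (θ b - θ c))) = 2 * S₁ := by
    have a1 : ∀ a b c, P a b / Real.sin (θ a + θ b) * (P a c / Real.sin (θ a + θ c)) * P b c *
        ((θ b - θ c) ^ 2 * Real.cos (t * (θ b - θ c))) =
        X a b c * ((θ b - θ c) * (θ b - θ a)) * T b c +
          X a b c * ((θ c - θ b) * (θ c - θ a)) * T b c := by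
      intro a b c
      rw [hPR b c]
      simp only [hX, hT]
      simp only [hR]
      ring
    simp_rw [a1, Finset.sum_add_distrib]
    have a2 : ∑ a, ∑ b, ∑ c, X a b c * ((θ b - θ c) * (θ b - θ a)) * T b c = S₁ := by
      rw [sum3_rot]
      refine Finset.sum_congr rfl fun i _ => Finset.sum_congr rfl fun a _ =>
        Finset.sum_congr rfl fun c _ => ?_
      simp only [hX]
      rw [hRs c i, hRs c a]
      ring
    have a3 : ∑ a, ∑ b, ∑ c, X a b c * ((θ c - θ b) * (θ c - θ a)) * T b c = S₁ := by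
      rw [sum3_rev]
      refine Finset.sum_congr rfl fun i _ => Finset.sum_congr rfl fun a _ =>
        Finset.sum_congr rfl fun c _ => ?_
      simp only [hX]
      rw [hTs a i, hRs c a, hRs c i, hRs a i]
      ring
    rw [a2, a3]
    ring
  rw [e2, ← e1]
  exact hpos

/-- The cubic form with the weight `Gd` is non-negative. -/
theorem Q_nonneg (hP : PK P) (h0 : ∀ a, 0 < θ a) (h1 : ∀ a, θ a < Real.pi / 2) :
    0 ≤ ∑ a, ∑ b, ∑ c, P a b / Real.sin (θ a + θ b) * (P a c / Real.sin (θ a + θ c)) * P b c *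
      Gd (θ b - θ c) := by
  have hc : ∀ d : ℝ, IntervalIntegrable (fun t : ℝ => (1 - t ^ 2) / 2 * Real.cos (t * d))
      volume 0 1 := fun d => Continuous.intervalIntegrable (by fun_prop) _ _
  have e : ∑ a, ∑ b, ∑ c, P a b / Real.sin (θ a + θ b) * (P a c / Real.sin (θ a + θ c)) * P b c *
      Gd (θ b - θ c) = ∫ t in (0:ℝ)..1, (1 - t ^ 2) / 2 * ∑ a, ∑ b, ∑ c,
        P a b / Real.sin (θ a + θ b) * (P a c / Real.sin (θ a + θ c)) * P b c *
          ((θ b - θ c) ^ 2 * Real.cos (t * (θ b - θ c))) := by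
    have e1 : ∀ t : ℝ, (1 - t ^ 2) / 2 * ∑ a, ∑ b, ∑ c,
        P a b / Real.sin (θ a + θ b) * (P a c / Real.sin (θ a + θ c)) * P b c *
          ((θ b - θ c) ^ 2 * Real.cos (t * (θ b - θ c))) =
        ∑ a, ∑ b, ∑ c, P a b / Real.sin (θ a + θ b) * (P a c / Real.sin (θ a + θ c)) * P b c *
          (θ b - θ c) ^ 2 * ((1 - t ^ 2) / 2 * Real.cos (t * (θ b - θ c))) := by
      intro t
      rw [Finset.mul_sum]
      refine Finset.sum_congr rfl fun a _ => ?_
      rw [Finset.mul_sum]
      refine Finset.sum_congr rfl fun b _ => ?_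
      rw [Finset.mul_sum]
      refine Finset.sum_congr rfl fun c _ => ?_
      ring
    simp_rw [e1]
    rw [intervalIntegral.integral_finsetSum]
    · refine Finset.sum_congr rfl fun a _ => ?_
      rw [intervalIntegral.integral_finsetSum]
      · refine Finset.sum_congr rfl fun b _ => ?_
        rw [intervalIntegral.integral_finsetSum]
        · refine Finset.sum_congr rfl fun c _ => ?_
          rw [intervalIntegral.integral_const_mul]
          unfold Gd
          ring
        · exact fun c _ => (hc _).const_mul _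
      · exact fun b _ => Continuous.intervalIntegrable (by fun_prop) _ _
    · exact fun a _ => Continuous.intervalIntegrable (by fun_prop) _ _
  rw [e]
  refine intervalIntegral.integral_nonneg zero_le_one fun t ht => ?_
  rcases ht.2.eq_or_lt with rfl | hlt
  · simp
  · exact mul_nonneg (by nlinarith [ht.1]) (Qt_nonneg hP h0 h1 ht.1 hlt)

end

end Vale.Agent.Lib.P371.Sharp
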