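import Vale.Agent.Lib.P371.SharpAlg

/-! Regularity of the solutions of the Lyapunov equations along a curve of matrices. -/

open Matrix Filter Topology Set

namespace Vale.Agent.Lib.P371.Sharp

noncomputable section

variable {ι : Type*} [Fintype ι] [DecidableEq ι]

omit [DecidableEq ι] in
lemma tendsto_fro {α : Type*} {l : Filter α} {A B : α → Matrix ι ι ℝ} {a b : Matrix ι ι ℝ}
    (hA : Tendsto A l (𝓝 a)) (hB : Tendsto B l (𝓝 b)) :
    Tendsto (fun y => fro (A y) (B y)) l (𝓝 (fro a b)) := by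
  simp only [fro_eq_sum]
  refine tendsto_finsetSum _ fun i _ => tendsto_finsetSum _ fun j _ => Tendsto.mul ?_ ?_
  · exact tendsto_pi_nhds.1 (tendsto_pi_nhds.1 hA i) j
  · exact tendsto_pi_nhds.1 (tendsto_pi_nhds.1 hB i) j

omit [DecidableEq ι] in
lemma tendsto_mmul {α : Type*} {l : Filter α} {A B : α → Matrix ι ι ℝ} {a b : Matrix ι ι ℝ}
    (hA : Tendsto A l (𝓝 a)) (hB : Tendsto B l (𝓝 b)) :
    Tendsto (fun y => A y * B y) l (𝓝 (a * b)) :=
  ((continuous_fst.matrix_mul continuous_snd :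
    Continuous fun p : Matrix ι ι ℝ × Matrix ι ι ℝ => p.1 * p.2).tendsto (a, b)).comp
    (hA.prodMk_nhds hB)

omit [DecidableEq ι] in
lemma cont_smul {g : ℝ → Matrix ι ι ℝ} (hg : Continuous g) (c : ℝ) : Continuous fun y => c • g y :=
  continuous_matrix fun i j => by
    have h1 : Continuous fun a => g a i j := hg.matrix_elem i j
    have h2 : Continuous fun a => c * g a i j := by fun_prop
    simpa [Matrix.smul_apply] using h2

omit [DecidableEq ι] in
/-- Continuity of the solutions. -/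
theorem Y_continuous {M P Y : ℝ → Matrix ι ι ℝ} {ε : ℝ} {k : ℤ} (hε : 0 < ε)
    (hM : ∀ x, Spec (M x) ε) (hMc : Continuous M) (hPc : Continuous P)
    (hY : ∀ x, lyap (M x) k (Y x) = P x) : Continuous Y := by
  refine continuous_matrix fun i j => continuous_iff_continuousAt.2 fun x => ?_
  set E : ℝ → Matrix ι ι ℝ := fun y =>
    P y - P x - (1 / 2 : ℝ) • ((M y - M x) * Y x + Y x * (M y - M x)) with hE
  have hEeq : ∀ y, lyap (M y) k (Y y - Y x) = E y := by
    intro y
    rw [lyap_sub, hY y, lyap_change (M y) (M x) k (Y x), hY x]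
    simp only [hE]
    abel
  have hEc : Continuous E := by
    refine (hPc.sub continuous_const).sub (cont_smul ?_ _)
    exact ((hMc.sub continuous_const).matrix_mul continuous_const).add
      (continuous_const.matrix_mul (hMc.sub continuous_const))
  have hE0 : E x = 0 := by
    simp [hE]
  have h1 : Tendsto (fun y => fro (E y) (E y)) (𝓝 x) (𝓝 0) := by
    have := tendsto_fro (hEc.tendsto x) (hEc.tendsto x)
    rw [hE0] at this
    simpa [fro] using this
  have h2 : ∀ y, (Y y i j - Y x i j) ^ 2 ≤ fro (E y) (E y) / ε ^ 2 := by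
    intro y
    have a1 := (hM y).coercive hε k (Y y - Y x)
    rw [hEeq] at a1
    have a2 := entry_sq_le (Y y - Y x) i j
    rw [Matrix.sub_apply] at a2
    rw [le_div_iff₀ (by positivity)]
    nlinarith [sq_nonneg ε]
  have h3 : Tendsto (fun y => (Y y i j - Y x i j) ^ 2) (𝓝 x) (𝓝 0) := by
    refine squeeze_zero (fun y => sq_nonneg _) h2 ?_
    simpa using h1.div_const (ε ^ 2)
  have h4 : Tendsto (fun y => |Y y i j - Y x i j|) (𝓝 x) (𝓝 0) := by
    have := (Real.continuous_sqrt.tendsto 0).comp h3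
    simp only [Real.sqrt_zero] at this
    refine this.congr fun y => ?_
    simp [Real.sqrt_sq_eq_abs]
  have h5 : Tendsto (fun y => Y y i j - Y x i j) (𝓝 x) (𝓝 0) :=
    (tendsto_zero_iff_abs_tendsto_zero _).2 h4
  have h6 := h5.add_const (Y x i j)
  simp only [sub_add_cancel, zero_add] at h6
  exact h6

omit [DecidableEq ι] in
/-- The exact difference identity. -/
lemma B_diff {M N X Z P Q : Matrix ι ι ℝ} {k : ℤ} (hM : Mᵀ = M) (hX : lyap M k X = P)
    (hZ : lyap N k Z = Q) :
    fro P X - fro Q Z =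
      fro (P - Q) (X + Z) - fro X ((1 / 2 : ℝ) • ((M - N) * Z + Z * (M - N))) := by
  have h1 : fro P Z = fro X (lyap M k Z) := by
    rw [← hX, fro_lyap_symm hM]
  have h2 : fro Q X = fro X (lyap N k Z) := by
    rw [← hZ, fro_comm]
  have h3 := lyap_change M N k Z
  have h4 : fro X (lyap M k Z) = fro X (lyap N k Z) +
      fro X ((1 / 2 : ℝ) • ((M - N) * Z + Z * (M - N))) := by
    rw [h3, fro_add_right]
  rw [fro_sub_left, fro_add_right, fro_add_right]
  linarith

omit [DecidableEq ι] in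
/-- The derivative of the pairing. -/
theorem B_hasDerivAt {M P Y : ℝ → Matrix ι ι ℝ} {k : ℤ} (hMs : ∀ x, (M x)ᵀ = M x)
    (hY : ∀ x, lyap (M x) k (Y x) = P x) {x : ℝ} {P' M' : Matrix ι ι ℝ}
    (hP : ∀ i j, HasDerivAt (fun y => P y i j) (P' i j) x)
    (hMd : ∀ i j, HasDerivAt (fun y => M y i j) (M' i j) x) (hYc : ContinuousAt Y x) :
    HasDerivAt (fun y => fro (P y) (Y y))
      (2 * fro P' (Y x) - fro (Y x) ((1 / 2 : ℝ) • (M' * Y x + Y x * M'))) x := by
  rw [hasDerivAt_iff_tendsto_slope]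
  have hDP : Tendsto (fun y => (y - x)⁻¹ • (P y - P x)) (𝓝[≠] x) (𝓝 P') := by
    refine tendsto_pi_nhds.2 fun i => tendsto_pi_nhds.2 fun j => ?_
    have := hasDerivAt_iff_tendsto_slope.1 (hP i j)
    refine this.congr fun y => ?_
    simp [slope_def_field, div_eq_inv_mul]
  have hDM : Tendsto (fun y => (y - x)⁻¹ • (M y - M x)) (𝓝[≠] x) (𝓝 M') := by
    refine tendsto_pi_nhds.2 fun i => tendsto_pi_nhds.2 fun j => ?_
    have := hasDerivAt_iff_tendsto_slope.1 (hMd i j)
    refine this.congr fun y => ?_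
    simp [slope_def_field, div_eq_inv_mul]
  have hYt : Tendsto Y (𝓝[≠] x) (𝓝 (Y x)) := hYc.tendsto.mono_left nhdsWithin_le_nhds
  have hlim := (tendsto_fro hDP (hYt.add (tendsto_const_nhds (x := Y x)))).sub
    (tendsto_fro hYt (((tendsto_mmul hDM (tendsto_const_nhds (x := Y x))).add
      (tendsto_mmul (tendsto_const_nhds (x := Y x)) hDM)).const_smul (1 / 2 : ℝ)))
  have e0 : fro P' (Y x + Y x) = 2 * fro P' (Y x) := by
    rw [fro_add_right]
    ring
  rw [e0] at hlim
  refine hlim.congr fun y => ?_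
  have h := B_diff (hMs y) (hY y) (hY x)
  rw [slope_def_field, h, fro_smul_left, fro_smul_right]
  simp only [Matrix.smul_mul, Matrix.mul_smul, ← smul_add]
  rw [fro_smul_right, fro_smul_right]
  ring

end

end Vale.Agent.Lib.P371.Sharp
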