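import Mathlib

/-! The truncated cotangent sums and the scalar inequality behind the sharp bound at `γ = 1`. -/

open Filter Topology Set

namespace Vale.Agent.Lib.P371.Sharp

noncomputable section

/-- The truncated cotangent sum, symmetric about `1/2`. -/
def hK (K : ℕ) (t : ℝ) : ℝ := ∑ n ∈ Finset.range K, (1 / (t - (n + 1)) + 1 / (t + n))

/-- The truncated sum of products. -/
def pK (K : ℕ) (x y : ℝ) : ℝ :=
  ∑ n ∈ Finset.range K, (1 / ((x - (n + 1)) * (y - (n + 1))) + 1 / ((x + n) * (y + n)))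

/-- The symmetric set of integers. -/
def SK (K : ℕ) : Finset ℤ := Finset.Ioc (-(K : ℤ)) K

lemma sum_SK (φ : ℤ → ℝ) (K : ℕ) :
    ∑ k ∈ SK K, φ k = ∑ n ∈ Finset.range K, (φ ((n : ℤ) + 1) + φ (-(n : ℤ))) := by
  induction K with
  | zero => simp [SK]
  | succ K ih =>
    rw [Finset.sum_range_succ, ← ih]
    have e : SK (K + 1) = insert ((K : ℤ) + 1) (insert (-(K : ℤ)) (SK K)) := by
      ext k
      simp only [SK, Finset.mem_Ioc, Finset.mem_insert]
      push_cast
      omega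
    have h1 : (-(K : ℤ)) ∉ SK K := by
      simp [SK]
    have h2 : ((K : ℤ) + 1) ∉ insert (-(K : ℤ)) (SK K) := by
      simp only [SK, Finset.mem_insert, Finset.mem_Ioc]
      omega
    rw [e, Finset.sum_insert h2, Finset.sum_insert h1]
    ring

lemma sum_SK_h (K : ℕ) (t : ℝ) : ∑ k ∈ SK K, 1 / (t - (k : ℝ)) = hK K t := by
  rw [sum_SK (fun k => 1 / (t - (k : ℝ)))]
  unfold hK
  refine Finset.sum_congr rfl fun n _ => ?_
  push_cast
  rw [sub_neg_eq_add]

lemma sum_SK_p (K : ℕ) (x y : ℝ) :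
    ∑ k ∈ SK K, 1 / ((x - (k : ℝ)) * (y - (k : ℝ))) = pK K x y := by
  rw [sum_SK (fun k => 1 / ((x - (k : ℝ)) * (y - (k : ℝ))))]
  unfold pK
  refine Finset.sum_congr rfl fun n _ => ?_
  push_cast
  rw [sub_neg_eq_add, sub_neg_eq_add]

lemma inv_sq_le (n : ℝ) (hn : 1 ≤ n) : 1 / n ^ 2 ≤ 2 * (1 / n - 1 / (n + 1)) := by
  have h0 : 0 < n := by linarith
  have e : 1 / n - 1 / (n + 1) = 1 / (n * (n + 1)) := by
    field_simp
    ring
  rw [e, ← mul_div_assoc, mul_one, div_le_div_iff₀ (by positivity) (by positivity)]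
  nlinarith

/-- The paired terms of the cotangent sum. -/
lemma abs_pair_le {t n : ℝ} (ht0 : 0 ≤ t) (ht1 : t ≤ 1) (hn : 1 ≤ n) :
    |1 / (t - (n + 1)) + 1 / (t + n)| ≤ 1 / n ^ 2 := by
  have h1 : 0 < n + 1 - t := by linarith
  have h2 : 0 < t + n := by linarith
  have hne : t - (n + 1) ≠ 0 := by
    intro h
    linarith
  have e : 1 / (t - (n + 1)) + 1 / (t + n) = (1 - 2 * t) / ((n + 1 - t) * (t + n)) := by
    have : n + 1 - t ≠ 0 := h1.ne'
    field_simp
    ring
  rw [e, abs_div, abs_of_pos (mul_pos h1 h2), div_le_div_iff₀ (mul_pos h1 h2) (by positivity)]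
  have h3 : |1 - 2 * t| ≤ 1 := by
    rw [abs_le]
    constructor <;> linarith
  have h4 : n ^ 2 ≤ (n + 1 - t) * (t + n) := by nlinarith
  calc |1 - 2 * t| * n ^ 2 ≤ 1 * n ^ 2 := by gcongr
    _ ≤ 1 * ((n + 1 - t) * (t + n)) := by gcongr

lemma hK_succ (K : ℕ) (t : ℝ) :
    hK (K + 1) t = hK K t + (1 / (t - ((K : ℝ) + 1)) + 1 / (t + K)) := by
  unfold hK
  rw [Finset.sum_range_succ]

lemma pK_succ (K : ℕ) (x y : ℝ) :
    pK (K + 1) x y = pK K x y +
      (1 / ((x - ((K : ℝ) + 1)) * (y - ((K : ℝ) + 1))) + 1 / ((x + K) * (y + K))) := by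
  unfold pK
  rw [Finset.sum_range_succ]

lemma hK_tail {t : ℝ} (ht0 : 0 ≤ t) (ht1 : t ≤ 1) {K K' : ℕ} (hK1 : 1 ≤ K) (h : K ≤ K') :
    |hK K' t - hK K t| ≤ 2 * (1 / (K : ℝ) - 1 / (K' : ℝ)) := by
  induction K', h using Nat.le_induction with
  | base => simp
  | succ K' h ih =>
    have hc : (1 : ℝ) ≤ K' := by exact_mod_cast hK1.trans h
    rw [hK_succ, add_sub_right_comm]
    refine (abs_add_le _ _).trans ?_
    have h1 := abs_pair_le ht0 ht1 hc
    have h2 := inv_sq_le _ hc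
    push_cast
    linarith

lemma pK_tail {x y : ℝ} (hx0 : 0 ≤ x) (hx1 : x ≤ 1) (hy0 : 0 ≤ y) (hy1 : y ≤ 1) {K K' : ℕ}
    (hK1 : 1 ≤ K) (h : K ≤ K') :
    pK K' x y - pK K x y ≤ 4 * (1 / (K : ℝ) - 1 / (K' : ℝ)) := by
  induction K', h using Nat.le_induction with
  | base => simp
  | succ K' h ih =>
    have hc : (1 : ℝ) ≤ K' := by exact_mod_cast hK1.trans h
    rw [pK_succ]
    have h2 := inv_sq_le _ hc
    have h0 : (0:ℝ) < K' := by linarith
    have h3 : 1 / (((x - ((K' : ℝ) + 1)) * (y - ((K' : ℝ) + 1)))) ≤ 1 / (K' : ℝ) ^ 2 := by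
      have e : (x - ((K' : ℝ) + 1)) * (y - ((K' : ℝ) + 1)) = (K' + 1 - x) * (K' + 1 - y) := by ring
      rw [e]
      refine one_div_le_one_div_of_le (by positivity) ?_
      have a1 : (K' : ℝ) ≤ K' + 1 - x := by linarith
      have a2 : (K' : ℝ) ≤ K' + 1 - y := by linarith
      nlinarith
    have h4 : 1 / ((x + K') * (y + K')) ≤ 1 / (K' : ℝ) ^ 2 := by
      refine one_div_le_one_div_of_le (by positivity) ?_
      have a1 : (K' : ℝ) ≤ x + K' := by linarith
      have a2 : (K' : ℝ) ≤ y + K' := by linarith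
      nlinarith
    push_cast
    linarith

lemma hK_one {t : ℝ} : hK 1 t = 1 / (t - 1) + 1 / t := by
  simp [hK]

/-- A bound on the truncated cotangent sums. -/
lemma abs_hK_le {ε t : ℝ} (hε : 0 < ε) (ht0 : ε ≤ t) (ht1 : t ≤ 1 - ε) {K : ℕ} (hK1 : 1 ≤ K) :
    |hK K t| ≤ 2 / ε + 2 := by
  have h1 := hK_tail (t := t) (by linarith) (by linarith) (le_refl 1) hK1
  have h2 : |hK 1 t| ≤ 2 / ε := by
    rw [hK_one]
    refine (abs_add_le _ _).trans ?_
    have a1 : |1 / (t - 1)| ≤ 1 / ε := by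
      rw [abs_div, abs_one, abs_of_neg (by linarith : t - 1 < 0)]
      exact one_div_le_one_div_of_le hε (by linarith)
    have a2 : |1 / t| ≤ 1 / ε := by
      rw [abs_of_pos (by have : 0 < t := by linarith
                         positivity)]
      exact one_div_le_one_div_of_le hε ht0
    have e : 2 / ε = 1 / ε + 1 / ε := by ring
    linarith
  have h3 : (0:ℝ) ≤ (K : ℝ)⁻¹ := by positivity
  have h4 : |hK K t| ≤ |hK K t - hK 1 t| + |hK 1 t| := by
    have := abs_add_le (hK K t - hK 1 t) (hK 1 t)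
    simpa using this
  norm_num at h1
  linarith

/-- Splitting into simple fractions. -/
lemma pK_eq {x y : ℝ} (hx0 : 0 < x) (hx1 : x < 1) (hy0 : 0 < y) (hy1 : y < 1) (hxy : x ≠ y)
    (K : ℕ) : pK K x y = (hK K y - hK K x) / (x - y) := by
  unfold pK hK
  rw [← Finset.sum_sub_distrib, Finset.sum_div]
  refine Finset.sum_congr rfl fun n _ => ?_
  have hn : (0:ℝ) ≤ n := Nat.cast_nonneg n
  have h1 : x - (n + 1) ≠ 0 := by
    intro h
    linarith
  have h2 : y - (n + 1) ≠ 0 := by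
    intro h
    linarith
  have h3 : x + n ≠ 0 := by positivity
  have h4 : y + n ≠ 0 := by positivity
  have h5 : x - y ≠ 0 := sub_ne_zero.2 hxy
  field_simp
  ring

/-- The limit of the truncated sums. -/
lemma hK_tendsto {t : ℝ} (ht0 : 0 < t) (ht1 : t < 1) :
    Tendsto (fun K : ℕ => hK K t) atTop (𝓝 (Real.pi * Real.cot (Real.pi * t))) := by
  have hz : (t : ℂ) ∈ Complex.integerComplement := by
    rw [Complex.integerComplement, Set.mem_compl_iff, Set.mem_range]
    rintro ⟨n, hn⟩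
    have h : ((n : ℝ) : ℂ) = (t : ℂ) := by simpa using hn
    have h' : (n : ℝ) = t := by exact_mod_cast h
    have a : (0:ℝ) < n := by rw [h']; exact ht0
    have b : (n:ℝ) < 1 := by rw [h']; exact ht1
    have a' : 0 < n := by exact_mod_cast a
    have b' : n < 1 := by exact_mod_cast b
    omega
  have h1 := cot_series_rep' hz
  have hs := summable_cotTerm hz
  have h2 : HasSum (fun n : ℕ => (1 / ((t : ℂ) - (n + 1)) + 1 / ((t : ℂ) + (n + 1))))
      (Real.pi * Complex.cot (Real.pi * t) - 1 / t) := by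
    rw [h1]
    have := hs.hasSum
    simp only [cotTerm] at this ⊢
    convert this using 3
  have h3 : HasSum (fun n : ℕ => (1 / (t - (n + 1)) + 1 / (t + (n + 1)) : ℝ))
      (Real.pi * Real.cot (Real.pi * t) - 1 / t) := by
    rw [← Complex.hasSum_ofReal]
    convert h2 using 2
    · push_cast
      rfl
    · push_cast
      rfl
  have h4 := h3.tendsto_sum_nat
  -- comparison of the two kinds of finite sums
  have e : ∀ K : ℕ, hK K t =
      1 / t + (∑ n ∈ Finset.range K, (1 / (t - (n + 1)) + 1 / (t + (n + 1)))) - 1 / (t + K) := by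
    intro K
    induction K with
    | zero => simp [hK]
    | succ K ih =>
      rw [hK_succ, ih, Finset.sum_range_succ]
      push_cast
      ring
  have h5 : Tendsto (fun K : ℕ => 1 / (t + (K : ℝ))) atTop (𝓝 0) := by
    have : Tendsto (fun K : ℕ => t + (K : ℝ)) atTop atTop :=
      tendsto_atTop_add_const_left _ _ tendsto_natCast_atTop_atTop
    simpa [Function.comp_def] using (tendsto_inv_atTop_zero.comp this)
  have h6 := ((h4.const_add (1 / t)).sub h5)
  have e2 : 1 / t + (Real.pi * Real.cot (Real.pi * t) - 1 / t) - 0 =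
      Real.pi * Real.cot (Real.pi * t) := by ring
  rw [e2] at h6
  refine h6.congr fun K => ?_
  rw [e K]

/-- The elementary inequality `sin δ ≥ δ cos δ` on `[0, π]`. -/
lemma sin_ge_mul_cos {d : ℝ} (h0 : 0 ≤ d) (h1 : d ≤ Real.pi) :
    d * Real.cos d ≤ Real.sin d := by
  rcases h0.eq_or_lt with rfl | hpos
  · simp
  rcases lt_or_ge d (Real.pi / 2) with h2 | h2
  · have h3 := Real.lt_tan hpos h2
    have h4 : 0 < Real.cos d := Real.cos_pos_of_mem_Ioo ⟨by linarith [Real.pi_pos], h2⟩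
    rw [Real.tan_eq_sin_div_cos, lt_div_iff₀ h4] at h3
    exact h3.le
  · have h3 : Real.cos d ≤ 0 := Real.cos_nonpos_of_pi_div_two_le_of_le h2 (by linarith [Real.pi_pos])
    have h4 : 0 ≤ Real.sin d := Real.sin_nonneg_of_nonneg_of_le_pi h0 h1
    nlinarith

/-- The cotangent inequality for `x ≠ y` in `(0,1)`. -/
lemma cot_ineq {x y : ℝ} (hx0 : 0 < x) (hx1 : x < 1) (hy0 : 0 < y) (hy1 : y < 1) (hxy : x ≠ y) :
    Real.pi ^ 2 ≤ (Real.pi * Real.cot (Real.pi * y) - Real.pi * Real.cot (Real.pi * x)) / (x - y)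
      - (Real.pi * Real.cot (Real.pi * x)) * (Real.pi * Real.cot (Real.pi * y)) := by
  have hpi := Real.pi_pos
  have hsx : 0 < Real.sin (Real.pi * x) :=
    Real.sin_pos_of_pos_of_lt_pi (by positivity) (by nlinarith)
  have hsy : 0 < Real.sin (Real.pi * y) :=
    Real.sin_pos_of_pos_of_lt_pi (by positivity) (by nlinarith)
  set a := Real.pi * x with ha
  set b := Real.pi * y with hb
  have hd : Real.sin (a - b) * (x - y) * Real.pi ≥ (x - y) ^ 2 * Real.pi ^ 2 * Real.cos (a - b) := by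
    rcases lt_or_gt_of_ne hxy with h | h
    · have h1 := sin_ge_mul_cos (d := b - a) (by rw [ha, hb]; nlinarith)
        (by rw [ha, hb]; nlinarith)
      have e1 : Real.cos (a - b) = Real.cos (b - a) := by
        rw [← Real.cos_neg]
        ring_nf
      have e2 : Real.sin (a - b) = -Real.sin (b - a) := by
        rw [← Real.sin_neg]
        ring_nf
      rw [e1, e2]
      have e3 : b - a = Real.pi * (y - x) := by
        rw [ha, hb]
        ring
      rw [e3] at h1 ⊢
      have h2 : 0 < (y - x) * Real.pi := by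
        have : 0 < y - x := by linarith
        positivity
      have := mul_le_mul_of_nonneg_left h1 h2.le
      nlinarith
    · have h1 := sin_ge_mul_cos (d := a - b) (by rw [ha, hb]; nlinarith)
        (by rw [ha, hb]; nlinarith)
      have e3 : a - b = Real.pi * (x - y) := by
        rw [ha, hb]
        ring
      rw [e3] at h1 ⊢
      have h2 : 0 < (x - y) * Real.pi := by
        have : 0 < x - y := by linarith
        positivity
      have := mul_le_mul_of_nonneg_left h1 h2.le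
      nlinarith
  have hne : x - y ≠ 0 := sub_ne_zero.2 hxy
  have hpos : 0 < (x - y) ^ 2 := by positivity
  rw [Real.cot_eq_cos_div_sin, Real.cot_eq_cos_div_sin]
  have e : (Real.pi * (Real.cos b / Real.sin b) - Real.pi * (Real.cos a / Real.sin a)) / (x - y)
      - (Real.pi * (Real.cos a / Real.sin a)) * (Real.pi * (Real.cos b / Real.sin b)) - Real.pi ^ 2
      = (Real.sin (a - b) * (x - y) * Real.pi - (x - y) ^ 2 * Real.pi ^ 2 * Real.cos (a - b)) /
        ((x - y) ^ 2 * (Real.sin a * Real.sin b)) := by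
    rw [Real.sin_sub, Real.cos_sub]
    field_simp
    ring_nf
  have h3 : 0 ≤ (Real.sin (a - b) * (x - y) * Real.pi - (x - y) ^ 2 * Real.pi ^ 2 * Real.cos (a - b)) /
        ((x - y) ^ 2 * (Real.sin a * Real.sin b)) :=
    div_nonneg (by linarith) (by positivity)
  linarith

/-- For distinct points the truncated expression is nearly `π²`. -/
lemma DK_bound_ne {ε x y : ℝ} (hε : 0 < ε) (hx0 : ε ≤ x) (hx1 : x ≤ 1 - ε) (hy0 : ε ≤ y)
    (hy1 : y ≤ 1 - ε) (hxy : x ≠ y) {K : ℕ} (hK1 : 1 ≤ K) :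
    Real.pi ^ 2 - (4 + 4 * (2 / ε + 2)) / K ≤ pK K x y - hK K x * hK K y := by
  have hx0' : 0 < x := by linarith
  have hx1' : x < 1 := by linarith
  have hy0' : 0 < y := by linarith
  have hy1' : y < 1 := by linarith
  have hKp : (0:ℝ) < K := by exact_mod_cast hK1
  set B := 2 / ε + 2 with hB
  have hB0 : 0 ≤ B := by positivity
  have hlim : Tendsto (fun K' : ℕ => pK K' x y - hK K' x * hK K' y) atTop
      (𝓝 ((Real.pi * Real.cot (Real.pi * y) - Real.pi * Real.cot (Real.pi * x)) / (x - y)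
        - (Real.pi * Real.cot (Real.pi * x)) * (Real.pi * Real.cot (Real.pi * y)))) := by
    have hx := hK_tendsto hx0' hx1'
    have hy := hK_tendsto hy0' hy1'
    have h1 := ((hy.sub hx).div_const (x - y)).sub (hx.mul hy)
    refine h1.congr fun K' => ?_
    rw [pK_eq hx0' hx1' hy0' hy1' hxy]
  have hcot := cot_ineq hx0' hx1' hy0' hy1' hxy
  have key : ∀ᶠ K' : ℕ in atTop, pK K' x y - hK K' x * hK K' y ≤
      pK K x y - hK K x * hK K y + (4 + 4 * B) / K := by
    filter_upwards [eventually_ge_atTop K] with K' hK'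
    have hK'p : (0:ℝ) < K' := by
      have : 1 ≤ K' := hK1.trans hK'
      exact_mod_cast this
    have h0 : (0:ℝ) ≤ 1 / (K' : ℝ) := by positivity
    have e1 := pK_tail hx0'.le hx1'.le hy0'.le hy1'.le hK1 hK'
    have e2 := hK_tail hx0'.le hx1'.le hK1 hK'
    have e3 := hK_tail hy0'.le hy1'.le hK1 hK'
    have b1 := abs_hK_le hε hy0 hy1 (hK1.trans hK')
    have b2 := abs_hK_le hε hx0 hx1 hK1
    have a1 : |hK K' x * hK K' y - hK K x * hK K y| ≤ 4 * B / K := by
      have e : hK K' x * hK K' y - hK K x * hK K y =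
          (hK K' x - hK K x) * hK K' y + hK K x * (hK K' y - hK K y) := by ring
      rw [e]
      refine (abs_add_le _ _).trans ?_
      rw [abs_mul, abs_mul]
      have c1 : |hK K' x - hK K x| ≤ 2 / K := by
        refine e2.trans ?_
        rw [mul_sub, mul_one_div, mul_one_div]
        have : (0:ℝ) ≤ 2 / (K' : ℝ) := by positivity
        linarith
      have c2 : |hK K' y - hK K y| ≤ 2 / K := by
        refine e3.trans ?_
        rw [mul_sub, mul_one_div, mul_one_div]
        have : (0:ℝ) ≤ 2 / (K' : ℝ) := by positivity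
        linarith
      have c3 : |hK K' x - hK K x| * |hK K' y| ≤ 2 / K * B :=
        mul_le_mul c1 b1 (abs_nonneg _) (by positivity)
      have c4 : |hK K x| * |hK K' y - hK K y| ≤ B * (2 / K) :=
        mul_le_mul b2 c2 (abs_nonneg _) hB0
      have e' : 4 * B / K = 2 / K * B + B * (2 / K) := by
        field_simp
        ring
      linarith
    have a2 := (abs_le.1 a1).1
    have a3 : pK K' x y - pK K x y ≤ 4 / K := by
      refine e1.trans ?_
      rw [mul_sub, mul_one_div, mul_one_div]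
      have : (0:ℝ) ≤ 4 / (K' : ℝ) := by positivity
      linarith
    have e' : (4 + 4 * B) / K = 4 / K + 4 * B / K := by
      field_simp
    rw [e']
    linarith
  have hfin := le_of_tendsto hlim key
  have : Real.pi ^ 2 ≤ pK K x y - hK K x * hK K y + (4 + 4 * B) / K := hcot.trans hfin
  linarith

lemma hK_continuousAt {t : ℝ} (ht0 : 0 < t) (ht1 : t < 1) (K : ℕ) : ContinuousAt (hK K) t := by
  unfold hK
  refine tendsto_finsetSum _ fun n _ => ?_
  have hn : (0:ℝ) ≤ n := Nat.cast_nonneg n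
  have h1 : t - ((n:ℝ) + 1) ≠ 0 := by
    intro h
    linarith
  have h2 : t + (n:ℝ) ≠ 0 := by positivity
  exact ContinuousAt.add (ContinuousAt.div continuousAt_const (by fun_prop) h1)
    (ContinuousAt.div continuousAt_const (by fun_prop) h2)

lemma pK_continuousAt {x : ℝ} (hx0 : 0 < x) (hx1 : x < 1) (K : ℕ) :
    ContinuousAt (fun y => pK K x y) x := by
  unfold pK
  refine tendsto_finsetSum _ fun n _ => ?_
  have hn : (0:ℝ) ≤ n := Nat.cast_nonneg n
  have h1 : x - ((n:ℝ) + 1) ≠ 0 := by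
    intro h
    linarith
  have h2 : x + (n:ℝ) ≠ 0 := by positivity
  exact ContinuousAt.add (ContinuousAt.div continuousAt_const (by fun_prop) (mul_ne_zero h1 h1))
    (ContinuousAt.div continuousAt_const (by fun_prop) (mul_ne_zero h2 h2))

/-- The truncated expression is nearly `π²` on a compact subinterval. -/
lemma DK_bound {ε x y : ℝ} (hε : 0 < ε) (hx0 : ε ≤ x) (hx1 : x ≤ 1 - ε) (hy0 : ε ≤ y)
    (hy1 : y ≤ 1 - ε) {K : ℕ} (hK1 : 1 ≤ K) :
    Real.pi ^ 2 - (4 + 4 * (2 / (ε / 2) + 2)) / K ≤ pK K x y - hK K x * hK K y := by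
  have hε2 : 0 < ε / 2 := by positivity
  rcases ne_or_eq x y with hxy | rfl
  · exact DK_bound_ne hε2 (by linarith) (by linarith) (by linarith) (by linarith) hxy hK1
  · have hx0' : 0 < x := by linarith
    have hx1' : x < 1 := by linarith
    have hc : ContinuousAt (fun y => pK K x y - hK K x * hK K y) x :=
      (pK_continuousAt hx0' hx1' K).sub (continuousAt_const.mul (hK_continuousAt hx0' hx1' K))
    have hc' := hc.tendsto.mono_left (nhdsWithin_le_nhds (s := {x}ᶜ))
    refine ge_of_tendsto hc' ?_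
    have h1 : Ioo (ε / 2) (1 - ε / 2) ∈ 𝓝 x := Ioo_mem_nhds (by linarith) (by linarith)
    filter_upwards [self_mem_nhdsWithin, nhdsWithin_le_nhds h1] with y hy hy'
    exact DK_bound_ne hε2 (by linarith) (by linarith) hy'.1.le hy'.2.le (Ne.symm hy) hK1

/-- Uniform closeness to `π²` with sums over a symmetric set of integers. -/
lemma exists_K {ε δ : ℝ} (hε : 0 < ε) (hδ : 0 < δ) :
    ∃ S : Finset ℤ, ∀ x y : ℝ, ε ≤ x → x ≤ 1 - ε → ε ≤ y → y ≤ 1 - ε →
      Real.pi ^ 2 - δ ≤ ∑ k ∈ S, 1 / ((x - (k : ℝ)) * (y - (k : ℝ))) -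
        (∑ k ∈ S, 1 / (x - (k : ℝ))) * ∑ k ∈ S, 1 / (y - (k : ℝ)) := by
  set A := 4 + 4 * (2 / (ε / 2) + 2) with hA
  have hA0 : 0 < A := by positivity
  obtain ⟨K, hK⟩ := exists_nat_ge (A / δ + 1)
  have hKr : A / δ + 1 ≤ (K : ℝ) := hK
  have hd : 0 < A / δ := by positivity
  have hKp : (0:ℝ) < K := by linarith
  have hK1 : 1 ≤ K := by exact_mod_cast hKp
  refine ⟨SK K, fun x y hx0 hx1 hy0 hy1 => ?_⟩
  rw [sum_SK_p, sum_SK_h, sum_SK_h]
  have h := DK_bound hε hx0 hx1 hy0 hy1 hK1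
  rw [← hA] at h
  have h2 : A / K ≤ δ := by
    rw [div_le_iff₀ hKp]
    have : A / δ ≤ K := by linarith
    rw [div_le_iff₀ hδ] at this
    linarith
  linarith

/-- The weighted sum of squares bound. -/
lemma quad_bound {β : Type*} [Fintype β] (S : Finset ℤ) (w ν : β → ℝ) (hw : ∀ b, 0 ≤ w b) {c₀ : ℝ}
    (hD : ∀ b c, c₀ ≤ ∑ k ∈ S, 1 / ((ν b - (k : ℝ)) * (ν c - (k : ℝ))) -
        (∑ k ∈ S, 1 / (ν b - (k : ℝ))) * ∑ k ∈ S, 1 / (ν c - (k : ℝ))) :
    c₀ * (∑ b, w b) ^ 2 ≤ ∑ k ∈ S, (∑ b, w b / (ν b - (k : ℝ))) ^ 2 -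
      (∑ k ∈ S, ∑ b, w b / (ν b - (k : ℝ))) ^ 2 := by
  have e1 : ∑ k ∈ S, (∑ b, w b / (ν b - (k : ℝ))) ^ 2 =
      ∑ b, ∑ c, w b * w c * ∑ k ∈ S, 1 / ((ν b - (k : ℝ)) * (ν c - (k : ℝ))) := by
    have h1 : ∀ k : ℤ, (∑ b, w b / (ν b - (k : ℝ))) ^ 2 =
        ∑ b, ∑ c, w b * w c * (1 / ((ν b - (k : ℝ)) * (ν c - (k : ℝ)))) := by
      intro k
      rw [sq, Finset.sum_mul_sum]
      refine Finset.sum_congr rfl fun b _ => Finset.sum_congr rfl fun c _ => ?_
      rw [div_mul_div_comm, mul_one_div]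
    simp_rw [h1]
    rw [Finset.sum_comm]
    refine Finset.sum_congr rfl fun b _ => ?_
    rw [Finset.sum_comm]
    refine Finset.sum_congr rfl fun c _ => ?_
    rw [Finset.mul_sum]
  have e2 : (∑ k ∈ S, ∑ b, w b / (ν b - (k : ℝ))) ^ 2 =
      ∑ b, ∑ c, w b * w c * ((∑ k ∈ S, 1 / (ν b - (k : ℝ))) * ∑ k ∈ S, 1 / (ν c - (k : ℝ))) := by
    have h1 : ∑ k ∈ S, ∑ b, w b / (ν b - (k : ℝ)) =
        ∑ b, w b * ∑ k ∈ S, 1 / (ν b - (k : ℝ)) := by
      rw [Finset.sum_comm]
      refine Finset.sum_congr rfl fun b _ => ?_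
      rw [Finset.mul_sum]
      refine Finset.sum_congr rfl fun k _ => ?_
      rw [mul_one_div]
    rw [h1, sq, Finset.sum_mul_sum]
    refine Finset.sum_congr rfl fun b _ => Finset.sum_congr rfl fun c _ => ?_
    ring
  have e3 : c₀ * (∑ b, w b) ^ 2 = ∑ b, ∑ c, w b * w c * c₀ := by
    rw [sq, Finset.sum_mul_sum, Finset.mul_sum]
    refine Finset.sum_congr rfl fun b _ => ?_
    rw [Finset.mul_sum]
    refine Finset.sum_congr rfl fun c _ => ?_
    ring
  rw [e1, e2, e3, ← Finset.sum_sub_distrib]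
  refine Finset.sum_le_sum fun b _ => ?_
  rw [← Finset.sum_sub_distrib]
  refine Finset.sum_le_sum fun c _ => ?_
  rw [← mul_sub]
  exact mul_le_mul_of_nonneg_left (hD b c) (mul_nonneg (hw b) (hw c))

end

end Vale.Agent.Lib.P371.Sharp
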