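import Vale.Agent.Lib.P371.Window

/-! Fubini for translation kernels, and the windowed functions. -/

open MeasureTheory Set Filter Topology

namespace Vale.Agent.Lib.P371

noncomputable section

lemma kernel_measurable {w F g B : ℝ → ℝ} (hwm : Measurable w) (hB : Measurable B)
    (hFm : Measurable F) (hgm : Measurable g) :
    Measurable (Function.uncurry fun y v => w y * (F (B y - v) * g v)) :=
  (hwm.comp measurable_fst).mul
    ((hFm.comp ((hB.comp measurable_fst).sub measurable_snd)).mul (hgm.comp measurable_snd))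

lemma kernel_integrable {w F g B : ℝ → ℝ} (hw : Integrable w) (hwm : Measurable w)
    (hB : Measurable B) (hFm : Measurable F) (hFi : Integrable F) (hgm : Measurable g) {C : ℝ}
    (hg : ∀ v, |g v| ≤ C) :
    Integrable (Function.uncurry fun y v => w y * (F (B y - v) * g v)) (volume.prod volume) := by
  have hm := (kernel_measurable hwm hB hFm hgm).aestronglyMeasurable (μ := volume.prod volume)
  rw [integrable_prod_iff hm]
  have hC : 0 ≤ C := (abs_nonneg _).trans (hg 0)
  refine ⟨ae_of_all _ fun y => ?_, ?_⟩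
  · refine Integrable.const_mul ?_ (w y)
    exact (hFi.comp_sub_left (B y)).mul_bdd (c := C) hgm.aestronglyMeasurable
      (ae_of_all _ fun v => hg v)
  · refine ((hw.abs.mul_const (C * ∫ t, |F t|))).mono' hm.norm.integral_prod_right'
      (ae_of_all _ fun y => ?_)
    rw [Real.norm_eq_abs, abs_of_nonneg (integral_nonneg fun v => norm_nonneg _)]
    have h1 : ∫ v, |F (B y - v)| = ∫ t, |F t| := integral_sub_left_eq_self (fun t => |F t|) volume (B y)
    have hFa : Integrable fun v => |F (B y - v)| := (hFi.comp_sub_left (B y)).abs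
    calc ∫ v, ‖Function.uncurry (fun y v => w y * (F (B y - v) * g v)) (y, v)‖
        ≤ ∫ v, |w y| * C * |F (B y - v)| := by
          refine integral_mono_of_nonneg (ae_of_all _ fun v => norm_nonneg _) (hFa.const_mul _)
            (ae_of_all _ fun v => ?_)
          simp only [Function.uncurry, Real.norm_eq_abs, abs_mul]
          have := hg v
          have h2 := abs_nonneg (F (B y - v))
          have h3 := abs_nonneg (w y)
          calc |w y| * (|F (B y - v)| * |g v|) ≤ |w y| * (|F (B y - v)| * C) := by gcongr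
            _ = _ := by ring
      _ = |w y| * (C * ∫ t, |F t|) := by
          rw [integral_const_mul, h1]
          ring

lemma kernel_swap {w F g B : ℝ → ℝ} (hw : Integrable w) (hwm : Measurable w)
    (hB : Measurable B) (hFm : Measurable F) (hFi : Integrable F) (hgm : Measurable g) {C : ℝ}
    (hg : ∀ v, |g v| ≤ C) :
    ∫ v, ∫ y, w y * (F (B y - v) * g v) = ∫ y, w y * ∫ v, F (B y - v) * g v := by
  have h := integral_integral_swap (kernel_integrable hw hwm hB hFm hFi hgm hg)
  rw [← h]
  refine integral_congr_ae (ae_of_all _ fun y => ?_)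
  simp only
  rw [integral_const_mul]

variable {ι : Type*} [Fintype ι] {f f' : ι → ℝ → ℝ} {Λ : ℝ}

/-- The window function. -/
def Pw (f f' : ι → ℝ → ℝ) (v y : ℝ) : ℝ := rho f y * cW (AA f f' y - v)

/-- Its derivative. -/
def dPw (f f' : ι → ℝ → ℝ) (v y : ℝ) : ℝ :=
  drho f f' y * cW (AA f f' y - v) + rho f y * (-sW (AA f f' y - v) * bb f f' y)

/-- The weighted kinetic energy density. -/
def Gw (f f' : ι → ℝ → ℝ) (v y : ℝ) : ℝ := dPw f f' v y ^ 2 / rho f y

/-- The weight. -/
def qw (f f' : ι → ℝ → ℝ) (v y : ℝ) : ℝ := rho f y * iW (AA f f' y - v)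

/-- The mass in the window. -/
def Mw (f f' : ι → ℝ → ℝ) (v : ℝ) : ℝ := ∫ y, qw f f' v y

namespace Fam

lemma Gw_nonneg (hF : Fam f f' Λ) (v y : ℝ) : 0 ≤ Gw f f' v y :=
  div_nonneg (sq_nonneg _) (hF.pos y).le

lemma Gw_le (hF : Fam f f' Λ) (v y : ℝ) :
    Gw f f' v y ≤ 8 * dens f' y * iW (AA f f' y - v) := by
  have hp := hF.pos y
  unfold Gw dPw
  set t := AA f f' y - v
  by_cases h : |t| < Real.pi / 4
  · have hi : iW t = 1 := by
      unfold iW
      rw [if_pos h]
    have hc0 := cW_nonneg t
    have hc1 := cW_le_one t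
    have hs := abs_sW_le t
    rw [hi] at hs ⊢
    rw [div_le_iff₀ hp, hF.dens_eq y]
    have hs2 : sW t ^ 2 ≤ 4 := by
      rw [← sq_abs (sW t)]
      nlinarith [abs_nonneg (sW t)]
    have hc2 : cW t ^ 2 ≤ 1 := by nlinarith
    set r := rho f y
    set d := drho f f' y
    set b := bb f f' y
    have e1 : (d ^ 2 / (4 * r) + r * b ^ 2) * r = d ^ 2 / 4 + r ^ 2 * b ^ 2 := by
      field_simp
    have h1 : (d * cW t + r * (-sW t * b)) ^ 2 ≤
        2 * ((d * cW t) ^ 2 + (r * (sW t * b)) ^ 2) := by
      nlinarith [sq_nonneg (d * cW t - r * (-sW t * b))]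
    have h2 : (d * cW t) ^ 2 ≤ d ^ 2 := by
      rw [mul_pow]
      nlinarith [sq_nonneg d]
    have h3 : (r * (sW t * b)) ^ 2 ≤ 4 * (r ^ 2 * b ^ 2) := by
      have : (r * (sW t * b)) ^ 2 = sW t ^ 2 * (r ^ 2 * b ^ 2) := by ring
      rw [this]
      exact mul_le_mul_of_nonneg_right hs2 (by positivity)
    have e2 : 8 * (d ^ 2 / (4 * r) + r * b ^ 2) * 1 * r = 8 * ((d ^ 2 / (4 * r) + r * b ^ 2) * r) := by
      ring
    rw [e2, e1]
    nlinarith
  · have hi : iW t = 0 := by
      unfold iW
      rw [if_neg h]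
    have hc : cW t = 0 := by
      unfold cW
      rw [if_neg h]
    have hs : sW t = 0 := by
      unfold sW
      rw [if_neg h]
    rw [hi, hc, hs]
    simp

lemma dPw_measurable (hF : Fam f f' Λ) : Measurable (Function.uncurry fun y v => dPw f f' v y) := by
  have hA : Measurable (fun p : ℝ × ℝ => AA f f' p.1 - p.2) :=
    (hF.AA_continuous.measurable.comp measurable_fst).sub measurable_snd
  have h1 : Measurable (fun p : ℝ × ℝ => rho f p.1) :=
    hF.rho_continuous.measurable.comp measurable_fst
  have h2 : Measurable (fun p : ℝ × ℝ => drho f f' p.1) :=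
    hF.drho_measurable.comp measurable_fst
  have h3 : Measurable (fun p : ℝ × ℝ => bb f f' p.1) :=
    hF.bb_measurable.comp measurable_fst
  exact (h2.mul (cW_measurable.comp hA)).add
    (h1.mul (((sW_measurable.comp hA).neg).mul h3))

lemma Gw_measurable (hF : Fam f f' Λ) : Measurable (Function.uncurry fun y v => Gw f f' v y) :=
  (hF.dPw_measurable.pow_const 2).div (hF.rho_continuous.measurable.comp measurable_fst)

lemma dPw_measurable_y (hF : Fam f f' Λ) (v : ℝ) : Measurable (dPw f f' v) := by
  have hA : Measurable (fun y => AA f f' y - v) := hF.AA_continuous.measurable.sub_const v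
  exact (hF.drho_measurable.mul (cW_measurable.comp hA)).add
    (hF.rho_continuous.measurable.mul (((sW_measurable.comp hA).neg).mul hF.bb_measurable))

lemma Gw_measurable_y (hF : Fam f f' Λ) (v : ℝ) : Measurable (Gw f f' v) :=
  ((hF.dPw_measurable_y v).pow_const 2).div hF.rho_continuous.measurable

lemma Gw_integrable_y (hF : Fam f f' Λ) (v : ℝ) : Integrable (Gw f f' v) := by
  refine (hF.dens_integrable.const_mul 8).mono' (hF.Gw_measurable_y v).aestronglyMeasurable
    (ae_of_all _ fun y => ?_)
  rw [Real.norm_eq_abs, abs_of_nonneg (hF.Gw_nonneg v y)]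
  refine (hF.Gw_le v y).trans ?_
  have h1 := iW_le_one (AA f f' y - v)
  have h2 := Fam.dens_nonneg f' y
  nlinarith

lemma dPw_sq (hF : Fam f f' Λ) (v y : ℝ) : dPw f f' v y ^ 2 = Gw f f' v y * rho f y := by
  unfold Gw
  exact (div_mul_cancel₀ _ (hF.pos y).ne').symm

lemma Pw_h1 (hF : Fam f f' Λ) (v : ℝ) : RealH1 (Pw f f' v) (dPw f f' v) := by
  have hp : Prim (Pw f f' v) (dPw f f' v) :=
    hF.rho_prim.mul (window_prim hF.AA_prim hF.AA_mono v)
  obtain ⟨C, hC0, hC⟩ := hF.exists_rho_bound
  refine ⟨?_, ?_, hp.ftc⟩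
  · refine memLp_two_of_sq_le (h := fun y => C * rho f y)
      hp.continuous.aestronglyMeasurable (hF.rho_integrable.const_mul _) fun y => ?_
    unfold Pw
    have hr := Fam.rho_nonneg f y
    have h1 := cW_nonneg (AA f f' y - v)
    have h2 := cW_le_one (AA f f' y - v)
    have h3 : cW (AA f f' y - v) ^ 2 ≤ 1 := by nlinarith
    calc (rho f y * cW (AA f f' y - v)) ^ 2 = rho f y ^ 2 * cW (AA f f' y - v) ^ 2 := by ring
      _ ≤ rho f y ^ 2 * 1 := by gcongr
      _ = rho f y * rho f y := by ring
      _ ≤ C * rho f y := by gcongr; exact hC y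
  · refine memLp_two_of_sq_le (h := fun y => C * (8 * dens f' y))
      (hF.dPw_measurable_y v).aestronglyMeasurable
      ((hF.dens_integrable.const_mul 8).const_mul _) fun y => ?_
    rw [hF.dPw_sq]
    have h1 := hF.Gw_le v y
    have h2 := iW_le_one (AA f f' y - v)
    have h3 := Fam.dens_nonneg f' y
    have h4 : Gw f f' v y ≤ 8 * dens f' y := by nlinarith
    have hr := Fam.rho_nonneg f y
    have hG := hF.Gw_nonneg v y
    calc Gw f f' v y * rho f y ≤ (8 * dens f' y) * C := by
          exact mul_le_mul h4 (hC y) hr (by positivity)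
      _ = C * (8 * dens f' y) := by ring

lemma qw_nonneg (v y : ℝ) : 0 ≤ qw f f' v y :=
  mul_nonneg (Fam.rho_nonneg f y) (iW_nonneg _)

lemma qw_integrable (hF : Fam f f' Λ) (v : ℝ) : Integrable (qw f f' v) := by
  refine hF.rho_integrable.mul_bdd (c := 1)
    (iW_measurable.comp (hF.AA_continuous.measurable.sub_const v)).aestronglyMeasurable
    (ae_of_all _ fun y => ?_)
  rw [Real.norm_eq_abs, abs_of_nonneg (iW_nonneg _)]
  exact iW_le_one _

lemma Mw_nonneg (v : ℝ) : 0 ≤ Mw f f' v := integral_nonneg fun y => qw_nonneg v y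

lemma Mw_le (hF : Fam f f' Λ) (v : ℝ) : Mw f f' v ≤ ∫ y, rho f y := by
  refine integral_mono (hF.qw_integrable v) hF.rho_integrable fun y => ?_
  have h1 := iW_le_one (AA f f' y - v)
  have h2 := Fam.rho_nonneg f y
  simp only [qw]
  nlinarith

lemma Mw_measurable (hF : Fam f f' Λ) : Measurable (Mw f f') := by
  have h : Measurable (fun p : ℝ × ℝ => rho f p.2 * iW (AA f f' p.2 - p.1)) :=
    (hF.rho_continuous.measurable.comp measurable_snd).mul
      (iW_measurable.comp ((hF.AA_continuous.measurable.comp measurable_snd).sub measurable_fst))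
  exact h.stronglyMeasurable.integral_prod_right'.measurable

/-- The Wirtinger inequality on a window. -/
lemma wirt_v (hF : Fam f f' Λ) (v : ℝ) {κ : ℝ} (hκ0 : 0 ≤ κ) (hκ : κ * Mw f f' v < Real.pi) :
    κ ^ 2 * ∫ y, rho f y ^ 3 * cW (AA f f' y - v) ^ 2 ≤ ∫ y, Gw f f' v y := by
  have h := wirtinger (hF.Pw_h1 v) (q := qw f f' v) (G := Gw f f' v)
    (fun y => qw_nonneg v y) (hF.qw_integrable v) (hF.Gw_integrable_y v)
    (hF.Gw_nonneg v) ?_ ?_ hκ0 hκ
  · have e : (fun y => rho f y ^ 3 * cW (AA f f' y - v) ^ 2) =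
        fun y => qw f f' v y * Pw f f' v y ^ 2 := by
      funext y
      unfold qw Pw
      have : iW (AA f f' y - v) * cW (AA f f' y - v) ^ 2 = cW (AA f f' y - v) ^ 2 := by
        unfold iW cW
        split_ifs <;> simp
      calc rho f y ^ 3 * cW (AA f f' y - v) ^ 2 =
          rho f y ^ 3 * (iW (AA f f' y - v) * cW (AA f f' y - v) ^ 2) := by rw [this]
        _ = _ := by ring
    rw [e]
    exact h
  · intro y
    rw [hF.dPw_sq]
    unfold qw
    unfold iW
    split_ifs with h1
    · simp
    · have hc : cW (AA f f' y - v) = 0 := by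
        unfold cW
        rw [if_neg h1]
      simp [Gw, dPw, hc, sW, h1]
  · intro y hq
    unfold qw at hq
    unfold Pw
    have h1 : iW (AA f f' y - v) = 0 := by
      rcases mul_eq_zero.1 hq with h2 | h2
      · exact absurd h2 (hF.pos y).ne'
      · exact h2
    have hc : cW (AA f f' y - v) = 0 := by
      have h3 := cW_le_iW (AA f f' y - v)
      rw [h1] at h3
      exact le_antisymm h3 (cW_nonneg _)
    rw [hc, mul_zero]

/-- Integration over the window position. -/
lemma Gw_integral_v (hF : Fam f f' Λ) (y : ℝ) :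
    ∫ v, Gw f f' v y = Real.pi * dens f' y := by
  have hp := hF.pos y
  set B := AA f f' y
  have hc2 : Integrable fun v => cW (B - v) ^ 2 :=
    (integrable_of_le_iW (C := 1) (cW_measurable.pow_const 2) fun t => by
      rw [abs_of_nonneg (sq_nonneg _), one_mul]
      have h1 := cW_nonneg t
      have h2 := cW_le_one t
      have h3 := cW_le_iW t
      unfold iW at h3 ⊢
      unfold cW at h1 h2 h3 ⊢
      split_ifs at * <;> nlinarith).comp_sub_left B
  have hs2 : Integrable fun v => sW (B - v) ^ 2 :=
    (integrable_of_le_iW (C := 4) (sW_measurable.pow_const 2) fun t => by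
      rw [abs_of_nonneg (sq_nonneg _)]
      have h1 := abs_sW_le t
      unfold iW at h1 ⊢
      split_ifs at h1 ⊢ with h
      · rw [mul_one] at h1 ⊢
        rw [← sq_abs]
        nlinarith [abs_nonneg (sW t)]
      · simp only [mul_zero] at h1 ⊢
        have : sW t = 0 := abs_nonpos_iff.1 h1
        simp [this]).comp_sub_left B
  have hcs : Integrable fun v => cW (B - v) * sW (B - v) :=
    (integrable_of_le_iW (F := fun t => cW t * sW t) (C := 2) (cW_measurable.mul sW_measurable) fun t => by
      rw [abs_mul, abs_of_nonneg (cW_nonneg t)]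
      have h1 := cW_nonneg t
      have h2 := cW_le_one t
      have h3 := abs_sW_le t
      have h4 := abs_nonneg (sW t)
      have h5 := iW_nonneg t
      nlinarith).comp_sub_left B
  have e : (fun v => Gw f f' v y) = fun v =>
      drho f f' y ^ 2 / rho f y * cW (B - v) ^ 2 + rho f y * bb f f' y ^ 2 * sW (B - v) ^ 2 -
        2 * (drho f f' y * bb f f' y) * (cW (B - v) * sW (B - v)) := by
    funext v
    unfold Gw dPw
    field_simp
    ring
  have h12 : Integrable fun v => drho f f' y ^ 2 / rho f y * cW (B - v) ^ 2 +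
      rho f y * bb f f' y ^ 2 * sW (B - v) ^ 2 := (hc2.const_mul _).add (hs2.const_mul _)
  rw [e, integral_sub h12 (hcs.const_mul _),
    integral_add (hc2.const_mul _) (hs2.const_mul _), integral_const_mul, integral_const_mul,
    integral_const_mul, integral_sub_left_eq_self (fun t => cW t ^ 2) volume B,
    integral_sub_left_eq_self (fun t => sW t ^ 2) volume B,
    integral_sub_left_eq_self (fun t => cW t * sW t) volume B, integral_cW_sq, integral_sW_sq,
    integral_cW_mul_sW, hF.dens_eq y]
  field_simp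
  ring

/-- Integrability on the product. -/
lemma Gw_integrable_prod (hF : Fam f f' Λ) :
    Integrable (Function.uncurry fun y v => Gw f f' v y) (volume.prod volume) := by
  have hk := kernel_integrable (w := fun y => 8 * dens f' y) (F := iW) (g := fun _ => 1)
    (B := AA f f') (hF.dens_integrable.const_mul 8) (hF.dens_measurable.const_mul 8)
    hF.AA_continuous.measurable iW_measurable iW_integrable measurable_const (C := 1)
    (fun _ => by simp)
  refine hk.mono' hF.Gw_measurable.aestronglyMeasurable (ae_of_all _ fun p => ?_)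
  simp only [Function.uncurry]
  rw [Real.norm_eq_abs, abs_of_nonneg (hF.Gw_nonneg _ _), mul_one]
  have := hF.Gw_le p.2 p.1
  linarith

/-- The total kinetic energy from the windows. -/
lemma integral_Gw (hF : Fam f f' Λ) :
    ∫ v, ∫ y, Gw f f' v y = Real.pi * ∫ y, dens f' y := by
  have h := integral_integral_swap hF.Gw_integrable_prod
  rw [← h]
  simp_rw [hF.Gw_integral_v]
  rw [integral_const_mul]

lemma Gw_integrable_v (hF : Fam f f' Λ) : Integrable fun v => ∫ y, Gw f f' v y :=
  hF.Gw_integrable_prod.integral_prod_right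

end Fam

end

end Vale.Agent.Lib.P371
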