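import Vale.Agent.Lib.P371.Angle

/-! The truncated cosine window. -/

open MeasureTheory Set Filter Topology

namespace Vale.Agent.Lib.P371

noncomputable section

/-- The window. -/
def cW (t : ℝ) : ℝ := if |t| < Real.pi / 4 then Real.cos (2 * t) else 0

/-- Minus its derivative. -/
def sW (t : ℝ) : ℝ := if |t| < Real.pi / 4 then 2 * Real.sin (2 * t) else 0

/-- The indicator of the window interval. -/
def iW (t : ℝ) : ℝ := if |t| < Real.pi / 4 then 1 else 0

lemma measurableSet_window : MeasurableSet {t : ℝ | |t| < Real.pi / 4} :=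
  measurableSet_lt continuous_abs.measurable measurable_const

lemma cW_measurable : Measurable cW := by
  unfold cW
  exact Measurable.ite measurableSet_window (Real.continuous_cos.measurable.comp (measurable_const.mul measurable_id)) measurable_const

lemma sW_measurable : Measurable sW := by
  unfold sW
  exact Measurable.ite measurableSet_window
    ((Real.continuous_sin.measurable.comp (measurable_const.mul measurable_id)).const_mul 2)
    measurable_const

lemma iW_measurable : Measurable iW := by
  unfold iW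
  exact Measurable.ite measurableSet_window measurable_const measurable_const

lemma cos_two_mul_pos_of_window {t : ℝ} (h : |t| < Real.pi / 4) : 0 < Real.cos (2 * t) := by
  have := abs_lt.1 h
  exact Real.cos_pos_of_mem_Ioo ⟨by linarith, by linarith⟩

lemma cW_nonneg (t : ℝ) : 0 ≤ cW t := by
  unfold cW
  split_ifs with h
  · exact (cos_two_mul_pos_of_window h).le
  · exact le_rfl

lemma cW_le_one (t : ℝ) : cW t ≤ 1 := by
  unfold cW
  split_ifs
  · exact Real.cos_le_one _
  · exact zero_le_one

lemma cW_le_iW (t : ℝ) : cW t ≤ iW t := by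
  unfold cW iW
  split_ifs
  · exact Real.cos_le_one _
  · exact le_rfl

lemma abs_sW_le (t : ℝ) : |sW t| ≤ 2 * iW t := by
  unfold sW iW
  split_ifs
  · rw [abs_mul, abs_of_pos (by norm_num : (0:ℝ) < 2), mul_one]
    have := Real.abs_sin_le_one (2 * t)
    linarith
  · simp

lemma iW_nonneg (t : ℝ) : 0 ≤ iW t := by
  unfold iW
  split_ifs <;> norm_num

lemma iW_le_one (t : ℝ) : iW t ≤ 1 := by
  unfold iW
  split_ifs <;> norm_num

lemma iW_integrable : Integrable iW := by
  have e : iW = indicator (Ioo (-(Real.pi / 4)) (Real.pi / 4)) (fun _ => (1:ℝ)) := by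
    funext t
    unfold iW
    simp only [indicator, mem_Ioo, ← abs_lt]
  rw [e]
  exact (integrableOn_const (by simp)).integrable_indicator measurableSet_Ioo

lemma integrable_of_le_iW {F : ℝ → ℝ} {C : ℝ} (hm : Measurable F) (hF : ∀ t, |F t| ≤ C * iW t) :
    Integrable F := by
  refine (iW_integrable.const_mul C).mono' hm.aestronglyMeasurable (ae_of_all _ fun t => ?_)
  rw [Real.norm_eq_abs]
  exact hF t

lemma cW_sub_aux {s t : ℝ} (hs : |s| < Real.pi / 4) (ht : ¬ |t| < Real.pi / 4) :
    Real.cos (2 * s) ≤ 2 * |s - t| := by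
  have hs' := abs_lt.1 hs
  push Not at ht
  rcases le_total 0 t with h0 | h0
  · rw [abs_of_nonneg h0] at ht
    have h1 := Real.abs_cos_sub_cos_le (2 * s) (2 * (Real.pi / 4))
    have e : 2 * (Real.pi / 4) = Real.pi / 2 := by ring
    rw [e, Real.cos_pi_div_two, sub_zero, abs_of_pos (cos_two_mul_pos_of_window hs),
      abs_of_nonpos (by linarith)] at h1
    have h2 : s - t ≤ 0 := by linarith
    rw [abs_of_nonpos h2]
    linarith
  · rw [abs_of_nonpos h0] at ht
    have h1 := Real.abs_cos_sub_cos_le (2 * s) (2 * (-(Real.pi / 4)))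
    have e : 2 * (-(Real.pi / 4)) = -(Real.pi / 2) := by ring
    rw [e, Real.cos_neg, Real.cos_pi_div_two, sub_zero, abs_of_pos (cos_two_mul_pos_of_window hs),
      abs_of_nonneg (by linarith)] at h1
    have h2 : 0 ≤ s - t := by linarith
    rw [abs_of_nonneg h2]
    linarith

lemma cW_lip (s t : ℝ) : |cW s - cW t| ≤ 2 * |s - t| := by
  unfold cW
  split_ifs with h1 h2 h2
  · have := Real.abs_cos_sub_cos_le (2 * s) (2 * t)
    rwa [← mul_sub, abs_mul, abs_of_pos (by norm_num : (0:ℝ) < 2)] at this
  · rw [sub_zero, abs_of_pos (cos_two_mul_pos_of_window h1)]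
    exact cW_sub_aux h1 h2
  · rw [zero_sub, abs_neg, abs_of_pos (cos_two_mul_pos_of_window h2), abs_sub_comm]
    exact cW_sub_aux h2 h1
  · simp

lemma cW_hasDerivAt {t : ℝ} (ht : |t| ≠ Real.pi / 4) : HasDerivAt cW (-sW t) t := by
  rcases lt_or_gt_of_ne ht with h | h
  · have hopen : IsOpen {z : ℝ | |z| < Real.pi / 4} := isOpen_lt continuous_abs continuous_const
    have hev : cW =ᶠ[𝓝 t] fun z => Real.cos (2 * z) := by
      filter_upwards [hopen.mem_nhds h] with z hz
      unfold cW
      rw [if_pos hz]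
    have hd : HasDerivAt (fun z => Real.cos (2 * z)) (-sW t) t := by
      have h1 := ((hasDerivAt_id t).const_mul 2).cos
      unfold sW
      rw [if_pos h]
      simp only [id, mul_one] at h1
      convert h1 using 1
      ring
    exact hd.congr_of_eventuallyEq hev
  · have hopen : IsOpen {z : ℝ | Real.pi / 4 < |z|} := isOpen_lt continuous_const continuous_abs
    have hev : cW =ᶠ[𝓝 t] fun _ => 0 := by
      filter_upwards [hopen.mem_nhds h] with z hz
      unfold cW
      rw [if_neg (not_lt.2 (le_of_lt hz))]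
    have hd : HasDerivAt (fun _ : ℝ => (0:ℝ)) (-sW t) t := by
      unfold sW
      rw [if_neg (not_lt.2 h.le), neg_zero]
      exact hasDerivAt_const t 0
    exact hd.congr_of_eventuallyEq hev

/-- Level sets with non-zero derivative are subsingletons. -/
lemma level_subsingleton {A b : ℝ → ℝ} (hm : Monotone A) (α : ℝ) :
    {y | A y = α ∧ HasDerivAt A (b y) y ∧ b y ≠ 0}.Subsingleton := by
  have key : ∀ y z, y < z → A y = α → A z = α → HasDerivAt A (b y) y → b y = 0 := by
    intro y z hyz h1 h2 hd
    have hev : A =ᶠ[𝓝[>] y] fun _ => α := by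
      filter_upwards [Ioo_mem_nhdsGT hyz] with t ht
      have h3 := hm ht.1.le
      have h4 := hm ht.2.le
      linarith
    have h5 : HasDerivWithinAt A 0 (Ioi y) y := by
      have := (hasDerivAt_const y α).hasDerivWithinAt (s := Ioi y)
      exact this.congr_of_eventuallyEq hev h1
    exact (uniqueDiffWithinAt_Ioi y).eq_deriv _ (hd.hasDerivWithinAt) h5
  intro y hy z hz
  rcases lt_trichotomy y z with h | h | h
  · exact absurd (key y z h hy.1 hz.1 hy.2.1) hy.2.2
  · exact h
  · exact absurd (key z y h hz.1 hy.1 hz.2.1) hz.2.2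

lemma hasDerivAt_zero_of_dom {g A : ℝ → ℝ} {y K : ℝ} (hA : HasDerivAt A 0 y)
    (hdom : ∀ z, |g z - g y| ≤ K * |A z - A y|) : HasDerivAt g 0 y := by
  rw [hasDerivAt_iff_isLittleO] at hA ⊢
  simp only [smul_zero, sub_zero] at hA ⊢
  refine Asymptotics.IsBigO.trans_isLittleO (Asymptotics.IsBigO.of_bound K ?_) hA
  exact Eventually.of_forall fun z => by simpa [Real.norm_eq_abs] using hdom z

/-- The window composed with a monotone primitive. -/
lemma window_prim {A b : ℝ → ℝ} (hA : Prim A b) (hm : Monotone A) (v : ℝ) :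
    Prim (fun y => cW (A y - v)) (fun y => -sW (A y - v) * b y) := by
  refine hA.of_dominated (fun a c => ⟨2, by norm_num, fun x _ y _ => ?_⟩) ?_
  · have := cW_lip (A x - v) (A y - v)
    rwa [sub_sub_sub_cancel_right] at this
  · have hN : ∀ α : ℝ, ∀ᵐ y, y ∉ {y | A y = α ∧ HasDerivAt A (b y) y ∧ b y ≠ 0} := fun α =>
      measure_eq_zero_iff_ae_notMem.1 ((level_subsingleton (b := b) hm α).measure_zero volume)
    filter_upwards [hA.ae_hasDerivAt, hN (Real.pi / 4 + v), hN (-(Real.pi / 4) + v)]
      with y hy h1 h2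
    by_cases h : |A y - v| = Real.pi / 4
    · have hb : b y = 0 := by
        by_contra hb
        rcases eq_or_eq_neg_of_abs_eq h with h3 | h3
        · exact h1 ⟨by linarith, hy, hb⟩
        · exact h2 ⟨by linarith, hy, hb⟩
      rw [hb] at hy ⊢
      rw [mul_zero]
      refine hasDerivAt_zero_of_dom hy (K := 2) fun z => ?_
      have := cW_lip (A z - v) (A y - v)
      rwa [sub_sub_sub_cancel_right] at this
    · exact (cW_hasDerivAt h).comp y (hy.sub_const v)

/-- Integrals over the window. -/
lemma integral_ite_window (φ : ℝ → ℝ) :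
    ∫ t, (if |t| < Real.pi / 4 then φ t else 0) = ∫ t in (-(Real.pi / 4))..(Real.pi / 4), φ t := by
  have hpi := Real.pi_pos
  have e : (fun t => if |t| < Real.pi / 4 then φ t else 0) =
      indicator (Ioo (-(Real.pi / 4)) (Real.pi / 4)) φ := by
    funext t
    simp only [indicator, mem_Ioo, ← abs_lt]
  rw [e, integral_indicator measurableSet_Ioo, intervalIntegral.integral_of_le (by linarith),
    integral_Ioc_eq_integral_Ioo]

lemma integral_cW_sq : ∫ t, cW t ^ 2 = Real.pi / 4 := by
  have e : (fun t => cW t ^ 2) = fun t => if |t| < Real.pi / 4 then Real.cos (2 * t) ^ 2 else 0 := by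
    funext t
    unfold cW
    split_ifs <;> simp
  rw [e, integral_ite_window]
  have hd : ∀ t ∈ uIcc (-(Real.pi / 4)) (Real.pi / 4),
      HasDerivAt (fun t => t / 2 + Real.sin (4 * t) / 8) (Real.cos (2 * t) ^ 2) t := by
    intro t _
    have h1 := ((hasDerivAt_id' t).const_mul 4).sin
    have h2 := (((hasDerivAt_id' t).div_const 2).fun_add (h1.div_const 8))
    refine h2.congr_deriv ?_
    have h3 : Real.cos (4 * t) = 2 * Real.cos (2 * t) ^ 2 - 1 := by
      rw [show 4 * t = 2 * (2 * t) by ring, Real.cos_two_mul]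
    rw [h3]
    ring
  rw [intervalIntegral.integral_eq_sub_of_hasDerivAt hd
    (Continuous.intervalIntegrable (by fun_prop) _ _)]
  have e1 : 4 * (Real.pi / 4) = Real.pi := by ring
  have e2 : 4 * (-(Real.pi / 4)) = -Real.pi := by ring
  rw [e1, e2, Real.sin_neg, Real.sin_pi]
  ring

lemma integral_sW_sq : ∫ t, sW t ^ 2 = Real.pi := by
  have e : (fun t => sW t ^ 2) = fun t => if |t| < Real.pi / 4 then (2 * Real.sin (2 * t)) ^ 2 else 0 := by
    funext t
    unfold sW
    split_ifs <;> simp
  rw [e, integral_ite_window]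
  have hd : ∀ t ∈ uIcc (-(Real.pi / 4)) (Real.pi / 4),
      HasDerivAt (fun t => 2 * t - Real.sin (4 * t) / 2) ((2 * Real.sin (2 * t)) ^ 2) t := by
    intro t _
    have h1 := ((hasDerivAt_id' t).const_mul 4).sin
    have h2 := (((hasDerivAt_id' t).const_mul 2).fun_sub (h1.div_const 2))
    refine h2.congr_deriv ?_
    have h3 : Real.cos (4 * t) = 1 - 2 * Real.sin (2 * t) ^ 2 := by
      rw [show 4 * t = 2 * (2 * t) by ring, Real.cos_two_mul, Real.cos_sq']
      ring
    rw [h3]
    ring
  rw [intervalIntegral.integral_eq_sub_of_hasDerivAt hd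
    (Continuous.intervalIntegrable (by fun_prop) _ _)]
  have e1 : 4 * (Real.pi / 4) = Real.pi := by ring
  have e2 : 4 * (-(Real.pi / 4)) = -Real.pi := by ring
  rw [e1, e2, Real.sin_neg, Real.sin_pi]
  ring

lemma integral_cW_mul_sW : ∫ t, cW t * sW t = 0 := by
  have e : (fun t => cW t * sW t) = fun t => if |t| < Real.pi / 4 then Real.sin (4 * t) else 0 := by
    funext t
    unfold cW sW
    split_ifs
    · rw [show 4 * t = 2 * (2 * t) by ring, Real.sin_two_mul (2 * t)]
      ring
    · simp
  rw [e, integral_ite_window]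
  have hd : ∀ t ∈ uIcc (-(Real.pi / 4)) (Real.pi / 4),
      HasDerivAt (fun t => -Real.cos (4 * t) / 4) (Real.sin (4 * t)) t := by
    intro t _
    have h1 := ((hasDerivAt_id' t).const_mul 4).cos
    have h2 := h1.fun_neg.div_const 4
    refine h2.congr_deriv ?_
    ring
  rw [intervalIntegral.integral_eq_sub_of_hasDerivAt hd
    (Continuous.intervalIntegrable (by fun_prop) _ _)]
  have e1 : 4 * (Real.pi / 4) = Real.pi := by ring
  have e2 : 4 * (-(Real.pi / 4)) = -Real.pi := by ring
  rw [e1, e2, Real.cos_neg]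
  ring

/-- The kernel identity on the positive side. -/
lemma kappa_nonneg {x : ℝ} (hx : 0 ≤ x) : ∫ a, cW a * iW (x + a) = cp x := by
  have hpi := Real.pi_pos
  have e : (fun a => cW a * iW (x + a)) =
      indicator (Ioo (-(Real.pi / 4)) (Real.pi / 4 - x)) (fun a => Real.cos (2 * a)) := by
    funext a
    unfold cW iW
    simp only [indicator, mem_Ioo]
    by_cases h1 : -(Real.pi / 4) < a ∧ a < Real.pi / 4 - x
    · have h2 : |a| < Real.pi / 4 := abs_lt.2 ⟨h1.1, by linarith [h1.2]⟩
      have h3 : |x + a| < Real.pi / 4 := abs_lt.2 ⟨by linarith [h1.1], by linarith [h1.2]⟩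
      rw [if_pos h2, if_pos h3, if_pos h1, mul_one]
    · rw [if_neg h1]
      by_cases h2 : |a| < Real.pi / 4
      · have h3 : ¬ |x + a| < Real.pi / 4 := by
          intro h3
          have h4 := abs_lt.1 h2
          have h5 := abs_lt.1 h3
          exact h1 ⟨h4.1, by linarith [h5.2]⟩
        rw [if_neg h3, mul_zero]
      · rw [if_neg h2, zero_mul]
  rw [e, integral_indicator measurableSet_Ioo]
  unfold cp
  rw [abs_of_nonneg hx]
  split_ifs with h
  · rw [← integral_Ioc_eq_integral_Ioo, ← intervalIntegral.integral_of_le (by linarith)]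
    have hd : ∀ t ∈ uIcc (-(Real.pi / 4)) (Real.pi / 4 - x),
        HasDerivAt (fun t => Real.sin (2 * t) / 2) (Real.cos (2 * t)) t := by
      intro t _
      have h1 := ((hasDerivAt_id' t).const_mul 2).sin
      have h2 := h1.div_const 2
      refine h2.congr_deriv ?_
      ring
    rw [intervalIntegral.integral_eq_sub_of_hasDerivAt hd
      (Continuous.intervalIntegrable (by fun_prop) _ _)]
    have e1 : 2 * (Real.pi / 4 - x) = Real.pi / 2 - 2 * x := by ring
    have e2 : 2 * (-(Real.pi / 4)) = -(Real.pi / 2) := by ring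
    rw [e1, e2, Real.sin_neg, Real.sin_pi_div_two, Real.sin_pi_div_two_sub, Real.cos_two_mul]
    ring
  · have : Ioo (-(Real.pi / 4)) (Real.pi / 4 - x) = ∅ :=
      Ioo_eq_empty (by push Not at h ⊢; linarith)
    rw [this]
    simp

lemma cp_neg (x : ℝ) : cp (-x) = cp x := by
  unfold cp
  simp only [abs_neg, Real.cos_neg]

/-- The kernel identity. -/
lemma kappa_eq (x : ℝ) : ∫ a, cW a * iW (x + a) = cp x := by
  rcases le_total 0 x with hx | hx
  · exact kappa_nonneg hx
  · have h1 := kappa_nonneg (x := -x) (by linarith)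
    rw [cp_neg] at h1
    rw [← h1, ← integral_neg_eq_self]
    refine integral_congr_ae (ae_of_all _ fun a => ?_)
    simp only
    have h2 : cW (-a) = cW a := by
      unfold cW
      simp only [abs_neg, mul_neg, Real.cos_neg]
    have h3 : iW (x + -a) = iW (-x + a) := by
      unfold iW
      rw [show x + -a = -(-x + a) by ring, abs_neg]
    rw [h2, h3]

end

end Vale.Agent.Lib.P371
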