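import Vale.Agent.Lib.P371.Prim

/-! The weighted Wirtinger inequality on the line. -/

open MeasureTheory Set Filter Topology

namespace Vale.Agent.Lib.P371

noncomputable section

namespace RealH1

variable {f f' : ℝ → ℝ}

lemma prim_sq (h : RealH1 f f') :
    Prim (fun x => f x ^ 2) (fun x => 2 * (f x * f' x)) := by
  have e : (fun x => f x ^ 2) = fun x => f x * f x := by
    funext x
    ring
  rw [e]
  exact (h.prim.mul h.prim).congr_ae (ae_of_all _ fun x => by ring)

lemma integrable_mul' (h : RealH1 f f') : Integrable fun x => f x * f' x :=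
  h.memLp.integrable_mul h.memLp'

lemma tendsto_sq_atTop (h : RealH1 f f') : Tendsto (fun x => f x ^ 2) atTop (𝓝 0) :=
  h.prim_sq.tendsto_atTop h.sq (h.integrable_mul'.const_mul 2)

lemma tendsto_sq_atBot (h : RealH1 f f') : Tendsto (fun x => f x ^ 2) atBot (𝓝 0) :=
  h.prim_sq.tendsto_atBot h.sq (h.integrable_mul'.const_mul 2)

/-- `H¹` functions are bounded. -/
lemma sq_le (h : RealH1 f f') (x : ℝ) : f x ^ 2 ≤ ∫ t, |2 * (f t * f' t)| := by
  have hi : Integrable fun t => 2 * (f t * f' t) := h.integrable_mul'.const_mul 2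
  have h1 : Tendsto (fun b => f x ^ 2 - f b ^ 2) atBot (𝓝 (f x ^ 2 - 0)) :=
    tendsto_const_nhds.sub h.tendsto_sq_atBot
  rw [sub_zero] at h1
  refine le_of_tendsto h1 (Eventually.of_forall fun b => ?_)
  have h2 := h.prim_sq.ftc b x
  rw [h2]
  calc (∫ t in b..x, 2 * (f t * f' t)) ≤ |∫ t in b..x, 2 * (f t * f' t)| := le_abs_self _
    _ ≤ ∫ t in uIoc b x, |2 * (f t * f' t)| := by
        have := intervalIntegral.norm_integral_le_integral_norm_uIoc (a := b) (b := x) (μ := volume)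
          (f := fun t => 2 * (f t * f' t))
        simpa [Real.norm_eq_abs] using this
    _ ≤ ∫ t, |2 * (f t * f' t)| := by
        exact setIntegral_le_integral hi.abs (ae_of_all _ fun t => abs_nonneg _)

lemma exists_bound (h : RealH1 f f') : ∃ C : ℝ, 0 ≤ C ∧ ∀ x, |f x| ≤ C := by
  refine ⟨Real.sqrt (∫ t, |2 * (f t * f' t)|), Real.sqrt_nonneg _, fun x => ?_⟩
  exact Real.abs_le_sqrt (h.sq_le x)

end RealH1

/-- `sin θ ≥ sin δ` on `[δ, π - δ]`. -/
lemma sin_ge_of_mem {δ θ : ℝ} (hδ : 0 ≤ δ) (h1 : δ ≤ θ)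
    (h2 : θ ≤ Real.pi - δ) : Real.sin δ ≤ Real.sin θ := by
  have hpi := Real.pi_pos
  rcases le_total θ (Real.pi / 2) with h | h
  · exact Real.sin_le_sin_of_le_of_le_pi_div_two (by linarith) h h1
  · rw [← Real.sin_pi_sub θ]
    exact Real.sin_le_sin_of_le_of_le_pi_div_two (by linarith) (by linarith) (by linarith)

/-- Elementary pointwise bound. -/
lemma mul_le_add_of_sq_le {y z G q : ℝ} (hq : 0 ≤ q) (hG : 0 ≤ G) (hz : z ^ 2 ≤ G * q)
    (hy : q = 0 → y = 0) : 2 * (y * z) ≤ G + y ^ 2 * q := by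
  rcases hq.eq_or_lt with h0 | hpos
  · have := hy h0.symm
    subst this
    simp only [zero_mul, mul_zero]
    simpa using hG
  · have h1 : 0 ≤ (z - y * q) ^ 2 := sq_nonneg _
    have h2 : q * (2 * (y * z)) ≤ q * (G + y ^ 2 * q) := by nlinarith
    exact le_of_mul_le_mul_left h2 hpos

theorem wirtinger {P P' q G : ℝ → ℝ} (hP : RealH1 P P')
    (hq0 : ∀ x, 0 ≤ q x) (hqi : Integrable q) (hG : Integrable G) (hG0 : ∀ x, 0 ≤ G x)
    (hPG : ∀ x, P' x ^ 2 ≤ G x * q x) (hPq : ∀ x, q x = 0 → P x = 0) {κ : ℝ} (hκ0 : 0 ≤ κ)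
    (hκ : κ * ∫ x, q x < Real.pi) : κ ^ 2 * ∫ x, q x * P x ^ 2 ≤ ∫ x, G x := by
  have hpi := Real.pi_pos
  set M := ∫ x, q x with hM
  have hM0 : 0 ≤ M := integral_nonneg hq0
  set δ := (Real.pi - κ * M) / 2 with hδ
  have hκM : 0 ≤ κ * M := mul_nonneg hκ0 hM0
  have hδ0 : 0 < δ := by
    rw [hδ]
    linarith
  have hδ2 : δ ≤ Real.pi / 2 := by
    rw [hδ]
    linarith
  -- the primitive of `q`
  let S : ℝ → ℝ := fun x => ∫ t in Iic x, q t
  have hS0 : ∀ x, 0 ≤ S x := fun x => setIntegral_nonneg measurableSet_Iic fun t _ => hq0 t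
  have hSM : ∀ x, S x ≤ M := fun x => setIntegral_le_integral hqi (ae_of_all _ hq0)
  have hSp : Prim S q := by
    refine ⟨hqi.locallyIntegrable, fun a b => ?_⟩
    exact (intervalIntegral.integral_Iic_sub_Iic (hqi.integrableOn) (hqi.integrableOn))
  -- the angle
  let θ : ℝ → ℝ := fun x => κ * S x + δ
  have hθp : Prim θ (fun x => κ * q x) := by
    refine ⟨hqi.locallyIntegrable.smul κ, fun a b => ?_⟩
    have := (hSp.const_mul κ).ftc a b
    simp only [θ]
    rw [← this]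
    ring
  have hθ1 : ∀ x, δ ≤ θ x := fun x => by
    have := mul_nonneg hκ0 (hS0 x)
    simp only [θ]
    linarith
  have hθ2 : ∀ x, θ x ≤ Real.pi - δ := fun x => by
    have := mul_le_mul_of_nonneg_left (hSM x) hκ0
    simp only [θ]
    rw [hδ] at *
    linarith
  have hsinδ : 0 < Real.sin δ := Real.sin_pos_of_pos_of_lt_pi hδ0 (by linarith)
  have hsin : ∀ x, Real.sin δ ≤ Real.sin (θ x) := fun x =>
    sin_ge_of_mem hδ0.le (hθ1 x) (hθ2 x)
  have hsinpos : ∀ x, 0 < Real.sin (θ x) := fun x => hsinδ.trans_le (hsin x)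
  -- the cotangent
  let Ct : ℝ → ℝ := fun x => Real.cos (θ x) * (Real.sin (θ x))⁻¹
  have hCtp := hθp.cos.mul (hθp.sin.inv hsinpos)
  have hCtb : ∀ x, |Ct x| ≤ (Real.sin δ)⁻¹ := fun x => by
    simp only [Ct]
    rw [abs_mul, abs_inv, abs_of_pos (hsinpos x)]
    have h1 := Real.abs_cos_le_one (θ x)
    have h2 : (Real.sin (θ x))⁻¹ ≤ (Real.sin δ)⁻¹ := inv_anti₀ hsinδ (hsin x)
    have h3 : 0 < (Real.sin (θ x))⁻¹ := inv_pos.2 (hsinpos x)
    nlinarith
  have hθc : Continuous θ := hθp.continuous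
  have hCtc : Continuous Ct := by
    simp only [Ct]
    exact (Real.continuous_cos.comp hθc).mul
      ((Real.continuous_sin.comp hθc).inv₀ fun x => (hsinpos x).ne')
  -- the test function
  let F' : ℝ → ℝ := fun x => 2 * (Ct x * (P x * P' x)) - κ * (1 + Ct x ^ 2) * (q x * P x ^ 2)
  have hFp : Prim (fun x => Ct x * P x ^ 2) F' := by
    refine (hCtp.mul hP.prim_sq).congr_ae (ae_of_all _ fun x => ?_)
    have hs := (hsinpos x).ne'
    simp only [F', Ct]
    field_simp
    have hcs := Real.sin_sq_add_cos_sq (θ x)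
    have : κ * q x * P x ^ 2 * (Real.sin (θ x) ^ 2 + Real.cos (θ x) ^ 2) = κ * q x * P x ^ 2 := by
      rw [hcs, mul_one]
    nlinarith
  obtain ⟨C, hC0, hC⟩ := hP.exists_bound
  have hPc : Continuous P := hP.continuous
  have hqP2 : Integrable fun x => q x * P x ^ 2 := by
    refine hqi.mul_bdd (c := C ^ 2) (hPc.pow 2).aestronglyMeasurable (ae_of_all _ fun x => ?_)
    rw [Real.norm_eq_abs, abs_pow]
    exact pow_le_pow_left₀ (abs_nonneg _) (hC x) 2
  have hF'i : Integrable F' := by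
    have h1 : Integrable fun x => 2 * (Ct x * (P x * P' x)) := by
      refine Integrable.const_mul ?_ 2
      exact hP.integrable_mul'.bdd_mul (c := (Real.sin δ)⁻¹) hCtc.aestronglyMeasurable
        (ae_of_all _ fun x => hCtb x)
    have h2 : Integrable fun x => κ * (1 + Ct x ^ 2) * (q x * P x ^ 2) := by
      refine hqP2.bdd_mul (c := κ * (1 + (Real.sin δ)⁻¹ ^ 2)) ?_ (ae_of_all _ fun x => ?_)
      · exact (continuous_const.mul (continuous_const.add (hCtc.pow 2))).aestronglyMeasurable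
      · rw [Real.norm_eq_abs, abs_mul, abs_of_nonneg hκ0, abs_of_nonneg (by positivity)]
        have := hCtb x
        have h3 : Ct x ^ 2 ≤ (Real.sin δ)⁻¹ ^ 2 := by
          rw [← sq_abs (Ct x)]
          exact pow_le_pow_left₀ (abs_nonneg _) this 2
        gcongr
    exact h1.sub h2
  have hFtop : Tendsto (fun x => Ct x * P x ^ 2) atTop (𝓝 0) := by
    refine squeeze_zero_norm (a := fun x => (Real.sin δ)⁻¹ * P x ^ 2) (fun x => ?_) ?_
    · rw [Real.norm_eq_abs, abs_mul, abs_of_nonneg (sq_nonneg (P x))]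
      exact mul_le_mul_of_nonneg_right (hCtb x) (sq_nonneg _)
    · simpa using hP.tendsto_sq_atTop.const_mul (Real.sin δ)⁻¹
  have hFbot : Tendsto (fun x => Ct x * P x ^ 2) atBot (𝓝 0) := by
    refine squeeze_zero_norm (a := fun x => (Real.sin δ)⁻¹ * P x ^ 2) (fun x => ?_) ?_
    · rw [Real.norm_eq_abs, abs_mul, abs_of_nonneg (sq_nonneg (P x))]
      exact mul_le_mul_of_nonneg_right (hCtb x) (sq_nonneg _)
    · simpa using hP.tendsto_sq_atBot.const_mul (Real.sin δ)⁻¹
  have hF0 : ∫ x, F' x = 0 := hFp.integral_deriv_eq_zero hFtop hFbot hF'i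
  -- pointwise bound
  have hpt : ∀ x, κ * F' x ≤ G x - κ ^ 2 * (q x * P x ^ 2) := fun x => by
    have h1 := mul_le_add_of_sq_le (y := κ * Ct x * P x) (z := P' x) (hq0 x) (hG0 x) (hPG x)
      (fun h0 => by rw [hPq x h0, mul_zero])
    simp only [F']
    nlinarith
  have hmono : ∫ x, κ * F' x ≤ ∫ x, (G x - κ ^ 2 * (q x * P x ^ 2)) :=
    integral_mono (hF'i.const_mul κ) (hG.sub (hqP2.const_mul _)) hpt
  rw [integral_const_mul, hF0, mul_zero, integral_sub hG (hqP2.const_mul _),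
    integral_const_mul] at hmono
  linarith

end

end Vale.Agent.Lib.P371
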